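import Vale.Agent.P032.Stmts

/-!
P032: at a point where two colours do not fill the nearby circles, almost every direction is good
for a third colour.
-/

namespace Vale.Agent.P032

open MeasureTheory Set Filter Topology Metric
open scoped Real ENNReal BigOperators

namespace AeGA

theorem near_half {T : ℝ → ℝ} {L : ℝ} (h : NearId T L) (hL : L ≤ 1 / 2) : NearId T (1 / 2) :=
  fun s s' => (h s s').trans (mul_le_mul_of_nonneg_right hL (abs_nonneg _))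

theorem exists_Icc {B : Set ℝ} (h : volume B ≠ 0) :
    ∃ R : ℝ, volume (B ∩ Icc (-R) R) ≠ 0 := by
  by_contra h1
  push Not at h1
  refine h (measure_mono_null (t := ⋃ n : ℕ, B ∩ Icc (-(n : ℝ)) n) (fun θ hθ => ?_)
    (measure_iUnion_null fun n => h1 n))
  obtain ⟨n, hn⟩ := exists_nat_ge |θ|
  exact mem_iUnion.2 ⟨n, hθ, abs_le.1 hn⟩

theorem thick_small (A : Set ℂ) (x : ℂ) (R : ℝ) {ε : ℝ} (hε : 0 < ε) : ∃ δ > (0 : ℝ),
    volume {θ | θ ∈ Icc (-R) R ∧ x + e θ ∉ closure A ∧ x + e θ ∈ thickening δ A} ≤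
      ENNReal.ofReal ε := by
  have hc : Continuous fun θ : ℝ => x + e θ := continuous_const.add continuous_e
  have h1 := tendsto_measure_iInter_atTop (μ := volume)
    (s := fun n : ℕ => {θ | θ ∈ Icc (-R) R ∧ x + e θ ∉ closure A ∧
      x + e θ ∈ thickening (1 / ((n : ℝ) + 1)) A})
    (fun n => (measurableSet_Icc.inter ((hc.measurable isClosed_closure.measurableSet).compl.inter
      (hc.measurable isOpen_thickening.measurableSet))).nullMeasurableSet)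
    (fun n n' hn θ hθ => ⟨hθ.1, hθ.2.1, thickening_mono (Nat.one_div_le_one_div hn) A hθ.2.2⟩)
    ⟨0, ((measure_mono fun θ hθ => hθ.1).trans_lt measure_Icc_lt_top).ne⟩
  have h2 : (⋂ n : ℕ, {θ | θ ∈ Icc (-R) R ∧ x + e θ ∉ closure A ∧
      x + e θ ∈ thickening (1 / ((n : ℝ) + 1)) A}) = ∅ := by
    refine eq_empty_of_forall_notMem fun θ hθ => ?_
    have h3 := mem_iInter.1 hθ
    refine (h3 0).2.1 (Metric.mem_closure_iff.2 fun η hη => ?_)
    obtain ⟨n, hn⟩ := exists_nat_one_div_lt hη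
    obtain ⟨w, hw, hd⟩ := mem_thickening_iff.1 (h3 n).2.2
    exact ⟨w, hw, hd.trans hn⟩
  rw [h2, measure_empty] at h1
  obtain ⟨n, hn⟩ := (h1.eventually (ge_mem_nhds (ENNReal.ofReal_pos.2 hε))).exists
  exact ⟨_, Nat.one_div_pos_of_nat, hn⟩

theorem ae_avoid {S : Set ℂ} (hS : MeasurableSet S) (h0 : volume S = 0) (y : ℂ) :
    ∀ᵐ x' : ℂ, ∀ᵐ θ : ℝ, x' - y + e θ ∉ S := by
  have hc : Continuous fun p : ℂ × ℝ => p.1 - y + e p.2 :=
    (continuous_fst.sub continuous_const).add (continuous_e.comp continuous_snd)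
  refine (Measure.ae_ae_comm (p := fun (x' : ℂ) (θ : ℝ) => x' - y + e θ ∉ S)
    (hc.measurable hS).compl).2 (Eventually.of_forall fun θ => ?_)
  have h1 := measure_preimage_add_right volume (-y + e θ) S
  rw [h0] at h1
  refine (measure_eq_zero_iff_ae_notMem.1 h1).mono fun x' hx hx' => hx ?_
  rwa [mem_preimage, ← add_assoc, ← sub_eq_add_neg]

theorem meas_Gs (hNb : NbStmt) (hU : UscStmt) (C : Col) (x y : ℂ) (hxy : ‖x - y‖ ≤ 1 / 10)
    (k : Fin 5) : MeasurableSet {θ | C.Gs x y θ k} := by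
  have hc : Continuous fun θ : ℝ => x + e θ := continuous_const.add continuous_e
  have hF := (hU C).1 k
  have hc' : ∀ σ : ℝ, σ = 1 ∨ σ = -1 → Continuous fun θ : ℝ => y + e (Nb σ (x - y) θ) :=
    fun σ hσ => continuous_const.add (continuous_e.comp (hNb.2.2.2.2.2.2.1 σ hσ _ hxy))
  exact (hc.measurable hF).inter ((hc.measurable isClosed_closure.measurableSet).inter
    (((hc' 1 (Or.inl rfl)).measurable hF).compl.inter
      ((hc' (-1) (Or.inr rfl)).measurable hF).compl))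

theorem nb_small (hD : DensStmt) (hNb : NbStmt) (hU : UscStmt) (C : Col) (x y : ℂ)
    (hxy : ‖x - y‖ ≤ 1 / 10) (k : Fin 5) (R : ℝ) {σ : ℝ} (hσ : σ = 1 ∨ σ = -1) {ε : ℝ}
    (hε : 0 < ε) : ∃ δ > (0 : ℝ), ∀ x' : ℂ, dist x' x < δ → ‖x' - y‖ ≤ 1 / 10 →
      volume {θ | θ ∈ Icc (-R) R ∧ C.Fr (y + e (Nb σ (x - y) θ)) k ∧
        ¬ C.Fr (y + e (Nb σ (x' - y) θ)) k} ≤ ENNReal.ofReal ε := by
  have hc : Continuous fun θ : ℝ => y + e θ := continuous_const.add continuous_e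
  obtain ⟨δ, hδ, h⟩ := hD.2.2.2.2.2.2 {φ | C.Fr (y + e φ) k} (Icc (-R) R) (Nb σ (x - y))
    (hc.measurable ((hU C).1 k)) (isBounded_Icc _ _)
    (near_half (hNb.2.2.2.2.1 σ hσ _ hxy) (by linarith)) ε hε
  refine ⟨δ / 2, by positivity, fun x' hx' hx'' => h (Nb σ (x' - y))
    (near_half (hNb.2.2.2.2.1 σ hσ _ hx'') (by linarith)) fun s => ?_⟩
  have h1 := hNb.2.2.2.2.2.1 σ hσ _ _ hx'' hxy s
  rw [sub_sub_sub_cancel_right, ← dist_eq_norm] at h1
  linarith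

end AeGA

open AeGA in
theorem aeGS (hD : DensStmt) (hNull : NullStmt) (hNb : NbStmt) (hU : UscStmt) : AeGStmt := by
  intro C x y i j hS hxy
  by_contra hne
  obtain ⟨R, hR⟩ := exists_Icc (B := {θ | ¬ ∃ k, k ≠ i ∧ k ≠ j ∧ C.Gs x y θ k})
    fun h => hne (ae_iff.2 h)
  have hm : MeasurableSet {θ | ¬ ∃ k, k ≠ i ∧ k ≠ j ∧ C.Gs x y θ k} := by
    have h1 : {θ | ∃ k, k ≠ i ∧ k ≠ j ∧ C.Gs x y θ k} =
        ⋃ k : {k : Fin 5 // k ≠ i ∧ k ≠ j}, {θ | C.Gs x y θ k} := by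
      ext θ
      simp only [mem_ofPred_eq, mem_iUnion]
      exact ⟨fun ⟨k, h1, h2, h3⟩ => ⟨⟨k, h1, h2⟩, h3⟩, fun ⟨k, h⟩ => ⟨k, k.2.1, k.2.2, h⟩⟩
    exact (h1 ▸ MeasurableSet.iUnion fun k : {k : Fin 5 // k ≠ i ∧ k ≠ j} =>
      meas_Gs hNb hU C x y hxy.le k).compl
  refine hS _ (hm.inter measurableSet_Icc) ((isBounded_Icc _ _).subset inter_subset_right) hR
    fun ε hε => ?_
  have hε' : 0 < ε / 20 := by positivity
  choose δ₁ hδ₁ h₁ using fun k => (hU C).2.2 x k R _ hε'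
  choose δ₂ hδ₂ h₂ using fun k => thick_small (C.D k) x R hε'
  choose δ₃ hδ₃ h₃ using fun k => nb_small hD hNb hU C x y hxy.le k R (Or.inl rfl) hε'
  choose δ₄ hδ₄ h₄ using fun k => nb_small hD hNb hU C x y hxy.le k R (Or.inr rfl) hε'
  have hev : ∀ᶠ δ in 𝓝[>] (0 : ℝ), δ ≤ 1 / 10 - ‖x - y‖ ∧
      ∀ k, δ ≤ δ₁ k ∧ δ ≤ δ₂ k ∧ δ ≤ δ₃ k ∧ δ ≤ δ₄ k := by
    have h : ∀ a : ℝ, 0 < a → ∀ᶠ δ in 𝓝[>] (0 : ℝ), δ ≤ a := fun a ha =>
      nhdsWithin_le_nhds (ge_mem_nhds ha)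
    exact (h _ (by linarith)).and (eventually_all.2 fun k =>
      (h _ (hδ₁ k)).and ((h _ (hδ₂ k)).and ((h _ (hδ₃ k)).and (h _ (hδ₄ k)))))
  obtain ⟨δ, ⟨hδa, hδb⟩, hδ⟩ := (hev.and self_mem_nhdsWithin).exists
  have hN := hNull.2 _ (ae_iff.1 ((hU C).2.1 y))
  refine ⟨δ, hδ, (ae_avoid (measurableSet_toMeasurable volume _)
    ((measure_toMeasurable _).trans hN) y).mono fun x' hx' hd => ?_⟩
  have hv : ‖x' - y‖ ≤ 1 / 10 := by
    have h1 := norm_sub_le_norm_sub_add_norm_sub x' x y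
    rw [dist_eq_norm] at hd
    linarith
  calc _ ≤ volume (⋃ k : Fin 5,
        ({θ | θ ∈ Icc (-R) R ∧ C.Fr (x' + e θ) k ∧ ¬ C.Fr (x + e θ) k} ∪
        {θ | θ ∈ Icc (-R) R ∧ x + e θ ∉ closure (C.D k) ∧ x + e θ ∈ thickening (δ₂ k) (C.D k)}) ∪
        ({θ | θ ∈ Icc (-R) R ∧ C.Fr (y + e (Nb 1 (x - y) θ)) k ∧
          ¬ C.Fr (y + e (Nb 1 (x' - y) θ)) k} ∪
        {θ | θ ∈ Icc (-R) R ∧ C.Fr (y + e (Nb (-1) (x - y) θ)) k ∧
          ¬ C.Fr (y + e (Nb (-1) (x' - y) θ)) k})) := by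
        refine measure_mono_ae (hx'.mono fun θ hθ ⟨⟨hb, hI⟩, hi, hj⟩ => ?_)
        have h1 := hNb.1 (x' - y) θ hv
        have h2 : ∃ k, y + e (Nb 1 (x' - y) θ) + e (Nb (-1) (x' - y) θ) ∈ C.D k ∧
            ¬ C.Fr (y + e (Nb 1 (x' - y) θ)) k ∧ ¬ C.Fr (y + e (Nb (-1) (x' - y) θ)) k := by
          by_contra h3
          exact hθ (subset_toMeasurable _ _
            ⟨(Nb 1 (x' - y) θ, Nb (-1) (x' - y) θ), h3, h1⟩)
        obtain ⟨k, hk, hk1, hk2⟩ := h2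
        rw [add_assoc, h1, ← add_assoc, add_sub_cancel] at hk
        refine mem_iUnion.2 ⟨k, ?_⟩
        by_contra h4
        simp only [mem_union, mem_ofPred_eq, not_or, not_and, not_not] at h4
        obtain ⟨⟨a1, a2⟩, a3, a4⟩ := h4
        refine hb ⟨k, fun h => hi (h ▸ hk), fun h => hj (h ▸ hk), a1 hI (C.fr_of_mem hk), ?_,
          fun h => hk1 (a3 hI h), fun h => hk2 (a4 hI h)⟩
        by_contra h5
        refine a2 hI h5 (mem_thickening_iff.2 ⟨_, hk, ?_⟩)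
        rw [dist_add_right, dist_comm]
        exact hd.trans_le (hδb k).2.1
    _ ≤ ∑ _k : Fin 5, (ENNReal.ofReal (ε / 20) + ENNReal.ofReal (ε / 20) +
        (ENNReal.ofReal (ε / 20) + ENNReal.ofReal (ε / 20))) := by
        refine (measure_iUnion_fintype_le _ _).trans (Finset.sum_le_sum fun k _ => ?_)
        refine (measure_union_le _ _).trans (add_le_add ((measure_union_le _ _).trans
          (add_le_add (h₁ k x' (hd.trans_le (hδb k).1)) (h₂ k))) ((measure_union_le _ _).trans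
          (add_le_add (h₃ k x' (hd.trans_le (hδb k).2.2.1) hv)
            (h₄ k x' (hd.trans_le (hδb k).2.2.2) hv))))
    _ = ENNReal.ofReal ε := by
        rw [← ENNReal.ofReal_add hε'.le hε'.le,
          ← ENNReal.ofReal_add (by positivity) (by positivity),
          ← ENNReal.ofReal_sum_of_nonneg fun _ _ => by positivity]
        simp only [Finset.sum_const, Finset.card_univ, Fintype.card_fin, nsmul_eq_mul]
        exact congrArg _ (by push_cast; ring)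

end Vale.Agent.P032
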