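import Vale.Agent.P032.Stmts

/-! P032: the core of the blow up argument. -/

namespace Vale.Agent.P032

open MeasureTheory Set Filter Topology Metric
open scoped Real ENNReal BigOperators

namespace BCoreA

theorem exists_T (θ : ℝ) : ∃ T : ℝ × ℝ ≃ᵐ ℂ, MeasurePreserving T (volume.prod volume) volume ∧
    (∀ y u s : ℝ, T (y, u) + s * e θ = T (y, u + s)) ∧
    ∀ p q : ℝ × ℝ, |p.1 - q.1| ≤ dist (T p) (T q) ∧ |p.2 - q.2| ≤ dist (T p) (T q) := by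
  let c : Circle := ⟨-Complex.I * e θ, by simp [Submonoid.unitSphere]⟩
  refine ⟨Complex.measurableEquivRealProd.symm.trans (rotation c).toHomeomorph.toMeasurableEquiv,
    (rotation c).measurePreserving.comp Complex.volume_preserving_equiv_real_prod.symm,
    fun y u s => ?_, fun p q => ?_⟩
  · change -Complex.I * e θ * (⟨y, u⟩ : ℂ) + s * e θ = -Complex.I * e θ * (⟨y, u + s⟩ : ℂ)
    rw [Complex.mk_eq_add_mul_I, Complex.mk_eq_add_mul_I]
    push_cast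
    linear_combination (s * e θ) * Complex.I_mul_I
  · change _ ≤ dist (rotation c _) (rotation c _) ∧ _ ≤ dist (rotation c _) (rotation c _)
    rw [(rotation c).dist_map, dist_eq_norm]
    exact ⟨Complex.abs_re_le_norm (⟨p.1, p.2⟩ - ⟨q.1, q.2⟩),
      Complex.abs_im_le_norm (⟨p.1, p.2⟩ - ⟨q.1, q.2⟩)⟩

theorem exists_of_ae {α : Type} [MeasurableSpace α] {μ : Measure α} {s : Set α} (hs : μ s ≠ 0)
    {p : α → Prop} (hp : ∀ᵐ x ∂μ, p x) : ∃ x ∈ s, p x :=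
  Measure.exists_mem_of_measure_ne_zero_of_ae hs (ae_restrict_of_ae hp)

/-- the support inside the unit disc -/
def Sp (f : ℂ → ℝ) : Set ℂ := {z | ‖z‖ < 1 ∧ 0 < f z}

theorem meas_Sp {f : ℂ → ℝ} (hf : Measurable f) : MeasurableSet (Sp f) :=
  (measurableSet_lt measurable_norm measurable_const).inter (measurableSet_lt measurable_const hf)

/-- the lines that meet the support -/
def Ln (T : ℝ × ℝ → ℂ) (f : ℂ → ℝ) : Set ℝ := {y | volume (Prod.mk y ⁻¹' (T ⁻¹' Sp f)) ≠ 0}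

theorem meas_Ln {T : ℝ × ℝ → ℂ} (hT : Measurable T) {f : ℂ → ℝ} (hf : Measurable f) :
    MeasurableSet (Ln T f) :=
  (measurable_measure_prodMk_left (hT (meas_Sp hf)) (measurableSet_singleton 0)).compl

theorem av_small {T : ℝ × ℝ → ℂ} (hT : MeasurePreserving T (volume.prod volume) volume)
    (hd : ∀ p q : ℝ × ℝ, |p.1 - q.1| ≤ dist (T p) (T q) ∧ |p.2 - q.2| ≤ dist (T p) (T q))
    {f : ℂ → ℝ} (hf : Measurable f) (h01 : ∀ z, 0 ≤ f z ∧ f z ≤ 1) {y : ℝ}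
    (hy : Dens1 (Ln T f)ᶜ y) {η : ℝ} (hη : 0 < η) :
    ∀ᶠ r in 𝓝[>] (0 : ℝ), ∀ u, ‖T (y, u)‖ + r ≤ 1 → av f (T (y, u)) r < η := by
  filter_upwards [hy η hη, self_mem_nhdsWithin] with r hr hr0 u hu
  have hr0' : 0 < r := hr0
  rw [sdiff_compl] at hr
  have hN : (volume.prod volume) (T ⁻¹' Sp f \ Prod.fst ⁻¹' Ln T f) = 0 := by
    refine Measure.measure_prod_null_of_ae_null ((hT.measurable (meas_Sp hf)).diff
      (measurable_fst (meas_Ln hT.measurable hf))) (Eventually.of_forall fun x => ?_)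
    by_cases hx : x ∈ Ln T f
    · exact measure_mono_null (fun v hv => hv.2 hx) measure_empty
    · exact measure_mono_null (fun v hv => hv.1) (not_not.1 hx)
  have h1 : volume (ball (T (y, u)) r ∩ Sp f) ≤ ENNReal.ofReal (η * r * (2 * r)) := by
    rw [← hT.measure_preimage (measurableSet_ball.inter (meas_Sp hf)).nullMeasurableSet]
    calc _ ≤ (volume.prod volume) ((T ⁻¹' Sp f \ Prod.fst ⁻¹' Ln T f) ∪
          (closedBall y r ∩ Ln T f) ×ˢ closedBall u r) := by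
          refine measure_mono fun p hp => ?_
          by_cases h2 : p.1 ∈ Ln T f
          · have h3 := hd p (y, u)
            have h4 : dist (T p) (T (y, u)) < r := hp.1
            exact Or.inr ⟨⟨h3.1.trans h4.le, h2⟩, h3.2.trans h4.le⟩
          · exact Or.inl ⟨hp.2, h2⟩
      _ ≤ _ := measure_union_le _ _
      _ ≤ ENNReal.ofReal (η * r) * ENNReal.ofReal (2 * r) := by
          rw [hN, zero_add, Measure.prod_prod, Real.volume_closedBall]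
          gcongr
      _ = _ := (ENNReal.ofReal_mul (by positivity)).symm
  have h2 : ∫ z in ball (T (y, u)) r, f z = ∫ z in ball (T (y, u)) r ∩ Sp f, f z := by
    refine setIntegral_eq_of_subset_of_forall_sdiff_eq_zero measurableSet_ball inter_subset_left
      fun z hz => le_antisymm (not_lt.1 fun h3 => hz.2 ⟨hz.1, ?_, h3⟩) (h01 z).1
    have h4 : dist z (T (y, u)) < r := hz.1
    have h5 := norm_le_norm_add_norm_sub' z (T (y, u))
    rw [dist_eq_norm] at h4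
    linarith
  have h3 := norm_setIntegral_le_of_norm_le_const (μ := volume) (f := f) (C := 1)
    (s := ball (T (y, u)) r ∩ Sp f) (h1.trans_lt ENNReal.ofReal_lt_top)
    fun z _ => by rw [Real.norm_eq_abs, abs_of_nonneg (h01 z).1]; exact (h01 z).2
  have h4 : volume.real (ball (T (y, u)) r ∩ Sp f) ≤ η * r * (2 * r) :=
    ENNReal.toReal_le_of_le_ofReal (by positivity) h1
  rw [av, h2, div_lt_iff₀ (by positivity)]
  have h5 := Real.le_norm_self (∫ z in ball (T (y, u)) r ∩ Sp f, f z)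
  have h6 : 0 < η * r ^ 2 := by positivity
  nlinarith [Real.pi_gt_three]

/-- the averages of `g` along the line through `a` avoid one half -/
def Good (g : ℂ → ℝ) (θ : ℝ) (a : ℂ) : Prop :=
  ∀ᶠ r in 𝓝[>] (0 : ℝ), ∀ s : ℝ, ‖a + s * e θ‖ + r ≤ 1 → av g (a + s * e θ) r ≠ 1 / 2

theorem line (hD : DensStmt) (hP : PvStmt) {f₁ f₂ g : ℂ → ℝ} {θ η : ℝ} (h1 : Measurable f₁)
    (h2 : Measurable f₂) (b1 : ∀ z, 0 ≤ f₁ z ∧ f₁ z ≤ 1) (b2 : ∀ z, 0 ≤ f₂ z ∧ f₂ z ≤ 1)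
    (hη : 0 < η)
    (H1 : ∀ a t, 0 < t → ‖a‖ + t ≤ 1 → av g a t = 1 / 2 → η ≤ av f₁ a t ∧ η ≤ av f₂ a t)
    (H3 : ∀ (a : ℂ) (s : ℝ), s ≠ 0 → ‖a‖ < 1 → ‖a + s * e θ‖ < 1 →
      ∀ η' > (0 : ℝ), ∀ᶠ r in 𝓝[>] (0 : ℝ), ¬ (η' ≤ av f₁ a r ∧ η' ≤ av f₂ (a + s * e θ) r)) :
    (∀ᵐ a : ℂ, Good g θ a) ∧ ∀ᵐ a : ℂ, ¬ (a ∈ Sp f₁ ∧ a ∈ Sp f₂) := by
  obtain ⟨T, hT, hs, hd⟩ := exists_T θ
  have back : ∀ Q : ℂ → Prop, (∀ᵐ p ∂(volume.prod volume), Q (T p)) → ∀ᵐ a, Q a := fun Q hQ => by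
    simpa using (hT.symm T).quasiMeasurePreserving.ae hQ
  have L1 := hP.2.2.2.1 f₁ 1 h1 fun z => abs_le.2 ⟨by linarith [(b1 z).1], (b1 z).2⟩
  have L2 := hP.2.2.2.1 f₂ 1 h2 fun z => abs_le.2 ⟨by linarith [(b2 z).1], (b2 z).2⟩
  have key : ∀ᵐ y : ℝ, ¬ (y ∈ Ln T f₁ ∧ y ∈ Ln T f₂) := by
    filter_upwards [Measure.ae_ae_of_ae_prod (hT.quasiMeasurePreserving.ae (L1.and L2))]
      with y hy ⟨k1, k2⟩
    obtain ⟨u, hu, lu, -⟩ := exists_of_ae k1 hy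
    obtain ⟨v, hv, ⟨-, lv⟩, huv⟩ := exists_of_ae k2 (hy.and (Measure.ae_ne volume u))
    have e1 : T (y, u) + ((v - u : ℝ) : ℂ) * e θ = T (y, v) := by rw [hs, add_sub_cancel]
    have k3 := H3 (T (y, u)) (v - u) (sub_ne_zero.2 huv) hu.1 (e1 ▸ hv.1)
      (min (f₁ (T (y, u))) (f₂ (T (y, v))) / 2) (half_pos (lt_min hu.2 hv.2))
    rw [e1] at k3
    have k4 := lu.eventually (lt_mem_nhds ((half_lt_self (lt_min hu.2 hv.2)).trans_le
      (min_le_left _ _)))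
    have k5 := lv.eventually (lt_mem_nhds ((half_lt_self (lt_min hu.2 hv.2)).trans_le
      (min_le_right _ _)))
    obtain ⟨r, r1, r2, r3⟩ := (k3.and (k4.and k5)).exists
    exact r1 ⟨r2.le, r3.le⟩
  constructor
  · refine back _ (Measure.quasiMeasurePreserving_fst.ae (p := fun y => ∀ u, Good g θ (T (y, u)))
      ?_ |>.mono fun p hp => hp p.2)
    filter_upwards [key, hD.1 _ (meas_Ln T.measurable h1).compl,
      hD.1 _ (meas_Ln T.measurable h2).compl] with y k1 k2 k3 u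
    rcases not_and_or.1 k1 with k4 | k4
    · filter_upwards [av_small hT hd h1 b1 (k2 k4) hη, self_mem_nhdsWithin] with r hr hr0 s k5 k6
      rw [hs] at k5 k6
      exact (H1 _ r hr0 k5 k6).1.not_gt (hr _ k5)
    · filter_upwards [av_small hT hd h2 b2 (k3 k4) hη, self_mem_nhdsWithin] with r hr hr0 s k5 k6
      rw [hs] at k5 k6
      exact (H1 _ r hr0 k5 k6).2.not_gt (hr _ k5)
  · refine back _ ((Measure.ae_prod_iff_ae_ae
      (T.measurable ((meas_Sp h1).inter (meas_Sp h2)).compl)).2 ?_)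
    filter_upwards [key] with y k1
    rcases not_and_or.1 k1 with k4 | k4
    · exact measure_mono_null (fun u hu => (not_not.1 hu).1) (not_not.1 k4)
    · exact measure_mono_null (fun u hu => (not_not.1 hu).2) (not_not.1 k4)

theorem both {A₀ A₁ : Set ℂ} (h : ∀ᵐ a : ℂ, ‖a‖ < 1 → a ∈ A₀ ∨ a ∈ A₁)
    (h0 : volume (A₀ ∩ ball 0 1) ≠ 0) (h1 : volume (A₁ ∩ ball 0 1) ≠ 0) :
    ∃ z : ℂ, ‖z‖ < 1 ∧ ∀ ε > (0 : ℝ), volume (A₀ ∩ ball z ε) ≠ 0 ∧ volume (A₁ ∩ ball z ε) ≠ 0 := by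
  have hop : ∀ A : Set ℂ, IsOpen ({z | ∃ ε > (0 : ℝ), volume (A ∩ ball z ε) = 0} ∩ ball 0 1) := by
    refine fun A => IsOpen.inter (Metric.isOpen_iff.2 ?_) isOpen_ball
    rintro z ⟨ε, hε, hz⟩
    refine ⟨ε, hε, fun w hw => ⟨ε - dist w z, sub_pos.2 hw, measure_mono_null
      (inter_subset_inter_right _ (ball_subset_ball' (by linarith))) hz⟩⟩
  have hnull : ∀ A : Set ℂ, ball 0 1 ⊆ {z | ∃ ε > (0 : ℝ), volume (A ∩ ball z ε) = 0} ∩ ball 0 1 →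
      volume (A ∩ ball 0 1) = 0 := by
    refine fun A hA => measure_null_of_locally_null _ fun z hz => ?_
    obtain ⟨ε, hε, h2⟩ := (hA hz.2).1
    exact ⟨(A ∩ ball 0 1) ∩ ball z ε, inter_mem_nhdsWithin _ (ball_mem_nhds z hε),
      measure_mono_null (inter_subset_inter_left _ inter_subset_left) h2⟩
  by_contra hc
  push Not at hc
  refine ((convex_ball (0 : ℂ) 1).isPreconnected.subset_or_subset (hop A₀) (hop A₁) ?_ ?_).elim
    (fun h2 => h0 (hnull _ h2)) fun h2 => h1 (hnull _ h2)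
  · rw [Set.disjoint_left]
    rintro z ⟨⟨ε, hε, h2⟩, hz⟩ ⟨⟨ε', hε', h3⟩, -⟩
    have h4 : volume (ball z ε ∩ ball z ε' ∩ ball 0 1) ≠ 0 :=
      ((isOpen_ball.inter isOpen_ball).inter isOpen_ball).measure_ne_zero _
        ⟨z, ⟨mem_ball_self hε, mem_ball_self hε'⟩, hz⟩
    obtain ⟨w, hw, h5, h6, h7⟩ := exists_of_ae h4
      (h.and ((measure_eq_zero_iff_ae_notMem.1 h2).and (measure_eq_zero_iff_ae_notMem.1 h3)))
    exact (h5 (mem_ball_zero_iff.1 hw.2)).elim (fun h8 => h6 ⟨h8, hw.1.1⟩) fun h8 => h7 ⟨h8, hw.1.2⟩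
  · intro z hz
    obtain ⟨ε, hε, h2⟩ := hc z (mem_ball_zero_iff.1 hz)
    by_cases h3 : volume (A₀ ∩ ball z ε) = 0
    · exact Or.inl ⟨⟨ε, hε, h3⟩, hz⟩
    · exact Or.inr ⟨⟨ε, hε, h2 h3⟩, hz⟩

theorem stay {h : ℝ → ℝ} (hc : Continuous h) {s c : ℝ} (hne : ∀ t, |t| ≤ |s| → h t ≠ c) :
    (c < h 0 → c < h s) ∧ (h 0 < c → h s < c) := by
  have key : c ∉ uIcc (h 0) (h s) := fun hm => by
    obtain ⟨t, ht, h1⟩ := intermediate_value_uIcc hc.continuousOn hm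
    exact hne t (by simpa using abs_sub_left_of_mem_uIcc ht) h1
  rw [mem_uIcc] at key
  constructor <;> intro h1 <;> by_contra h2
  · exact key (Or.inr ⟨not_lt.1 h2, h1.le⟩)
  · exact key (Or.inl ⟨h1.le, not_lt.1 h2⟩)

theorem meet (a b : ℂ) {θ₁ θ₂ : ℝ} (h : Real.sin (θ₁ - θ₂) ≠ 0) :
    ∃ s₁ s₂ : ℝ, a + s₁ * e θ₁ = b + s₂ * e θ₂ ∧ |s₁| ≤ ‖b - a‖ / |Real.sin (θ₁ - θ₂)| ∧
      |s₂| ≤ ‖b - a‖ / |Real.sin (θ₁ - θ₂)| := by
  have hb : ∀ θ, |((b - a) * e θ).im / Real.sin (θ₁ - θ₂)| ≤ ‖b - a‖ / |Real.sin (θ₁ - θ₂)| := by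
    intro θ
    rw [abs_div]
    refine div_le_div_of_nonneg_right ((Complex.abs_im_le_norm _).trans ?_) (abs_nonneg _)
    rw [norm_mul, norm_e, mul_one]
  refine ⟨_, _, ?_, hb (-θ₂), hb (-θ₁)⟩
  apply Complex.ext
  · simp only [Complex.add_re, Complex.re_ofReal_mul, Complex.mul_im, Complex.sub_re,
      Complex.sub_im, e_re, e_im, Real.cos_neg, Real.sin_neg]
    field_simp
    rw [Real.sin_sub]
    ring
  · simp only [Complex.add_im, Complex.im_ofReal_mul]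
    simp only [Complex.mul_im, Complex.sub_re, Complex.sub_im, e_re, e_im, Real.cos_neg,
      Real.sin_neg]
    field_simp
    rw [Real.sin_sub]
    ring

theorem av_const {g : ℂ → ℝ} {c : ℝ} (h : ∀ᵐ a : ℂ, a ∈ ball (0 : ℂ) 1 → g a = c) :
    av g 0 1 = c := by
  rw [av, setIntegral_congr_ae measurableSet_ball h, setIntegral_const, Measure.real,
    Complex.volume_ball]
  simp

end BCoreA

open BCoreA in
theorem bcoreS (hD : DensStmt) (hP : PvStmt) : BCoreStmt := by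
  intro f₁ f₂ g θ₁ θ₂ η B h1 h2 hg b1 b2 bg hsin hη H1 H2 H3
  obtain ⟨G1, N1⟩ := line hD hP h1 h2 b1 b2 hη H1 (H3 θ₁ (Or.inl rfl))
  obtain ⟨G2, -⟩ := line hD hP h1 h2 b1 b2 hη H1 (H3 θ₂ (Or.inr rfl))
  have h01 : ∀ᵐ a : ℂ, ‖a‖ < 1 → a ∈ {a | g a = 0} ∨ a ∈ {a | g a = 1} := by
    filter_upwards [H2, N1] with a k1 k2 ha
    rcases k1 ha with k3 | k3 | k3
    exacts [Or.inl k3, Or.inr k3, absurd ⟨⟨ha, k3.1⟩, ha, k3.2⟩ k2]
  by_cases k1 : volume ({a | g a = 1} ∩ ball (0 : ℂ) 1) = 0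
  · refine Or.inl (av_const ?_)
    filter_upwards [h01, measure_eq_zero_iff_ae_notMem.1 k1] with a k2 k3 ha
    exact (k2 (mem_ball_zero_iff.1 ha)).resolve_right fun k4 => k3 ⟨k4, ha⟩
  by_cases k0 : volume ({a | g a = 0} ∩ ball (0 : ℂ) 1) = 0
  · refine Or.inr (av_const ?_)
    filter_upwards [h01, measure_eq_zero_iff_ae_notMem.1 k0] with a k2 k3 ha
    exact (k2 (mem_ball_zero_iff.1 ha)).resolve_left fun k4 => k3 ⟨k4, ha⟩
  exfalso
  obtain ⟨z, hz, hz'⟩ := both h01 k0 k1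
  have hσ : 0 < |Real.sin (θ₁ - θ₂)| := abs_pos.2 hsin
  have hσ1 : |Real.sin (θ₁ - θ₂)| ≤ 1 := Real.abs_sin_le_one _
  obtain ⟨d, hd⟩ : ∃ d, d = 1 - ‖z‖ := ⟨_, rfl⟩
  have hd0 : 0 < d := by linarith
  obtain ⟨e0, e1⟩ := hz' (d * |Real.sin (θ₁ - θ₂)| / 6) (by positivity)
  have L := hP.2.2.2.1 g B hg bg
  obtain ⟨a, ⟨ha1, ha2⟩, la, ga⟩ := exists_of_ae e1 (L.and G1)
  obtain ⟨b, ⟨hb1, hb2⟩, lb, gb⟩ := exists_of_ae e0 (L.and G2)
  obtain ⟨s₁, s₂, hs, t1, t2⟩ := meet a b hsin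
  rw [mem_ball, dist_eq_norm] at ha2 hb2
  have hab : ‖b - a‖ / |Real.sin (θ₁ - θ₂)| ≤ d / 3 := by
    rw [div_le_iff₀ hσ]
    have := norm_sub_le_norm_sub_add_norm_sub b z a
    rw [norm_sub_rev z a] at this
    linarith
  have hin : ∀ (w : ℂ) (θ t : ℝ), ‖w - z‖ < d * |Real.sin (θ₁ - θ₂)| / 6 → |t| ≤ d / 3 →
      ‖w + t * e θ‖ + d / 2 ≤ 1 := by
    intro w θ t k2 k3
    have k4 := norm_add_le w (t * e θ)
    rw [norm_mul, norm_e, mul_one, Complex.norm_real, Real.norm_eq_abs] at k4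
    have k5 := norm_le_norm_add_norm_sub' w z
    nlinarith
  have la' := la.eventually (lt_mem_nhds (show (1 / 2 : ℝ) < g a by rw [ha1]; norm_num))
  have lb' := lb.eventually (gt_mem_nhds (show g b < (1 / 2 : ℝ) by rw [hb1]; norm_num))
  obtain ⟨r, r1, r2, r3, r4, r5, r6⟩ := (la'.and (lb'.and (ga.and (gb.and
    (show ∀ᶠ r in 𝓝[>] (0 : ℝ), r ∈ Ioo 0 (d / 2) from Ioo_mem_nhdsGT (half_pos hd0)))))).exists
  have hc : ∀ (w : ℂ) (θ : ℝ), Continuous fun t : ℝ => av g (w + t * e θ) r := fun w θ =>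
    (hP.2.2.1 g B hg bg).comp_continuous (f := fun t : ℝ => (w + t * e θ, r)) (by fun_prop)
      fun _ => r5
  have c1 := (stay (hc a θ₁) (s := s₁) fun t ht => r3 t (by
    linarith [hin a θ₁ t ha2 (ht.trans (t1.trans hab))])).1 (by simpa using r1)
  have c2 := (stay (hc b θ₂) (s := s₂) fun t ht => r4 t (by
    linarith [hin b θ₂ t hb2 (ht.trans (t2.trans hab))])).2 (by simpa using r2)
  simp only [hs] at c1
  exact lt_asymm c1 c2

end Vale.Agent.P032
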