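import Vale.Agent.P032.Stmts

namespace Vale.Agent.P032

open MeasureTheory Set Filter Topology Metric
open scoped Real ENNReal BigOperators

namespace BlowA

/-- setwise limit of dominated measures along an ultrafilter -/
theorem exists_limit {α ι : Type} [MeasurableSpace α] (μ : Measure α) [IsFiniteMeasure μ]
    (ν : ι → Measure α) (h : ∀ i, ν i ≤ μ) (U : Ultrafilter ι) :
    ∃ m : Measure α, m ≤ μ ∧ ∀ E, MeasurableSet E → Tendsto (fun i => ν i E) U (𝓝 (m E)) := by
  let L : Set α → ℝ≥0∞ := fun E => (U.map fun i => ν i E).lim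
  have hL : ∀ E, Tendsto (fun i => ν i E) U (𝓝 (L E)) := fun E =>
    (U.map fun i => ν i E).le_nhds_lim
  have hle : ∀ E, L E ≤ μ E := fun E => le_of_tendsto' (hL E) fun i => h i E
  have hν : ∀ i E, ν i E ≠ ∞ := fun i E => ne_top_of_le_ne_top (measure_ne_top μ E) (h i E)
  have hLne : ∀ E, L E ≠ ∞ := fun E => ne_top_of_le_ne_top (measure_ne_top μ E) (hle E)
  have h0 : L ∅ = 0 := le_antisymm ((hle ∅).trans (by simp)) bot_le
  have hU : ∀ ⦃f : ℕ → Set α⦄, (∀ i, MeasurableSet (f i)) → Pairwise (Function.onFun Disjoint f) →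
      L (⋃ i, f i) = ∑' i, L (f i) := by
    intro f hf hd
    have hs : ∑' k, μ (f k) ≠ ∞ := by
      rw [← measure_iUnion hd hf]; exact measure_ne_top _ _
    have hs' : ∑' k, L (f k) ≠ ∞ :=
      ne_top_of_le_ne_top hs (ENNReal.tsum_le_tsum fun k => hle _)
    refine tendsto_nhds_unique (hL _) ?_
    rw [← ENNReal.tendsto_toReal_iff (fun i => hν i _) hs', ENNReal.tsum_toReal_eq fun k => hLne _]
    have h1 : ∀ i, (ν i (⋃ k, f k)).toReal = ∑' k, (ν i (f k)).toReal := fun i => by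
      rw [measure_iUnion hd hf, ENNReal.tsum_toReal_eq fun k => hν i _]
    simp only [h1]
    refine tendsto_tsum_of_dominated_convergence (bound := fun k => (μ (f k)).toReal)
      (ENNReal.summable_toReal hs)
      (fun k => (ENNReal.tendsto_toReal_iff (fun i => hν i _) (hLne _)).2 (hL _))
      (Eventually.of_forall fun i k => ?_)
    rw [Real.norm_eq_abs, abs_of_nonneg ENNReal.toReal_nonneg]
    exact ENNReal.toReal_mono (measure_ne_top _ _) (h i _)
  refine ⟨Measure.ofMeasurable (fun E _ => L E) h0 hU, ?_, fun E hE => ?_⟩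
  · refine Measure.le_iff.2 fun E hE => ?_
    rw [Measure.ofMeasurable_apply E hE]
    exact hle E
  · rw [Measure.ofMeasurable_apply E hE]
    exact hL E

/-- a measure below Lebesgue measure has a density with values in the unit interval -/
theorem exists_density (m : Measure ℂ) [IsFiniteMeasure m] (h : m ≤ volume) :
    ∃ f : ℂ → ℝ, Measurable f ∧ (∀ z, 0 ≤ f z ∧ f z ≤ 1) ∧
      ∀ E : Set ℂ, ∫ z in E, f z = (m E).toReal := by
  refine ⟨fun z => min 1 (m.rnDeriv volume z).toReal,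
    measurable_const.min (Measure.measurable_rnDeriv _ _).ennreal_toReal,
    fun z => ⟨le_min zero_le_one ENNReal.toReal_nonneg, min_le_left _ _⟩, fun E => ?_⟩
  rw [← measureReal_def, ← Measure.setIntegral_toReal_rnDeriv (Measure.absolutelyContinuous_of_le h)]
  refine integral_congr_ae (ae_restrict_of_ae ?_)
  filter_upwards [Measure.rnDeriv_le_one_of_le h] with z hz
  refine min_eq_right ?_
  have h1 := ENNReal.toReal_mono ENNReal.one_ne_top hz
  simpa using h1

theorem scale (D : Set ℂ) (w a : ℂ) {ρ t : ℝ} (hρ : 0 < ρ) (ht : 0 < t) :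
    fr D (w + ρ * a) (ρ * t) =
      (volume (ball a t ∩ {z : ℂ | w + ρ * z ∈ D})).toReal / (π * t ^ 2) := by
  have h1 : ball a t ∩ {z : ℂ | w + ρ * z ∈ D} =
      (fun z : ℂ => ρ • z) ⁻¹' ((fun z : ℂ => w + z) ⁻¹' (D ∩ ball (w + ρ * a) (ρ * t))) := by
    ext z
    simp only [mem_inter_iff, mem_ball, Set.mem_ofPred_eq, mem_preimage, Complex.real_smul]
    rw [dist_add_left, dist_eq_norm, dist_eq_norm, ← mul_sub, norm_mul, Complex.norm_real,
      Real.norm_eq_abs, abs_of_pos hρ, mul_lt_mul_iff_right₀ hρ, and_comm]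
  rw [h1, Measure.addHaar_preimage_smul _ hρ.ne', measure_preimage_add, Complex.finrank_real_complex,
    ENNReal.toReal_mul, ENNReal.toReal_ofReal (abs_nonneg _), abs_of_pos (by positivity), fr]
  field_simp

end BlowA

open BlowA in
theorem blowS (hP : PvStmt) : BlowStmt := by
  intro C x p hp
  have h1 : ∀ n : ℕ, ∃ (w : ℂ) (ρ : ℝ), dist w x < 1 / ((n : ℝ) + 1) ∧ 0 < ρ ∧
      ρ < 1 / ((n : ℝ) + 1) ∧ ∀ j, |C.pv w ρ j - p j| < 1 / ((n : ℝ) + 1) := fun n =>
    hp _ Nat.one_div_pos_of_nat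
  choose w ρ hw hρ0 hρ hq using h1
  have hlim : Tendsto (fun n : ℕ => 1 / ((n : ℝ) + 1)) atTop (𝓝 0) :=
    tendsto_one_div_add_atTop_nhds_zero_nat
  have tw : Tendsto w atTop (𝓝 x) :=
    tendsto_iff_dist_tendsto_zero.2 (squeeze_zero (fun _ => dist_nonneg) (fun n => (hw n).le) hlim)
  have tρ : Tendsto ρ atTop (𝓝[>] 0) :=
    tendsto_nhdsWithin_iff.2 ⟨squeeze_zero (fun n => (hρ0 n).le) (fun n => (hρ n).le) hlim,
      Eventually.of_forall hρ0⟩
  have tq : ∀ j, Tendsto (fun n => C.pv (w n) (ρ n) j) atTop (𝓝 (p j)) := fun j =>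
    tendsto_iff_dist_tendsto_zero.2
      (squeeze_zero (fun _ => dist_nonneg) (fun n => (hq n j).le) hlim)
  let V : Ultrafilter ℕ := Ultrafilter.of atTop
  have hV : (V : Filter ℕ) ≤ atTop := Ultrafilter.of_le _
  let U : Ultrafilter (ℂ × ℝ) := V.map fun n => (w n, ρ n)
  have hU : (U : Filter (ℂ × ℝ)) ≤ 𝓝 x ×ˢ 𝓝[>] 0 := (tw.prodMk tρ).mono_left hV
  have hpos : ∀ᶠ v : ℂ × ℝ in U, 0 < v.2 :=
    (tendsto_snd.mono_left hU).eventually self_mem_nhdsWithin
  haveI : IsFiniteMeasure (volume.restrict (ball (0 : ℂ) 1)) :=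
    isFiniteMeasure_restrict.2 measure_ball_lt_top.ne
  have key : ∀ j, ∃ f : ℂ → ℝ, Measurable f ∧ (∀ z, 0 ≤ f z ∧ f z ≤ 1) ∧
      ∀ (a : ℂ) (t : ℝ), 0 < t → ‖a‖ + t ≤ 1 →
        Tendsto (fun v : ℂ × ℝ => C.pv (v.1 + v.2 * a) (v.2 * t) j) U (𝓝 (av f a t)) := by
    intro j
    obtain ⟨m, hm, hm'⟩ := exists_limit (volume.restrict (ball (0 : ℂ) 1))
      (fun v : ℂ × ℝ => volume.restrict (ball 0 1 ∩ {z : ℂ | v.1 + v.2 * z ∈ C.D j}))
      (fun v => Measure.restrict_mono inter_subset_left le_rfl) U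
    haveI : IsFiniteMeasure m := isFiniteMeasure_of_le _ hm
    obtain ⟨f, hf1, hf2, hf3⟩ := exists_density m (hm.trans Measure.restrict_le_self)
    refine ⟨f, hf1, hf2, fun a t ht hat => ?_⟩
    have h2 := (ENNReal.tendsto_toReal (measure_ne_top m _)).comp
      (hm' (ball a t) measurableSet_ball)
    have hsub : ball a t ⊆ ball (0 : ℂ) 1 := ball_subset_ball' (by rw [dist_zero_right]; linarith)
    rw [av, hf3]
    refine (h2.div_const (π * t ^ 2)).congr' ?_
    filter_upwards [hpos] with v hv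
    simp only [Function.comp, Col.pv]
    rw [scale _ _ _ hv ht, Measure.restrict_apply measurableSet_ball, ← inter_assoc,
      inter_eq_left.2 hsub]
  choose f hf1 hf2 hf3 using key
  refine ⟨U, f, hU, hf1, hf2, fun j => ?_, hf3⟩
  have h3 := hf3 j 0 1 one_pos (by simp)
  simp only [mul_zero, add_zero, mul_one] at h3
  exact tendsto_nhds_unique h3 ((tq j).mono_left hV)

end Vale.Agent.P032
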