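import Vale.Agent.P032.Stmts

namespace Vale.Agent.P032

open MeasureTheory Set Filter Topology Metric
open scoped Real ENNReal

namespace CardA

theorem rest : ∀ i j k : Fin 5, i ≠ j → i ≠ k → j ≠ k →
    ∃ a b : Fin 5, ∀ c, c = i ∨ c = j ∨ c = k ∨ c = a ∨ c = b := by
  decide

theorem pick {A : Set ℝ} {t : ℝ} (h : Ess A t) {p : ℝ → Prop} (hp : ∀ᵐ s, p s) {ε : ℝ}
    (hε : 0 < ε) : ∃ s ∈ A, |s - t| < ε ∧ p s := by
  obtain ⟨s, h1, h2⟩ := Measure.exists_mem_of_measure_ne_zero_of_ae (h ε hε) (ae_restrict_of_ae hp)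
  exact ⟨s, h1.1, h1.2, h2⟩

theorem alt (C : Col) (a b : Fin 5) {u w : ℂ} (h : dist u w = 1) (hu : u ∈ C.D a ∨ u ∈ C.D b)
    (hw : w ∈ C.D a ∨ w ∈ C.D b) : u ∈ C.D a ↔ w ∉ C.D a :=
  ⟨fun h1 h2 => C.free a _ h1 _ h2 h, fun h1 => hu.resolve_right fun h2 =>
    C.free b _ h2 _ (hw.resolve_left h1) h⟩

theorem two_null (hD : DensStmt) (hNb : NbStmt) (hI : InvStmt) (C : Col) (x : ℂ) (a b : Fin 5) :
    volume {θ | ∀ᵐ φ : ℝ, x + e θ + e φ ∈ C.D a ∨ x + e θ + e φ ∈ C.D b} = 0 := by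
  by_contra hc
  obtain ⟨θ₀, h0, h1⟩ := Measure.exists_mem_of_measure_ne_zero_of_ae hc
    (ae_restrict_of_ae (hD.2.2.1 _))
  refine hI {φ | x + e θ₀ + e φ ∈ C.D a}
    ((C.meas a).preimage (continuous_const.add continuous_e).measurable) fun δ hδ => ?_
  obtain ⟨θ, h2, h3, h4⟩ := pick (h1 h0) (Measure.ae_ne volume θ₀)
    (lt_min hδ (by norm_num : (0 : ℝ) < 1 / 10))
  have h5 : ‖e θ - e θ₀‖ < min δ (1 / 10) := (norm_e_sub_le _ _).trans_lt h3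
  have h6 : ‖e θ - e θ₀‖ ≤ 1 / 10 := (h5.trans_le (min_le_right _ _)).le
  refine ⟨e θ - e θ₀, fun h => h4 ?_, h5.trans_le (min_le_left _ _),
    {φ | x + e θ + e φ ∈ C.D a}, ?_, fun σ hσ => ?_⟩
  · have h7 : Real.sin (θ - θ₀) = 0 := by
      rw [← e_im, sub_eq_add_neg, e_add, sub_eq_zero.1 h, e_mul_neg, Complex.one_im]
    have h8 := abs_lt.1 (h3.trans_le (min_le_right _ _))
    have h9 := Real.pi_gt_three
    rwa [Real.sin_eq_zero_iff_of_lt_of_lt (by linarith) (by linarith), sub_eq_zero] at h7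
  · filter_upwards [h2, (measurePreserving_add_right volume (π / 3)).quasiMeasurePreserving.ae h2]
      with φ a1 a2
    refine alt C a b ?_ a2 a1
    rw [dist_eq_norm, add_sub_add_left_eq_sub, norm_e_sub_e_pi_div_three]
  · have h7 : ∀ᵐ φ : ℝ, x + e θ₀ + e (Nb σ (e θ - e θ₀) φ) ∈ C.D a ∨
        x + e θ₀ + e (Nb σ (e θ - e θ₀) φ) ∈ C.D b := by
      have h8 := hD.2.2.2.2.2.1 _ _ (by linarith) (hNb.2.2.2.2.1 σ hσ _ h6)
        {φ | ¬ (x + e θ₀ + e φ ∈ C.D a ∨ x + e θ₀ + e φ ∈ C.D b)}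
      rw [ae_iff.1 h0, mul_zero] at h8
      exact ae_iff.2 (nonpos_iff_eq_zero.1 h8)
    filter_upwards [h2, h7] with φ a1 a2
    refine alt C a b ?_ a1 a2
    have h8 := hNb.1 _ φ h6
    rw [dist_eq_norm]
    rcases hσ with rfl | rfl
    · exact (congrArg norm (by linear_combination -h8)).trans (norm_e (Nb (-1) (e θ - e θ₀) φ))
    · exact (congrArg norm (by linear_combination -h8)).trans (norm_e (Nb 1 (e θ - e θ₀) φ))

theorem pair (hU : UscStmt) (C : Col) (x : ℂ) : ∀ᵐ θ : ℝ, ∀ᵐ φ : ℝ, ∃ j,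
    x + e θ + e φ ∈ C.D j ∧ ¬ C.Fr (x + e θ) j ∧ ¬ C.Fr (x + e φ) j :=
  Measure.ae_ae_of_ae_prod ((hU C).2.1 x)

theorem side (hU : UscStmt) (C : Col) (x : ℂ) (κ : Fin 5) (X Y : Finset (Fin 5))
    (h : ∀ j, j ≠ κ → j ∈ X ∨ j ∈ Y) {t : ℝ} (ht : Ess (C.FS x X) t) {ε : ℝ} (hε : 0 < ε) :
    ∃ s, |s - t| < ε ∧ ∀ᵐ a, a ∈ C.FS x Y → a ∈ {a | x + e s + e a ∈ C.D κ} := by
  obtain ⟨s, h1, h2, h3⟩ := pick ht (pair hU C x) hε
  refine ⟨s, h2, h3.mono fun a ⟨j, a1, a2, a3⟩ ha => ?_⟩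
  by_cases hj : j = κ
  · exact hj ▸ a1
  · exact (h j hj).elim (fun h => absurd (h1 j h) a2) fun h => absurd (ha j h) a3

end CardA

open CardA in
theorem cardS (hD : DensStmt) (hNb : NbStmt) (hU : UscStmt) (hI : InvStmt) : CardStmt := by
  intro C x
  have h1 : ∀ᵐ θ : ℝ, ∀ a b : Fin 5,
      ¬ ∀ᵐ φ : ℝ, x + e θ + e φ ∈ C.D a ∨ x + e θ + e φ ∈ C.D b :=
    ae_all_iff.2 fun a => ae_all_iff.2 fun b =>
      measure_eq_zero_iff_ae_notMem.1 (two_null hD hNb hI C x a b)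
  filter_upwards [h1, pair hU C x] with θ a1 a2 i j k hi hj hk
  by_contra hc
  simp only [not_or] at hc
  obtain ⟨a, b, hab⟩ := rest i j k hc.1 hc.2.1 hc.2.2
  refine a1 a b (a2.mono fun φ ⟨c, b1, b2, _⟩ => ?_)
  rcases hab c with rfl | rfl | rfl | rfl | rfl
  · exact absurd hi b2
  · exact absurd hj b2
  · exact absurd hk b2
  · exact Or.inl b1
  · exact Or.inr b1

open CardA in
theorem crossColS (hU : UscStmt) (hC : CrossStmt) : CrossColStmt := by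
  intro C x κ X₁ Y₁ X₂ Y₂ t₁ t₂ a₀ b₀ h1 h2 h3 h4 h5 h6 h7 h8 h9
  obtain ⟨δ, hδ, h⟩ := hC (e t₁ - e t₂) a₀ b₀ _ _ h7 h8 h9 h5 h6
  obtain ⟨s, a1, a2⟩ := side hU C x κ X₁ Y₁ h1 h3 (half_pos hδ)
  obtain ⟨s', b1, b2⟩ := side hU C x κ X₂ Y₂ h2 h4 (half_pos hδ)
  obtain ⟨a, ha, b, hb, hab⟩ := h (e s - e s') (by
    rw [show e s - e s' - (e t₁ - e t₂) = (e s - e t₁) - (e s' - e t₂) by ring]
    have c1 := norm_e_sub_le s t₁
    have c2 := norm_e_sub_le s' t₂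
    have c3 := norm_sub_le (e s - e t₁) (e s' - e t₂)
    linarith) _ _ a2 b2
  refine C.free κ _ ha _ hb ?_
  rw [dist_eq_norm, ← hab]
  congr 1
  ring

end Vale.Agent.P032
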