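import Vale.Agent.P032.Stmts

/-! P032: two essential antipodal directions give an edge of the star graph. -/

namespace Vale.Agent.P032

open MeasureTheory Set Filter Topology Metric
open scoped Real ENNReal BigOperators

namespace ConeA

theorem meas_FS (hU : UscStmt) (C : Col) (x : ℂ) (X : Finset (Fin 5)) :
    MeasurableSet (C.FS x X) := by
  have h : C.FS x X = ⋂ j ∈ X, (fun θ : ℝ => x + e θ) ⁻¹' {z | C.Fr z j} := by
    ext θ; simp [Col.FS]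
  rw [h]
  exact X.measurableSet_biInter fun j _ =>
    (continuous_const.add continuous_e).measurable ((hU C).1 j)

theorem meas_A (hU : UscStmt) (C : Col) (x : ℂ) (X Y : Finset (Fin 5)) :
    MeasurableSet {θ | θ ∈ C.FS x X ∧ θ + π ∈ C.FS x Y} :=
  (meas_FS hU C x X).inter (measurable_add_const π (meas_FS hU C x Y))

theorem exists_dens (hD : DensStmt) {A : Set ℝ} (hA : MeasurableSet A) (h0 : volume A ≠ 0)
    (a b : ℝ) : ∃ θ, Dens1 A θ ∧ Real.sin (a - θ) ≠ 0 ∧ Real.sin (b - θ) ≠ 0 := by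
  have h1 : ∀ c : ℝ, ∀ᵐ θ : ℝ, Real.sin (c - θ) ≠ 0 := by
    intro c
    have h2 : {θ : ℝ | Real.sin (c - θ) = 0} ⊆ range fun n : ℤ => c - n * π := by
      intro θ hθ
      obtain ⟨n, hn⟩ := Real.sin_eq_zero_iff.1 hθ
      exact ⟨n, by simp only [hn]; ring⟩
    rw [ae_iff]
    simp only [not_not]
    exact measure_mono_null h2 ((countable_range _).measure_zero _)
  by_contra h
  push Not at h
  apply h0
  rw [measure_eq_zero_iff_ae_notMem]
  filter_upwards [hD.1 A hA, h1 a, h1 b] with θ h2 h3 h4 h5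
  exact h4 (h θ (h2 h5) h3)

theorem half_le {A : Set ℂ} {w : ℂ} {t : ℝ} (ht : 0 < t)
    (h : volume (ball w t \ A) ≤ ENNReal.ofReal (t ^ 2)) : 1 / 2 ≤ fr A w t := by
  have h1 : volume (ball w t) ≤ volume (A ∩ ball w t) + ENNReal.ofReal (t ^ 2) := by
    refine le_trans ?_ (add_le_add le_rfl h)
    refine (measure_mono ?_).trans (measure_union_le _ _)
    intro z hz
    by_cases hA : z ∈ A
    · exact Or.inl ⟨hA, hz⟩
    · exact Or.inr ⟨hz, hA⟩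
  have h2 : volume (A ∩ ball w t) ≠ ⊤ :=
    ne_top_of_le_ne_top measure_ball_lt_top.ne (measure_mono inter_subset_right)
  have h3 := ENNReal.toReal_mono (ENNReal.add_ne_top.2 ⟨h2, ENNReal.ofReal_ne_top⟩) h1
  rw [ENNReal.toReal_add h2 ENNReal.ofReal_ne_top, ENNReal.toReal_ofReal (sq_nonneg t),
    Complex.volume_ball, ENNReal.toReal_mul, ENNReal.toReal_pow, ENNReal.toReal_ofReal ht.le,
    ENNReal.coe_toReal, NNReal.coe_real_pi] at h3
  rw [fr, le_div_iff₀ (by positivity)]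
  have := Real.two_le_pi
  nlinarith [sq_nonneg t]

theorem cone (hNull : NullStmt) (hP : PolarStmt) (hU : UscStmt) (C : Col) (x : ℂ) (κ : Fin 5)
    (X Y : Finset (Fin 5)) (hXY : ∀ j, j ≠ κ → j ∈ X ∨ j ∈ Y) {θ₁ s : ℝ}
    (hθ : Dens1 {θ | θ ∈ C.FS x X ∧ θ + π ∈ C.FS x Y} θ₁) (hs : s ≠ 0) :
    ∃ r₀ > (0 : ℝ), ∀ r, 0 < r → r < r₀ → ∃ δ > (0 : ℝ), ∀ ρ : ℝ, 0 < ρ → ρ < δ →
      1 / 2 ≤ C.pv (x + ρ * (s * (Complex.I * e θ₁))) (ρ * r) κ := by
  set A := {θ | θ ∈ C.FS x X ∧ θ + π ∈ C.FS x Y} with hA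
  have hs0 : 0 < |s| := abs_pos.2 hs
  obtain ⟨R₀, hR₀, hR⟩ := (nhdsGT_basis (0 : ℝ)).eventually_iff.1 (hθ (1 / 48) (by norm_num))
  have hN := hNull.2 _ (ae_iff.1 ((hU C).2.1 x))
  set N := (fun p : ℝ × ℝ => e p.1 + e p.2) '' {p | ¬ ∃ j, x + e p.1 + e p.2 ∈ C.D j ∧
    ¬ C.Fr (x + e p.1) j ∧ ¬ C.Fr (x + e p.2) j} with hNdef
  refine ⟨min (|s| / 2) (R₀ * |s| / 4), lt_min (by positivity) (by positivity),
    fun r hr hr' => ⟨min (1 / |s|) (r / |s| / |s|), lt_min (by positivity) (by positivity),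
      fun ρ hρ hρ' => ?_⟩⟩
  have hr1 : r < |s| / 2 := hr'.trans_le (min_le_left _ _)
  have hr2 : r < R₀ * |s| / 4 := hr'.trans_le (min_le_right _ _)
  have hρ1 : ρ * |s| ≤ 1 := ((lt_div_iff₀ hs0).1 (hρ'.trans_le (min_le_left _ _))).le
  have hρ2 : ρ * |s| ≤ r / |s| := ((lt_div_iff₀ hs0).1 (hρ'.trans_le (min_le_right _ _))).le
  set k := r / |s| with hk
  have hk0 : 0 < k := by positivity
  have hkr : r = k * |s| := by rw [hk]; field_simp
  have hk1 : k ≤ 1 / 2 := by rw [hk, div_le_iff₀ hs0]; linarith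
  have hE : volume (closedBall θ₁ (4 * k) \ A) ≤ ENNReal.ofReal (1 / 48 * (4 * k)) :=
    hR ⟨by positivity, by
      rw [hk, ← mul_div_assoc, div_lt_iff₀ hs0]; linarith⟩
  set E := closedBall θ₁ (4 * k) \ A with hEdef
  set w : ℂ := ρ * (s * (Complex.I * e θ₁)) with hw
  have hwn : ‖w‖ = ρ * |s| := by
    simp [hw, abs_of_pos hρ]
  have ht : 0 < ρ * r := mul_pos hρ hr
  have hB : ∀ w' : ℂ, ‖w'‖ = ρ * |s| →
      volume {v : ℂ | ‖v - w'‖ ≤ ρ * r ∧ ∃ φ ∈ E, ∃ ψ : ℝ, v = e φ - e ψ} ≤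
        ENNReal.ofReal ((ρ * r) ^ 2 / 2) := by
    intro w' hw'
    refine (hP.1 E w' (ρ * r) ht.le).trans ((mul_le_mul' le_rfl hE).trans ?_)
    rw [← ENNReal.ofReal_mul (by positivity), hw']
    refine ENNReal.ofReal_le_ofReal ?_
    have h1 : 4 * (ρ * r) * (ρ * |s| + ρ * r) * (1 / 48 * (4 * k)) =
        (ρ * r) ^ 2 / 3 * (1 + k) := by
      rw [hkr]; ring
    rw [h1]
    nlinarith [sq_nonneg (ρ * r)]
  refine half_le ht ?_
  have hsub : ball (x + w) (ρ * r) \ C.D κ ⊆ (fun z => z - x) ⁻¹'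
      ((N ∪ {v : ℂ | ‖v - w‖ ≤ ρ * r ∧ ∃ φ ∈ E, ∃ ψ : ℝ, v = e φ - e ψ}) ∪
        -{v : ℂ | ‖v - -w‖ ≤ ρ * r ∧ ∃ φ ∈ E, ∃ ψ : ℝ, v = e φ - e ψ}) := by
    rintro z ⟨hz, hzD⟩
    have h1 : ‖z - x - w‖ ≤ ρ * r := by
      rw [mem_ball, dist_eq_norm, ← sub_sub] at hz
      exact hz.le
    have habs : |ρ * s| = ρ * |s| := by rw [abs_mul, abs_of_pos hρ]
    obtain ⟨φ, ψ, h2, h3, h4⟩ := hP.2 θ₁ (ρ * s) k (z - x) (mul_ne_zero hρ.ne' hs)
      (by rwa [habs]) hk0.le hk1 (by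
        have h2 : ((ρ * s : ℝ) : ℂ) * Complex.I * e θ₁ = w := by
          rw [hw]; push_cast; ring
        rw [h2, habs]
        refine h1.trans (le_of_eq ?_)
        rw [hkr]; ring)
    rw [habs] at h3 h4
    by_cases hφ : φ ∈ A
    · by_cases hψ : ψ ∈ A
      · refine Or.inl (Or.inl ⟨(φ, ψ + π), ?_, ?_⟩)
        · rintro ⟨j, h5, h6, h7⟩
          have h8 : x + e φ + e (ψ + π) = z := by
            rw [e_add_pi, add_assoc, ← sub_eq_add_neg, ← h2]; ring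
          by_cases hj : j = κ
          · exact hzD (by rwa [← h8, ← hj])
          · rcases hXY j hj with h9 | h9
            · exact h6 (hφ.1 j h9)
            · exact h7 (hψ.2 j h9)
        · change e φ + e (ψ + π) = z - x
          rw [e_add_pi, h2, sub_eq_add_neg]
      · refine Or.inr ⟨?_, ψ, ⟨?_, hψ⟩, φ, ?_⟩
        · rwa [neg_sub_neg, norm_sub_rev]
        · rw [mem_closedBall, Real.dist_eq]; linarith
        · change -(z - x) = _
          rw [h2, neg_sub]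
    · refine Or.inl (Or.inr ⟨h1, φ, ⟨?_, hφ⟩, ψ, h2⟩)
      rw [mem_closedBall, Real.dist_eq]; linarith
  refine (measure_mono hsub).trans ?_
  simp only [sub_eq_add_neg _ x]
  rw [measure_preimage_add_right]
  refine (measure_union_le _ _).trans ((add_le_add (measure_union_le _ _) le_rfl).trans ?_)
  rw [hN, zero_add, Measure.measure_neg]
  refine (add_le_add (hB w hwn) (hB (-w) (by rwa [norm_neg]))).trans ?_
  rw [← ENNReal.ofReal_add (by positivity) (by positivity), add_halves]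

theorem three (a b c : ℝ) : (Real.sin (b - c) : ℂ) * e a + Real.sin (c - a) * e b +
    Real.sin (a - b) * e c = 0 := by
  apply Complex.ext <;>
    simp only [Complex.add_re, Complex.add_im, Complex.re_ofReal_mul, Complex.im_ofReal_mul, e_re,
      e_im, Real.sin_sub, Complex.zero_re, Complex.zero_im] <;> ring

end ConeA

open ConeA in
theorem coneS (hD : DensStmt) (hNull : NullStmt) (hP : PolarStmt) (hU : UscStmt) (hPm : PmStmt) :
    ConeStmt := by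
  intro C x κ κ' X₁ Y₁ X₂ Y₂ h1 h2 h3 h4 Θ hΘ _ hΘ0 hA
  obtain ⟨t₀, d0, -, -⟩ := exists_dens hD hΘ hΘ0 0 0
  obtain ⟨t₁, d1, s01, -⟩ := exists_dens hD (meas_A hU C x X₁ Y₁) h3 t₀ t₀
  obtain ⟨t₂, d2, s02, s12⟩ := exists_dens hD (meas_A hU C x X₂ Y₂) h4 t₀ t₁
  have s20 : Real.sin (t₂ - t₀) ≠ 0 := by
    rw [← neg_sub, Real.sin_neg]; exact neg_ne_zero.2 s02
  obtain ⟨r₁, hr₁, k1⟩ := cone hNull hP hU C x κ X₁ Y₁ h1 d1 s20
  obtain ⟨r₂, hr₂, k2⟩ := cone hNull hP hU C x κ' X₂ Y₂ h2 d2 (neg_ne_zero.2 s01)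
  obtain ⟨r₀, hr₀, k0⟩ := hPm C x Θ t₀ κ κ' hA d0 (1 / 2) |Real.sin (t₁ - t₂)|
    |Real.sin (t₁ - t₂)| (by norm_num) (abs_pos.2 s12)
  have hm : 0 < min r₀ (min r₁ r₂) := lt_min hr₀ (lt_min hr₁ hr₂)
  have hr := half_lt_self hm
  simp only [lt_min_iff] at hr
  obtain ⟨δ₀, hδ₀, l0⟩ := k0 _ (half_pos hm) hr.1
  obtain ⟨δ₁, hδ₁, l1⟩ := k1 _ (half_pos hm) hr.2.1
  obtain ⟨δ₂, hδ₂, l2⟩ := k2 _ (half_pos hm) hr.2.2
  have hn : 0 < min δ₀ (min δ₁ δ₂) := lt_min hδ₀ (lt_min hδ₁ hδ₂)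
  have hρ := half_lt_self hn
  simp only [lt_min_iff] at hρ
  set ρ := min δ₀ (min δ₁ δ₂) / 2 with hρdef
  have hρ0 : 0 < ρ := half_pos hn
  refine l0 ρ (x + ρ * (Real.sin (t₂ - t₀) * (Complex.I * e t₁))) (Real.sin (t₁ - t₂)) hρ0 hρ.1
    ?_ le_rfl le_rfl ⟨l1 ρ hρ0 hρ.2.1, ?_⟩
  · rw [dist_eq_norm, add_sub_cancel_left, norm_mul, norm_mul, norm_mul, Complex.norm_I, norm_e,
      Complex.norm_real, Complex.norm_real, Real.norm_eq_abs, Real.norm_eq_abs, abs_of_pos hρ0]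
    have := Real.abs_sin_le_one (t₂ - t₀)
    nlinarith [hρ.1]
  · have h5 := l2 ρ hρ0 hρ.2.2
    have h6 : x + ρ * (Real.sin (t₂ - t₀) * (Complex.I * e t₁)) +
        ρ * (Real.sin (t₁ - t₂) * (Complex.I * e t₀)) =
        x + ρ * ((-Real.sin (t₀ - t₁) : ℝ) * (Complex.I * e t₂)) := by
      rw [Complex.ofReal_neg]
      linear_combination (ρ * Complex.I) * three t₀ t₁ t₂
    rwa [h6]

end Vale.Agent.P032
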