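import Vale.Agent.P032.Stmts

namespace Vale.Agent.P032

open MeasureTheory Set Filter Topology Metric
open scoped Real ENNReal BigOperators

namespace ContA

theorem exists_anti (c : ℕ → ℝ) (hc : ∀ n, 0 < c n) : ∃ η : ℕ → ℝ, (∀ n, 0 < η n) ∧ Antitone η ∧
    (∀ n, η n ≤ c n) ∧ Tendsto η atTop (𝓝 0) := by
  let f : ℕ → ℝ := fun k => min (c k) (1 / ((k : ℝ) + 1))
  let η : ℕ → ℝ := fun n => (Finset.range (n + 1)).inf' ⟨0, by simp⟩ f
  have h1 : ∀ n, 0 < η n := fun n =>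
    (Finset.lt_inf'_iff _).2 fun k _ => lt_min (hc k) (by positivity)
  have h2 : ∀ n, η n ≤ f n := fun n => Finset.inf'_le _ (by simp)
  refine ⟨η, h1, fun n k hnk => Finset.inf'_mono _ (Finset.range_mono (by omega)) _,
    fun n => (h2 n).trans (min_le_left _ _), ?_⟩
  exact squeeze_zero (fun n => (h1 n).le) (fun n => (h2 n).trans (min_le_right _ _))
    tendsto_one_div_add_atTop_nhds_zero_nat

theorem exists_unit (z : ℂ) : ∃ u : ℂ, ‖u‖ = 1 ∧ ‖z - u‖ = |‖z‖ - 1| := by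
  refine ⟨e z.arg, norm_e _, ?_⟩
  have h : z - e z.arg = ((‖z‖ - 1 : ℝ) : ℂ) * e z.arg := by
    have := Complex.norm_mul_exp_arg_mul_I z
    unfold e
    push_cast
    linear_combination -this
  rw [h, norm_mul, norm_e, mul_one, Complex.norm_real, Real.norm_eq_abs]

theorem exists_rot {z w : ℂ} (h : ‖z‖ = ‖w‖) : ∃ c : ℂ, ‖c‖ = 1 ∧ w = c * z := by
  by_cases hz : z = 0
  · subst hz
    exact ⟨1, norm_one, by simpa using h.symm⟩
  · exact ⟨w / z, by rw [norm_div, ← h, div_self (norm_ne_zero_iff.2 hz)], by field_simp⟩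

theorem eq_of_small {η : ℕ → ℝ} (h : Tendsto η atTop (𝓝 0)) {a : ℝ} (c : ℝ)
    (ha : ∀ n, a ≤ c * η n) : a ≤ 0 := by
  have := h.const_mul c
  rw [mul_zero] at this
  exact ge_of_tendsto' this ha

variable {H : Type} [SeminormedAddCommGroup H] [InnerProductSpace ℝ H]

theorem inner_close {a a' b b' : H} {s t : ℝ} (h1 : ‖a - a'‖ ≤ s) (h2 : ‖b - b'‖ ≤ t)
    (ha : ‖a'‖ ≤ 1) (hb : ‖b‖ ≤ 1) : |inner ℝ a b - inner ℝ a' b'| ≤ s + t := by
  have e1 : inner ℝ a b - inner ℝ a' b' = inner ℝ (a - a') b + inner ℝ a' (b - b') := by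
    rw [inner_sub_left, inner_sub_right]; ring
  have h3 := abs_real_inner_le_norm (a - a') b
  have h4 := abs_real_inner_le_norm a' (b - b')
  have h5 := mul_le_mul h1 hb (norm_nonneg _) ((norm_nonneg _).trans h1)
  have h6 := mul_le_mul ha h2 (norm_nonneg _) zero_le_one
  rw [e1]
  refine (abs_add_le _ _).trans ?_
  linarith

/-- The representation given by the GNS construction. -/
structure Rep (φ : ℂ → ℝ) (T : ℂ → H →ₗᵢ[ℝ] H) (ξ : H) : Prop where
  zero : ∀ v, T 0 v = v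
  add : ∀ x y v, T (x + y) v = T x (T y v)
  ip : ∀ x y, inner ℝ (T x ξ) (T y ξ) = φ (x - y)
  one : φ 0 ≤ 1

/-- The average of translates of the cyclic vector. -/
noncomputable def avg (T : ℂ → H →ₗᵢ[ℝ] H) (ξ : H) {ι : Type} [Fintype ι] (x : ι → ℂ) : H :=
  (Fintype.card ι : ℝ)⁻¹ • ∑ i, T (x i) ξ

/-- Averages supported in a ball. -/
def Av (T : ℂ → H →ₗᵢ[ℝ] H) (ξ : H) (d : ℝ) (v : H) : Prop :=
  ∃ (ι : Type) (_ : Fintype ι) (_ : Nonempty ι) (x : ι → ℂ), (∀ i, ‖x i‖ < d) ∧ v = avg T ξ x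

variable {φ : ℂ → ℝ} {T : ℂ → H →ₗᵢ[ℝ] H} {ξ : H}

theorem inner_avg {ι : Type} [Fintype ι] (x : ι → ℂ) (u : H) :
    inner ℝ (avg T ξ x) u = 𝔼 i, inner ℝ (T (x i) ξ) u := by
  rw [avg, real_inner_smul_left, sum_inner, Fintype.expect_eq_sum_div_card, div_eq_inv_mul]

theorem Rep.shift (h : Rep φ T ξ) {ι : Type} [Fintype ι] (a : ℂ) (x : ι → ℂ) :
    T a (avg T ξ x) = avg T ξ fun i => a + x i := by
  simp only [avg, map_smul, map_sum, h.add]

theorem Rep.qq (h : Rep φ T ξ) {ι κ : Type} [Fintype ι] [Fintype κ] (a : ℂ) (x : ι → ℂ) (b : ℂ)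
    (y : κ → ℂ) : QQ φ a x b y = inner ℝ (T a (avg T ξ x)) (T b (avg T ξ y)) := by
  rw [h.shift, h.shift, inner_avg, QQ]
  refine Finset.expect_congr rfl fun i _ => ?_
  rw [real_inner_comm, inner_avg]
  refine Finset.expect_congr rfl fun j _ => ?_
  rw [real_inner_comm, h.ip]

theorem Rep.move (h : Rep φ T ξ) (a b : ℂ) (u v : H) :
    inner ℝ (T a u) (T b v) = inner ℝ (T (a - b) u) v := by
  rw [← (T b).inner_map_map (T (a - b) u) v, ← h.add, add_sub_cancel]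

theorem Rep.neg (h : Rep φ T ξ) (a : ℂ) (u v : H) :
    inner ℝ (T (-a) u) v = inner ℝ (T a v) u := by
  rw [← zero_sub, ← h.move, h.zero, real_inner_comm]

theorem Rep.norm_xi (h : Rep φ T ξ) : ‖ξ‖ ≤ 1 := by
  have h1 := h.ip 0 0
  rw [h.zero, sub_zero, real_inner_self_eq_norm_sq] at h1
  have h2 := h.one
  nlinarith [norm_nonneg ξ]

theorem Rep.norm_av (h : Rep φ T ξ) {d : ℝ} {v : H} (hv : Av T ξ d v) : ‖v‖ ≤ 1 := by
  obtain ⟨ι, _, _, x, -, rfl⟩ := hv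
  have h1 : (0 : ℝ) < Fintype.card ι := by exact_mod_cast Fintype.card_pos
  have h2 : ‖∑ i, T (x i) ξ‖ ≤ Fintype.card ι := by
    refine (norm_sum_le _ _).trans ?_
    simpa using mul_le_mul_of_nonneg_left h.norm_xi h1.le
  rw [avg, norm_smul, norm_inv, Real.norm_natCast, inv_mul_le_iff₀ h1, mul_one]
  exact h2

theorem Av.mono {d d' : ℝ} {v : H} (hv : Av T ξ d v) (hd : d ≤ d') : Av T ξ d' v := by
  obtain ⟨ι, _, _, x, h1, h2⟩ := hv
  exact ⟨ι, _, inferInstance, x, fun i => (h1 i).trans_le hd, h2⟩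

theorem Rep.av_shift (h : Rep φ T ξ) {d d' : ℝ} {v : H} (hv : Av T ξ d v) {w : ℂ}
    (hw : ‖w‖ < d') : Av T ξ (d' + d) (T w v) := by
  obtain ⟨ι, _, _, x, h1, rfl⟩ := hv
  exact ⟨ι, _, inferInstance, _, fun i => (norm_add_le _ _).trans_lt (add_lt_add hw (h1 i)),
    h.shift w x⟩

theorem Av.mid {d : ℝ} {u v : H} (hu : Av T ξ d u) (hv : Av T ξ d v) :
    Av T ξ d ((2 : ℝ)⁻¹ • (u + v)) := by
  obtain ⟨ι, _, _, x, h1, rfl⟩ := hu
  obtain ⟨κ, _, _, y, h2, rfl⟩ := hv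
  refine ⟨Bool × ι × κ, inferInstance, inferInstance,
    fun p => if p.1 = true then x p.2.1 else y p.2.2, fun p => ?_, ?_⟩
  · beta_reduce
    split_ifs
    exacts [h1 _, h2 _]
  · have h3 : (Fintype.card ι : ℝ) ≠ 0 := by exact_mod_cast Fintype.card_ne_zero
    have h4 : (Fintype.card κ : ℝ) ≠ 0 := by exact_mod_cast Fintype.card_ne_zero
    simp only [avg, Fintype.sum_prod_type, Fintype.sum_bool, if_true, Bool.false_eq_true, if_false,
      Finset.sum_const, Finset.card_univ, Fintype.card_prod, Fintype.card_bool, ← Finset.smul_sum,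
      ← Nat.cast_smul_eq_nsmul ℝ, smul_add, smul_smul]
    push_cast
    congr 2 <;> field_simp

theorem exists_m (T : ℂ → H →ₗᵢ[ℝ] H) (ξ : H) : ∃ m : ℝ,
    (∀ d > 0, ∀ η > 0, ∃ v, Av T ξ d v ∧ ‖v‖ ^ 2 ≤ m + η) ∧
    ∀ η > 0, ∃ D > 0, ∀ v, Av T ξ D v → m - η ≤ ‖v‖ ^ 2 := by
  let S : Set ℝ := {a | ∃ D > 0, ∀ v, Av T ξ D v → a ≤ ‖v‖ ^ 2}
  have h1 : S.Nonempty := ⟨0, 1, one_pos, fun v _ => sq_nonneg _⟩
  have h2 : BddAbove S := ⟨‖avg T ξ (fun _ : Unit => 0)‖ ^ 2, fun a ⟨D, hD, ha⟩ =>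
    ha _ ⟨Unit, inferInstance, inferInstance, _, fun _ => by simpa using hD, rfl⟩⟩
  refine ⟨sSup S, fun d hd η hη => ?_, fun η hη => ?_⟩
  · by_contra hn
    push Not at hn
    have := le_csSup h2 (⟨d, hd, fun v hv => (hn v hv).le⟩ : sSup S + η ∈ S)
    linarith
  · obtain ⟨a, ⟨D, hD, ha⟩, h3⟩ := exists_lt_of_lt_csSup h1 (sub_lt_self _ hη)
    exact ⟨D, hD, fun v hv => h3.le.trans (ha v hv)⟩

theorem key {m η D : ℝ} (hη : 0 ≤ η) (h : ∀ v, Av T ξ D v → m - η ^ 2 / 8 ≤ ‖v‖ ^ 2) {u v : H}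
    (hu : Av T ξ D u) (hv : Av T ξ D v) (h1 : ‖u‖ ^ 2 ≤ m + η ^ 2 / 8)
    (h2 : ‖v‖ ^ 2 ≤ m + η ^ 2 / 8) : ‖u - v‖ ≤ η := by
  have h3 := h _ (hu.mid hv)
  rw [norm_smul, mul_pow, Real.norm_eq_abs, sq_abs] at h3
  have h4 := parallelogram_law_with_norm ℝ u v
  refine abs_le_of_sq_le_sq' ?_ hη |>.2
  nlinarith

theorem Rep.pd (h : Rep φ T ξ) (u : H) : PD fun z => inner ℝ (T z u) u := by
  refine ⟨fun z => h.neg z u u, fun ι _ x t => ?_⟩
  have := real_inner_self_nonneg (x := ∑ i, t i • T (x i) u)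
  rw [sum_inner] at this
  simpa only [inner_sum, real_inner_smul_left, real_inner_smul_right, h.move, mul_assoc,
    mul_left_comm] using this

theorem pd_lim {χ : ℕ → ℂ → ℝ} {f : ℂ → ℝ} (h : ∀ n, PD (χ n))
    (hl : ∀ z, Tendsto (fun n => χ n z) atTop (𝓝 (f z))) : PD f := by
  refine ⟨fun z => tendsto_nhds_unique (hl (-z)) ?_, fun ι _ x t => ?_⟩
  · simpa only [(h _).1] using hl z
  · exact ge_of_tendsto' (tendsto_finsetSum _ fun i _ => tendsto_finsetSum _ fun j _ =>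
      (hl _).const_mul _) fun n => (h n).2 ι x t

end ContA

open ContA in
theorem contS (hG : GnsStmt) (hR : RigidStmt) : ContStmt := by
  intro φ hpd hrad h1 hu ε hε
  obtain ⟨H, _, _, T, ξ, a1, a2, a3⟩ := hG ℂ φ hpd
  have h : Rep φ T ξ := ⟨a1, a2, a3, h1⟩
  obtain ⟨m, hm1, hm2⟩ := exists_m T ξ
  obtain ⟨η, η0, ηa, ηc, ηl⟩ := exists_anti (fun n => min (ε n / 3) 1)
    fun n => lt_min (by linarith [hε n]) one_pos
  have η1 : ∀ n, η n ≤ 1 := fun n => (ηc n).trans (min_le_right _ _)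
  have η2 : ∀ n, 3 * η n ≤ ε n := fun n => by linarith [(ηc n).trans (min_le_left _ _)]
  have η3 : ∀ n, 0 < η n ^ 2 / 8 := fun n => by have := η0 n; positivity
  choose D D0 hD using fun n => hm2 _ (η3 n)
  obtain ⟨d, d0, da, dc, dl⟩ := exists_anti (fun n => D n / 3) fun n => by linarith [D0 n]
  choose v hv hvm using fun n => hm1 _ (d0 n) _ (η3 n)
  have hv' := hv
  choose ι i1 i2 x hx hxv using hv'
  have v1 : ∀ n, ‖v n‖ ≤ 1 := fun n => h.norm_av (hv n)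
  have K0 : ∀ n k, n ≤ k → ∀ u, Av T ξ (D n) u → ‖u‖ = ‖v n‖ → ‖u - v k‖ ≤ η n := by
    intro n k hk u hu1 hu2
    refine key (η0 n).le (hD n) hu1 ((hv k).mono ?_) (hu2 ▸ hvm n) ((hvm k).trans ?_)
    · linarith [da hk, dc n, d0 n]
    · have := pow_le_pow_left₀ (η0 k).le (ηa hk) 2
      linarith
  have K1 : ∀ n k, n ≤ k → ∀ w : ℂ, ‖w‖ < 2 * d n → ‖T w (v n) - v k‖ ≤ η n := fun n k hk w hw =>
    K0 n k hk _ ((h.av_shift (hv n) hw).mono (by linarith [dc n])) ((T w).norm_map _)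
  have K2 : ∀ n k, n ≤ k → ‖v n - v k‖ ≤ η n := fun n k hk => by
    simpa only [h.zero] using K1 n k hk 0 (by simpa using d0 n)
  have TK : ∀ z (a b : H) {s : ℝ}, ‖a - b‖ ≤ s → ‖T z a - T z b‖ ≤ s := fun z a b s hs => by
    rwa [← map_sub, (T z).norm_map]
  have T1 : ∀ z (a : H), ‖a‖ ≤ 1 → ‖T z a‖ ≤ 1 := fun z a ha => by rwa [(T z).norm_map]
  have C1 : ∀ z n k, n ≤ k →
      dist (inner ℝ (T z (v n)) (v n)) (inner ℝ (T z (v k)) (v k)) ≤ η n + η n := fun z n k hk =>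
    inner_close (TK z _ _ (K2 n k hk)) (K2 n k hk) (T1 z _ (v1 k)) (v1 n)
  have ηl2 : Tendsto (fun n => η n + η n) atTop (𝓝 0) := by simpa using ηl.add ηl
  choose ψ hψ using fun z => cauchySeq_tendsto_of_complete
    (cauchySeq_of_le_tendsto_0' (fun n => η n + η n) (C1 z) ηl2)
  have C2 : ∀ z n, |inner ℝ (T z (v n)) (v n) - ψ z| ≤ η n + η n := fun z n =>
    le_of_tendsto (tendsto_const_nhds.dist (hψ z)) (eventually_atTop.2 ⟨n, C1 z n⟩)
  have C3 : ∀ n (u w : ℂ), ‖w‖ < 2 * d n →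
      |inner ℝ (T (u + w) (v n)) (v n) - inner ℝ (T u (v n)) (v n)| ≤ η n + 0 := fun n u w hw => by
    rw [h.add]
    exact inner_close (TK u _ _ (K1 n n le_rfl w hw)) (by simp) (T1 u _ (v1 n)) (v1 n)
  have hψr : Radial ψ := by
    intro z w hzw
    obtain ⟨c, hc, rfl⟩ := exists_rot hzw
    refine eq_of_abs_sub_nonpos (eq_of_small ηl 6 fun n => ?_)
    have hq : ∀ a : ℂ, inner ℝ (T (c * a) (avg T ξ fun i => c * x n i))
        (avg T ξ fun i => c * x n i) = inner ℝ (T a (v n)) (v n) := fun a => by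
      have e1 := h.qq (c * a) (fun i => c * x n i) 0 (fun i => c * x n i)
      have e2 := h.qq a (x n) 0 (x n)
      rw [h.zero] at e1 e2
      rw [← e1, hxv n, ← e2]
      refine Finset.expect_congr rfl fun i _ => Finset.expect_congr rfl fun j _ => hrad _ _ ?_
      rw [show c * a + c * x n i - (0 + c * x n j) = c * (a + x n i - (0 + x n j)) by ring,
        norm_mul, hc, one_mul]
    have hA : Av T ξ (d n) (avg T ξ fun i => c * x n i) :=
      ⟨ι n, _, inferInstance, _, fun i => by rw [norm_mul, hc, one_mul]; exact hx n i, rfl⟩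
    have hN : ‖avg T ξ fun i => c * x n i‖ = ‖v n‖ := by
      have := hq 0
      rw [mul_zero, h.zero, h.zero, real_inner_self_eq_norm_sq, real_inner_self_eq_norm_sq] at this
      exact (pow_left_inj₀ (norm_nonneg _) (norm_nonneg _) two_ne_zero).1 this
    have h2 := K0 n n le_rfl _ (hA.mono (by linarith [dc n, d0 n])) hN
    have h3 := inner_close (TK (c * z) _ _ h2) h2 (T1 _ _ (v1 n)) (h.norm_av hA)
    rw [hq] at h3
    have h4 := C2 z n
    have h5 := C2 (c * z) n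
    rw [abs_le] at h3 h4 h5 ⊢
    constructor <;> linarith [h3.1, h3.2, h4.1, h4.2, h5.1, h5.2]
  have K3 : ∀ z n, |inner ℝ (T z (v n)) (v n) - inner ℝ (T z ξ) (v n)| ≤ η n := by
    intro z n
    have e1 : inner ℝ (T z (v n)) (v n) = 𝔼 i, inner ℝ (T (z + x n i) ξ) (v n) := by
      conv_lhs => rw [hxv n, h.shift, inner_avg, ← hxv n]
    have e2 : ∀ i, |inner ℝ (T (z + x n i) ξ) (v n) - inner ℝ (T z ξ) (v n)| ≤ 0 + η n := fun i => by
      rw [← sub_neg_eq_add, ← h.move]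
      refine inner_close (by simp) (K1 n n le_rfl _ ?_) (T1 _ _ h.norm_xi) (T1 _ _ (v1 n))
      rw [norm_neg]
      linarith [hx n i, d0 n]
    rw [e1, abs_le]
    constructor
    · have : inner ℝ (T z ξ) (v n) - η n ≤ 𝔼 i, inner ℝ (T (z + x n i) ξ) (v n) :=
        Finset.le_expect Finset.univ_nonempty fun i _ => by linarith [(abs_le.1 (e2 i)).1]
      linarith
    · have : 𝔼 i, inner ℝ (T (z + x n i) ξ) (v n) ≤ inner ℝ (T z ξ) (v n) + η n :=
        Finset.expect_le Finset.univ_nonempty fun i _ => by linarith [(abs_le.1 (e2 i)).2]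
      linarith
  have C4 : ∀ z n, |inner ℝ (T z (ξ - v n)) (ξ - v n) - (φ z - ψ z)| ≤ 4 * η n := by
    intro z n
    have e1 := h.ip z 0
    rw [h.zero, sub_zero] at e1
    have h2 := K3 z n
    have h3 := K3 (-z) n
    rw [h.neg, h.neg] at h3
    have h4 := C2 z n
    rw [map_sub, inner_sub_left, inner_sub_right, inner_sub_right, e1]
    rw [abs_le] at h2 h3 h4 ⊢
    constructor <;> linarith [h2.1, h2.2, h3.1, h3.2, h4.1, h4.2]
  have hP : PD fun z => φ z - ψ z := by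
    refine pd_lim (fun n => h.pd (ξ - v n)) fun z => ?_
    rw [tendsto_iff_dist_tendsto_zero]
    refine squeeze_zero (fun _ => dist_nonneg) (C4 z) ?_
    simpa using ηl.const_mul 4
  have hψ0 : -ψ 0 ≤ 0 := eq_of_small ηl 2 fun n => by
    have h2 := (abs_le.1 (C2 0 n)).2
    rw [h.zero] at h2
    linarith [real_inner_self_nonneg (x := v n)]
  have hN : Null (fun z => φ z - ψ z) ⊤ := by
    intro δ hδ ε' hε'
    obtain ⟨n, hn1, hn2⟩ := ((dl.eventually (gt_mem_nhds hδ)).and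
      (ηl.eventually (gt_mem_nhds (show 0 < ε' / 3 by linarith)))).exists
    refine ⟨ι n, i1 n, i2 n, x n, fun i => ⟨trivial, (hx n i).trans hn1⟩, ?_⟩
    have e1 := h.qq 0 (x n) 0 (x n)
    rw [← hxv n] at e1
    simp only [QQ, zero_add, h.zero] at e1
    have e2 : inner ℝ (v n) (v n) - ε' ≤ 𝔼 i, 𝔼 j, ψ (x n i - x n j) := by
      refine Finset.le_expect Finset.univ_nonempty fun i _ =>
        Finset.le_expect Finset.univ_nonempty fun j _ => ?_
      have h2 := C3 n 0 (x n i - x n j) ((norm_sub_le _ _).trans_lt (by linarith [hx n i, hx n j]))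
      rw [zero_add, h.zero] at h2
      linarith [(abs_le.1 h2).1, (abs_le.1 (C2 (x n i - x n j) n)).2]
    simp only [Finset.expect_sub_distrib]
    linarith
  have hZ := hR _ hP (fun z w hzw => by simp only [hrad z w hzw, hψr z w hzw]) (by linarith) hN
  refine ⟨ι, i1, i2, x, d, d0, fun n a b hab => ?_, fun n a b hab => ?_⟩
  · rw [h.qq, h.qq, h.qq, ← hxv, ← hxv, real_inner_self_eq_norm_sq, real_inner_self_eq_norm_sq,
      ← norm_sub_sq_real]
    have h2 := TK b _ _ (K1 n (n + 1) (Nat.le_succ n) (a - b) (by linarith [d0 n]))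
    rw [← h.add, add_sub_cancel] at h2
    have h3 := pow_le_pow_left₀ (norm_nonneg _) h2 2
    nlinarith [η0 n, η1 n, η2 n]
  · obtain ⟨u, hu1, hu2⟩ := exists_unit (a - b)
    rw [h.qq, ← hxv, h.move]
    have h2 := C3 n u (a - b - u) (by linarith [d0 n])
    rw [add_sub_cancel] at h2
    have h3 := hZ u (by rintro rfl; simp at hu1)
    simp only [hu u hu1] at h3
    linarith [(abs_le.1 h2).2, (abs_le.1 (C2 u n)).2, η2 n]

end Vale.Agent.P032
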