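import Vale.Agent.P032.Stmts

/-!
P032: two unit circles crossing transversally (`CrossStmt`).
-/

namespace Vale.Agent.P032

open MeasureTheory Set Filter Topology Metric
open scoped Real ENNReal BigOperators

namespace CrossA

/-- linear approximation from a bound on the derivative -/
theorem lin {f f' : ℝ → ℝ} (hf : ∀ x, HasDerivAt f (f' x) x) {l r A ε : ℝ}
    (h : ∀ x ∈ Icc l r, |f' x - A| ≤ ε) {x y : ℝ} (hx : x ∈ Icc l r) (hy : y ∈ Icc l r) :
    |f x - f y - A * (x - y)| ≤ ε * |x - y| := by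
  have h1 : ∀ z ∈ Icc l r, HasDerivWithinAt (fun z => f z - A * z) (f' z - A) (Icc l r) z := by
    intro z _
    have h2 := (hf z).sub ((hasDerivAt_id z).const_mul A)
    simp only [mul_one] at h2
    exact h2.hasDerivWithinAt
  have h3 := (convex_Icc l r).norm_image_sub_le_of_norm_hasDerivWithin_le h1
    (fun z hz => by rw [Real.norm_eq_abs]; exact h z hz) hy hx
  rw [Real.norm_eq_abs, Real.norm_eq_abs] at h3
  have h4 : f x - f y - A * (x - y) = f x - A * x - (f y - A * y) := by ring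
  rw [h4]; exact h3

/-- the abstract core -/
theorem core (G : ℝ → ℝ → ℝ) (a₀ b₀ A B ρ M ε : ℝ) (hA : A ≠ 0) (hB : B ≠ 0) (hρ : 0 < ρ)
    (hM : M = 4 * |A| / |B|) (hε : ε = 1 / 13)
    (hc : ∀ a, Continuous (G a))
    (h1 : ∀ a ∈ closedBall a₀ ρ, ∀ a' ∈ closedBall a₀ ρ, ∀ b ∈ closedBall b₀ (M * ρ),
      |G a b - G a' b - A * (a - a')| ≤ |A| / 2 * |a - a'|)
    (h2 : ∀ a ∈ closedBall a₀ ρ, ∀ b ∈ closedBall b₀ (M * ρ), ∀ b' ∈ closedBall b₀ (M * ρ),
      |G a b - G a b' - B * (b - b')| ≤ |B| / 2 * |b - b'|)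
    (h0 : |G a₀ b₀| ≤ |A| / 2 * ρ) (P Q : Set ℝ)
    (hP : volume (closedBall a₀ ρ \ P) ≤ ENNReal.ofReal (ε * ρ))
    (hQ : volume (closedBall b₀ (M * ρ) \ Q) ≤ ENNReal.ofReal (ε * (M * ρ))) :
    ∃ a ∈ P, ∃ b ∈ Q, G a b = 0 := by
  classical
  by_contra hno
  push Not at hno
  have hA' : 0 < |A| := abs_pos.mpr hA
  have hB' : 0 < |B| := abs_pos.mpr hB
  have hM0 : 0 < M := by rw [hM]; positivity
  have hMρ : 0 < M * ρ := mul_pos hM0 hρ
  have hMB : |B| * M = 4 * |A| := by rw [hM]; field_simp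
  -- every `a` has a root
  have hroot : ∀ a ∈ closedBall a₀ ρ, ∃ b ∈ closedBall b₀ (M * ρ), G a b = 0 := by
    intro a ha
    have ha' : |a - a₀| ≤ ρ := by simpa [Real.dist_eq] using ha
    have hb0 : b₀ ∈ closedBall b₀ (M * ρ) := mem_closedBall_self hMρ.le
    have hb1 : b₀ + M * ρ ∈ closedBall b₀ (M * ρ) := by
      simp [abs_of_pos hM0, abs_of_pos hρ]
    have hb2 : b₀ - M * ρ ∈ closedBall b₀ (M * ρ) := by
      simp [abs_of_pos hM0, abs_of_pos hρ]
    have e1 := h1 a ha a₀ (mem_closedBall_self hρ.le) b₀ hb0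
    have e2 : |G a b₀| ≤ 2 * |A| * ρ := by
      have e3 : G a b₀ = (G a b₀ - G a₀ b₀ - A * (a - a₀)) + G a₀ b₀ + A * (a - a₀) := by ring
      have e4 : |A * (a - a₀)| ≤ |A| * ρ := by
        rw [abs_mul]; exact mul_le_mul_of_nonneg_left ha' hA'.le
      have e5 : |A| / 2 * |a - a₀| ≤ |A| / 2 * ρ :=
        mul_le_mul_of_nonneg_left ha' (by positivity)
      have e6 := abs_add_three (G a b₀ - G a₀ b₀ - A * (a - a₀)) (G a₀ b₀) (A * (a - a₀))
      rw [← e3] at e6
      linarith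
    have e7 := h2 a ha _ hb1 _ hb0
    have e8 := h2 a ha _ hb2 _ hb0
    have e9 : b₀ + M * ρ - b₀ = M * ρ := by ring
    have e10 : b₀ - M * ρ - b₀ = -(M * ρ) := by ring
    rw [e9, abs_of_pos hMρ] at e7
    rw [e10, abs_neg, abs_of_pos hMρ] at e8
    have e11 : |B| / 2 * (M * ρ) = 2 * |A| * ρ := by
      have : |B| / 2 * (M * ρ) = (|B| * M) * ρ / 2 := by ring
      rw [this, hMB]; ring
    rw [e11] at e7 e8
    have hle : b₀ - M * ρ ≤ b₀ + M * ρ := by linarith
    rw [abs_le] at e7 e8 e2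
    have hI : Icc (b₀ - M * ρ) (b₀ + M * ρ) = closedBall b₀ (M * ρ) :=
      (Real.closedBall_eq_Icc).symm
    rcases lt_or_gt_of_ne hB with hneg | hpos
    · have e12 : B * (M * ρ) = -(4 * |A| * ρ) := by
        rw [← hMB, abs_of_neg hneg]; ring
      have := intermediate_value_Icc' hle (hc a).continuousOn
        (show (0 : ℝ) ∈ Icc (G a (b₀ + M * ρ)) (G a (b₀ - M * ρ)) from
          ⟨by linarith [e7.2, e2.2], by
            have e13 : B * -(M * ρ) = 4 * |A| * ρ := by rw [mul_neg, e12]; ring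
            linarith [e8.1, e2.1]⟩)
      obtain ⟨b, hb, hb'⟩ := this
      exact ⟨b, hI ▸ hb, hb'⟩
    · have e12 : B * (M * ρ) = 4 * |A| * ρ := by
        rw [← hMB, abs_of_pos hpos]; ring
      have := intermediate_value_Icc hle (hc a).continuousOn
        (show (0 : ℝ) ∈ Icc (G a (b₀ - M * ρ)) (G a (b₀ + M * ρ)) from
          ⟨by
            have e13 : B * -(M * ρ) = -(4 * |A| * ρ) := by rw [mul_neg, e12]
            linarith [e8.2, e2.2], by linarith [e7.1, e2.1]⟩)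
      obtain ⟨b, hb, hb'⟩ := this
      exact ⟨b, hI ▸ hb, hb'⟩
  -- the roots form a Lipschitz graph over `b`
  set K : ℝ := 3 * |B| / |A| with hK
  have hK0 : 0 ≤ K := by rw [hK]; positivity
  have hlip : ∀ a ∈ closedBall a₀ ρ, ∀ a' ∈ closedBall a₀ ρ, ∀ b ∈ closedBall b₀ (M * ρ),
      ∀ b' ∈ closedBall b₀ (M * ρ), G a b = 0 → G a' b' = 0 → |a - a'| ≤ K * |b - b'| := by
    intro a ha a' ha' b hb b' hb' z1 z2
    have e1 := h1 a ha a' ha' b hb
    have e2 := h2 a' ha' b hb b' hb'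
    rw [z1] at e1
    rw [z2] at e2
    have e3 : A * (a - a') = -(0 - G a' b - A * (a - a')) - (G a' b - 0 - B * (b - b'))
        - B * (b - b') := by ring
    have e4 : |A * (a - a')| ≤ |0 - G a' b - A * (a - a')| + |G a' b - 0 - B * (b - b')|
        + |B * (b - b')| := by
      conv_lhs => rw [e3]
      refine (abs_sub _ _).trans (add_le_add_left ?_ _)
      refine (abs_sub _ _).trans ?_
      rw [abs_neg]
    rw [abs_mul, abs_mul] at e4
    have e5 : |A| * |a - a'| ≤ 3 * |B| * |b - b'| := by linarith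
    rw [hK, div_mul_eq_mul_div, le_div_iff₀ hA']
    linarith
  set S : Set ℝ := {b | b ∈ closedBall b₀ (M * ρ) \ Q ∧ ∃ a ∈ closedBall a₀ ρ, G a b = 0} with hS
  let g : ℝ → ℝ := fun b => if h : ∃ a ∈ closedBall a₀ ρ, G a b = 0 then h.choose else 0
  have hg : ∀ b ∈ S, g b ∈ closedBall a₀ ρ ∧ G (g b) b = 0 := by
    intro b hb
    have h := hb.2
    simp only [g, dif_pos h]
    exact h.choose_spec
  have hgl : LipschitzOnWith K.toNNReal g S := by
    refine LipschitzOnWith.of_dist_le_mul fun b hb b' hb' => ?_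
    rw [Real.coe_toNNReal _ hK0, Real.dist_eq, Real.dist_eq]
    exact hlip _ (hg b hb).1 _ (hg b' hb').1 _ hb.1.1 _ hb'.1.1 (hg b hb).2 (hg b' hb').2
  have hcov : closedBall a₀ ρ ⊆ (closedBall a₀ ρ \ P) ∪ g '' S := by
    intro a ha
    by_cases haP : a ∈ P
    · obtain ⟨b, hb, hab⟩ := hroot a ha
      have hbS : b ∈ S := ⟨⟨hb, fun hq => hno a haP b hq hab⟩, a, ha, hab⟩
      refine Or.inr ⟨b, hbS, ?_⟩
      have := hlip _ (hg b hbS).1 a ha b hb b hb (hg b hbS).2 hab
      simp only [sub_self, abs_zero, mul_zero, abs_nonpos_iff] at this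
      linarith
    · exact Or.inl ⟨ha, haP⟩
  have him : volume (g '' S) ≤ ENNReal.ofReal K * volume S := by
    have := hgl.hausdorffMeasure_image_le (d := 1) zero_le_one
    rw [hausdorffMeasure_real, ENNReal.rpow_one] at this
    exact this
  have hSQ : volume S ≤ ENNReal.ofReal (ε * (M * ρ)) :=
    (measure_mono fun b hb => hb.1).trans hQ
  have hε0 : 0 ≤ ε := by rw [hε]; norm_num
  have htot : volume (closedBall a₀ ρ) ≤ ENNReal.ofReal (ε * ρ + K * (ε * (M * ρ))) := by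
    calc volume (closedBall a₀ ρ) ≤ volume ((closedBall a₀ ρ \ P) ∪ g '' S) := measure_mono hcov
      _ ≤ volume (closedBall a₀ ρ \ P) + volume (g '' S) := measure_union_le _ _
      _ ≤ ENNReal.ofReal (ε * ρ) + ENNReal.ofReal K * ENNReal.ofReal (ε * (M * ρ)) :=
          add_le_add hP (him.trans (mul_le_mul_right hSQ _))
      _ = ENNReal.ofReal (ε * ρ + K * (ε * (M * ρ))) := by
          rw [← ENNReal.ofReal_mul hK0, ← ENNReal.ofReal_add (by positivity) (by positivity)]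
  rw [Real.volume_closedBall, ENNReal.ofReal_le_ofReal_iff (by positivity)] at htot
  have hKM : K * M = 12 := by rw [hK, hM]; field_simp; norm_num
  have e1 : K * (ε * (M * ρ)) = (K * M) * ε * ρ := by ring
  rw [e1, hKM, hε] at htot
  linarith

/-- the function whose zeros are the crossings -/
noncomputable def GG (w : ℂ) (a b : ℝ) : ℝ :=
  (w.re + Real.cos a - Real.cos b) ^ 2 + (w.im + Real.sin a - Real.sin b) ^ 2 - 1

noncomputable def Ga (w : ℂ) (a b : ℝ) : ℝ :=
  2 * (w.re + Real.cos a - Real.cos b) * (-Real.sin a) +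
    2 * (w.im + Real.sin a - Real.sin b) * Real.cos a

noncomputable def Gb (w : ℂ) (a b : ℝ) : ℝ :=
  2 * (w.re + Real.cos a - Real.cos b) * Real.sin b +
    2 * (w.im + Real.sin a - Real.sin b) * (-Real.cos b)

theorem GG_eq (w : ℂ) (a b : ℝ) : GG w a b = ‖w + e a - e b‖ ^ 2 - 1 := by
  rw [Complex.sq_norm, Complex.normSq_apply]
  simp only [GG, Complex.sub_re, Complex.add_re, Complex.sub_im, Complex.add_im, e_re, e_im]
  ring

theorem hasDerivAt_a (w : ℂ) (a b : ℝ) : HasDerivAt (fun a => GG w a b) (Ga w a b) a := by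
  have h1 := (((Real.hasDerivAt_cos a).const_add w.re).sub_const (Real.cos b)).pow 2
  have h2 := (((Real.hasDerivAt_sin a).const_add w.im).sub_const (Real.sin b)).pow 2
  have h3 := (h1.add h2).sub_const 1
  have h4 : Ga w a b = ((2 : ℕ) : ℝ) * (w.re + Real.cos a - Real.cos b) ^ (2 - 1) * (-Real.sin a) +
      ((2 : ℕ) : ℝ) * (w.im + Real.sin a - Real.sin b) ^ (2 - 1) * Real.cos a := by
    simp [Ga]
  rw [h4]
  exact h3

theorem hasDerivAt_b (w : ℂ) (a b : ℝ) : HasDerivAt (fun b => GG w a b) (Gb w a b) b := by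
  have h1 := ((Real.hasDerivAt_cos b).const_sub (w.re + Real.cos a)).pow 2
  have h2 := ((Real.hasDerivAt_sin b).const_sub (w.im + Real.sin a)).pow 2
  have h3 := (h1.add h2).sub_const 1
  have h4 : Gb w a b = ((2 : ℕ) : ℝ) * (w.re + Real.cos a - Real.cos b) ^ (2 - 1) * (- -Real.sin b) +
      ((2 : ℕ) : ℝ) * (w.im + Real.sin a - Real.sin b) ^ (2 - 1) * (-Real.cos b) := by
    simp [Gb]
  rw [h4]
  exact h3

end CrossA

open CrossA in
theorem crossS : CrossStmt := by
  intro w₀ a₀ b₀ P Q h0 hA hB hP hQ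
  set A := Ga w₀ a₀ b₀ with hAdef
  set B := Gb w₀ a₀ b₀ with hBdef
  have hA0 : A ≠ 0 := by
    intro h
    apply hA
    simp only [Complex.mul_im, Complex.sub_re, Complex.add_re, Complex.sub_im, Complex.add_im,
      e_re, e_im, Real.cos_neg, Real.sin_neg]
    simp only [hAdef, Ga] at h
    linarith
  have hB0 : B ≠ 0 := by
    intro h
    apply hB
    simp only [Complex.mul_im, Complex.sub_re, Complex.add_re, Complex.sub_im, Complex.add_im,
      e_re, e_im, Real.cos_neg, Real.sin_neg]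
    simp only [hBdef, Gb] at h
    linarith
  have hA' : 0 < |A| := abs_pos.mpr hA0
  have hB' : 0 < |B| := abs_pos.mpr hB0
  set M : ℝ := 4 * |A| / |B| with hM
  have hM0 : 0 < M := by rw [hM]; positivity
  -- continuity of the two derivatives
  have cA : Continuous fun p : ℂ × ℝ × ℝ => Ga p.1 p.2.1 p.2.2 := by unfold Ga; fun_prop
  have cB : Continuous fun p : ℂ × ℝ × ℝ => Gb p.1 p.2.1 p.2.2 := by unfold Gb; fun_prop
  obtain ⟨r₁, hr₁, hr₁'⟩ := Metric.continuousAt_iff.mp (cA.continuousAt (x := (w₀, a₀, b₀)))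
    (|A| / 2) (by positivity)
  obtain ⟨r₂, hr₂, hr₂'⟩ := Metric.continuousAt_iff.mp (cB.continuousAt (x := (w₀, a₀, b₀)))
    (|B| / 2) (by positivity)
  set r := min r₁ r₂ with hr
  have hr0 : 0 < r := lt_min hr₁ hr₂
  -- choice of the radius
  have t1 : Tendsto (fun ρ : ℝ => M * ρ) (𝓝[>] 0) (𝓝[>] 0) := by
    refine tendsto_nhdsWithin_of_tendsto_nhds_of_eventually_within _ ?_ ?_
    · have : Tendsto (fun ρ : ℝ => M * ρ) (𝓝 0) (𝓝 (M * 0)) :=
        (continuous_const.mul continuous_id).tendsto 0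
      rw [mul_zero] at this
      exact this.mono_left nhdsWithin_le_nhds
    · filter_upwards [self_mem_nhdsWithin] with ρ hρ
      exact mul_pos hM0 hρ
  have t2 : ∀ᶠ ρ in 𝓝[>] (0 : ℝ), ρ < r := nhdsWithin_le_nhds (gt_mem_nhds hr0)
  obtain ⟨ρ, hρ1, hρ2, hρ3, hρ4, hρ5⟩ := ((hP (1 / 13) (by norm_num)).and
    ((t1.eventually (hQ (1 / 13) (by norm_num))).and
      (t2.and ((t1.eventually t2).and self_mem_nhdsWithin)))).exists
  have hρ : 0 < ρ := hρ5
  have cG : Continuous fun w : ℂ => GG w a₀ b₀ := by unfold GG; fun_prop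
  obtain ⟨r₃, hr₃, hr₃'⟩ := Metric.continuousAt_iff.mp (cG.continuousAt (x := w₀))
    (|A| / 2 * ρ) (by positivity)
  refine ⟨min r r₃, lt_min hr0 hr₃, fun w hw P' Q' hP' hQ' => ?_⟩
  have hw1 : dist w w₀ < r := by rw [dist_eq_norm]; exact hw.trans_le (min_le_left _ _)
  have hw2 : dist w w₀ < r₃ := by rw [dist_eq_norm]; exact hw.trans_le (min_le_right _ _)
  have hbox : ∀ a ∈ closedBall a₀ ρ, ∀ b ∈ closedBall b₀ (M * ρ),
      dist ((w, a, b) : ℂ × ℝ × ℝ) (w₀, a₀, b₀) < r := by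
    intro a ha b hb
    rw [Prod.dist_eq, Prod.dist_eq]
    exact max_lt hw1 (max_lt ((mem_closedBall.mp ha).trans_lt hρ3)
      ((mem_closedBall.mp hb).trans_lt hρ4))
  have key := core (GG w) a₀ b₀ A B ρ M (1 / 13) hA0 hB0 hρ hM rfl
    (fun a => by unfold GG; fun_prop)
    (fun a ha a' ha' b hb => by
      rw [Real.closedBall_eq_Icc] at ha ha'
      refine lin (fun x => hasDerivAt_a w x b) (fun x hx => ?_) ha ha'
      rw [← Real.closedBall_eq_Icc] at hx
      have := hr₁' ((hbox x hx b hb).trans_le (min_le_left _ _))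
      rw [Real.dist_eq] at this
      exact this.le)
    (fun a ha b hb b' hb' => by
      rw [Real.closedBall_eq_Icc] at hb hb'
      refine lin (fun x => hasDerivAt_b w a x) (fun x hx => ?_) hb hb'
      rw [← Real.closedBall_eq_Icc] at hx
      have := hr₂' ((hbox a ha x hx).trans_le (min_le_right _ _))
      rw [Real.dist_eq] at this
      exact this.le)
    (by
      have := hr₃' hw2
      rw [Real.dist_eq, GG_eq w₀, h0] at this
      simpa using this.le)
    P' Q'
    ((measure_mono_ae (hP'.mono fun a ha hm => ⟨hm.1, fun h => hm.2 (ha h)⟩)).trans hρ1)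
    ((measure_mono_ae (hQ'.mono fun a ha hm => ⟨hm.1, fun h => hm.2 (ha h)⟩)).trans hρ2)
  obtain ⟨a, ha, b, hb, hab⟩ := key
  refine ⟨a, ha, b, hb, ?_⟩
  rw [GG_eq] at hab
  have h1 : ‖w + e a - e b‖ ^ 2 = 1 ^ 2 := by linarith
  exact (pow_left_inj₀ (norm_nonneg _) zero_le_one two_ne_zero).mp h1

end Vale.Agent.P032
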