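import Vale.Agent.P032.Stmts

/-! P032: contacts are stars, and cuts are crossed by contacts. -/

namespace Vale.Agent.P032

open MeasureTheory Set Filter Topology Metric
open scoped Real ENNReal BigOperators

namespace CutFA

theorem exists_of_ae {Θ : Set ℝ} (h0 : volume Θ ≠ 0) {P : ℝ → Prop} (h : ∀ᵐ t, t ∈ Θ → P t) :
    ∃ t, P t := by
  by_contra hc
  push Not at hc
  refine h0 (measure_mono_null ?_ (ae_iff.1 h))
  exact fun t ht h' => hc t (h' ht)

theorem sin_ae (t₁ : ℝ) : ∀ᵐ t : ℝ, Real.sin (t₁ - t) ≠ 0 := by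
  rw [ae_iff]
  refine measure_mono_null (t := range fun n : ℤ => t₁ - n * π) (fun t ht => ?_)
    ((countable_range _).measure_zero _)
  obtain ⟨n, hn⟩ := Real.sin_eq_zero_iff.1 (not_not.1 ht)
  exact ⟨n, by simp only [hn]; ring⟩

theorem intOn {f : ℂ → ℝ} (hm : Measurable f) (hb : ∀ z, 0 ≤ f z ∧ f z ≤ 1) (a : ℂ) (t : ℝ) :
    IntegrableOn f (ball a t) :=
  Measure.integrableOn_of_bounded (M := 1) measure_ball_lt_top.ne hm.aestronglyMeasurable
    (Eventually.of_forall fun z => by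
      rw [Real.norm_eq_abs, abs_of_nonneg (hb z).1]
      exact (hb z).2)

theorem av_sum {f : Fin 5 → ℂ → ℝ} (hm : ∀ j, Measurable (f j))
    (hb : ∀ j z, 0 ≤ f j z ∧ f j z ≤ 1) (I : Finset (Fin 5)) (a : ℂ) (t : ℝ) :
    av (fun z => ∑ j ∈ I, f j z) a t = ∑ j ∈ I, av (f j) a t := by
  unfold av
  rw [integral_finsetSum _ fun j _ => intOn (hm j) (hb j) a t, Finset.sum_div]

theorem zero_ae {f : ℂ → ℝ} (hm : Measurable f) (hb : ∀ z, 0 ≤ f z ∧ f z ≤ 1)
    (h : av f 0 1 = 0) : ∀ᵐ z : ℂ, ‖z‖ < 1 → f z = 0 := by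
  unfold av at h
  have hpi : π * 1 ^ 2 ≠ 0 := by positivity
  rw [div_eq_zero_iff, or_iff_left hpi, setIntegral_eq_zero_iff_of_nonneg_ae
    (Eventually.of_forall fun z => (hb z).1) (intOn hm hb 0 1)] at h
  have h1 := (ae_restrict_iff' measurableSet_ball).1 h
  exact h1.mono fun z hz hz' => hz (mem_ball_zero_iff.2 hz')

theorem av_zero {f : ℂ → ℝ} (h : ∀ᵐ z : ℂ, ‖z‖ < 1 → f z = 0) {a : ℂ} {t : ℝ}
    (ha : ‖a‖ + t ≤ 1) : av f a t = 0 := by
  unfold av
  rw [setIntegral_eq_zero_of_ae_eq_zero, zero_div]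
  refine h.mono fun z hz hz' => hz ?_
  have h1 := norm_le_norm_add_norm_sub' z a
  rw [mem_ball, dist_eq_norm] at hz'
  linarith

theorem tend {U : Filter (ℂ × ℝ)} {x : ℂ} (hU : U ≤ 𝓝 x ×ˢ 𝓝[>] 0) (a : ℂ) :
    Tendsto (fun w : ℂ × ℝ => w.1 + w.2 * a) U (𝓝 x) ∧ Tendsto (fun w : ℂ × ℝ => w.2) U (𝓝 0) ∧
      ∀ᶠ w in U, 0 < w.2 := by
  have h1 : Tendsto (fun w : ℂ × ℝ => w.1) U (𝓝 x) := tendsto_fst.mono_left hU
  have h2 : Tendsto (fun w : ℂ × ℝ => w.2) U (𝓝[>] 0) := tendsto_snd.mono_left hU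
  have h3 := h2.mono_right nhdsWithin_le_nhds
  refine ⟨?_, h3, h2.eventually self_mem_nhdsWithin⟩
  have h4 := h1.add (((Complex.continuous_ofReal.tendsto 0).comp h3).mul_const a)
  simpa using h4

theorem allstar (hD : DensStmt) (hP : PvStmt) (hPm : PmStmt) (hB : BlowStmt) (hC : BCoreStmt)
    (C : Col) (x : ℂ) (p : Fin 5 → ℝ) (I : Finset (Fin 5)) (hp : C.Lim x p)
    (h0 : 0 < ∑ j ∈ I, p j) (h1 : ∑ j ∈ I, p j < 1)
    (hmin : ∀ q, C.Lim x q → (∀ j, p j = 0 → q j = 0) → 0 < ∑ j ∈ I, q j → ∑ j ∈ I, q j < 1 →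
      ∀ j, q j = 0 → p j = 0) {k l : Fin 5} (hk : p k ≠ 0) (hl : p l ≠ 0) : C.Star x k l := by
  intro Θ hm _ hv hA
  obtain ⟨t₁, d₁⟩ := exists_of_ae hv (hD.1 Θ hm)
  obtain ⟨t₂, d₂, hs⟩ := exists_of_ae hv (P := fun t => Dens1 Θ t ∧ Real.sin (t₁ - t) ≠ 0)
    (((hD.1 Θ hm).and (sin_ae t₁)).mono fun t ht h => ⟨ht.1 h, ht.2⟩)
  obtain ⟨U, f, hU, fm, fb, f0, fl⟩ := hB C x p hp
  obtain ⟨-, -, -, hLeb, hP⟩ := hP
  obtain ⟨-, hS, hcl, -⟩ := hP C
  have L1 : ∀ (a : ℂ) (t : ℝ), 0 < t → ‖a‖ + t ≤ 1 → C.Lim x (fun j => av (f j) a t) := by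
    intro a t ht ha ε hε
    obtain ⟨k1, k2, k3⟩ := tend hU a
    have k4 : Tendsto (fun w : ℂ × ℝ => w.2 * t) U (𝓝 0) := by simpa using k2.mul_const t
    have k5 : ∀ᶠ w in (U : Filter (ℂ × ℝ)), ∀ j,
        |C.pv (w.1 + w.2 * a) (w.2 * t) j - av (f j) a t| < ε :=
      eventually_all.2 fun j => Metric.tendsto_nhds.1 (fl j a t ht ha) ε hε
    obtain ⟨w, w1, w2, w3, w4⟩ := ((Metric.tendsto_nhds.1 k1 ε hε).and
      (k3.and ((k4.eventually (gt_mem_nhds hε)).and k5))).exists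
    exact ⟨_, _, w1, mul_pos w2 ht, w3, w4⟩
  have L2 : ∀ j, p j = 0 → ∀ᵐ z : ℂ, ‖z‖ < 1 → f j z = 0 := fun j hj =>
    zero_ae (fm j) (fb j) ((f0 j).trans hj)
  have pos : ∀ q, C.Lim x q → (∀ j, p j = 0 → q j = 0) → 0 < ∑ j ∈ I, q j → ∑ j ∈ I, q j < 1 →
      0 < q k ∧ 0 < q l := fun q q1 q2 q3 q4 =>
    ⟨lt_of_le_of_ne ((hS x q q1).1 k) fun e => hk (hmin q q1 q2 q3 q4 k e.symm),
      lt_of_le_of_ne ((hS x q q1).1 l) fun e => hl (hmin q q1 q2 q3 q4 l e.symm)⟩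
  have hK : IsCompact {q : Fin 5 → ℝ | C.Lim x q ∧ (∀ j, p j = 0 → q j = 0) ∧
      ∑ j ∈ I, q j = 1 / 2} := by
    refine (isCompact_Icc (a := (0 : Fin 5 → ℝ)) (b := 1)).of_isClosed_subset ?_ ?_
    · refine (hcl.preimage (continuous_const.prodMk continuous_id)).inter (IsClosed.inter ?_ ?_)
      · change IsClosed {q : Fin 5 → ℝ | ∀ j, p j = 0 → q j = 0}
        simp only [ofPred_forall]
        exact isClosed_iInter fun j => isClosed_iInter fun _ =>
          isClosed_eq (continuous_apply j) continuous_const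
      · exact isClosed_eq (continuous_finsetSum _ fun j _ => continuous_apply j) continuous_const
    · intro q hq
      obtain ⟨s1, s2⟩ := hS x q hq.1
      refine ⟨s1, fun j => ?_⟩
      rw [Pi.one_apply, ← s2]
      exact Finset.single_le_sum (fun j _ => s1 j) (Finset.mem_univ j)
  obtain ⟨η, hη, hη'⟩ := hK.exists_forall_le' (f := fun q => min (q k) (q l)) (a := 0)
    (((continuous_apply k).min (continuous_apply l)).continuousOn) fun q hq =>
      lt_min_iff.2 (pos q hq.1 hq.2.1 (by rw [hq.2.2]; norm_num) (by rw [hq.2.2]; norm_num))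
  have key := hC (f k) (f l) (fun z => ∑ j ∈ I, f j z) (t₁ + π / 2) (t₂ + π / 2) η I.card
    (fm k) (fm l) (Finset.measurable_sum _ fun j _ => fm j) (fb k) (fb l) (fun z => by
      rw [abs_of_nonneg (Finset.sum_nonneg fun j _ => (fb j z).1)]
      simpa using Finset.sum_le_card_nsmul I (fun j => f j z) 1 fun j _ => (fb j z).2)
    (by rwa [add_sub_add_right_eq_sub]) hη ?_ ?_ ?_
  · rw [av_sum fm fb] at key
    simp only [f0] at key
    rcases key with h | h <;> linarith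
  · intro a t ht ha hg
    rw [av_sum fm fb] at hg
    exact le_min_iff.1 (hη' (fun j => av (f j) a t)
      ⟨L1 a t ht ha, fun j hj => av_zero (L2 j hj) ha, hg⟩)
  · have e1 : ∀ᵐ a : ℂ, ∀ j, Tendsto (fun r => av (f j) a r) (𝓝[>] 0) (𝓝 (f j a)) :=
      ae_all_iff.2 fun j => hLeb (f j) 1 (fm j) fun z => by
        rw [abs_of_nonneg (fb j z).1]
        exact (fb j z).2
    have e2 : ∀ᵐ a : ℂ, ∀ j, p j = 0 → ‖a‖ < 1 → f j a = 0 :=
      ae_all_iff.2 fun j => by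
        by_cases hj : p j = 0
        · exact (L2 j hj).mono fun a ha _ => ha
        · exact Eventually.of_forall fun a h => absurd h hj
    filter_upwards [e1, e2] with a a1 a2 ha
    have a3 : C.Lim x (fun j => f j a) := by
      refine hcl.mem_of_tendsto (f := fun r : ℝ => (x, fun j => av (f j) a r)) (b := 𝓝[>] 0)
        (x := (x, fun j => f j a)) (tendsto_const_nhds.prodMk_nhds (tendsto_pi_nhds.2 a1)) ?_
      filter_upwards [Ioo_mem_nhdsGT (show (0 : ℝ) < 1 - ‖a‖ by linarith)] with r hr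
      exact L1 a r hr.1 (by linarith [hr.2])
    obtain ⟨s1, s2⟩ := hS x _ a3
    have s3 : 0 ≤ ∑ j ∈ I, f j a := Finset.sum_nonneg fun j _ => s1 j
    have s4 : ∑ j ∈ I, f j a ≤ 1 := s2 ▸
      Finset.sum_le_sum_of_subset_of_nonneg (Finset.subset_univ I) fun j _ _ => s1 j
    rcases s3.eq_or_lt with h | h
    · exact Or.inl h.symm
    rcases s4.eq_or_lt with h' | h'
    · exact Or.inr (Or.inl h')
    · exact Or.inr (Or.inr (pos _ a3 (fun j hj => a2 j hj ha) h h'))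
  · intro θ hθ a s hs0 ha hb η' hη'0
    obtain ⟨t, dt, rfl⟩ : ∃ t, Dens1 Θ t ∧ θ = t + π / 2 := by
      rcases hθ with rfl | rfl
      · exact ⟨t₁, d₁, rfl⟩
      · exact ⟨t₂, d₂, rfl⟩
    have he : e (t + π / 2) = Complex.I * e t := by
      rw [e_add, mul_comm, e_eq (π / 2)]
      simp
    rw [he] at hb ⊢
    obtain ⟨r₀, hr₀, hr⟩ := hPm C x Θ t k l hA dt (η' / 2) |s| |s| (by linarith) (abs_pos.2 hs0)
    filter_upwards [Ioo_mem_nhdsGT hr₀, Ioo_mem_nhdsGT (show (0 : ℝ) < 1 - ‖a‖ by linarith),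
      Ioo_mem_nhdsGT (show (0 : ℝ) < 1 - ‖a + s * (Complex.I * e t)‖ by linarith)]
      with r r1 r2 r3
    rintro ⟨g1, g2⟩
    obtain ⟨δ, hδ, hδ'⟩ := hr r r1.1 r1.2
    obtain ⟨k1, k2, k3⟩ := tend hU a
    have k4 := (fl k a r r1.1 (by linarith [r2.2])).eventually
      (lt_mem_nhds (show η' / 2 < av (f k) a r by linarith))
    have k5 := (fl l (a + s * (Complex.I * e t)) r r1.1 (by linarith [r3.2])).eventually
      (lt_mem_nhds (show η' / 2 < av (f l) (a + s * (Complex.I * e t)) r by linarith))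
    obtain ⟨w, w1, w2, w3, w4, w5⟩ := ((Metric.tendsto_nhds.1 k1 δ hδ).and
      (k3.and ((k2.eventually (gt_mem_nhds hδ)).and (k4.and k5)))).exists
    refine hδ' w.2 (w.1 + w.2 * a) s w2 w3 w1 le_rfl le_rfl ⟨w4.le, ?_⟩
    rw [add_assoc, ← mul_add]
    exact w5.le

theorem exists_perm {a b c : Fin 5} (h1 : a ≠ b) (h2 : a ≠ c) (h3 : b ≠ c) :
    ∃ s : Equiv.Perm (Fin 5), s 0 = a ∧ s 1 = b ∧ s 2 = c := by
  obtain ⟨s, hs⟩ := Equiv.Perm.exists_extending_pair (f := (![0, 1, 2] : Fin 3 → Fin 5))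
    (g := ![a, b, c]) (by decide) (by
      intro i j h
      fin_cases i <;> fin_cases j <;> simp_all [eq_comm])
  exact ⟨s, hs 0, hs 1, hs 2⟩

end CutFA

open CutFA in
theorem cutS (hD : DensStmt) (hP : PvStmt) (hPm : PmStmt) (hH : HalfStmt) (hB : BlowStmt)
    (hC : BCoreStmt) : CutStmt := by
  classical
  intro C x
  have hS := (hP.2.2.2.2 C).2.1 x
  constructor
  · rintro i j ⟨hij, hp⟩
    refine allstar hD hP hPm hB hC C x _ {i} hp (by simp) (by simp; norm_num) ?_ (by simp)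
      (by simp)
    intro q q1 q2 q3 q4 m hm
    rw [Finset.sum_singleton] at q3 q4
    have e := (hS q q1).2
    rw [Fintype.sum_eq_add i j hij fun c hc => q2 c (if_neg (not_or.2 hc))] at e
    refine if_neg ?_
    rintro (rfl | rfl) <;> linarith
  · intro hcyc q I q1 q3 q4
    obtain ⟨p, ⟨p1, p2, p3, p4⟩, hmin⟩ :=
      (measure fun p : Fin 5 → ℝ => (Finset.univ.filter fun j => p j ≠ 0).card).wf.has_min
        {p | C.Lim x p ∧ (∀ j, q j = 0 → p j = 0) ∧ 0 < ∑ j ∈ I, p j ∧ ∑ j ∈ I, p j < 1}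
        ⟨q, q1, fun _ h => h, q3, q4⟩
    have star : ∀ {k l}, p k ≠ 0 → p l ≠ 0 → C.Star x k l := fun hk hl => by
      refine allstar hD hP hPm hB hC C x p I p1 p3 p4 (fun r r1 r2 r3 r4 m hm => ?_) hk hl
      have e1 : (Finset.univ.filter fun j => p j ≠ 0).card
          ≤ (Finset.univ.filter fun j => r j ≠ 0).card :=
        not_lt.1 fun h => hmin r ⟨r1, fun j hj => r2 j (p2 j hj), r3, r4⟩ h
      have e2 : (Finset.univ.filter fun j => r j ≠ 0) ⊆ Finset.univ.filter fun j => p j ≠ 0 :=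
        fun j hj => Finset.mem_filter.2
          ⟨Finset.mem_univ j, fun h => (Finset.mem_filter.1 hj).2 (r2 j h)⟩
      have e3 := Finset.eq_of_subset_of_card_le e2 e1
      by_contra hc
      have e4 : m ∈ Finset.univ.filter fun j => p j ≠ 0 :=
        Finset.mem_filter.2 ⟨Finset.mem_univ m, hc⟩
      rw [← e3] at e4
      exact (Finset.mem_filter.1 e4).2 hm
    obtain ⟨i, hi, pi⟩ := Finset.exists_ne_zero_of_sum_ne_zero p3.ne'
    obtain ⟨j, hj, pj⟩ : ∃ j, j ∉ I ∧ p j ≠ 0 := by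
      by_contra hc
      push Not at hc
      have e := (hS p p1).2
      rw [← Finset.sum_subset (Finset.subset_univ I) fun j _ hj => hc j hj] at e
      linarith
    have hij : i ≠ j := fun e => hj (e ▸ hi)
    have hsupp : ∀ m, m ≠ i ∧ m ≠ j → p m = 0 := fun m hm => by
      by_contra pm
      obtain ⟨s, s0, s1, s2⟩ := exists_perm hij hm.1.symm hm.2.symm
      refine hcyc ⟨s, ?_⟩
      rw [s0, s1, s2]
      exact ⟨star pi pj, star pj pm, Or.inl (star pm pi)⟩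
    obtain ⟨r, r1, r2, r3⟩ := hH C x p I p1 p3 p4
    have e1 := (hS r r1).2
    rw [Fintype.sum_eq_add i j hij fun c hc => r3 c (hsupp c hc)] at e1
    rw [Finset.sum_eq_single_of_mem i hi fun c hc hci =>
      r3 c (hsupp c ⟨hci, fun e => hj (e ▸ hc)⟩)] at r2
    have e2 : r = fun k => if k = i ∨ k = j then 1 / 2 else 0 := by
      funext k
      split_ifs with h
      · rcases h with rfl | rfl <;> linarith
      · exact r3 k (hsupp k (not_or.1 h))
    exact ⟨i, hi, j, hj, ⟨hij, e2 ▸ r1⟩,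
      lt_of_le_of_ne ((hS q q1).1 i) fun e => pi (p2 i e.symm),
      lt_of_le_of_ne ((hS q q1).1 j) fun e => pj (p2 j e.symm)⟩

end Vale.Agent.P032
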