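import Vale.Agent.P032.Stmts

namespace Vale.Agent.P032

open MeasureTheory Set Filter Topology Metric
open scoped Real ENNReal

namespace DensA

theorem dens_gen {β : Type} [MetricSpace β] [MeasurableSpace β] [BorelSpace β]
    [SecondCountableTopology β] [HasBesicovitchCovering β] (μ : Measure β)
    [IsLocallyFiniteMeasure μ] {A : Set β} (hA : MeasurableSet A) :
    ∀ᵐ x ∂μ, x ∈ A → ∀ c > (0 : ℝ), ∀ᶠ r in 𝓝[>] (0 : ℝ),
      μ (closedBall x r \ A) ≤ ENNReal.ofReal c * μ (closedBall x r) := by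
  filter_upwards [Besicovitch.ae_tendsto_measure_inter_div_of_measurableSet μ hA.compl]
    with x hx hxA c hc
  rw [indicator_of_notMem (notMem_compl_iff.2 hxA)] at hx
  have h0 : (0 : ℝ≥0∞) < ENNReal.ofReal c := ENNReal.ofReal_pos.2 hc
  filter_upwards [hx.eventually (gt_mem_nhds h0)] with r hr
  rw [Set.sdiff_eq, inter_comm]
  exact (ENNReal.div_le_iff_le_mul (Or.inr ENNReal.ofReal_ne_top) (Or.inr h0.ne')).1 hr.le

theorem d1 (A : Set ℝ) (hA : MeasurableSet A) : ∀ᵐ t, t ∈ A → Dens1 A t := by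
  filter_upwards [dens_gen volume hA] with t ht htA ε hε
  filter_upwards [ht htA (ε / 2) (by positivity)] with r hr
  rwa [Real.volume_closedBall, ← ENNReal.ofReal_mul (by positivity),
    show ε / 2 * (2 * r) = ε * r by ring] at hr

theorem d2 (A : Set ℂ) (hA : MeasurableSet A) : ∀ᵐ z, z ∈ A → Dens2 A z := by
  filter_upwards [dens_gen volume hA] with z hz hzA ε hε
  filter_upwards [hz hzA (ε / π) (by positivity), self_mem_nhdsWithin] with r hr hr0
  have hr1 : 0 < r := hr0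
  rwa [Complex.volume_closedBall, ← ENNReal.ofReal_pow hr1.le, ← ENNReal.ofReal_coe_nnreal,
    NNReal.coe_real_pi, ← ENNReal.ofReal_mul (by positivity), ← ENNReal.ofReal_mul (by positivity),
    show ε / π * (r ^ 2 * π) = ε * r ^ 2 by field_simp] at hr

theorem d3 (A : Set ℝ) : ∀ᵐ t, t ∈ A → Ess A t := by
  rw [ae_iff]
  refine measure_null_of_locally_null _ fun t ht => ?_
  obtain ⟨-, h2⟩ := Classical.not_imp.1 ht
  simp only [Ess, not_forall, not_not] at h2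
  obtain ⟨ε, hε, h3⟩ := h2
  refine ⟨_, ?_, h3⟩
  exact inter_mem (mem_of_superset self_mem_nhdsWithin fun s hs => (Classical.not_imp.1 hs).1)
    (mem_nhdsWithin_of_mem_nhds (ball_mem_nhds t hε))

theorem d4 (A : Set ℝ) (t : ℝ) (h : Dens1 A t) : Ess A t := by
  intro ε hε h0
  obtain ⟨r, h1, h2, h3⟩ := ((h 1 one_pos).and (Ioo_mem_nhdsGT hε)).exists
  have h4 : closedBall t r ⊆ (A ∩ ball t ε) ∪ (closedBall t r \ A) := fun s hs => by
    by_cases hA : s ∈ A
    · exact Or.inl ⟨hA, closedBall_subset_ball h3 hs⟩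
    · exact Or.inr ⟨hs, hA⟩
  have h5 := (measure_mono (μ := volume) h4).trans (measure_union_le _ _)
  rw [h0, zero_add, Real.volume_closedBall] at h5
  have h6 := (ENNReal.ofReal_le_ofReal_iff (by linarith)).1 (h5.trans h1)
  linarith

theorem isOpen_not_ess (A : Set ℝ) : IsOpen {t | ¬ Ess A t} := by
  refine Metric.isOpen_iff.2 fun t ht => ?_
  simp only [Ess, mem_ofPred_eq, not_forall, not_not] at ht ⊢
  obtain ⟨ε, hε, h⟩ := ht
  refine ⟨ε, hε, fun s hs => ?_⟩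
  obtain ⟨δ, hδ, h1⟩ := Metric.isOpen_iff.1 isOpen_ball s hs
  exact ⟨δ, hδ, measure_mono_null (inter_subset_inter_right _ h1) h⟩

theorem exists_ess (A : Set ℝ) (h : volume A ≠ 0) : ∃ t, Ess A t := by
  obtain ⟨t, h1, h2⟩ := Measure.exists_mem_of_measure_ne_zero_of_ae h (ae_restrict_of_ae (d3 A))
  exact ⟨t, h2 h1⟩

theorem d5 (A : Set ℝ) (h1 : volume A ≠ 0) (h2 : volume Aᶜ ≠ 0) : ∃ t, Ess A t ∧ Ess Aᶜ t := by
  by_contra hc
  have hd : ∀ t, ¬ Ess A t → Ess Aᶜ t := by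
    intro t ht
    simp only [Ess, not_forall, not_not] at ht
    obtain ⟨ε, hε, h⟩ := ht
    intro δ hδ h'
    have h3 : ball t (min ε δ) ⊆ (A ∩ ball t ε) ∪ (Aᶜ ∩ ball t δ) := fun s hs => by
      by_cases hA : s ∈ A
      · exact Or.inl ⟨hA, ball_subset_ball (min_le_left _ _) hs⟩
      · exact Or.inr ⟨hA, ball_subset_ball (min_le_right _ _) hs⟩
    exact (measure_ball_pos volume t (lt_min hε hδ)).ne'
      (measure_mono_null h3 (measure_union_null h h'))
  have e : {t | ¬ Ess A t}ᶜ = {t | ¬ Ess Aᶜ t} := by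
    ext t
    exact ⟨fun h h' => hc ⟨t, not_not.1 h, h'⟩, fun h h' => h (hd t h')⟩
  have hcl : IsClopen {t | ¬ Ess A t} := ⟨⟨e ▸ isOpen_not_ess _⟩, isOpen_not_ess _⟩
  obtain ⟨s, hs⟩ := exists_ess A h1
  obtain ⟨t, ht⟩ := exists_ess Aᶜ h2
  rcases isClopen_iff.1 hcl with h | h
  · have h3 : t ∈ {t | ¬ Ess A t}ᶜ := by rw [h, compl_empty]; trivial
    rw [e] at h3
    exact h3 ht
  · have h3 : s ∈ {t | ¬ Ess A t} := by rw [h]; trivial
    exact h3 hs

theorem d6 (T : ℝ → ℝ) (L : ℝ) (hL : L ≤ 1 / 2) (hT : NearId T L) (B : Set ℝ) :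
    volume (T ⁻¹' B) ≤ 2 * volume B := by
  have h1 : AntilipschitzWith 2 T := AntilipschitzWith.of_le_mul_dist fun s s' => by
    have h2 := hT s s'
    have h3 := abs_sub (T s - T s') (T s - s - (T s' - s'))
    rw [show T s - T s' - (T s - s - (T s' - s')) = s - s' by ring] at h3
    have h4 := mul_le_mul_of_nonneg_right hL (abs_nonneg (s - s'))
    rw [Real.dist_eq, Real.dist_eq]
    push_cast
    linarith
  have h2 := h1.hausdorffMeasure_preimage_le zero_le_one B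
  rw [hausdorffMeasure_real, ENNReal.rpow_one] at h2
  exact h2

theorem d7 (L Θ : Set ℝ) (T : ℝ → ℝ) (hL : MeasurableSet L) (hΘ : Bornology.IsBounded Θ)
    (hT : NearId T (1 / 2)) (ε : ℝ) (hε : ε > 0) : ∃ δ > (0 : ℝ), ∀ T' : ℝ → ℝ,
      NearId T' (1 / 2) → (∀ s, |T' s - T s| < δ) →
      volume {θ | θ ∈ Θ ∧ T θ ∈ L ∧ T' θ ∉ L} ≤ ENNReal.ofReal ε := by
  obtain ⟨R, hR⟩ := hΘ.subset_closedBall 0
  set L0 := L ∩ closedBall (T 0) (2 * R) with hL0
  have hm : MeasurableSet L0 := hL.inter measurableSet_closedBall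
  have hf : volume L0 ≠ ⊤ :=
    ((measure_mono inter_subset_right).trans_lt measure_closedBall_lt_top).ne
  have h0 : ENNReal.ofReal (ε / 4) ≠ 0 := (ENNReal.ofReal_pos.2 (by positivity)).ne'
  obtain ⟨K, hK1, hK2, hK3⟩ := hm.exists_isCompact_sdiff_lt hf h0
  obtain ⟨U, hU1, hU2, -, hU3⟩ := hm.exists_isOpen_sdiff_lt hf h0
  obtain ⟨δ, hδ, h1⟩ := hK2.exists_thickening_subset_open hU2 (hK1.trans hU1)
  refine ⟨δ, hδ, fun T' hT' hd => ?_⟩
  have h2 : {θ | θ ∈ Θ ∧ T θ ∈ L ∧ T' θ ∉ L} ⊆ T ⁻¹' (L0 \ K) ∪ T' ⁻¹' (U \ L0) := by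
    rintro θ ⟨a1, a2, a3⟩
    by_cases hK : T θ ∈ K
    · exact Or.inr ⟨h1 (mem_thickening_iff.2 ⟨_, hK, hd θ⟩), fun h => a3 h.1⟩
    · refine Or.inl ⟨⟨a2, ?_⟩, hK⟩
      have b1 := hR a1
      rw [mem_closedBall, Real.dist_eq] at b1 ⊢
      have b2 := hT θ 0
      have b3 := abs_add_le (T θ - θ - (T 0 - 0)) (θ - 0)
      rw [show T θ - θ - (T 0 - 0) + (θ - 0) = T θ - T 0 by ring] at b3
      have b4 := abs_nonneg (θ - 0)
      linarith
  refine ((measure_mono h2).trans (measure_union_le _ _)).trans ?_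
  refine (add_le_add ((d6 T _ le_rfl hT _).trans (mul_le_mul_right hK3.le _))
    ((d6 T' _ le_rfl hT' _).trans (mul_le_mul_right hU3.le _))).trans (le_of_eq ?_)
  rw [← ENNReal.ofReal_ofNat, ← ENNReal.ofReal_mul (by norm_num),
    ← ENNReal.ofReal_add (by positivity) (by positivity)]
  congr 1
  ring

end DensA

open DensA in
theorem densS : DensStmt := ⟨d1, d2, d3, d4, d5, d6, d7⟩

end Vale.Agent.P032
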