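import Mathlib

namespace Vale.Agent.P032.FilA

def Al {n : ℕ} (a b : Fin n → Fin 5) (s : Fin n → Bool) (σ : Bool) (j : Fin 5) : Prop :=
  ∀ k, s k = σ → j ≠ a k ∧ j ≠ b k

def Hf {n : ℕ} (a b : Fin n → Fin 5) (p m : Fin n → Bool) (σ : Bool) (j : Fin 5) : Prop :=
  ∀ k, (p k = σ ∧ m k = σ) → j ≠ a k ∧ j ≠ b k

instance {n : ℕ} (a b : Fin n → Fin 5) (s : Fin n → Bool) (σ : Bool) (j : Fin 5) :
    Decidable (Al a b s σ j) := by unfold Al; infer_instance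

instance {n : ℕ} (a b : Fin n → Fin 5) (p m : Fin n → Bool) (σ : Bool) (j : Fin 5) :
    Decidable (Hf a b p m σ j) := by unfold Hf; infer_instance

def Okv {n : ℕ} (a b : Fin n → Fin 5) (Cl : Finset (Fin 5)) (p m : Fin n → Bool) : Prop :=
  (∀ σ, (∃ j, Al a b p σ j) ∧ ∃ j, Al a b m σ j) ∧
    (∀ j, j ∈ Cl → Hf a b p m true j ∨ Hf a b p m false j) ∧
    ∀ σ u, u ∈ Cl → ¬ ∀ j, Hf a b p m σ j → j = u

def R3 {n : ℕ} (a b : Fin n → Fin 5) (Cl : Finset (Fin 5)) (p m : Fin n → Bool) (σ : Bool)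
    (s : Fin n → Bool) : Prop :=
  ∀ u, u ∈ Cl → ∀ v, (∀ j, Hf a b p m σ j → j = u ∨ j = v) → ∀ σ' v',
    (∀ j, Al a b s σ' j → j = v ∨ j = v') → ∀ u', u' ∈ Cl →
      ¬ ∀ j, Hf a b p m σ j → j = u' ∨ j = v'

instance {n : ℕ} (a b : Fin n → Fin 5) (Cl : Finset (Fin 5)) (p m : Fin n → Bool) :
    Decidable (Okv a b Cl p m) := by unfold Okv; infer_instance

instance {n : ℕ} (a b : Fin n → Fin 5) (Cl : Finset (Fin 5)) (p m : Fin n → Bool) (σ : Bool)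
    (s : Fin n → Bool) : Decidable (R3 a b Cl p m σ s) := by unfold R3; infer_instance

theorem loc3 : ∀ s : Fin 3 → Bool, Okv ![0, 1, 2] ![1, 2, 0] {3, 4} s s →
    ∀ p : Fin 3 → Bool, R3 ![0, 1, 2] ![1, 2, 0] {3, 4} s s true p →
    ∀ m : Fin 3 → Bool, R3 ![0, 1, 2] ![1, 2, 0] {3, 4} s s false m → False := by
  decide +kernel

theorem loc4 : ∀ s : Fin 4 → Bool, Okv ![0, 1, 2, 3] ![1, 2, 3, 0] {4, 0, 2} s s →
    ∀ p : Fin 4 → Bool, R3 ![0, 1, 2, 3] ![1, 2, 3, 0] {4, 0, 2} s s true p →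
    ∀ m : Fin 4 → Bool, R3 ![0, 1, 2, 3] ![1, 2, 3, 0] {4, 0, 2} s s false m →
    Okv ![0, 1, 2, 3] ![1, 2, 3, 0] {4, 0, 2} p m → p 0 ≠ m 0 := by
  decide +kernel

theorem loc5 : ∀ s : Fin 5 → Bool, Okv ![0, 1, 2, 3, 4] ![1, 2, 3, 4, 0] {3, 4} s s →
    ∀ p : Fin 5 → Bool, R3 ![0, 1, 2, 3, 4] ![1, 2, 3, 4, 0] {3, 4} s s true p →
    ∀ m : Fin 5 → Bool, R3 ![0, 1, 2, 3, 4] ![1, 2, 3, 4, 0] {3, 4} s s false m →
    Okv ![0, 1, 2, 3, 4] ![1, 2, 3, 4, 0] {3, 4} p m →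
      p 3 ≠ m 3 ∨ (p 2 ≠ m 2 ∧ p 4 ≠ m 4) := by
  decide +kernel

theorem Okv.symm {n : ℕ} {a b : Fin n → Fin 5} {Cl : Finset (Fin 5)} {p m : Fin n → Bool}
    (h : Okv a b Cl p m) : Okv a b Cl m p := by
  have hs : ∀ σ j, Hf a b m p σ j ↔ Hf a b p m σ j := fun σ j => by
    simp only [Hf, and_comm]
  refine ⟨fun σ => (h.1 σ).symm, fun j hj => ?_, fun σ u hu => ?_⟩
  · simpa only [hs] using h.2.1 j hj
  · simpa only [hs] using h.2.2 σ u hu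

theorem glob_aux : ∀ a0 a1 a2 a3 a4 : Fin 7, ∃ k : Fin 6,
    (a0.val ≠ k.val ∧ a1.val ≠ k.val ∧ a2.val ≠ k.val ∧ a3.val ≠ k.val ∧ a4.val ≠ k.val) ∧
    ¬ ((a3.val = (k - 1).val ∨ (a2.val = (k - 1).val ∧ a4.val = (k - 1).val)) ∧
      (a3.val = (k + 1).val ∨ (a2.val = (k + 1).val ∧ a4.val = (k + 1).val))) := by
  decide +kernel

theorem glob5 (B : Fin 6 → Fin 5 → Prop) (hu : ∀ e k k', B k e → B k' e → k = k')
    (h : ∀ k, (∀ e, ¬ B k e) → (B (k - 1) 3 ∨ (B (k - 1) 2 ∧ B (k - 1) 4)) ∧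
      (B (k + 1) 3 ∨ (B (k + 1) 2 ∧ B (k + 1) 4))) : False := by
  have : ∀ e, ∃ a : Fin 7, ∀ k, B k e ↔ a.val = k.val := fun e => by
    by_cases he : ∃ k, B k e
    · obtain ⟨k, hk⟩ := he
      refine ⟨k.castSucc, fun k' => ⟨fun h' => by rw [hu e k k' hk h']; rfl, fun h' => ?_⟩⟩
      have : k = k' := Fin.ext h'
      exact this ▸ hk
    · refine ⟨6, fun k => ⟨fun h' => absurd ⟨k, h'⟩ he, fun h' => ?_⟩⟩
      have := k.isLt
      simp at h'; omega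
  choose a ha using this
  obtain ⟨k, h1, h2⟩ := glob_aux (a 0) (a 1) (a 2) (a 3) (a 4)
  apply h2
  have := h k (fun e => by
    rw [ha]
    fin_cases e
    exacts [h1.1, h1.2.1, h1.2.2.1, h1.2.2.2.1, h1.2.2.2.2])
  simpa only [ha] using this

theorem exists_empty {n : ℕ} (hn : n < 6) (B : Fin 6 → Fin n → Prop)
    (hu : ∀ e k k', B k e → B k' e → k = k') : ∃ k, ∀ e, ¬ B k e := by
  by_contra hcon
  push Not at hcon
  choose f hf using hcon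
  have := Fintype.card_le_of_injective f fun k k' h => hu (f k) k k' (hf k) (h ▸ hf k')
  simp at this; omega

end Vale.Agent.P032.FilA
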