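import Vale.Agent.P032.FilAux2
import Vale.Agent.P032.FilAux3

namespace Vale.Agent.P032

open MeasureTheory Set Filter Topology Metric
open scoped Real ENNReal BigOperators

namespace FilA

theorem rhomb_side (x : ℂ) (θ τ t : ℝ) (σ : Bool) (hτ : τ = 1 ∨ τ = -1)
    (ht : t = if σ = true then τ else -τ) {s : ℝ} (hs0 : 0 < s) (hs1 : s < 1) :
    side x σ (x + e (θ + τ * (π / 3)) + e (θ - τ * (π / 3) + t * s)) := by
  have hpi := Real.pi_gt_three
  have h1 : dist (x + e (θ + τ * (π / 3)) + e (θ - τ * (π / 3) + t * s)) x ^ 2 =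
      2 + 2 * Real.cos (2 * τ * (π / 3) - t * s) := by
    have h2 : dist (x + e (θ + τ * (π / 3)) + e (θ - τ * (π / 3) + t * s)) x =
        ‖e (θ + τ * (π / 3)) - (-e (θ - τ * (π / 3) + t * s))‖ := by
      rw [dist_eq_norm]; congr 1; ring
    rw [h2, normSq_e_sub, norm_neg, norm_e]
    have h3 : 2 * τ * (π / 3) - t * s = (θ + τ * (π / 3)) - (θ - τ * (π / 3) + t * s) := by ring
    rw [h3, Real.cos_sub]
    simp only [Complex.neg_re, Complex.neg_im, e_re, e_im]
    ring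
  have hc : Real.cos (2 * (π / 3)) = -1 / 2 := by
    rw [show 2 * (π / 3) = π - π / 3 by ring, Real.cos_pi_sub, Real.cos_pi_div_three]; norm_num
  have hlt : -1 / 2 < Real.cos (2 * (π / 3) - s) := by
    rw [← hc]
    exact Real.cos_lt_cos_of_nonneg_of_le_pi (by linarith) (by linarith) (by linarith)
  have hgt : Real.cos (2 * (π / 3) + s) < -1 / 2 := by
    rw [← hc]
    exact Real.cos_lt_cos_of_nonneg_of_le_pi (by linarith) (by linarith) (by linarith)
  have hd := dist_nonneg (x := x + e (θ + τ * (π / 3)) + e (θ - τ * (π / 3) + t * s)) (y := x)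
  cases σ
  · have h4 : Real.cos (2 * τ * (π / 3) - t * s) = Real.cos (2 * (π / 3) + s) := by
      simp only [Bool.false_eq_true, if_false] at ht
      rcases hτ with rfl | rfl
      · rw [ht]; congr 1; ring
      · rw [ht, ← Real.cos_neg]; congr 1; ring
    simp only [side, Bool.false_eq_true, if_false]
    nlinarith
  · have h4 : Real.cos (2 * τ * (π / 3) - t * s) = Real.cos (2 * (π / 3) - s) := by
      simp only [if_true] at ht
      rcases hτ with rfl | rfl
      · rw [ht]; congr 1; ring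
      · rw [ht, ← Real.cos_neg]; congr 1; ring
    simp only [side, if_true]
    nlinarith

theorem rhomb_sum (θ τ : ℝ) (hτ : τ = 1 ∨ τ = -1) :
    e (θ + τ * (π / 3)) + e (θ - τ * (π / 3)) = e θ := by
  have h : e (π / 3) + e (-(π / 3)) = 1 := by
    apply Complex.ext
    · simp; norm_num
    · simp
  rcases hτ with rfl | rfl
  · rw [sub_eq_add_neg, e_add, e_add, ← mul_add, one_mul, h, mul_one]
  · rw [sub_eq_add_neg, e_add, e_add, ← mul_add, neg_one_mul, neg_neg, add_comm, h, mul_one]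

theorem rhomb_mem (x : ℂ) (θ τ t : ℝ) (σ : Bool) (hτ : τ = 1 ∨ τ = -1)
    (ht : t = if σ = true then τ else -τ) {s ε : ℝ} (hs0 : 0 < s) (hs1 : s < 1) (hsε : s < ε) :
    x + e (θ + τ * (π / 3)) + e (θ - τ * (π / 3) + t * s) ∈ HB x (x + e θ) σ ε := by
  refine ⟨?_, rhomb_side x θ τ t σ hτ ht hs0 hs1⟩
  rw [dist_eq_norm]
  have h1 : x + e (θ + τ * (π / 3)) + e (θ - τ * (π / 3) + t * s) - (x + e θ) =
      e (θ - τ * (π / 3) + t * s) - e (θ - τ * (π / 3)) := by
    rw [← rhomb_sum θ τ hτ]; ring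
  rw [h1]
  refine (norm_e_sub_le _ _).trans_lt ?_
  have h2 : |t| = 1 := by
    rw [ht]; rcases hτ with rfl | rfl <;> cases σ <;> simp
  rw [add_sub_cancel_left, abs_mul, h2, one_mul, abs_of_pos hs0]
  exact hsε

theorem hb_nonempty (x : ℂ) (θ : ℝ) (σ : Bool) {ε : ℝ} (hε : 0 < ε) :
    (HB x (x + e θ) σ ε).Nonempty :=
  ⟨_, rhomb_mem x θ 1 _ σ (Or.inl rfl) rfl (s := min ε 1 / 2) (by positivity)
    (by linarith [min_le_right ε 1]) (by linarith [min_le_left ε 1, lt_min hε one_pos])⟩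

/-- a transversal unit circle through `c` enters both sides -/
theorem transv {x ω : ℂ} {φ : ℝ} (h0 : ω ≠ x) (h2 : dist ω x < 2) (h1 : dist (ω + e φ) x = 1)
    (σ : Bool) {ε : ℝ} (hε : 0 < ε) : ∃ t ∈ HB x (ω + e φ) σ ε, dist ω t = 1 := by
  have hI := Ioo_mem_nhdsGT hε
  have key : ∀ φ', |φ' - φ| < ε → side x σ (ω + e φ') →
      ∃ t ∈ HB x (ω + e φ) σ ε, dist ω t = 1 := fun φ' h h' =>
    ⟨ω + e φ', ⟨by
      rw [dist_eq_norm, add_sub_add_left_eq_sub]; exact (norm_e_sub_le _ _).trans_lt h, h'⟩,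
      by simp [dist_eq_norm]⟩
  rcases signchange (v := x - ω) (sub_ne_zero.mpr h0.symm) (by rwa [dist_comm, dist_eq_norm] at h2)
    (θ := φ) (by rw [← dist_eq']; exact h1) with h' | h'
  · obtain ⟨s, hs, hs0, hs1⟩ := (h'.and hI).exists
    cases σ
    · exact key (φ - s) (by simpa [abs_of_pos hs0] using hs1) (by simpa [side, dist_eq'] using hs.2)
    · exact key (φ + s) (by simpa [abs_of_pos hs0] using hs1) (by simpa [side, dist_eq'] using hs.1)
  · obtain ⟨s, hs, hs0, hs1⟩ := (h'.and hI).exists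
    cases σ
    · exact key (φ + s) (by simpa [abs_of_pos hs0] using hs1) (by simpa [side, dist_eq'] using hs.1)
    · exact key (φ - s) (by simpa [abs_of_pos hs0] using hs1) (by simpa [side, dist_eq'] using hs.2)

section
variable {C : Col} {n : ℕ} {a b : Fin n → Fin 5} {x : ℂ} {y : Fin n → ℂ} {Cl : Finset (Fin 5)}

/-- the side data at the angle `θ` -/
def Dat (x : ℂ) (y : Fin n → ℂ) (θ : ℝ) (p m : Fin n → Bool) : Prop :=
  (∀ᶠ s in 𝓝[>] (0 : ℝ), ∀ k, es (y k) (x + e (θ + s)) (p k) ∧ es (y k) (x + e (θ - s)) (m k)) ∧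
    (∀ k, p k = m k → es (y k) (x + e θ) (p k)) ∧ ∀ k, p k ≠ m k ↔ dist (x + e θ) (y k) = 1

theorem exists_dat (hy : ∀ k, 0 < dist (y k) x ∧ dist (y k) x < 1) (θ : ℝ) :
    ∃ p m, Dat x y θ p m := by
  choose p m h1 h2 h3 using fun k => sides (hy k).1 (hy k).2 θ
  exact ⟨p, m, eventually_all.mpr h1, h2, h3⟩

theorem only_hf (ha : ∀ k, C.Lk (a k) x (y k)) (hb : ∀ k, C.Lk (b k) x (y k)) {θ : ℝ}
    {p m : Fin n → Bool} (h : Dat x y θ p m) (σ : Bool) :
    ∃ ε > 0, Only C (HB x (x + e θ) σ ε) (Hf a b p m σ) :=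
  only_of ha hb fun k hk => by
    have := h.2.1 k (hk.1.trans hk.2.symm)
    rwa [hk.1] at this

theorem only_al (ha : ∀ k, C.Lk (a k) x (y k)) (hb : ∀ k, C.Lk (b k) x (y k)) {c : ℂ}
    {s : Fin n → Bool} (h : ∀ k, es (y k) c (s k)) (σ : Bool) :
    ∃ ε > 0, Only C (HB x c σ ε) (Al a b s σ) :=
  only_of ha hb fun k hk => hk ▸ h k

theorem okv_of (ha : ∀ k, C.Lk (a k) x (y k)) (hb : ∀ k, C.Lk (b k) x (y k)) {θ : ℝ}
    {p m : Fin n → Bool} (h : Dat x y θ p m) (h0 : ∀ j ∈ Cl, x + e θ ∈ closure (C.D j))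
    (h1 : ∀ j ∈ Cl, x + e (θ + 1 * (π / 3)) ∈ closure (C.D j)) : Okv a b Cl p m := by
  refine ⟨fun σ => ?_, fun j hj => ?_, fun σ u hu hS => ?_⟩
  · obtain ⟨s, hs⟩ := h.1.exists
    constructor
    · obtain ⟨ε, hε, hO⟩ := only_al ha hb (fun k => (hs k).1) σ
      exact hO.exists (isOpen_HB _ _ _ _) (hb_nonempty _ _ _ hε)
    · obtain ⟨ε, hε, hO⟩ := only_al ha hb (fun k => (hs k).2) σ
      exact hO.exists (isOpen_HB _ _ _ _) (hb_nonempty _ _ _ hε)
  · by_contra hcon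
    rw [not_or] at hcon
    obtain ⟨ε, hε, hO⟩ := only_hf ha hb h true
    obtain ⟨ε', hε', hO'⟩ := only_hf ha hb h false
    obtain ⟨z, hz, hzc⟩ := Metric.mem_closure_iff.mp (h0 j hj) (min ε ε' / 2) (by positivity)
    apply dens_pos (C.dens j z hz) (ε := min ε ε' / 2) (by positivity)
    apply measure_eq_zero_iff_ae_notMem.mpr
    have hs : ∀ᵐ w : ℂ, w ∉ sphere x 1 :=
      measure_eq_zero_iff_ae_notMem.mp (Measure.addHaar_sphere volume x 1)
    filter_upwards [hO, hO', hs] with w h2 h3 h4 ⟨hw, hwz⟩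
    have hd : dist w (x + e θ) < min ε ε' := by
      have := dist_triangle w z (x + e θ)
      rw [mem_ball] at hwz; rw [dist_comm] at hzc; linarith
    have same : ∀ i, w ∈ C.D i → i = j := fun i hi => by
      by_contra hne
      exact Set.disjoint_left.mp (C.disj i j hne) hi hw
    rcases lt_or_gt_of_ne (show dist w x ≠ 1 from h4) with h5 | h5
    · obtain ⟨i, hi, hi'⟩ := h3 ⟨hd.trans_le (min_le_right _ _), by simpa [side] using h5⟩
      exact hcon.2 (same i hi' ▸ hi)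
    · obtain ⟨i, hi, hi'⟩ := h2 ⟨hd.trans_le (min_le_left _ _), by simpa [side] using h5⟩
      exact hcon.1 (same i hi' ▸ hi)
  · obtain ⟨ε, hε, hO⟩ := only_hf ha hb h σ
    exact rmono hO (isOpen_HB _ _ _ _) hS (h1 u hu)
      (rhomb_mem x θ 1 _ σ (Or.inl rfl) rfl (s := min ε 1 / 2) (by positivity)
        (by linarith [min_le_right ε 1]) (by linarith [min_le_left ε 1, lt_min hε one_pos]))
      (by simp [dist_eq_norm])

theorem r3_of (ha : ∀ k, C.Lk (a k) x (y k)) (hb : ∀ k, C.Lk (b k) x (y k)) {θ τ t : ℝ}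
    {p m s₀ : Fin n → Bool} (h : Dat x y θ p m) (σ : Bool) (hτ : τ = 1 ∨ τ = -1)
    (ht : t = if σ = true then τ else -τ)
    (h1 : ∀ j ∈ Cl, x + e (θ + τ * (π / 3)) ∈ closure (C.D j))
    (h2 : ∀ᶠ s in 𝓝[>] (0 : ℝ), ∀ k, es (y k) (x + e (θ - τ * (π / 3) + t * s)) (s₀ k)) :
    R3 a b Cl p m σ s₀ := by
  intro u hu v hS σ' v' hS' u' hu' hS''
  obtain ⟨ε, hε, hO⟩ := only_hf ha hb h σ
  obtain ⟨s, hs, hs0, hs1⟩ := (h2.and (Ioo_mem_nhdsGT
    (show (0 : ℝ) < min ε (1 / 10) by positivity))).exists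
  have hs2 : s < 1 / 10 := hs1.trans_le (min_le_right _ _)
  have habs : |t| = 1 := by
    rw [ht]; rcases hτ with rfl | rfl <;> cases σ <;> simp
  set ω := x + e (θ + τ * (π / 3)) + e (θ - τ * (π / 3) + t * s) with hω
  have hωU : ω ∈ HB x (x + e θ) σ ε :=
    rhomb_mem x θ τ t σ hτ ht hs0 (by linarith) (hs1.trans_le (min_le_left _ _))
  have hω1 : ω ∈ HB x (x + e θ) σ (1 / 10) := rhomb_mem x θ τ t σ hτ ht hs0 (by linarith) hs2
  have hd2 : dist ω (x + e (θ + τ * (π / 3))) = 1 := by simp [hω, dist_eq_norm]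
  have hωv : ω ∈ closure (C.D v) := rprop hO (isOpen_HB _ _ _ _) hS (h1 u hu) hωU hd2
  obtain ⟨ε', hε', hO'⟩ := only_al ha hb hs σ'
  have hc : x + e (θ - τ * (π / 3) + t * s) = ω + e (θ + τ * (π / 3) + π) := by
    rw [e_add_pi, hω]; ring
  have hxe : dist (x + e θ) x = 1 := by simp [dist_eq_norm]
  have hωx := dist_triangle ω (x + e θ) x
  have hωx' := dist_triangle (x + e θ) ω x
  have hω2 : dist ω (x + e θ) < 1 / 10 := hω1.1
  have hne : ω ≠ x := fun h0 => by
    rw [h0, dist_comm] at hω2; linarith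
  obtain ⟨z, hz, hzω⟩ := transv (x := x) (ω := ω) (φ := θ + τ * (π / 3) + π) hne (by linarith)
    (by rw [← hc]; simp [dist_eq_norm]) σ' (ε := min ε' (1 / 10)) (by positivity)
  rw [← hc] at hz
  have hzU : z ∈ HB x (x + e (θ - τ * (π / 3) + t * s)) σ' ε' :=
    ⟨hz.1.trans_le (min_le_left _ _), hz.2⟩
  have hzv : z ∈ closure (C.D v') :=
    rprop hO' (isOpen_HB _ _ _ _) hS' hωv hzU (by rw [dist_comm]; exact hzω)
  -- distance between the two neighbours is about √3
  have hz1 : dist z (x + e (θ - τ * (π / 3))) < 1 / 5 := by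
    have h3 := dist_triangle z (x + e (θ - τ * (π / 3) + t * s)) (x + e (θ - τ * (π / 3)))
    have h4 : dist (x + e (θ - τ * (π / 3) + t * s)) (x + e (θ - τ * (π / 3))) ≤ s := by
      rw [dist_eq_norm, add_sub_add_left_eq_sub]
      refine (norm_e_sub_le _ _).trans ?_
      rw [add_sub_cancel_left, abs_mul, habs, one_mul, abs_of_pos hs0]
    have h5 := hz.1.trans_le (min_le_right _ _)
    linarith
  have h3 : dist (x + e (θ + τ * (π / 3))) (x + e (θ - τ * (π / 3))) ^ 2 = 3 := by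
    rw [dist_eq_norm, add_sub_add_left_eq_sub, normSq_e_sub, norm_e]
    have h4 : Real.cos ((θ + τ * (π / 3)) - (θ - τ * (π / 3))) = -1 / 2 := by
      have hc' : Real.cos (2 * (π / 3)) = -1 / 2 := by
        rw [show 2 * (π / 3) = π - π / 3 by ring, Real.cos_pi_sub, Real.cos_pi_div_three]
        norm_num
      rcases hτ with rfl | rfl
      · rw [← hc']; congr 1; ring
      · rw [← hc', ← Real.cos_neg]; congr 1; ring
    rw [Real.cos_sub] at h4
    simp only [e_re, e_im]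
    linarith
  have h4 := dist_nonneg (x := x + e (θ + τ * (π / 3))) (y := x + e (θ - τ * (π / 3)))
  have h5 : dist (x + e (θ + τ * (π / 3))) (x + e (θ - τ * (π / 3))) < 9 / 5 := by nlinarith
  have h6 : 1 < dist (x + e (θ + τ * (π / 3))) (x + e (θ - τ * (π / 3))) := by nlinarith
  refine rcross hO (isOpen_HB _ _ _ _) hS'' (h1 u' hu') hzv hωU hd2 hzω ?_ ?_
  · intro h0
    rw [h0] at h6; linarith
  · have := dist_triangle (x + e (θ + τ * (π / 3))) (x + e (θ - τ * (π / 3))) z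
    rw [dist_comm] at hz1; linarith

/-- the abstract form of the contradiction -/
theorem core (hy : ∀ k, 0 < dist (y k) x ∧ dist (y k) x < 1)
    (ha : ∀ k, C.Lk (a k) x (y k)) (hb : ∀ k, C.Lk (b k) x (y k)) {μ : ℝ}
    (hcl : ∀ k : ℤ, ∀ j ∈ Cl, x + e (μ + k * (π / 3)) ∈ closure (C.D j))
    (P : (Fin n → Prop) → Prop)
    (hloc : ∀ s, Okv a b Cl s s → ∀ p, R3 a b Cl s s true p → ∀ m, R3 a b Cl s s false m →
      Okv a b Cl p m → P (fun k => p k ≠ m k)) :
    ∃ B : Fin 6 → Fin n → Prop, (∀ e k k', B k e → B k' e → k = k') ∧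
      ∀ k, (∀ e, ¬ B k e) → P (B (k - 1)) ∧ P (B (k + 1)) := by
  have hstep : ∀ k : ℤ, (∀ i, dist (x + e (μ + k * (π / 3))) (y i) ≠ 1) →
      P (fun i => dist (x + e (μ + ((k - 1 : ℤ) : ℝ) * (π / 3))) (y i) = 1) ∧
      P (fun i => dist (x + e (μ + ((k + 1 : ℤ) : ℝ) * (π / 3))) (y i) = 1) := by
    intro k hk
    obtain ⟨s, s', hs⟩ := exists_dat hy (μ + k * (π / 3))
    have hss : s' = s := funext fun i => by
      by_contra hne
      exact hk i ((hs.2.2 i).mp (Ne.symm hne))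
    subst hss
    have e1 : ∀ l : ℤ, μ + l * (π / 3) + 1 * (π / 3) = μ + ((l + 1 : ℤ) : ℝ) * (π / 3) :=
      fun l => by push_cast; ring
    have e2 : μ + k * (π / 3) + -1 * (π / 3) = μ + ((k - 1 : ℤ) : ℝ) * (π / 3) := by
      push_cast; ring
    have hok : ∀ (l : ℤ) p m, Dat x y (μ + l * (π / 3)) p m → Okv a b Cl p m := fun l p m h =>
      okv_of ha hb h (hcl l) (by rw [e1]; exact hcl _)
    constructor
    · obtain ⟨p, m, hpm⟩ := exists_dat hy (μ + ((k - 1 : ℤ) : ℝ) * (π / 3))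
      have h1 := hloc s' (hok _ _ _ hs) p
        (r3_of ha hb hs true (Or.inl rfl) rfl (by rw [e1]; exact hcl _) (hpm.1.mono fun s h i => by
          have := (h i).1
          rwa [show μ + ((k - 1 : ℤ) : ℝ) * (π / 3) + s =
            μ + k * (π / 3) - 1 * (π / 3) + (if true = true then (1 : ℝ) else -1) * s by
              simp only [if_true]; push_cast; ring] at this))
        m (r3_of ha hb hs false (Or.inl rfl) rfl (by rw [e1]; exact hcl _)
          (hpm.1.mono fun s h i => by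
          have := (h i).2
          rwa [show μ + ((k - 1 : ℤ) : ℝ) * (π / 3) - s =
            μ + k * (π / 3) - 1 * (π / 3) + (if false = true then (1 : ℝ) else -1) * s by
              simp only [Bool.false_eq_true, if_false]; push_cast; ring] at this))
        (hok _ _ _ hpm)
      rwa [show (fun i => p i ≠ m i) = _ from funext fun i => propext (hpm.2.2 i)] at h1
    · obtain ⟨p, m, hpm⟩ := exists_dat hy (μ + ((k + 1 : ℤ) : ℝ) * (π / 3))
      have h1 := hloc s' (hok _ _ _ hs) m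
        (r3_of ha hb hs true (Or.inr rfl) rfl (by rw [e2]; exact hcl _) (hpm.1.mono fun s h i => by
          have := (h i).2
          rwa [show μ + ((k + 1 : ℤ) : ℝ) * (π / 3) - s =
            μ + k * (π / 3) - -1 * (π / 3) + (if true = true then (-1 : ℝ) else - -1) * s by
              simp only [if_true]; push_cast; ring] at this))
        p (r3_of ha hb hs false (Or.inr rfl) rfl (by rw [e2]; exact hcl _)
          (hpm.1.mono fun s h i => by
          have := (h i).1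
          rwa [show μ + ((k + 1 : ℤ) : ℝ) * (π / 3) + s =
            μ + k * (π / 3) - -1 * (π / 3) + (if false = true then (-1 : ℝ) else - -1) * s by
              simp only [Bool.false_eq_true, if_false]; push_cast; ring] at this))
        (hok _ _ _ hpm).symm
      rwa [show (fun i => m i ≠ p i) = _ from
        funext fun i => propext (ne_comm.trans (hpm.2.2 i))] at h1
  have hper : ∀ k l : ℤ, (6 : ℤ) ∣ k - l → e (μ + k * (π / 3)) = e (μ + l * (π / 3)) := by
    rintro k l ⟨c, hc⟩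
    have : μ + k * (π / 3) = μ + l * (π / 3) + c * (2 * π) := by
      have : (k : ℝ) = l + 6 * c := by exact_mod_cast (by omega : k = l + 6 * c)
      rw [this]; ring
    rw [this, e_add]
    have h2 : e (c * (2 * π)) = 1 := by
      have := Complex.exp_int_mul_two_pi_mul_I c
      rw [← this, e]; congr 1; push_cast; ring
    rw [h2, mul_one]
  refine ⟨fun k i => dist (x + e (μ + ((k.val : ℤ) : ℝ) * (π / 3))) (y i) = 1, ?_, ?_⟩
  · intro i k k' h1 h2
    by_contra hne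
    rw [dist_eq'] at h1 h2
    have hv0 : y i - x ≠ 0 := by
      have := (hy i).1
      rw [dist_eq_norm] at this; exact norm_pos_iff.mp this
    have hv1 : ‖y i - x‖ < 1 := by
      have := (hy i).2
      rwa [dist_eq_norm] at this
    have hd : ∀ d : ℤ, (6 : ℤ) ∣ k'.val - (k.val + d) →
        Real.cos (d * (π / 3)) = 1 ∨ (-1 < Real.cos (d * (π / 3)) ∧
          Real.cos (d * (π / 3)) < -1 / 2) := fun d hd => by
      apply two_bad hv0 hv1 h1
      rw [hper _ _ hd] at h2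
      rw [← h2]; congr 3; push_cast; ring
    have c1 : Real.cos (π / 3) = 1 / 2 := Real.cos_pi_div_three
    have c2 : Real.cos (2 * (π / 3)) = -1 / 2 := by
      rw [show 2 * (π / 3) = π - π / 3 by ring, Real.cos_pi_sub, c1]; norm_num
    have c3 : Real.cos (3 * (π / 3)) = -1 := by
      rw [show 3 * (π / 3) = π by ring, Real.cos_pi]
    have hne' : k.val ≠ k'.val := fun h => hne (Fin.ext h)
    have hk := k.isLt
    have hk' := k'.isLt
    have : (6 : ℤ) ∣ k'.val - (k.val + 1) ∨ (6 : ℤ) ∣ k'.val - (k.val + 2) ∨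
        (6 : ℤ) ∣ k'.val - (k.val + 3) ∨ (6 : ℤ) ∣ k'.val - (k.val + -1) ∨
        (6 : ℤ) ∣ k'.val - (k.val + -2) := by omega
    rcases this with h | h | h | h | h <;> have h' := hd _ h <;> push_cast at h'
    · rw [one_mul, c1] at h'; norm_num at h'
    · rw [c2] at h'; norm_num at h'
    · rw [c3] at h'; norm_num at h'
    · rw [neg_one_mul, Real.cos_neg, c1] at h'; norm_num at h'
    · rw [neg_mul, Real.cos_neg, c2] at h'; norm_num at h'
  · intro k hk
    have := hstep k.val hk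
    have d1 : ∀ k : Fin 6, (6 : ℤ) ∣ (k.val - 1) - (k - 1 : Fin 6).val := by decide
    have d2 : ∀ k : Fin 6, (6 : ℤ) ∣ (k.val + 1) - (k + 1 : Fin 6).val := by decide
    rw [hper (k.val - 1) (k - 1 : Fin 6).val (d1 k),
      hper (k.val + 1) (k + 1 : Fin 6).val (d2 k)] at this
    exact this

end

def Lg (C : Col) (x : ℂ) (i j : Fin 5) : Prop :=
  ∃ y, 0 < dist y x ∧ dist y x < 1 ∧ C.Lk i x y ∧ C.Lk j x y

theorem Lg.symm {C : Col} {x : ℂ} {i j : Fin 5} (h : Lg C x i j) : Lg C x j i :=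
  let ⟨y, h1, h2, h3, h4⟩ := h
  ⟨y, h1, h2, h4, h3⟩

theorem Lg.star (hD : DensStmt) {C : Col} {x : ℂ} {i j : Fin 5} (h : Lg C x i j) : C.Star x i j :=
  let ⟨_, h1, h2, h3, h4⟩ := h
  star_of_lk hD h1 h2 h3 h4

theorem case3 (hH : HexStmt) {C : Col} {x : ℂ} (h0 : Lg C x 0 1) (h1 : Lg C x 1 2)
    (h2 : Lg C x 2 0) (hT : C.Ty x 3 4 4) : False := by
  obtain ⟨μ, hμ⟩ := hH C x _ _ _ hT
  have : ∀ k : Fin 3, Lg C x (![0, 1, 2] k) (![1, 2, 0] k) := fun k => by
    fin_cases k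
    exacts [h0, h1, h2]
  choose y hy1 hy2 ha hb using this
  obtain ⟨B, hB1, hB2⟩ := core (Cl := {3, 4}) (fun k => ⟨hy1 k, hy2 k⟩) ha hb (μ := μ)
    (fun k j hj => by
      simp only [Finset.mem_insert, Finset.mem_singleton] at hj
      rcases hj with rfl | rfl
      exacts [(hμ k).1, (hμ k).2.1]) (fun _ => False)
    (fun s h1 p h2 m h3 _ => loc3 s h1 p h2 m h3)
  obtain ⟨k, hk⟩ := exists_empty (by norm_num) B hB1
  exact (hB2 k hk).1

theorem case4 (hH : HexStmt) {C : Col} {x : ℂ} (h0 : Lg C x 0 1) (h1 : Lg C x 1 2)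
    (h2 : Lg C x 2 3) (h3 : Lg C x 3 0) (hT : C.Ty x 4 0 2) : False := by
  obtain ⟨μ, hμ⟩ := hH C x _ _ _ hT
  have : ∀ k : Fin 4, Lg C x (![0, 1, 2, 3] k) (![1, 2, 3, 0] k) := fun k => by
    fin_cases k
    exacts [h0, h1, h2, h3]
  choose y hy1 hy2 ha hb using this
  obtain ⟨B, hB1, hB2⟩ := core (Cl := {4, 0, 2}) (fun k => ⟨hy1 k, hy2 k⟩) ha hb (μ := μ)
    (fun k j hj => by
      simp only [Finset.mem_insert, Finset.mem_singleton] at hj
      rcases hj with rfl | rfl | rfl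
      exacts [(hμ k).1, (hμ k).2.1, (hμ k).2.2]) (fun F => F 0) loc4
  obtain ⟨k, hk⟩ := exists_empty (by norm_num) B hB1
  have d : ∀ k : Fin 6, k - 1 ≠ k + 1 := by decide
  exact d k (hB1 0 _ _ (hB2 k hk).1 (hB2 k hk).2)

theorem case4' (hH : HexStmt) {C : Col} {x : ℂ} (h0 : Lg C x 0 1) (h1 : Lg C x 1 2)
    (h2 : Lg C x 2 3) (h3 : Lg C x 3 0) (hT : C.Ty x 4 1 3) : False := by
  obtain ⟨t, t0, t1, t2, t3, t4⟩ : ∃ t : Equiv.Perm (Fin 5),
      t 0 = 1 ∧ t 1 = 2 ∧ t 2 = 3 ∧ t 3 = 0 ∧ t 4 = 4 :=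
    ⟨⟨![1, 2, 3, 0, 4], ![3, 0, 1, 2, 4], by decide, by decide⟩, by decide⟩
  have hp : ∀ i j, Lg C x (t i) (t j) → Lg (C.perm t) x i j := fun i j h => h
  refine case4 hH (C := C.perm t) (x := x) (hp _ _ ?_) (hp _ _ ?_) (hp _ _ ?_) (hp _ _ ?_) ?_
  · rwa [t0, t1]
  · rwa [t1, t2]
  · rwa [t2, t3]
  · rwa [t3, t0]
  · rwa [Col.perm_Ty, t4, t0, t2]

theorem case5 (hH : HexStmt) {C : Col} {x : ℂ} (h0 : Lg C x 0 1) (h1 : Lg C x 1 2)
    (h2 : Lg C x 2 3) (h3 : Lg C x 3 4) (h4 : Lg C x 4 0) (hT : C.Ty x 3 4 4) : False := by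
  obtain ⟨μ, hμ⟩ := hH C x _ _ _ hT
  have : ∀ k : Fin 5, Lg C x (![0, 1, 2, 3, 4] k) (![1, 2, 3, 4, 0] k) := fun k => by
    fin_cases k
    exacts [h0, h1, h2, h3, h4]
  choose y hy1 hy2 ha hb using this
  obtain ⟨B, hB1, hB2⟩ := core (Cl := {3, 4}) (fun k => ⟨hy1 k, hy2 k⟩) ha hb (μ := μ)
    (fun k j hj => by
      simp only [Finset.mem_insert, Finset.mem_singleton] at hj
      rcases hj with rfl | rfl
      exacts [(hμ k).1, (hμ k).2.1]) (fun F => F 3 ∨ (F 2 ∧ F 4)) loc5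
  exact glob5 B hB1 hB2

theorem case5' (hD : DensStmt) (hH : HexStmt) (h3S : Ty3Stmt) {C : Col} {x : ℂ}
    (h : ∀ k : Fin 5, Lg C x k (k + 1)) (c : Fin 5) (hc : C.Star x c (c + 2)) : False := by
  have h' : ∀ k : Fin 5, Lg (C.perm (Equiv.addLeft c)) x k (k + 1) := fun k => by
    have := h (c + k)
    rw [add_assoc] at this
    exact this
  have hc' : (C.perm (Equiv.addLeft c)).Star x 2 0 := by
    rw [Col.perm_Star]
    simpa using hc.symm
  exact case5 hH (h' 0) (h' 1) (h' 2) (h' 3) (h' 4)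
    (h3S _ x ((h' 0).star hD) ((h' 1).star hD) hc')

end FilA

open FilA in
theorem filS (hD : DensStmt) (h3 : Ty3Stmt) (h4 : Ty4Stmt) (h5 : No5Stmt) (hH : HexStmt) :
    FilStmt := by
  rintro C x ⟨s, h01, h12, h⟩
  have g01 : Lg (C.perm s) x 0 1 := h01
  have g12 : Lg (C.perm s) x 1 2 := h12
  rcases h with h20 | ⟨h23, h⟩
  · have g20 : Lg (C.perm s) x 2 0 := h20
    exact case3 hH g01 g12 g20 (h3 _ x (g01.star hD) (g12.star hD) (g20.star hD))
  have g23 : Lg (C.perm s) x 2 3 := h23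
  rcases h with h30 | ⟨h34, h40⟩
  · have g30 : Lg (C.perm s) x 3 0 := h30
    rcases h4 _ x (g01.star hD) (g12.star hD) (g23.star hD) (g30.star hD) with hT | hT
    · exact case4 hH g01 g12 g23 g30 hT
    · exact case4' hH g01 g12 g23 g30 hT
  · have g34 : Lg (C.perm s) x 3 4 := h34
    have g40 : Lg (C.perm s) x 4 0 := h40
    have hall : ∀ k : Fin 5, Lg (C.perm s) x k (k + 1) := fun k => by
      fin_cases k
      exacts [g01, g12, g23, g34, g40]
    rcases h5 _ x (g01.star hD) (g12.star hD) (g23.star hD) (g34.star hD) (g40.star hD) with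
      h | h | h | h | h
    · exact case5' hD hH h3 hall 0 h
    · exact case5' hD hH h3 hall 1 h
    · exact case5' hD hH h3 hall 2 h
    · exact case5' hD hH h3 hall 3 h
    · exact case5' hD hH h3 hall 4 h

end Vale.Agent.P032
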