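import Vale.Agent.P032.FinalAux2

/-! P032, final step: there is no measurable proper 5-colouring by density points. -/

namespace Vale.Agent.P032

open MeasureTheory Set Filter Topology Metric
open scoped Real ENNReal BigOperators

namespace FinalA

theorem big_false (C : Col) {X : Type} (U : Ultrafilter X) {H Δ : Set ℂ} (hH : H.Finite)
    (hΔ : IsCompact Δ) (η ρ d : X → ℝ) (hρ : Tendsto ρ U (𝓝 0)) (hd : Tendsto d U (𝓝 0))
    (hg : ∀ i, ∀ z ∈ C.D i, ∀ᶠ p in (U : Filter X), Good C (η p) (ρ p) z i) (i : Fin 5)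
    (h : ∀ᶠ p in (U : Filter X), Big C H Δ (η p) (ρ p) (d p) i) : False := by
  obtain ⟨a, ha⟩ := h.choice
  obtain ⟨a₀, -, hlim⟩ := hΔ.ultrafilter_le_nhds (U.map a) (by
    rw [Ultrafilter.coe_map, le_principal_iff]
    exact ha.mono fun p hp => hp.1)
  have hlim' : Tendsto a U (𝓝 a₀) := hlim
  have h1 : ∀ᶠ p in (U : Filter X), dist (a p) a₀ < 1 / 10 :=
    (Metric.tendsto_nhds.1 hlim') _ (by norm_num)
  have h2 : ∀ᶠ p in (U : Filter X), ρ p < 1 / 20 :=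
    hρ.eventually (eventually_lt_nhds (by norm_num))
  obtain ⟨p₀, ⟨⟨-, -, x, -, hx, hxa, -⟩, g1⟩, g2⟩ := ((ha.and h1).and h2).exists
  obtain ⟨z, hz, hzx, hzH⟩ := avoid C hx (δ := 1 / 20) (by norm_num) hH
  have h3 : ∀ᶠ p in (U : Filter X), ∀ h ∈ H, d p ≤ |dist h z - 1| := by
    rw [eventually_all_finite hH]
    intro h hh
    have : 0 < |dist h z - 1| := abs_pos.2 (sub_ne_zero.2 (hzH h hh))
    exact (hd.eventually (eventually_lt_nhds this)).mono fun p hp => hp.le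
  obtain ⟨p, ⟨⟨⟨-, b, -, k1, -, -, k2⟩, k3⟩, k4⟩, k5⟩ :=
    (((ha.and h1).and h3).and (hg i z hz)).exists
  have k6 := k2 z k5 k4
  have t1 := dist_triangle z x (a p₀)
  have t2 := dist_triangle z (a p₀) a₀
  have t3 := dist_triangle_right (a p) z a₀
  have t4 := dist_triangle_right (a p) b z
  have k7 := k6.1 (by linarith)
  linarith

theorem hole_lk (C : Col) {X : Type} (U : Ultrafilter X) (h : ℂ) (r : ℝ)
    (η ρ d : X → ℝ) (hρ : Tendsto ρ U (𝓝 0)) (hd : Tendsto d U (𝓝 0))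
    (hg : ∀ i, ∀ z ∈ C.D i, ∀ᶠ p in (U : Filter X), Good C (η p) (ρ p) z i) (i j : Fin 5)
    (hh : ∀ᶠ p in (U : Filter X), Hole C h r (η p) (ρ p) (d p) i j) :
    ∃ y, dist y h = r ∧ C.Lk i h y ∧ C.Lk j h y := by
  obtain ⟨q, hq⟩ := hh.choice
  have h2 : ∀ᶠ p in (U : Filter X), ρ p < 1 := hρ.eventually (eventually_lt_nhds one_pos)
  obtain ⟨y, -, hlim⟩ := (isCompact_closedBall h (r + 1)).ultrafilter_le_nhds
    (U.map fun p => (q p).2.1) (by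
      rw [Ultrafilter.coe_map, le_principal_iff]
      refine (hq.and h2).mono fun p hp => ?_
      show dist (q p).2.1 h ≤ r + 1
      linarith [(abs_le.1 hp.1.2.2.1).2, hp.2])
  have hw : Tendsto (fun p => (q p).2.1) U (𝓝 y) := hlim
  have hu : Tendsto (fun p => (q p).1.1) U (𝓝 h) := by
    rw [tendsto_iff_dist_tendsto_zero]
    exact squeeze_zero' (Eventually.of_forall fun _ => dist_nonneg)
      (hq.mono fun p hp => hp.1.le) hd
  have hu' : Tendsto (fun p => (q p).1.2) U (𝓝 h) := by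
    rw [tendsto_iff_dist_tendsto_zero]
    exact squeeze_zero' (Eventually.of_forall fun _ => dist_nonneg)
      (hq.mono fun p hp => hp.2.1.le) hd
  have hw' : Tendsto (fun p => (q p).2.2) U (𝓝 y) := by
    refine hw.congr_dist ?_
    refine squeeze_zero' (Eventually.of_forall fun _ => dist_nonneg) ?_ hρ
    exact hq.mono fun p hp => (dist_comm _ _).le.trans hp.2.2.2.1
  refine ⟨y, ?_, lk_of_lim C (U : Filter X) hu hw fun z hz => ?_,
    lk_of_lim C (U : Filter X) hu' hw' fun z hz => ?_⟩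
  · have h3 : Tendsto (fun p => |dist (q p).2.1 h - r|) U (𝓝 |dist y h - r|) :=
      ((hw.dist tendsto_const_nhds).sub_const r).abs
    have h4 : |dist y h - r| ≤ 0 := le_of_tendsto_of_tendsto h3 hρ (hq.mono fun p hp => hp.2.2.1)
    exact sub_eq_zero.1 (abs_nonpos_iff.1 h4)
  · filter_upwards [hq, hg i z hz] with p hp hp'
    exact hp.2.2.2.2.1 z hp'
  · filter_upwards [hq, hg j z hz] with p hp hp'
    exact hp.2.2.2.2.2 z hp'

theorem exists_tri {Z : Set ℂ} (hZ : Z.Finite) : ∃ α ∈ Icc (0 : ℝ) 1, ∃ β ∈ Icc (0 : ℝ) 1,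
    ∀ h ∈ Z, h.re ≠ α ∧ h.im ≠ β ∧ h.re + h.im ≠ α + β + 4 := by
  obtain ⟨α, hα, hα'⟩ := (Icc_infinite (zero_lt_one' ℝ)).exists_notMem_finite
    (hZ.image Complex.re)
  obtain ⟨β, hβ, hβ'⟩ := (Icc_infinite (zero_lt_one' ℝ)).exists_notMem_finite
    ((hZ.image Complex.im).union (hZ.image fun h => h.re + h.im - α - 4))
  refine ⟨α, hα, β, hβ, fun h hh => ⟨fun e => hα' ⟨h, hh, e⟩, fun e => hβ' (Or.inl ⟨h, hh, e⟩),
    fun e => hβ' (Or.inr ⟨h, hh, ?_⟩)⟩⟩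
  show h.re + h.im - α - 4 = β
  linarith

theorem ev_mul_le (c : ℝ) {a : ℝ} (ha : 0 < a) : ∀ᶠ r in 𝓝[>] (0 : ℝ), c * r ≤ a := by
  have h1 : Tendsto (fun r : ℝ => c * r) (𝓝 0) (𝓝 (c * 0)) :=
    (continuous_const.mul continuous_id).tendsto 0
  rw [mul_zero] at h1
  exact ((h1.eventually (eventually_lt_nhds ha)).mono fun _ h => h.le).filter_mono
    nhdsWithin_le_nhds

theorem exists_rad {α β : ℝ} {H : Set ℂ} (hH : H.Finite)
    (h : ∀ h ∈ H, α < h.re ∧ β < h.im ∧ h.re + h.im < α + β + 4) : ∃ r : ℝ, 0 < r ∧ r < 1 ∧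
    (∀ h ∈ H, α + 2 * r ≤ h.re ∧ β + 2 * r ≤ h.im ∧ h.re + h.im + 4 * r ≤ α + β + 4) ∧
    ∀ h ∈ H, ∀ h' ∈ H, h ≠ h' → 4 * r ≤ dist h h' := by
  have h1 : ∀ᶠ r in 𝓝[>] (0 : ℝ), ∀ h ∈ H,
      α + 2 * r ≤ h.re ∧ β + 2 * r ≤ h.im ∧ h.re + h.im + 4 * r ≤ α + β + 4 := by
    rw [eventually_all_finite hH]
    intro x hx
    obtain ⟨a1, a2, a3⟩ := h x hx
    filter_upwards [ev_mul_le 2 (sub_pos.2 a1), ev_mul_le 2 (sub_pos.2 a2),
      ev_mul_le 4 (sub_pos.2 a3)] with r b1 b2 b3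
    exact ⟨by linarith, by linarith, by linarith⟩
  have h2 : ∀ᶠ r in 𝓝[>] (0 : ℝ), ∀ h ∈ H, ∀ h' ∈ H, h ≠ h' → 4 * r ≤ dist h h' := by
    rw [eventually_all_finite hH]
    intro x _
    rw [eventually_all_finite hH]
    intro y _
    by_cases hxy : x = y
    · exact Eventually.of_forall fun _ h => (h hxy).elim
    · exact (ev_mul_le 4 (dist_pos.2 hxy)).mono fun _ h _ => h
  have h3 : ∀ᶠ r in 𝓝[>] (0 : ℝ), r < 1 :=
    (eventually_lt_nhds zero_lt_one).filter_mono nhdsWithin_le_nhds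
  obtain ⟨r, ⟨⟨b1, b2⟩, b3⟩, b4⟩ := (((h1.and h2).and h3).and self_mem_nhdsWithin).exists
  exact ⟨r, b4, b3, b1, b2⟩

end FinalA

open FinalA in
theorem finalS (hL : LocalStmt) (hZ : ZfinStmt) (hF : FilStmt) (hG : GridStmt) : FinalStmt := by
  refine ⟨fun C => ?_⟩
  have hZ0 := hZ C (closedBall 0 10) (isCompact_closedBall _ _)
  obtain ⟨α, hα, β, hβ, hne⟩ := exists_tri hZ0
  set H : Set ℂ := {x | x ∈ Tri α β ∧ Cyc (C.Star x)} with hHdef
  have hsub : H ⊆ {x | x ∈ closedBall (0 : ℂ) 10 ∧ Cyc (C.Star x)} :=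
    fun x hx => ⟨tri_sub hα hβ hx.1, hx.2⟩
  have hH : H.Finite := hZ0.subset hsub
  obtain ⟨r, hr0, hr1, hin, hsep⟩ := exists_rad (α := α) (β := β) hH (fun h hh => by
    obtain ⟨a1, a2, a3⟩ := hne h (hsub hh)
    obtain ⟨b1, b2, b3⟩ := hh.1
    exact ⟨lt_of_le_of_ne b1 a1.symm, lt_of_le_of_ne b2 a2.symm, lt_of_le_of_ne b3 a3⟩)
  have hmain : ∀ d : ℝ, 0 < d → ∃ η : ℝ, 0 < η ∧ ∀ᶠ ρ in 𝓝[>] (0 : ℝ), d + ρ ≤ r →
      (∃ i, Big C H (Tri α β) η ρ (d + ρ) i) ∨ ∃ h ∈ H, Cyc (Hole C h r η ρ (d + ρ)) := by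
    intro d hd
    have hK : IsCompact (Tri α β \ ⋃ h ∈ H, ball h d) :=
      (tri_compact hα hβ).diff (isOpen_biUnion fun _ _ => isOpen_ball)
    obtain ⟨η, hη, κ, hκ, ρ₀, hρ₀, hcol⟩ := hL C _ hK (fun x hx hc =>
      hx.2 (mem_biUnion (show x ∈ H from ⟨hx.1, hc⟩) (mem_ball_self hd)))
    refine ⟨η, hη, ?_⟩
    have h3 : ∀ᶠ ρ in 𝓝[>] (0 : ℝ), ρ < ρ₀ :=
      (eventually_lt_nhds hρ₀).filter_mono nhdsWithin_le_nhds
    filter_upwards [h3, self_mem_nhdsWithin] with ρ h4 h5 h6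
    obtain ⟨col, hc1, hc2⟩ := hcol ρ h5 h4
    exact step hG C α β H r d η κ ρ col hη hκ h5 hd h6 hin hsep hc1 hc2
  choose! η hη hev using hmain
  have : ((𝓝[>] (0 : ℝ)).curry (𝓝[>] (0 : ℝ))).NeBot := by
    refine ⟨fun h => ?_⟩
    have h1 : ∀ᶠ p in (𝓝[>] (0 : ℝ)).curry (𝓝[>] (0 : ℝ)), False := by
      rw [h]; exact eventually_bot
    rw [eventually_curry_iff] at h1
    obtain ⟨_, h2⟩ := h1.exists
    obtain ⟨_, h3⟩ := h2.exists
    exact h3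
  set U := Ultrafilter.of ((𝓝[>] (0 : ℝ)).curry (𝓝[>] (0 : ℝ))) with hU
  have hle : (U : Filter (ℝ × ℝ)) ≤ (𝓝[>] (0 : ℝ)).curry (𝓝[>] (0 : ℝ)) := Ultrafilter.of_le _
  have hle2 : (U : Filter (ℝ × ℝ)) ≤ 𝓝[>] (0 : ℝ) ×ˢ 𝓝[>] (0 : ℝ) := hle.trans curry_le_prod
  have t1 : Tendsto (fun p : ℝ × ℝ => p.1) U (𝓝 0) :=
    (tendsto_fst.mono_left hle2).mono_right nhdsWithin_le_nhds
  have t2 : Tendsto (fun p : ℝ × ℝ => p.2) U (𝓝 0) :=
    (tendsto_snd.mono_left hle2).mono_right nhdsWithin_le_nhds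
  have t3 : Tendsto (fun p : ℝ × ℝ => p.1 + p.2) U (𝓝 0) := by
    simpa using t1.add t2
  have hg : ∀ i, ∀ z ∈ C.D i, ∀ᶠ p in (U : Filter (ℝ × ℝ)), Good C (η p.1) p.2 z i := by
    intro i z hz
    refine Eventually.filter_mono hle (eventually_curry_iff.2 ?_)
    filter_upwards [self_mem_nhdsWithin] with d hd
    exact good_ev C hz (hη d hd)
  have halt : ∀ᶠ p in (U : Filter (ℝ × ℝ)),
      (∃ i, Big C H (Tri α β) (η p.1) p.2 (p.1 + p.2) i) ∨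
        ∃ h ∈ H, Cyc (Hole C h r (η p.1) p.2 (p.1 + p.2)) := by
    have h1 : ∀ᶠ p in (U : Filter (ℝ × ℝ)), p.1 + p.2 ≤ r →
        (∃ i, Big C H (Tri α β) (η p.1) p.2 (p.1 + p.2) i) ∨
          ∃ h ∈ H, Cyc (Hole C h r (η p.1) p.2 (p.1 + p.2)) := by
      refine Eventually.filter_mono hle (eventually_curry_iff.2 ?_)
      filter_upwards [self_mem_nhdsWithin] with d hd
      exact hev d hd
    filter_upwards [h1, t3.eventually (eventually_lt_nhds hr0)] with p h2 h3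
    exact h2 h3.le
  rcases Ultrafilter.eventually_or.1 halt with h | h
  · obtain ⟨i, hi⟩ := Ultrafilter.eventually_exists_iff.1 h
    exact big_false C U hH (tri_compact hα hβ) (fun p => η p.1) (fun p => p.2)
      (fun p => p.1 + p.2) t2 t3 hg i hi
  · obtain ⟨h, -, hc⟩ := (Ultrafilter.eventually_exists_mem_iff hH).1 h
    refine hF C h (cyc_mono ?_ (cyc_ultra U _ hc))
    intro i j hij
    obtain ⟨y, h1, h2, h3⟩ := hole_lk C U h r (fun p => η p.1) (fun p => p.2)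
      (fun p => p.1 + p.2) t2 t3 hg i j hij
    exact ⟨y, h1 ▸ hr0, h1 ▸ hr1, h2, h3⟩

end Vale.Agent.P032
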