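import Vale.Agent.P032.Stmts

/-! P032: the GNS construction and the mean ergodic bound. -/

namespace Vale.Agent.P032

open scoped BigOperators

namespace GnsA

variable {W : Type} [AddCommGroup W]

/-- the bilinear form of a kernel -/
noncomputable def form (φ : W → ℝ) : (W →₀ ℝ) →ₗ[ℝ] (W →₀ ℝ) →ₗ[ℝ] ℝ :=
  Finsupp.linearCombination ℝ fun x => Finsupp.linearCombination ℝ fun y => φ (x - y)

theorem form_single (φ : W → ℝ) (x y : W) (a b : ℝ) :
    form φ (Finsupp.single x a) (Finsupp.single y b) = a * (b * φ (x - y)) := by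
  simp only [form, Finsupp.linearCombination_single, LinearMap.smul_apply, smul_eq_mul]

theorem form_symm {φ : W → ℝ} (h : PD φ) (u v : W →₀ ℝ) : form φ v u = form φ u v := by
  have e : (form φ).flip = form φ := by
    refine Finsupp.lhom_ext fun x a => Finsupp.lhom_ext fun y b => ?_
    rw [LinearMap.flip_apply, form_single, form_single, ← h.1 (x - y), neg_sub, mul_left_comm]
  exact LinearMap.congr_fun₂ e u v

theorem form_nonneg {φ : W → ℝ} (h : PD φ) (u : W →₀ ℝ) : 0 ≤ form φ u u := by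
  refine (h.2 u.support (fun i => i) (fun i => u i)).trans_eq ?_
  rw [form, Finsupp.linearCombination_apply, Finsupp.sum, LinearMap.sum_apply,
    ← Finset.sum_coe_sort u.support]
  refine Finset.sum_congr rfl fun i _ => ?_
  rw [LinearMap.smul_apply, Finsupp.linearCombination_apply, Finsupp.sum,
    ← Finset.sum_coe_sort u.support, smul_eq_mul, Finset.mul_sum]
  exact Finset.sum_congr rfl fun j _ => mul_assoc _ _ _

/-- translation -/
noncomputable def tr (z : W) : (W →₀ ℝ) →ₗ[ℝ] (W →₀ ℝ) := Finsupp.lmapDomain ℝ ℝ fun x => z + x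

theorem tr_single (z x : W) (a : ℝ) : tr z (Finsupp.single x a) = Finsupp.single (z + x) a :=
  Finsupp.mapDomain_single

theorem form_tr (φ : W → ℝ) (z : W) (u v : W →₀ ℝ) : form φ (tr z u) (tr z v) = form φ u v := by
  have e : (form φ).compl₁₂ (tr z) (tr z) = form φ := by
    refine Finsupp.lhom_ext fun x a => Finsupp.lhom_ext fun y b => ?_
    rw [LinearMap.compl₁₂_apply, tr_single, tr_single, form_single, form_single,
      add_sub_add_left_eq_sub]
  exact LinearMap.congr_fun₂ e u v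

/-- the pre-inner product -/
@[reducible] noncomputable def core {φ : W → ℝ} (h : PD φ) :
    PreInnerProductSpace.Core ℝ (W →₀ ℝ) where
  inner u v := form φ u v
  conj_inner_symm u v := form_symm h u v
  re_inner_nonneg u := form_nonneg h u
  add_left u v w := by rw [map_add, LinearMap.add_apply]
  smul_left u v r := by rw [map_smul, LinearMap.smul_apply]; rfl

theorem bdd {k : W → ℝ} (h : PD k) (z : W) : |k z| ≤ k 0 := by
  have h1 := h.2 (Fin 2) ![z, 0] ![1, 1]
  have h2 := h.2 (Fin 2) ![z, 0] ![1, -1]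
  simp only [Fin.sum_univ_two, Matrix.cons_val_zero, Matrix.cons_val_one, sub_self, sub_zero,
    zero_sub, h.1] at h1 h2
  rw [abs_le]
  constructor <;> linarith

theorem mean_sum {X ι : Type} (m : Mean X) (f : ι → X → ℝ) (hf : ∀ i, Bdd (f i)) (s : Finset ι) :
    Bdd (fun z => ∑ i ∈ s, f i z) ∧ m.M (fun z => ∑ i ∈ s, f i z) = ∑ i ∈ s, m.M (f i) := by
  classical
  induction s using Finset.induction_on with
  | empty => exact ⟨⟨0, fun _ => by simp⟩, m.const 0⟩
  | insert i s hi ih =>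
    simp only [Finset.sum_insert hi]
    refine ⟨?_, by rw [m.add _ _ (hf i) ih.1, ih.2]⟩
    obtain ⟨B, hB⟩ := hf i
    obtain ⟨B', hB'⟩ := ih.1
    exact ⟨B + B', fun z => (abs_add_le _ _).trans (add_le_add (hB z) (hB' z))⟩

theorem ee_eq {ι : Type} [Fintype ι] (f : ι → ι → ℝ) :
    𝔼 i, 𝔼 j, f i j = (∑ i, ∑ j, f i j) / (Fintype.card ι : ℝ) ^ 2 := by
  simp only [Fintype.expect_eq_sum_div_card]
  rw [← Finset.sum_div, div_div, sq]

theorem double {k : W → ℝ} (h : PD k) {ι : Type} [Fintype ι] [Nonempty ι] (x : ι → W) (z : W) :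
    𝔼 p, 𝔼 q, k (Sum.elim x (fun i => z + x i) p - Sum.elim x (fun i => z + x i) q) =
      (𝔼 i, 𝔼 j, k (x i - x j) +
        (∑ p : ι × ι, k (z + (x p.1 - x p.2))) / (Fintype.card ι : ℝ) ^ 2) / 2 := by
  have hn : (Fintype.card ι : ℝ) ≠ 0 := Nat.cast_ne_zero.2 Fintype.card_ne_zero
  have e : ∑ i, ∑ j, k (x i - (z + x j)) = ∑ i, ∑ j, k (z + (x i - x j)) := by
    rw [Finset.sum_comm]
    refine Finset.sum_congr rfl fun i _ => Finset.sum_congr rfl fun j _ => ?_
    rw [← h.1, neg_sub, add_sub_assoc]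
  rw [ee_eq, ee_eq, Fintype.sum_prod_type]
  simp only [Fintype.sum_sum_type, Sum.elim_inl, Sum.elim_inr, Finset.sum_add_distrib,
    add_sub_add_left_eq_sub, Fintype.card_sum, Nat.cast_add, e]
  simp only [add_sub_assoc]
  field_simp
  ring

end GnsA

open GnsA

theorem gnsS : GnsStmt := by
  intro W _ φ h
  let c := core h
  let n : SeminormedAddCommGroup (W →₀ ℝ) := InnerProductSpace.Core.toSeminormedAddCommGroup (𝕜 := ℝ)
  let i : InnerProductSpace ℝ (W →₀ ℝ) := InnerProductSpace.ofCore c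
  refine ⟨W →₀ ℝ, n, i, fun z => (tr z).isometryOfInner (form_tr φ z), Finsupp.single 0 1,
    fun v => ?_, fun x y v => ?_, fun x y => ?_⟩
  · have e : tr (0 : W) = LinearMap.id := Finsupp.lhom_ext fun x a => by
      rw [tr_single, zero_add, LinearMap.id_apply]
    exact LinearMap.congr_fun e v
  · have e : tr (x + y) = (tr x).comp (tr y) := Finsupp.lhom_ext fun w a => by
      rw [LinearMap.comp_apply, tr_single, tr_single, tr_single, add_assoc]
    exact LinearMap.congr_fun e v
  · change form φ (tr x _) (tr y _) = _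
    rw [tr_single, tr_single, form_single, add_zero, add_zero, one_mul, one_mul]

theorem meS (hG : GnsStmt) : MEStmt := by
  have _ := hG
  intro G _ m k h a ha
  let A : Set ℝ := {r | ∃ (ι : Type) (_ : Fintype ι) (_ : Nonempty ι) (x : ι → G),
    r = 𝔼 i, 𝔼 j, k (x i - x j)}
  have hne : A.Nonempty := ⟨_, Unit, inferInstance, inferInstance, fun _ => 0, rfl⟩
  have hlb : a ∈ lowerBounds A := by
    rintro _ ⟨ι, _, _, x, rfl⟩
    exact ha ι x
  have hk : Bdd k := ⟨k 0, bdd h⟩
  refine (le_csInf hne hlb).trans (le_of_forall_pos_le_add fun ε hε => ?_)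
  obtain ⟨_, ⟨ι, _, _, x, rfl⟩, hx⟩ := exists_lt_of_csInf_lt hne (lt_add_of_pos_right _ hε)
  have hn : (0 : ℝ) < (Fintype.card ι : ℝ) ^ 2 := pow_pos (Nat.cast_pos.2 Fintype.card_pos) 2
  have h1 : ∀ z, (sInf A - ε) * (Fintype.card ι : ℝ) ^ 2 ≤
      ∑ p : ι × ι, k (z + (x p.1 - x p.2)) := by
    intro z
    have h2 : sInf A ≤ _ :=
      csInf_le ⟨a, hlb⟩ ⟨ι ⊕ ι, inferInstance, inferInstance, Sum.elim x fun i => z + x i, rfl⟩
    rw [double h] at h2
    rw [← le_div_iff₀ hn]
    linarith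
  obtain ⟨h3, h4⟩ := mean_sum m.toMean (fun (p : ι × ι) z => k (z + (x p.1 - x p.2)))
    (fun p => ⟨k 0, fun z => bdd h _⟩) Finset.univ
  have h5 := m.mono _ _ ⟨_, fun _ => le_rfl⟩ h3 h1
  rw [m.const, h4] at h5
  simp only [m.inv k _ hk, Finset.sum_const, Finset.card_univ, Fintype.card_prod, nsmul_eq_mul,
    Nat.cast_mul] at h5
  rw [← sq, mul_comm _ (m.M k)] at h5
  have h6 := le_of_mul_le_mul_right h5 hn
  linarith

end Vale.Agent.P032
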