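import Vale.Agent.P032.Stmts

/-! Sperner parity with holes. -/

namespace Vale.Agent.P032

open Finset Relation

namespace GridA

abbrev V : Type := ℤ × ℤ
abbrev Tr : Type := V × Bool

def sg (s : Bool) : ℤ := cond s (-1) 1
def ox : Fin 3 → ℤ := ![0, 1, 0]
def oy : Fin 3 → ℤ := ![0, 0, 1]

/-- vertices of a triangle -/
def vt (t : Tr) (k : Fin 3) : V := (t.1.1 + sg t.2 * ox k, t.1.2 + sg t.2 * oy k)

/-- the triangle across the side opposite to vertex `k` -/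
def fl (t : Tr) (k : Fin 3) : Tr :=
  ((t.1.1 + sg t.2 * (ox (k + 1) + ox (k + 2)), t.1.2 + sg t.2 * (oy (k + 1) + oy (k + 2))), !t.2)

theorem fl_fl (t : Tr) (k : Fin 3) : fl (fl t k) k = t := by
  rcases t with ⟨⟨a, b⟩, s⟩
  cases s <;> simp [fl, sg] <;> omega

theorem vt_fl1 (t : Tr) (k : Fin 3) : vt (fl t k) (k + 1) = vt t (k + 2) := by
  rcases t with ⟨⟨a, b⟩, s⟩
  cases s <;> simp [fl, vt, sg] <;> omega

theorem vt_fl2 (t : Tr) (k : Fin 3) : vt (fl t k) (k + 2) = vt t (k + 1) := by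
  rcases t with ⟨⟨a, b⟩, s⟩
  cases s <;> simp [fl, vt, sg] <;> omega

theorem adj (t : Tr) (k k' : Fin 3) : GAdj (vt t k) (vt t k') := by
  rcases t with ⟨⟨a, b⟩, s⟩
  cases s <;> fin_cases k <;> fin_cases k' <;> simp [GAdj, vt, sg, ox, oy]

theorem adj_symm {v w : V} (h : GAdj v w) : GAdj w v :=
  ⟨abs_sub_comm v.1 w.1 ▸ h.1, abs_sub_comm v.2 w.2 ▸ h.2⟩

theorem adj_refl (v : V) : GAdj v v := by simp [GAdj]

theorem adj_fl (t : Tr) (k k' : Fin 3) : GAdj (vt t (k + 1)) (vt (fl t k) k') :=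
  vt_fl2 t k ▸ adj _ _ _

/-- the triangles inside the big triangle -/
noncomputable def big (N : ℕ) : Finset Tr := by
  classical exact (Icc ((0, 0) : V) (N, N) ×ˢ univ).filter fun t => ∀ k, InT N (vt t k)

theorem mem_big {N : ℕ} {t : Tr} : t ∈ big N ↔ ∀ k, InT N (vt t k) := by
  simp only [big, mem_filter, mem_product, mem_univ, and_true, and_iff_right_iff_imp, mem_Icc,
    Prod.le_def]
  intro h
  have := h 0
  simp [InT, vt, ox, oy] at this
  omega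

theorem side {N : ℕ} {t : Tr} {k : Fin 3} (h : t ∈ big N) (h' : fl t k ∉ big N) :
    ((vt t (k + 1)).1 = 0 ∧ (vt t (k + 2)).1 = 0) ∨
    ((vt t (k + 1)).1 + (vt t (k + 1)).2 = N ∧ (vt t (k + 2)).1 + (vt t (k + 2)).2 = N) ∨
    ((vt t (k + 1)).2 = 0 ∧ (vt t (k + 2)).2 = 0 ∧ (vt t (k + 2)).1 < N ∧
      ((vt t (k + 1)).1 < N ∨ (t, k) = ((((N : ℤ) - 1, 0), false), 2))) ∨
    ((vt t (k + 2)).2 = 0 ∧ (vt t (k + 1)).2 = 0 ∧ (vt t (k + 1)).1 < N ∧
      ((vt t (k + 2)).1 < N ∨ (t, k) = ((((N : ℤ) - 1, 0), false), 2))) := by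
  rcases t with ⟨⟨a, b⟩, s⟩
  rw [mem_big] at h h'
  simp only [Fin.forall_fin_succ] at h h'
  cases s <;> fin_cases k <;> simp [InT, vt, fl, sg, ox, oy] at h h' ⊢ <;> omega

/-- boundary darts -/
def bd (U : Finset Tr) : Finset (Tr × Fin 3) := (U ×ˢ univ).filter fun d => fl d.1 d.2 ∉ U

/-- value on a dart -/
def ev (F : V → V → ZMod 2) (d : Tr × Fin 3) : ZMod 2 := F (vt d.1 (d.2 + 1)) (vt d.1 (d.2 + 2))

theorem stokes (F : V → V → ZMod 2) (hF : ∀ x y, F x y = F y x) (U : Finset Tr) :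
    ∑ t ∈ U, ∑ k, ev F (t, k) = ∑ d ∈ bd U, ev F d := by
  rw [← sum_product', bd, ← sum_filter_add_sum_filter_not _ fun d => fl d.1 d.2 ∈ U,
    sum_involution (fun d _ => (fl d.1 d.2, d.2)), zero_add]
  · intro d _
    simp only [ev, vt_fl1, vt_fl2]
    rw [hF, CharTwo.add_self_eq_zero]
  · intro d _ _ e
    have := congrArg (·.1.2) e
    simp [fl] at this
  · intro d hd
    simp only [mem_filter, mem_product, mem_univ, and_true, fl_fl] at hd ⊢
    exact hd.symm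
  · intro d _
    simp only [fl_fl]

theorem ev_zero {L : Type} (c : V → L) (G : L → L → ZMod 2) (h1 : ∀ x y, G x y = G y x)
    (h2 : ∀ x, G x x = 0) (t : Tr)
    (h : c (vt t 0) = c (vt t 1) ∨ c (vt t 0) = c (vt t 2) ∨ c (vt t 1) = c (vt t 2)) :
    ∑ k, ev (fun x y => G (c x) (c y)) (t, k) = 0 := by
  change ∑ k : Fin 3, G (c (vt t (k + 1))) (c (vt t (k + 2))) = 0
  rw [Fin.sum_univ_three]
  change G (c (vt t 1)) (c (vt t 2)) + G (c (vt t 2)) (c (vt t 0)) + G (c (vt t 0)) (c (vt t 1)) = 0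
  rcases h with h | h | h <;> rw [h, h2]
  · rw [add_zero, h1, CharTwo.add_self_eq_zero]
  · rw [add_zero, h1, CharTwo.add_self_eq_zero]
  · rw [zero_add, h1, CharTwo.add_self_eq_zero]

theorem cob (c : V → ZMod 2) (U : Finset Tr) : ∑ d ∈ bd U, ev (fun x y => c x + c y) d = 0 := by
  rw [← stokes _ fun _ _ => add_comm _ _]
  refine sum_eq_zero fun t _ => ?_
  simp only [ev, sum_add_distrib]
  exact (congrArg₂ _ (Equiv.sum_comp (Equiv.addRight 1) fun k => c (vt t k))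
    (Equiv.sum_comp (Equiv.addRight 2) fun k => c (vt t k))).trans (CharTwo.add_self_eq_zero _)

open Classical in
/-- indicator modulo two -/
noncomputable def ι (P : Prop) : ZMod 2 := if P then 1 else 0

theorem ι_pos {P : Prop} (h : P) : ι P = 1 := if_pos h
theorem ι_neg {P : Prop} (h : ¬ P) : ι P = 0 := if_neg h

theorem ext {n : ℕ} (h : n ≤ 5) (v : Fin n → Fin 5) (hv : Function.Injective v) :
    ∃ s : Equiv.Perm (Fin 5), ∀ k, s (Fin.castLE h k) = v k :=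
  Equiv.Perm.exists_extending_pair _ _ (Fin.castLE_injective h) hv

theorem cyc {g : Fin 5 → Fin 5 → Prop} (h0 : ∀ i, ¬ g i i)
    (h1 : ∀ x y, g x y → ∃ z, z ≠ x ∧ g y z) {a b : Fin 5} (hab : g a b) : Cyc g := by
  have ne : ∀ {x y}, g x y → y ≠ x := fun h e => h0 _ (e ▸ h)
  have c3 : ∀ {a b c}, g a b → g b c → g c a → Cyc g := fun {a b c} h1 h2 h3 => by
    obtain ⟨s, hs⟩ := ext (by norm_num) ![a, b, c] (by
      simp [List.nodup_ofFn.symm, (ne h1).symm, (ne h2).symm, ne h3])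
    exact ⟨s, (hs 0).symm ▸ (hs 1).symm ▸ h1, (hs 1).symm ▸ (hs 2).symm ▸ h2,
      Or.inl ((hs 2).symm ▸ (hs 0).symm ▸ h3)⟩
  have c4 : ∀ {a b c d}, g a b → g b c → g c d → g d a → c ≠ a → d ≠ b → Cyc g :=
    fun {a b c d} h1 h2 h3 h4 h5 h6 => by
    obtain ⟨s, hs⟩ := ext (by norm_num) ![a, b, c, d] (by
      simp [List.nodup_ofFn.symm, (ne h1).symm, (ne h2).symm, (ne h3).symm, ne h4, h5.symm,
        h6.symm])
    exact ⟨s, (hs 0).symm ▸ (hs 1).symm ▸ h1, (hs 1).symm ▸ (hs 2).symm ▸ h2,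
      Or.inr ⟨(hs 2).symm ▸ (hs 3).symm ▸ h3, Or.inl ((hs 3).symm ▸ (hs 0).symm ▸ h4)⟩⟩
  obtain ⟨c, hca, hbc⟩ := h1 _ _ hab
  obtain ⟨d, hdb, hcd⟩ := h1 _ _ hbc
  by_cases hda : d = a
  · exact c3 hab hbc (hda ▸ hcd)
  obtain ⟨e, hec, hde⟩ := h1 _ _ hcd
  by_cases hea : e = a
  · exact c4 hab hbc hcd (hea ▸ hde) hca hdb
  by_cases heb : e = b
  · exact c3 hbc hcd (heb ▸ hde)
  obtain ⟨f, hfd, hef⟩ := h1 _ _ hde
  obtain ⟨s, hs⟩ := ext le_rfl ![a, b, c, d, e] (by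
    simp [List.nodup_ofFn.symm, (ne hab).symm, (ne hbc).symm, (ne hcd).symm, (ne hde).symm,
      hca.symm, hdb.symm, Ne.symm hda, hec.symm, Ne.symm hea, Ne.symm heb])
  obtain ⟨k, rfl⟩ := s.surjective f
  have e0 : s 0 = a := hs 0
  have e1 : s 1 = b := hs 1
  have e2 : s 2 = c := hs 2
  have e3 : s 3 = d := hs 3
  have e4 : s 4 = e := hs 4
  subst e0 e1 e2 e3 e4
  fin_cases k
  · exact ⟨s, hab, hbc, Or.inr ⟨hcd, Or.inr ⟨hde, hef⟩⟩⟩
  · exact c4 hbc hcd hde hef hdb hec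
  · exact c3 hcd hde hef
  · exact (hfd rfl).elim
  · exact (h0 _ hef).elim

theorem cyc_mono {g g' : Fin 5 → Fin 5 → Prop} (h : Cyc g) (k : ∀ i j, g i j → g' i j) : Cyc g' :=
  h.imp fun _ hs => ⟨k _ _ hs.1, k _ _ hs.2.1, hs.2.2.imp (k _ _)
    (And.imp (k _ _) (Or.imp (k _ _) (And.imp (k _ _) (k _ _))))⟩

/-- the outer boundary count -/
theorem outer {N : ℕ} (hN : 0 < N) (P Q : V → Prop) (hP : ∀ v, v.1 = 0 → P v)
    (hQ : ∀ v, v.2 = 0 → Q v) (h : ∀ v, InT N v → v.1 + v.2 = N → P v → ¬ Q v) :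
    ∑ d ∈ bd (big N), ev (fun x y => ι (¬ P x) * ι (P y ∧ ¬ Q y) + ι (¬ P y) * ι (P x ∧ ¬ Q x)) d
      = 1 := by
  rw [← add_zero (∑ d ∈ _, _), ← cob (fun v => ι (v.1 + v.2 = N ∧ ¬ P v)) (big N),
    ← sum_add_distrib, sum_eq_single_of_mem ((((N : ℤ) - 1, 0), false), 2)]
  · have h1 := h (N, 0) (by simp [InT]) (by simp)
    have h2 := hQ (N, 0) rfl
    have h3 := hQ (N - 1, 0) rfl
    have h4 : ¬ P (N, 0) := fun e => h1 e h2
    simp [ev, vt, sg, ox, oy, ι, h2, h3, h4]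
  · simp only [bd, mem_filter, mem_product, mem_univ, and_true, mem_big, Fin.forall_fin_succ]
    simp [InT, vt, fl, sg, ox, oy]
    omega
  · rintro ⟨t, k⟩ hd hne
    simp only [bd, mem_filter, mem_product, mem_univ, and_true] at hd
    have i1 := h _ (mem_big.1 hd.1 (k + 1))
    have i2 := h _ (mem_big.1 hd.1 (k + 2))
    simp only [ev]
    rcases side hd.1 hd.2 with ⟨h1, h2⟩ | ⟨h1, h2⟩ | ⟨h1, h2, h3, h4⟩ | ⟨h2, h1, h3, h4⟩
    · simp [ι, hP _ h1, hP _ h2]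
    · by_cases e1 : P (vt t (k + 1)) <;> by_cases e2 : P (vt t (k + 2)) <;>
        simp [ι, e1, e2, h1, h2, i1 h1, i2 h2, CharTwo.add_self_eq_zero]
    · have := h4.resolve_right hne
      simp [ι, hQ _ h1, hQ _ h2, h1, h2, h3.ne, this.ne]
    · have := h4.resolve_right hne
      simp [ι, hQ _ h1, hQ _ h2, h1, h2, h3.ne, this.ne]

theorem rev {r : V → V → Prop} (h : ∀ x y, r x y → r y x) {x y : V} (e : ReflTransGen r x y) :
    ReflTransGen r y x := by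
  induction e with
  | refl => exact .refl
  | tail _ h2 ih => exact ih.head (h _ _ h2)

/-- edges with colours `i` and `j` -/
noncomputable def φ (i j x y : Fin 5) : ZMod 2 := ι (x = i) * ι (y = j) + ι (y = i) * ι (x = j)

theorem φ_symm (i j x y : Fin 5) : φ i j x y = φ i j y x := add_comm _ _
theorem φ_self (i j x : Fin 5) : φ i j x x = 0 := CharTwo.add_self_eq_zero _
theorem φ_ne {i j x y : Fin 5} (h : φ i j x y ≠ 0) : (x = i ∧ y = j) ∨ (y = i ∧ x = j) := by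
  by_contra hn
  refine h ?_
  by_cases e1 : x = i <;> by_cases e2 : y = j <;> by_cases e3 : y = i <;> by_cases e4 : x = j <;>
    simp_all [φ, ι]

end GridA

open GridA

theorem gridS : GridStmt := by
  classical
  intro N H col hole near mid Gd hN hGd h1 h2 h3 h4
  rw [or_iff_not_imp_left]
  intro hno
  set r : V → V → Prop := fun v w => Gd v ∧ Gd w ∧ col v = col w ∧
    (GAdj v w ∨ ∃ h, near h v ∧ near h w) with hr
  have rs : ∀ x y, r x y → r y x := fun x y h => ⟨h.2.1, h.1, h.2.2.1.symm,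
    h.2.2.2.imp adj_symm fun ⟨k, e1, e2⟩ => ⟨k, e2, e1⟩⟩
  have hm : ∀ {h v}, hole h v → mid h v := fun e => h2 _ _ (h1 _ _ _ e (adj_refl _))
  have hin : ∀ {h v w}, mid h v → GAdj v w → InT N w := fun e a => by
    have := h3 _ _ _ e a
    exact ⟨by omega, by omega, by omega⟩
  let P : V → Prop := fun v => ∃ w, w.1 = 0 ∧ ReflTransGen r v w
  let Q : V → Prop := fun v => ∃ w, w.2 = 0 ∧ ReflTransGen r v w
  let c : V → ZMod 2 × ZMod 2 := fun v => (ι (¬ P v), ι (P v ∧ ¬ Q v))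
  let G : ZMod 2 × ZMod 2 → ZMod 2 × ZMod 2 → ZMod 2 := fun p q => p.1 * q.2 + q.1 * p.2
  have hc : ∀ x y, r x y → c x = c y := fun x y e => by
    have e1 : P x = P y := propext ⟨fun ⟨w, a, b⟩ => ⟨w, a, b.head (rs _ _ e)⟩,
      fun ⟨w, a, b⟩ => ⟨w, a, b.head e⟩⟩
    have e2 : Q x = Q y := propext ⟨fun ⟨w, a, b⟩ => ⟨w, a, b.head (rs _ _ e)⟩,
      fun ⟨w, a, b⟩ => ⟨w, a, b.head e⟩⟩
    simp only [c, e1, e2]
  have tot : ∑ t ∈ big N, ∑ k, ev (fun x y => G (c x) (c y)) (t, k) = 1 := by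
    rw [stokes _ fun _ _ => add_comm _ _]
    refine outer hN P Q (fun v e => ⟨v, e, .refl⟩) (fun v e => ⟨v, e, .refl⟩) ?_
    rintro v hv hs ⟨v0, a0, b0⟩ ⟨v1, a1, b1⟩
    refine hno ⟨v0, v1, v, ?_, a0, a1, hs, (rev rs b0).trans b1, rev rs b0⟩
    rcases b0.cases_tail with rfl | ⟨_, _, e⟩
    · exact (hGd _).2 ⟨hv, fun h e => by have := h3 _ _ _ (hm e) (adj_refl _); omega⟩
    · exact e.2.1
  have two : ∀ t, (∀ k, Gd (vt t k)) → col (vt t 0) = col (vt t 1) ∨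
      col (vt t 0) = col (vt t 2) ∨ col (vt t 1) = col (vt t 2) :=
    fun t e => h4 _ _ _ (e 0) (e 1) (e 2) (adj _ _ _) (adj _ _ _) (adj _ _ _)
  let T : H → Finset Tr := fun h => (big N).filter fun t => ∃ k, hole h (vt t k)
  obtain ⟨h, hh⟩ : ∃ h, ∑ t ∈ T h, ∑ k, ev (fun x y => G (c x) (c y)) (t, k) ≠ 0 := by
    by_contra hn
    push Not at hn
    let g : Tr → Option H := fun t => if e : ∃ h k, hole h (vt t k) then some e.choose else none
    rw [← sum_fiberwise_of_maps_to (g := g) fun t ht => mem_image_of_mem g ht,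
      sum_eq_zero] at tot
    · exact zero_ne_one tot
    rintro (_ | h) -
    · refine sum_eq_zero fun t ht => ?_
      rw [mem_filter] at ht
      have e : ∀ k, Gd (vt t k) := fun k => (hGd _).2 ⟨mem_big.1 ht.1 k, fun h e => by
        have := ht.2
        simp only [g, dif_pos (⟨h, k, e⟩ : ∃ h k, hole h (vt t k))] at this
        cases this⟩
      exact ev_zero c G (fun _ _ => add_comm _ _) (fun _ => CharTwo.add_self_eq_zero _) t
        ((two t e).imp (fun a => hc _ _ ⟨e _, e _, a, Or.inl (adj _ _ _)⟩) (Or.imp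
          (fun a => hc _ _ ⟨e _, e _, a, Or.inl (adj _ _ _)⟩)
          fun a => hc _ _ ⟨e _, e _, a, Or.inl (adj _ _ _)⟩))
    · refine (sum_congr (filter_congr fun t _ => ?_) fun _ _ => rfl).trans (hn h)
      by_cases e : ∃ h k, hole h (vt t k)
      · simp only [g, dif_pos e, Option.some.injEq]
        refine ⟨fun a => a ▸ e.choose_spec, fun ⟨k, a⟩ => ?_⟩
        obtain ⟨k', b⟩ := e.choose_spec
        by_contra hne
        exact (h3 _ _ _ (hm a) (adj t k k')).2.2.2 _ hne b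
      · simp only [g, dif_neg e]
        exact ⟨fun a => (by cases a), fun a => (e ⟨h, a⟩).elim⟩
  have out : ∀ t k, mid h (vt t (k + 1)) → fl t k ∉ T h →
      fl t k ∈ big N ∧ ∀ k', Gd (vt (fl t k) k') := fun t k e a => by
    have b : fl t k ∈ big N := mem_big.2 fun k' => hin e (adj_fl t k k')
    refine ⟨b, fun k' => (hGd _).2 ⟨mem_big.1 b k', fun h' e' => ?_⟩⟩
    by_cases hh' : h' = h
    · exact a (mem_filter.2 ⟨b, k', hh' ▸ e'⟩)
    · exact (h3 _ _ _ e (adj_fl t k k')).2.2.2 _ hh' e'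
  have hb : ∀ d ∈ bd (T h), (near h (vt d.1 (d.2 + 1)) ∧ Gd (vt d.1 (d.2 + 1))) ∧
      near h (vt d.1 (d.2 + 2)) ∧ Gd (vt d.1 (d.2 + 2)) := fun d hd => by
    simp only [bd, mem_filter, mem_product, mem_univ, and_true] at hd
    obtain ⟨k, e⟩ := (mem_filter.1 hd.1).2
    have a := (out d.1 d.2 (h2 _ _ (h1 _ _ _ e (adj _ _ _))) hd.2).2
    exact ⟨⟨h1 _ _ _ e (adj _ _ _), vt_fl2 d.1 d.2 ▸ a _⟩, h1 _ _ _ e (adj _ _ _),
      vt_fl1 d.1 d.2 ▸ a _⟩
  let n : Fin 5 → Fin 5 → ZMod 2 := fun i j =>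
    ∑ d ∈ bd (T h), ev (fun x y => φ i j (col x) (col y)) d
  obtain ⟨i0, j0, hij⟩ : ∃ i j, n i j ≠ 0 := by
    by_contra hn
    push Not at hn
    refine hh ?_
    let l : Fin 5 → ZMod 2 × ZMod 2 := fun i =>
      if e : ∃ u, (near h u ∧ Gd u) ∧ col u = i then c e.choose else 0
    have hl : ∀ u, near h u ∧ Gd u → c u = l (col u) := fun u hu => by
      have e : ∃ u', (near h u' ∧ Gd u') ∧ col u' = col u := ⟨u, hu, rfl⟩
      simp only [l, dif_pos e]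
      exact hc _ _ ⟨hu.2, e.choose_spec.1.2, e.choose_spec.2.symm,
        Or.inr ⟨h, hu.1, e.choose_spec.1.1⟩⟩
    rw [stokes _ fun _ _ => add_comm _ _]
    refine Eq.trans ?_ (show ∑ i, ∑ j, (l i).1 * (l j).2 * n i j = 0 by simp [hn])
    simp only [n, mul_sum]
    simp only [sum_comm (t := bd (T h))]
    refine sum_congr rfl fun d hd => ?_
    simp only [ev, hl _ (hb d hd).1, hl _ (hb d hd).2]
    simp [G, φ, ι, mul_add, sum_add_distrib]
  have hcyc : Cyc fun i j => n i j ≠ 0 := by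
    refine cyc (fun i e => e (sum_eq_zero fun d _ => ?_)) (fun i j e => ?_) hij
    · simp only [ev, φ]
      rw [mul_comm, CharTwo.add_self_eq_zero]
    · by_contra hn
      push Not at hn
      have e1 : ∑ k, n j k = 0 := by
        rw [← cob (fun v => ι (col v = j)) (T h)]
        simp only [n]
        rw [sum_comm]
        refine sum_congr rfl fun d _ => ?_
        simp [ev, φ, ι, sum_add_distrib]
      rw [sum_eq_single_of_mem i (mem_univ _) fun k _ => hn k] at e1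
      refine e (Eq.trans (sum_congr rfl fun d _ => ?_) e1)
      simp only [ev, φ]
      ring
  refine ⟨h, cyc_mono hcyc fun i j hn => ?_⟩
  by_contra hesc
  refine hn ?_
  let A : Fin 5 → V → Prop := fun i w => col w = i ∧ ∃ u, near h u ∧ Gd u ∧ col u = i ∧
    ReflTransGen (fun v w => Gd v ∧ Gd w ∧ col v = col w ∧ GAdj v w) u w
  let R : Finset Tr := (big N).filter fun t => (∀ k, Gd (vt t k)) ∧
    ∃ k k', A i (vt t k) ∧ A j (vt t k') ∧ mid h (vt t k)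
  have hdis : Disjoint (T h) R := disjoint_filter.2 fun t _ ⟨k, e⟩ a => ((hGd _).1 (a.1 k)).2 h e
  have e1 := stokes (fun x y => φ i j (col x) (col y)) (fun _ _ => φ_symm _ _ _ _) (T h ∪ R)
  rw [sum_union hdis, stokes _ fun _ _ => φ_symm _ _ _ _, sum_eq_zero (s := R) fun t ht =>
    ev_zero col (φ i j) (φ_symm i j) (φ_self i j) t (two t (mem_filter.1 ht).2.1), add_zero] at e1
  refine e1.trans (sum_eq_zero fun d hd => ?_)
  by_contra hne
  simp only [bd, mem_filter, mem_product, mem_univ, and_true, mem_union, not_or] at hd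
  have main : mid h (vt d.1 (d.2 + 1)) ∧ mid h (vt d.1 (d.2 + 2)) ∧
      (∀ l, l = i ∨ l = j → col (vt d.1 (d.2 + 1)) = l → A l (vt d.1 (d.2 + 1))) ∧
      ∀ l, l = i ∨ l = j → col (vt d.1 (d.2 + 2)) = l → A l (vt d.1 (d.2 + 2)) := by
    rcases hd.1 with e | e
    · obtain ⟨a, b⟩ := hb d (mem_filter.2 ⟨mem_product.2 ⟨e, mem_univ _⟩, hd.2.1⟩)
      exact ⟨h2 _ _ a.1, h2 _ _ b.1, fun l _ e => ⟨e, _, a.1, a.2, e, .refl⟩,
        fun l _ e => ⟨e, _, b.1, b.2, e, .refl⟩⟩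
    · obtain ⟨-, eg, k, k', ⟨a0, u, a1, a2, a3, a4⟩, ⟨b0, u', b1, b2, b3, b4⟩, em⟩ := mem_filter.1 e
      have hmid : ∀ m, mid h (vt d.1 m) := fun m => by
        by_contra hb
        exact hesc ⟨u, u', _, _, _, a1, b1, a2, b2, a3, b3, a4, b4, adj _ _ _, em, hb, adj _ _ _⟩
      have hA : ∀ m l, l = i ∨ l = j → col (vt d.1 m) = l → A l (vt d.1 m) := by
        rintro m l (rfl | rfl) e
        · exact ⟨e, u, a1, a2, a3, a4.tail ⟨eg _, eg _, a0.trans e.symm, adj _ _ _⟩⟩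
        · exact ⟨e, u', b1, b2, b3, b4.tail ⟨eg _, eg _, b0.trans e.symm, adj _ _ _⟩⟩
      exact ⟨hmid _, hmid _, hA _, hA _⟩
  obtain ⟨o1, o2⟩ := out d.1 d.2 main.1 hd.2.1
  refine hd.2.2 (mem_filter.2 ⟨o1, o2, ?_⟩)
  rcases φ_ne hne with ⟨a, b⟩ | ⟨a, b⟩
  · refine ⟨d.2 + 2, d.2 + 1, ?_⟩
    rw [vt_fl1, vt_fl2]
    exact ⟨main.2.2.1 _ (Or.inl rfl) a, main.2.2.2 _ (Or.inr rfl) b, main.1⟩
  · refine ⟨d.2 + 1, d.2 + 2, ?_⟩
    rw [vt_fl1, vt_fl2]
    exact ⟨main.2.2.2 _ (Or.inl rfl) a, main.2.2.1 _ (Or.inr rfl) b, main.2.1⟩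

end Vale.Agent.P032
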