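import Vale.Agent.P032.Stmts

/-! P032: limit colour distributions with a prescribed half. -/

namespace Vale.Agent.P032

open MeasureTheory Set Filter Topology Metric
open scoped Real ENNReal BigOperators

namespace HalfA

lemma maximal {N : Set ℂ} (hN : MeasurableSet N) {lam : ℝ} (hlam : 0 ≤ lam) (R : ℝ) :
    ENNReal.ofReal lam * volume {z : ℂ | ∃ t, 0 < t ∧ t ≤ R ∧
      ENNReal.ofReal (lam * t ^ 2) < volume (N ∩ closedBall z t)} ≤
      ENNReal.ofReal (25 * π) * volume N := by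
  obtain ⟨u, hu, hd, hc⟩ := Vitali.exists_disjoint_subfamily_covering_enlargement_closedBall
    {p : ℂ × ℝ | 0 < p.2 ∧ p.2 ≤ R ∧
      ENNReal.ofReal (lam * p.2 ^ 2) < volume (N ∩ closedBall p.1 p.2)}
    Prod.fst Prod.snd R (fun a ha => ha.2.1) 5 (by norm_num)
  have hcount : u.Countable := hd.countable_of_nonempty_interior fun p hp =>
    ⟨p.1, mem_interior_iff_mem_nhds.2 (closedBall_mem_nhds _ (hu hp).1)⟩
  have h1 : {z : ℂ | ∃ t, 0 < t ∧ t ≤ R ∧
      ENNReal.ofReal (lam * t ^ 2) < volume (N ∩ closedBall z t)} ⊆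
      ⋃ b ∈ u, closedBall b.1 (5 * b.2) := by
    rintro z ⟨t, h⟩
    obtain ⟨b, hb, hs⟩ := hc (z, t) h
    exact mem_biUnion hb (hs (mem_closedBall_self h.1.le))
  have h2 : ∑' b : u, volume (N ∩ closedBall b.1.1 b.1.2) ≤ volume N := by
    rw [← measure_biUnion hcount (hd.mono fun b => inter_subset_right)
      fun b _ => hN.inter measurableSet_closedBall]
    exact measure_mono (iUnion₂_subset fun _ _ => inter_subset_left)
  refine (mul_le_mul_right ((measure_mono h1).trans (measure_biUnion_le _ hcount _)) _).trans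
    (le_trans ?_ (mul_le_mul_right h2 _))
  rw [← ENNReal.tsum_mul_left, ← ENNReal.tsum_mul_left]
  refine ENNReal.tsum_le_tsum fun b => le_trans (le_of_eq ?_) (mul_le_mul_right (hu b.2).2.2.le _)
  have hb := (hu b.2).1
  rw [Complex.volume_closedBall, ← ENNReal.ofReal_pow (by positivity), ← ENNReal.ofReal_coe_nnreal,
    NNReal.coe_real_pi, ← ENNReal.ofReal_mul (by positivity), ← ENNReal.ofReal_mul hlam,
    ← ENNReal.ofReal_mul (by positivity)]
  exact congrArg ENNReal.ofReal (by ring)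

lemma vol_eq (A : Set ℂ) (w : ℂ) {ρ : ℝ} (hρ : 0 < ρ) :
    volume (A ∩ ball w ρ) = ENNReal.ofReal (fr A w ρ * (π * ρ ^ 2)) := by
  rw [fr, div_mul_cancel₀ _ (by positivity), ENNReal.ofReal_toReal
    ((measure_mono inter_subset_right).trans_lt measure_ball_lt_top).ne]

lemma fr_le {A S : Set ℂ} {c : ℂ} {r K : ℝ} (hr : 0 < r) (hK : 0 ≤ K) (h : A ∩ ball c r ⊆ S)
    (hS : volume S ≤ ENNReal.ofReal (K * (2 * r) ^ 2)) : fr A c r ≤ 2 * K := by
  have h1 := ENNReal.toReal_le_of_le_ofReal (by positivity) ((measure_mono h).trans hS)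
  rw [fr, div_le_iff₀ (by positivity)]
  refine h1.trans ?_
  have := mul_le_mul_of_nonneg_left Real.two_le_pi (show 0 ≤ 2 * K * r ^ 2 by positivity)
  linarith

lemma key (hP : PvStmt) (C : Col) {x : ℂ} {p : Fin 5 → ℝ} {I : Finset (Fin 5)} (h : C.Lim x p)
    (h0 : 0 < ∑ j ∈ I, p j) (h1 : ∑ j ∈ I, p j < 1 / 2) {ε : ℝ} (hε : 0 < ε) :
    ∃ (w : ℂ) (ρ : ℝ), dist w x < ε ∧ 0 < ρ ∧ ρ < ε ∧ ∑ j ∈ I, C.pv w ρ j = 1 / 2 ∧
      ∀ j, p j = 0 → C.pv w ρ j ≤ ε := by
  obtain ⟨i, hi, hpi⟩ : ∃ i ∈ I, 0 < p i := by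
    by_contra hc
    push Not at hc
    exact absurd (Finset.sum_nonpos hc) (not_le.2 h0)
  obtain ⟨η, hη, e1, e2, e3, e4⟩ : ∃ η : ℝ, 0 < η ∧ η ≤ ε / 2 ∧ η ≤ p i / 2 ∧
      η ≤ ε * p i / 2000 ∧ η ≤ (1 / 2 - ∑ j ∈ I, p j) / 5 :=
    ⟨min (min (ε / 2) (p i / 2)) (min (ε * p i / 2000) ((1 / 2 - ∑ j ∈ I, p j) / 5)),
      lt_min (lt_min (by positivity) (by positivity)) (lt_min (by positivity) (by linarith)),
      (min_le_left _ _).trans (min_le_left _ _), (min_le_left _ _).trans (min_le_right _ _),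
      (min_le_right _ _).trans (min_le_left _ _), (min_le_right _ _).trans (min_le_right _ _)⟩
  obtain ⟨w, ρ, hw, hρ, hρη, hp⟩ := h η hη
  have hA : 0 < π * ρ ^ 2 := by positivity
  obtain ⟨N, hNm, hN, hNs⟩ : ∃ N : Set ℂ, MeasurableSet N ∧
      volume N ≤ ENNReal.ofReal (5 * η * (π * ρ ^ 2)) ∧ ∀ j, p j = 0 → C.D j ∩ ball w ρ ⊆ N := by
    refine ⟨⋃ j, if p j = 0 then C.D j ∩ ball w ρ else ∅, MeasurableSet.iUnion fun j => ?_,
      (measure_iUnion_fintype_le _ _).trans ?_, fun j hj => subset_iUnion_of_subset j ?_⟩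
    · split_ifs
      exacts [(C.meas j).inter measurableSet_ball, MeasurableSet.empty]
    · have : ∀ j, volume (if p j = 0 then C.D j ∩ ball w ρ else ∅) ≤
          ENNReal.ofReal (η * (π * ρ ^ 2)) := fun j => by
        split_ifs with hj
        · rw [vol_eq _ _ hρ]
          have := (abs_lt.1 (hp j)).2
          rw [hj, sub_zero] at this
          exact ENNReal.ofReal_le_ofReal (mul_le_mul_of_nonneg_right this.le hA.le)
        · simp
      refine (Finset.sum_le_sum fun j _ => this j).trans (le_of_eq ?_)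
      rw [← ENNReal.ofReal_sum_of_nonneg fun _ _ => by positivity]
      refine congrArg ENNReal.ofReal ?_
      simp only [Finset.sum_const, Finset.card_univ, Fintype.card_fin, nsmul_eq_mul]
      push_cast
      ring
    · rw [if_pos hj]
  obtain ⟨z, ⟨hz, hzw⟩, hb⟩ : ∃ z ∈ C.D i ∩ ball w ρ, ∀ t, 0 < t → t ≤ 2 * ρ →
      volume (N ∩ closedBall z t) ≤ ENNReal.ofReal (ε / 2 * t ^ 2) := by
    by_contra hc
    push Not at hc
    have h2 := (mul_le_mul_right (measure_mono hc) _).trans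
      ((maximal hNm (half_pos hε).le (2 * ρ)).trans (mul_le_mul_right hN _))
    rw [vol_eq _ _ hρ, ← ENNReal.ofReal_mul (half_pos hε).le, ← ENNReal.ofReal_mul (by positivity),
      ENNReal.ofReal_le_ofReal_iff (by positivity), ← mul_assoc, ← mul_assoc (25 * π)] at h2
    have h3 := le_of_mul_le_mul_right h2 hA
    have h4 : p i / 2 < fr (C.D i) w ρ := by
      have := (abs_lt.1 (hp i)).1
      change _ < fr (C.D i) w ρ - _ at this
      linarith
    have h5 := mul_lt_mul_of_pos_left h4 (half_pos hε)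
    have h6 := mul_le_mul_of_nonneg_right Real.pi_le_four hη.le
    linarith
  have hzw' : ‖w - z‖ < ρ := by rwa [mem_ball, dist_comm, dist_eq_norm] at hzw
  have s1 : ∀ t : ℝ, 0 < t → ball (z + t * (w - z)) (t * ρ) ⊆ closedBall z (2 * (t * ρ)) :=
    fun t ht => ball_subset_closedBall.trans (closedBall_subset_closedBall' (by
      rw [dist_eq_norm, add_sub_cancel_left, norm_mul, Complex.norm_real, Real.norm_of_nonneg ht.le]
      linarith [mul_le_mul_of_nonneg_left hzw'.le ht.le]))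
  have s2 : ∀ t : ℝ, t ≤ 1 → dist (z + t * (w - z)) w ≤ (1 - t) * ρ := fun t ht => by
    rw [dist_comm, dist_eq_norm, show w - (z + t * (w - z)) = ((1 - t : ℝ) : ℂ) * (w - z) by
      push_cast; ring, norm_mul, Complex.norm_real, Real.norm_of_nonneg (by linarith)]
    exact mul_le_mul_of_nonneg_left hzw'.le (by linarith)
  obtain ⟨r, ⟨hr1, hr2⟩, hr0⟩ := (((C.dens i z hz (1 / 16) (by norm_num)).and
    (mem_nhdsWithin_of_mem_nhds (Iio_mem_nhds (show 0 < 2 * ρ by positivity)))).and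
    self_mem_nhdsWithin).exists
  obtain ⟨t₀, ht₀, rfl⟩ : ∃ t₀ : ℝ, 0 < t₀ ∧ r = 2 * (t₀ * ρ) :=
    ⟨r / (2 * ρ), div_pos hr0 (by positivity), by field_simp⟩
  have ht₁ : t₀ ≤ 1 := by
    have : 2 * (t₀ * ρ) < 2 * ρ := hr2
    nlinarith
  have hcont : ContinuousOn (fun t : ℝ => ∑ j ∈ I, C.pv (z + t * (w - z)) (t * ρ) j) (Icc t₀ 1) :=
    continuousOn_finsetSum _ fun j _ => (hP.2.1 (C.D j)).comp
      (f := fun t : ℝ => (z + t * (w - z), t * ρ)) (by fun_prop)
      fun t ht => mul_pos (ht₀.trans_le ht.1) hρ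
  have hlo : ∑ j ∈ I, C.pv (z + ((1 : ℝ) : ℂ) * (w - z)) (1 * ρ) j ≤ 1 / 2 := by
    rw [Complex.ofReal_one, one_mul, one_mul, add_sub_cancel]
    have h2 : ∑ j ∈ I, C.pv w ρ j ≤ ∑ j ∈ I, (p j + η) :=
      Finset.sum_le_sum fun j _ => by linarith [(abs_lt.1 (hp j)).2]
    have h3 : (I.card : ℝ) ≤ 5 := by exact_mod_cast I.card_le_univ
    rw [Finset.sum_add_distrib, Finset.sum_const, nsmul_eq_mul] at h2
    linarith [mul_le_mul_of_nonneg_right h3 hη.le]
  have hhi : 1 / 2 ≤ ∑ j ∈ I, C.pv (z + t₀ * (w - z)) (t₀ * ρ) j := by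
    obtain ⟨a1, a2⟩ := (hP.2.2.2.2 C).1 (z + t₀ * (w - z)) _ (mul_pos ht₀ hρ)
    refine le_trans ?_ (Finset.single_le_sum (fun j _ => a1 j) hi)
    have a3 : ∑ j ∈ Finset.univ.erase i, C.pv (z + t₀ * (w - z)) (t₀ * ρ) j ≤
        ∑ j ∈ Finset.univ.erase i, 2 * (1 / 16 : ℝ) :=
      Finset.sum_le_sum fun j hj => fr_le (S := closedBall z (2 * (t₀ * ρ)) \ C.D i)
        (mul_pos ht₀ hρ) (by norm_num) (fun y hy => ⟨s1 _ ht₀ hy.2, fun hi' =>
          disjoint_left.1 (C.disj j i (Finset.ne_of_mem_erase hj)) hy.1 hi'⟩) hr1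
    rw [← Finset.add_sum_erase _ _ (Finset.mem_univ i)] at a2
    rw [Finset.sum_const, Finset.card_erase_of_mem (Finset.mem_univ i)] at a3
    simp only [Finset.card_univ, Fintype.card_fin, nsmul_eq_mul] at a3
    push_cast at a3
    linarith
  obtain ⟨t, ⟨ht, ht'⟩, he⟩ := intermediate_value_Icc' ht₁ hcont ⟨hlo, hhi⟩
  have ht0 := ht₀.trans_le ht
  have htρ := mul_pos ht0 hρ
  have htρ' : t * ρ ≤ ρ := mul_le_of_le_one_left hρ.le ht'
  have hs := s2 t ht'
  refine ⟨z + t * (w - z), t * ρ, ?_, htρ, by linarith, he, fun j hj => ?_⟩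
  · linarith [dist_triangle (z + t * (w - z)) w x]
  · refine (fr_le (S := N ∩ closedBall z (2 * (t * ρ))) htρ (half_pos hε).le
      (fun y hy => ⟨hNs j hj ⟨hy.1, ?_⟩, s1 _ ht0 hy.2⟩)
      (hb _ (by positivity) (by linarith))).trans (by linarith)
    exact ball_subset_ball' (by linarith) hy.2

lemma low (hP : PvStmt) (C : Col) {x : ℂ} {p : Fin 5 → ℝ} {I : Finset (Fin 5)} (h : C.Lim x p)
    (h0 : 0 < ∑ j ∈ I, p j) (h1 : ∑ j ∈ I, p j < 1 / 2) :
    ∃ q, C.Lim x q ∧ ∑ j ∈ I, q j = 1 / 2 ∧ ∀ j, p j = 0 → q j = 0 := by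
  choose w ρ hw hρ hρ' hs hz using fun n : ℕ => key hP C h h0 h1 (Nat.one_div_pos_of_nat (n := n))
  have hT : Tendsto (fun n : ℕ => 1 / ((n : ℝ) + 1)) atTop (𝓝 0) :=
    tendsto_one_div_add_atTop_nhds_zero_nat
  obtain ⟨q, u, hu, hq, ht⟩ := (hP.2.2.2.2 C).2.2.2 x w ρ
    (tendsto_iff_dist_tendsto_zero.2 (squeeze_zero (fun _ => dist_nonneg) (fun n => (hw n).le) hT))
    (squeeze_zero (fun n => (hρ n).le) (fun n => (hρ' n).le) hT) hρ
  rw [tendsto_pi_nhds] at ht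
  refine ⟨q, hq, ?_, fun j hj => le_antisymm ?_ (((hP.2.2.2.2 C).2.1 x q hq).1 j)⟩
  · have := tendsto_finsetSum I fun j _ => ht j
    simp only [hs] at this
    exact tendsto_nhds_unique this tendsto_const_nhds
  · exact le_of_tendsto_of_tendsto' (ht j) (hT.comp hu.tendsto_atTop) fun n => hz (u n) j hj

end HalfA

theorem halfS (hP : PvStmt) : HalfStmt := by
  intro C x p I h h0 h1
  rcases lt_trichotomy (∑ j ∈ I, p j) (1 / 2) with h2 | h2 | h2
  · exact HalfA.low hP C h h0 h2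
  · exact ⟨p, h, h2, fun _ hj => hj⟩
  · have e1 := ((hP.2.2.2.2 C).2.1 x p h).2
    rw [← Finset.sum_add_sum_compl I] at e1
    obtain ⟨q, hq, a1, a2⟩ := HalfA.low hP C (I := Iᶜ) h (by linarith) (by linarith)
    have e2 := ((hP.2.2.2.2 C).2.1 x q hq).2
    rw [← Finset.sum_add_sum_compl I] at e2
    exact ⟨q, hq, by linarith, a2⟩

end Vale.Agent.P032
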