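import Vale.Agent.P032.Stmts

namespace Vale.Agent.P032

open MeasureTheory Set Filter Topology Metric
open scoped Real

namespace InvA

theorem ae_add {p : ℝ → Prop} (c : ℝ) (h : ∀ᵐ x, p x) : ∀ᵐ x, p (x + c) :=
  (measurePreserving_add_right volume c).quasiMeasurePreserving.ae h

theorem ae_comp (hD : DensStmt) {p : ℝ → Prop} {T : ℝ → ℝ} {L : ℝ} (hL : L ≤ 1 / 2)
    (hT : NearId T L) (h : ∀ᵐ x, p x) : ∀ᵐ x, p (T x) := by
  have h1 := hD.2.2.2.2.2.1 T L hL hT {x | ¬ p x}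
  rw [ae_iff.1 h, mul_zero] at h1
  exact ae_iff.2 (le_zero_iff.1 h1)

theorem exists_of_ae {p : ℝ → Prop} (h : ∀ᵐ x, p x) {a b : ℝ} (hab : a < b) :
    ∃ x ∈ Ioo a b, p x := by
  by_contra hc
  push Not at hc
  have h1 := measure_mono_null (fun x hx => hc x hx) (ae_iff.1 h)
  rw [Real.volume_Ioo, ENNReal.ofReal_eq_zero] at h1
  linarith

/-- the spreading hypothesis -/
def Sp (W : Set ℝ) (l r c : ℝ) : Prop :=
  ∀ h₀ > (0 : ℝ), ∃ h, 0 < h ∧ h < h₀ ∧ ∃ α β : ℝ → ℝ, NearId α (2 * h) ∧ NearId β (2 * h) ∧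
    (∀ s, |α s - s| ≤ 2 * h) ∧ (∀ s, |β s - s| ≤ 2 * h) ∧
    (∀ s ∈ Icc l r, c * h ≤ β s - α s) ∧ ∀ᵐ s, s ∈ Icc l r → α s ∈ W → β s ∈ W

theorem core (hD : DensStmt) (hS : SpreadStmt) {W : Set ℝ} (hW : MeasurableSet W) {l r c : ℝ}
    (hc : 0 < c) (h1 : Sp W l r c) (h2 : Sp Wᶜ l r c) :
    (∀ᵐ t, t ∈ Ioo l r → t ∉ W) ∨ ∀ᵐ t, t ∈ Ioo l r → t ∉ Wᶜ := by
  have key : ∀ V : Set ℝ, MeasurableSet V → ¬ (∀ᵐ t, t ∈ Ioo l r → t ∉ V) →
      ∃ a ∈ Ioo l r, a ∈ V ∧ Dens1 V a := fun V hV h => by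
    by_contra hc
    push Not at hc
    exact h ((hD.1 V hV).mono fun t h3 h4 h5 => hc t h4 h5 (h3 h5))
  by_contra h
  obtain ⟨a, ha, ha1, ha2⟩ := key W hW fun e => h (Or.inl e)
  obtain ⟨b, hb, hb1, hb2⟩ := key Wᶜ hW.compl fun e => h (Or.inr e)
  rcases lt_trichotomy a b with e | rfl | e
  · exact hS W l a b r c 2 hW ha.1 e hb.2 hc two_pos ha2 hb2 h1
  · exact hb1 ha1
  · exact hS Wᶜ l b a r c 2 hW.compl hb.1 e ha.2 hc two_pos hb2 (by rwa [compl_compl]) h2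

/-- the small shifts -/
noncomputable def sh (σ : ℝ) (v : ℂ) (c s : ℝ) : ℝ := s + gg σ (v * e (-s) * e (-c))

theorem Nb_eq (σ : ℝ) (v : ℂ) (c s : ℝ) : Nb σ v (s + c) = sh σ v c s + σ * (π / 3) + c := by
  rw [Nb, sh, neg_add, e_add, mul_assoc]
  ring

theorem sh_near (hN : NbStmt) {σ : ℝ} (hσ : σ = 1 ∨ σ = -1) {v : ℂ} (hv : ‖v‖ ≤ 1 / 10) (c : ℝ) :
    NearId (sh σ v c) (2 * ‖v‖) := fun s s' => by
  have h := hN.2.2.2.2.1 σ hσ v hv (s + c) (s' + c)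
  rw [Nb_eq, Nb_eq, add_sub_add_right_eq_sub s] at h
  exact le_of_eq_of_le (congrArg _ (by ring)) h

theorem norm_ee (v : ℂ) (a b : ℝ) : ‖v * e a * e b‖ = ‖v‖ := by simp

theorem sh_le (hN : NbStmt) {σ : ℝ} (hσ : σ = 1 ∨ σ = -1) {v : ℂ} (hv : ‖v‖ ≤ 1 / 10) (c s : ℝ) :
    |sh σ v c s - s| ≤ 2 * ‖v‖ := by
  have h := hN.2.2.2.1 σ hσ (v * e (-s) * e (-c)) 0 (by rwa [norm_ee]) (by simp)
  rwa [hN.2.1, sub_zero, sub_zero, norm_ee, ← add_sub_cancel_left s (gg _ _)] at h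

theorem sh_lin (hN : NbStmt) {ε : ℝ} (hε : 0 < ε) : ∃ δ > (0 : ℝ), ∀ v : ℂ, ‖v‖ < δ → ∀ s,
    (∀ σ, σ = 1 ∨ σ = -1 →
      |sh σ v 0 s - s - ((v * e (-s)).im - σ * (v * e (-s)).re / √3)| ≤ ε * ‖v‖) ∧
    |sh 1 v (-(π / 3)) s - s - ((v * e (-s)).im + (v * e (-s)).re / √3)| ≤ ε * ‖v‖ ∧
    |sh (-1) v (π / 3) s - s - ((v * e (-s)).im - (v * e (-s)).re / √3)| ≤ ε * ‖v‖ ∧
    |sh 1 v (2 * π / 3) s - s + ((v * e (-s)).im + (v * e (-s)).re / √3)| ≤ ε * ‖v‖ ∧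
    |sh (-1) v (2 * (2 * π / 3)) s - s + ((v * e (-s)).im - (v * e (-s)).re / √3)| ≤ ε * ‖v‖ := by
  obtain ⟨δ, hδ, h⟩ := hN.2.2.2.2.2.2.2 ε hε
  refine ⟨δ, hδ, fun v hv s => ?_⟩
  have h1 := fun σ hσ c => h σ hσ (v * e (-s) * e (-c)) (by rwa [norm_ee])
  simp only [norm_ee] at h1
  simp only [sh, add_sub_cancel_left]
  have e1 : e (-(2 * π / 3)) = -e (π / 3) := by rw [← e_add_pi, ← e_add_two_pi]; ring_nf
  have e2 : e (-(2 * (2 * π / 3))) = -e (-(π / 3)) := by rw [← e_add_pi, ← e_add_two_pi]; ring_nf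
  have h3 : √3 * √3 = 3 := Real.mul_self_sqrt (by norm_num)
  have h4 : √3 ≠ 0 := by positivity
  generalize v * e (-s) = w at h1 ⊢
  refine ⟨fun σ hσ => ?_, le_of_eq_of_le (congrArg _ ?_) (h1 1 (Or.inl rfl) (-(π / 3))),
    le_of_eq_of_le (congrArg _ ?_) (h1 _ (Or.inr rfl) (π / 3)),
    le_of_eq_of_le (congrArg _ ?_) (h1 1 (Or.inl rfl) (2 * π / 3)),
    le_of_eq_of_le (congrArg _ ?_) (h1 _ (Or.inr rfl) (2 * (2 * π / 3)))⟩
  · simpa using h1 σ hσ 0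
  all_goals
    simp only [e1, e2, neg_neg, Complex.mul_re, Complex.mul_im, e_re, e_im, Real.cos_neg,
      Real.sin_neg, Real.cos_pi_div_three, Real.sin_pi_div_three, Complex.neg_re, Complex.neg_im]
    field_simp
  · linear_combination w.re * h3
  · linear_combination (-w.re) * h3
  · linear_combination (-w.re) * h3
  · linear_combination w.re * h3

theorem per {W : Set ℝ} (h : ∀ᵐ φ, φ + π / 3 ∈ W ↔ φ ∉ W) (k : ℕ) :
    ∀ᵐ s, s + k * (2 * π / 3) ∈ W ↔ s ∈ W := by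
  induction k with
  | zero => simp
  | succ k ih =>
    filter_upwards [ih, ae_add (k * (2 * π / 3)) h, ae_add (k * (2 * π / 3) + π / 3) h]
      with s h1 h2 h3
    rw [← add_assoc, h2, not_not, h1] at h3
    rw [← h3]
    exact iff_of_eq (congrArg _ (by push_cast; ring))

theorem pigeon {ι : Type} [Finite ι] [Nonempty ι] {P : ι → ℂ → Prop}
    (h : ∀ δ > (0 : ℝ), ∃ v, ‖v‖ < δ ∧ ∃ i, P i v) : ∃ i, ∀ δ > (0 : ℝ), ∃ v, ‖v‖ < δ ∧ P i v := by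
  by_contra hc
  push Not at hc
  choose d h1 h2 using hc
  obtain ⟨j, hj⟩ := Finite.exists_min d
  obtain ⟨v, h3, i, h4⟩ := h _ (h1 j)
  exact h2 i v (h3.trans_le (hj i)) h4

theorem quad (v : ℂ) : ∃ i : Fin 4, |(v * e (-(![0, π / 2, π, -(π / 2)] i))).im| ≤
    (v * e (-(![0, π / 2, π, -(π / 2)] i))).re := by
  rcases le_total |v.im| |v.re| with h | h
  · rcases le_total 0 v.re with h' | h'
    · exact ⟨0, by simpa [abs_of_nonneg h'] using h⟩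
    · exact ⟨2, by simpa [abs_of_nonpos h'] using h⟩
  · rcases le_total 0 v.im with h' | h'
    · exact ⟨1, by simpa [abs_of_nonneg h'] using h⟩
    · exact ⟨3, by simpa [abs_of_nonpos h'] using h⟩

theorem re_ge {v : ℂ} {m s : ℝ} (h : |(v * e (-m)).im| ≤ (v * e (-m)).re)
    (hs : s ∈ Icc (m - 3 / 5) (m + 3 / 5)) : ‖v‖ / 10 ≤ (v * e (-s)).re := by
  have h1 := Complex.norm_le_abs_re_add_abs_im (v * e (-m))
  rw [norm_mul, norm_e, mul_one, abs_of_nonneg ((abs_nonneg _).trans h)] at h1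
  rw [show -s = -m + (m - s) by ring, e_add, ← mul_assoc, Complex.mul_re, e_re, e_im]
  have h2 : |m - s| ≤ 3 / 5 := abs_le.2 ⟨by linarith [hs.2], by linarith [hs.1]⟩
  have h3 := Real.one_sub_sq_div_two_le_cos (x := m - s)
  have h4 : (m - s) ^ 2 ≤ (3 / 5) ^ 2 := sq_le_sq' (abs_le.1 h2).1 (abs_le.1 h2).2
  have h5 : (v * e (-m)).im * Real.sin (m - s) ≤ (v * e (-m)).re * (3 / 5) :=
    (le_abs_self _).trans ((abs_mul _ _).trans_le (mul_le_mul h (Real.abs_sin_le_abs.trans h2)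
      (abs_nonneg _) ((abs_nonneg _).trans h)))
  have h6 := mul_le_mul_of_nonneg_left (show 4 / 5 ≤ Real.cos (m - s) by linarith)
    ((abs_nonneg _).trans h)
  linarith

theorem le_div_sqrt {x : ℝ} (h : 0 ≤ x) : x / 2 ≤ x / √3 :=
  div_le_div_of_nonneg_left h (by positivity) (Real.sqrt_le_iff.2 (by norm_num))

end InvA

open InvA

theorem invS (hD : DensStmt) (hN : NbStmt) (hS : SpreadStmt) : InvStmt := by
  intro L hL h
  obtain ⟨i, hi⟩ := pigeon (P := fun (i : Fin 4) v => (|(v * e (-(![0, π / 2, π, -(π / 2)] i))).im|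
      ≤ (v * e (-(![0, π / 2, π, -(π / 2)] i))).re) ∧ v ≠ 0 ∧ ∃ L' : Set ℝ,
      (∀ᵐ φ, φ + π / 3 ∈ L' ↔ φ ∉ L') ∧
      ∀ σ : ℝ, σ = 1 ∨ σ = -1 → ∀ᵐ φ, φ ∈ L' ↔ Nb σ v φ ∉ L) fun δ hδ => by
    obtain ⟨v, h1, h2, h3⟩ := h δ hδ
    exact ⟨v, h2, (quad v).imp fun i hi => ⟨hi, h1, h3⟩⟩
  generalize ![0, π / 2, π, -(π / 2)] i = m at hi
  obtain ⟨δ, hδ, hl⟩ := sh_lin hN (ε := 1 / 40) (by norm_num)
  have key : ∀ W : Set ℝ, W = L ∨ W = Lᶜ → Sp W (m - 3 / 5) (m + 3 / 5) (1 / 20) := by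
    intro W hW h₀ h0
    obtain ⟨v, h1, h2, h3, L', h4, h5⟩ := hi (min h₀ (min δ (1 / 10))) (by positivity)
    simp only [lt_min_iff] at h1
    refine ⟨‖v‖, norm_pos_iff.2 h3, h1.1, sh (-1) v (π / 3), sh 1 v (-(π / 3)),
      sh_near hN (Or.inr rfl) h1.2.2.le _, sh_near hN (Or.inl rfl) h1.2.2.le _,
      sh_le hN (Or.inr rfl) h1.2.2.le _, sh_le hN (Or.inl rfl) h1.2.2.le _, fun s hs => ?_, ?_⟩
    · have h6 := re_ge h2 hs
      have h7 := le_div_sqrt (le_trans (by positivity) h6)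
      linarith [(abs_le.1 (hl v h1.2.1 s).2.1).1, (abs_le.1 (hl v h1.2.1 s).2.2.1).2]
    · filter_upwards [ae_add (π / 3) (h5 _ (Or.inr rfl)), ae_add (-(π / 3)) (h5 _ (Or.inl rfl)),
        h4, ae_add (-(π / 3)) h4] with s a1 a2 a3 a4 _
      rw [Nb_eq, neg_one_mul, neg_add_cancel_right] at a1
      rw [Nb_eq, one_mul, add_neg_cancel_right] at a2
      rw [neg_add_cancel_right] at a4
      rcases hW with rfl | rfl <;> (try simp only [mem_compl_iff]) <;> tauto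
  obtain ⟨v, h1, -, -, L', h4, h5⟩ := hi (1 / 100) (by norm_num)
  have n1 := sh_near hN (Or.inl rfl) (h1.le.trans (by norm_num))
  have n2 := fun c s => abs_le.1 (sh_le hN (Or.inl rfl) (h1.le.trans (by norm_num)) c s)
  have fin : ∀ W : Set ℝ, W = L ∨ W = Lᶜ →
      ¬ ∀ᵐ t, t ∈ Ioo (m - 3 / 5) (m + 3 / 5) → t ∉ W := fun W hW h => by
    obtain ⟨s, hs, a1, a2, a3, a4, a5⟩ := exists_of_ae ((ae_add (-(π / 3)) h4).and
      ((ae_add (-(π / 3)) (h5 _ (Or.inl rfl))).and ((ae_add 0 (h5 _ (Or.inl rfl))).and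
      ((ae_comp hD (by linarith) (n1 (-(π / 3))) h).and
      (ae_comp hD (by linarith) (n1 0) (ae_add (π / 3) h))))))
      (show m - π / 6 - 1 / 100 < m - π / 6 by linarith)
    rw [neg_add_cancel_right] at a1
    rw [Nb_eq, one_mul, add_neg_cancel_right] at a2
    rw [Nb_eq, one_mul, add_zero, add_zero] at a3
    have p1 := Real.pi_lt_d2
    have p2 := Real.pi_pos
    have a6 := a4 ⟨by linarith [hs.1, (n2 (-(π / 3)) s).1], by linarith [hs.2, (n2 (-(π / 3)) s).2]⟩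
    have a7 := a5 ⟨by linarith [hs.1, (n2 0 s).1], by linarith [hs.2, (n2 0 s).2]⟩
    rcases hW with rfl | rfl <;> (try simp only [mem_compl_iff] at a6 a7) <;> tauto
  exact (core hD hS hL (by norm_num) (key _ (Or.inl rfl)) (key _ (Or.inr rfl))).elim
    (fin _ (Or.inl rfl)) (fin _ (Or.inr rfl))

theorem spread6S (hD : DensStmt) (hN : NbStmt) (hS : SpreadStmt) : Spread6Stmt := by
  intro W m ε hW hp e1 e2 hε h
  obtain ⟨ρ, r0, r1, r2⟩ : ∃ ρ : ℝ, 0 < ρ ∧ ρ < ε ∧ ρ ≤ 1 / 10 :=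
    ⟨min (ε / 2) (1 / 10), by positivity, min_lt_of_left_lt (by linarith), min_le_right _ _⟩
  obtain ⟨δ, hδ, hl⟩ := sh_lin hN (ε := 1 / 10) (by norm_num)
  have key : ∀ τ : ℝ, τ = 1 ∨ τ = -1 → ∀ h₀ > (0 : ℝ), ∃ h, 0 < h ∧ h < h₀ ∧ ∃ T : ℝ → ℝ,
      NearId T (2 * h) ∧ (∀ s, |T s - s| ≤ 2 * h) ∧
      (∀ s ∈ Icc (m - ρ) (m + ρ), 1 / 5 * h ≤ τ * (T s - s)) ∧
      ∀ᵐ s, s ∈ Icc (m - ρ) (m + ρ) → s ∈ W → T s ∈ W := by
    intro τ hτ h₀ h0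
    obtain ⟨v, h1, h2, h3⟩ := h (min h₀ (min δ (1 / 10))) (by positivity)
    simp only [lt_min_iff] at h2
    obtain ⟨σ, hσ, k, hk, h4⟩ : ∃ σ : ℝ, (σ = 1 ∨ σ = -1) ∧ ∃ k : ℕ, k < 3 ∧
        2 / 5 * ‖v‖ ≤ τ * (sh σ v (k * (2 * π / 3)) m - m) := by
      obtain ⟨a1, -, -, a3, a4⟩ := hl v h2.2.1 m
      have a5 := abs_le.1 (a1 _ (Or.inl rfl))
      have a6 := abs_le.1 (a1 _ (Or.inr rfl))
      have a7 := Complex.norm_le_abs_re_add_abs_im (v * e (-m))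
      have a8 := le_div_sqrt (abs_nonneg (v * e (-m)).re)
      rw [norm_mul, norm_e, mul_one] at a7
      rw [abs_le] at a3 a4
      rw [one_mul] at a5
      rw [neg_one_mul, neg_div] at a6
      by_contra hc
      push Not at hc
      have b1 := hc 1 (Or.inl rfl) 0 (by norm_num)
      have b2 := hc (-1) (Or.inr rfl) 0 (by norm_num)
      have b3 := hc 1 (Or.inl rfl) 1 (by norm_num)
      have b4 := hc (-1) (Or.inr rfl) 2 (by norm_num)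
      simp only [Nat.cast_zero, zero_mul, Nat.cast_one, one_mul, Nat.cast_ofNat] at b1 b2 b3 b4
      rcases abs_cases (v * e (-m)).re with ⟨c1, -⟩ | ⟨c1, -⟩ <;>
        rcases abs_cases (v * e (-m)).im with ⟨c2, c3⟩ | ⟨c2, c3⟩ <;> rw [c1] at a7 a8 <;>
        rw [c2] at a7 <;> rcases hτ with rfl | rfl <;> (try simp only [neg_div] at a8) <;>
        linarith [a3.1, a3.2, a4.1, a4.2, a5.1, a5.2, a6.1, a6.2]
    have n1 := sh_near hN hσ h2.2.2.le (k * (2 * π / 3))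
    refine ⟨‖v‖, norm_pos_iff.2 h1, h2.1, _, n1, sh_le hN hσ h2.2.2.le _, fun s hs => ?_, ?_⟩
    · have h5 : |s - m| ≤ 1 / 10 := abs_le.2 ⟨by linarith [hs.1], by linarith [hs.2]⟩
      have h6 := abs_le.1 ((n1 s m).trans (mul_le_mul_of_nonneg_left h5 (by positivity)))
      rcases hτ with rfl | rfl <;> linarith [h6.1, h6.2]
    · have h5 : ∀ᵐ t, t + σ * (π / 3) ∈ W ↔ t ∉ W := by
        rcases hσ with rfl | rfl
        · simpa using hp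
        · filter_upwards [ae_add (-(π / 3)) hp] with t ht
          rw [neg_add_cancel_right] at ht
          rw [neg_one_mul, ht, not_not]
      filter_upwards [per hp k, ae_add (k * (2 * π / 3)) (h3 σ hσ k hk),
        ae_comp hD (by linarith) n1 (h5.and (ae_add (σ * (π / 3)) (per hp k)))]
        with s a1 a2 a3 hs a4
      rw [Nb_eq, a3.2, a3.1, not_not, add_sub_add_right_eq_sub] at a2
      exact a2 (abs_lt.2 ⟨by linarith [hs.1], by linarith [hs.2]⟩) (a1.2 a4)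
  have idn : ∀ h : ℝ, 0 < h → NearId id (2 * h) ∧ ∀ s : ℝ, |id s - s| ≤ 2 * h := fun h h0 =>
    ⟨fun s s' => by simp only [id, sub_self, abs_zero]; positivity,
      fun s => by simp only [id, sub_self, abs_zero]; positivity⟩
  have fin : ∀ V : Set ℝ, Ess V m → ¬ ∀ᵐ t, t ∈ Ioo (m - ρ) (m + ρ) → t ∉ V := fun V hV h =>
    hV ρ r0 (measure_eq_zero_iff_ae_notMem.2 (h.mono fun t h' ht =>
      h' (Real.ball_eq_Ioo m ρ ▸ ht.2) ht.1))
  refine (core hD hS hW (c := 1 / 5) (by norm_num) (fun h₀ h0 => ?_) fun h₀ h0 => ?_).elim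
    (fin _ e1) (fin _ e2)
  · obtain ⟨h, a1, a2, T, a3, a4, a5, a6⟩ := key 1 (Or.inl rfl) h₀ h0
    exact ⟨h, a1, a2, id, T, (idn h a1).1, a3, (idn h a1).2, a4,
      fun s hs => by simpa using a5 s hs, a6⟩
  · obtain ⟨h, a1, a2, T, a3, a4, a5, a6⟩ := key (-1) (Or.inr rfl) h₀ h0
    exact ⟨h, a1, a2, T, id, a3, (idn h a1).1, a4, (idn h a1).2,
      fun s hs => by simpa using a5 s hs, a6.mono fun s h1 h2 h3 h4 => h3 (h1 h2 h4)⟩

end Vale.Agent.P032
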