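import Vale.Agent.P032.Stmts

/-! P032: the invariant kernel of a colouring. -/

namespace Vale.Agent.P032

namespace KerA

theorem abs_le_of {X : Type} (m : Mean X) {f : X → ℝ} {B : ℝ} (h : ∀ x, |f x| ≤ B) :
    |m.M f| ≤ B := by
  have h1 := m.mono f (fun _ => B) ⟨B, h⟩ ⟨|B|, fun _ => le_rfl⟩ fun x => (abs_le.1 (h x)).2
  have h2 := m.mono (fun _ => -B) f ⟨|-B|, fun _ => le_rfl⟩ ⟨B, h⟩ fun x => (abs_le.1 (h x)).1
  rw [m.const] at h1 h2
  exact abs_le.2 ⟨h2, h1⟩

theorem bdd_comp {X Y : Type} {F : X → ℝ} (h : Bdd F) (g : Y → X) : Bdd fun y => F (g y) :=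
  let ⟨B, hB⟩ := h
  ⟨B, fun y => hB (g y)⟩

theorem bdd_mean {X Y Z : Type} (m : Mean Y) {F : X → ℝ} (h : Bdd F) (g : Z → Y → X) :
    Bdd fun z => m.M fun y => F (g z y) :=
  let ⟨B, hB⟩ := h
  ⟨B, fun z => abs_le_of m fun y => hB (g z y)⟩

/-- the iterated mean -/
def iter {X Y Z : Type} (m : Mean Z) (m' : Mean Y) (g : Z → Y → X) : Mean X where
  M F := m.M fun z => m'.M fun y => F (g z y)
  add F G hF hG := by
    rw [← m.add _ _ (bdd_mean m' hF g) (bdd_mean m' hG g)]
    congr 1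
    funext z
    exact m'.add _ _ (bdd_comp hF _) (bdd_comp hG _)
  smul c F hF := by
    rw [← m.smul c _ (bdd_mean m' hF g)]
    congr 1
    funext z
    exact m'.smul c _ (bdd_comp hF _)
  mono F G hF hG h := m.mono _ _ (bdd_mean m' hF g) (bdd_mean m' hG g) fun z =>
    m'.mono _ _ (bdd_comp hF _) (bdd_comp hG _) fun y => h _
  const c := by simp only [m'.const, m.const]

theorem bdd_sum {X ι : Type} (s : Finset ι) (F : ι → X → ℝ) (h : ∀ i, Bdd (F i)) :
    Bdd fun x => ∑ i ∈ s, F i x := by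
  choose B hB using h
  exact ⟨∑ i ∈ s, B i, fun x =>
    (Finset.abs_sum_le_sum_abs _ _).trans (Finset.sum_le_sum fun i _ => hB i x)⟩

theorem mean_sum {X ι : Type} (m : Mean X) (s : Finset ι) (F : ι → X → ℝ) (h : ∀ i, Bdd (F i)) :
    m.M (fun x => ∑ i ∈ s, F i x) = ∑ i ∈ s, m.M (F i) := by
  classical
  induction s using Finset.induction_on with
  | empty => simpa using m.const 0
  | insert i s hi ih =>
    simp only [Finset.sum_insert hi]
    rw [m.add _ _ (h i) (bdd_sum s F h), ih]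

theorem bdd_ind {X : Type} (p : X → Prop) [DecidablePred p] :
    Bdd fun x => if p x then (1 : ℝ) else 0 :=
  ⟨1, fun x => by by_cases h : p x <;> simp [h]⟩

theorem bdd_smul {X : Type} {F : X → ℝ} (h : Bdd F) (c : ℝ) : Bdd fun x => c * F x :=
  let ⟨B, hB⟩ := h
  ⟨|c| * B, fun x => by
    rw [abs_mul]
    exact mul_le_mul_of_nonneg_left (hB x) (abs_nonneg c)⟩

theorem sum_nonneg_ind {ι : Type} [Fintype ι] (t : ι → ℝ) (k : ι → Fin 5) :
    0 ≤ ∑ i, ∑ j, t i * t j * (if k i = k j then (1 : ℝ) else 0) := by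
  have h : ∑ i, ∑ j, t i * t j * (if k i = k j then (1 : ℝ) else 0) =
      ∑ a : Fin 5, (∑ i, if k i = a then t i else 0) ^ 2 := by
    simp only [sq, Finset.sum_mul_sum]
    rw [Finset.sum_comm (s := Finset.univ (α := Fin 5))]
    refine Finset.sum_congr rfl fun i _ => ?_
    rw [Finset.sum_comm (s := Finset.univ (α := Fin 5))]
    refine Finset.sum_congr rfl fun j _ => ?_
    rw [Finset.sum_eq_single (k i)]
    · by_cases h : k i = k j
      · simp [h]
      · simp [h, Ne.symm h]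
    · intro a _ ha
      simp [Ne.symm ha]
    · simp
  rw [h]
  exact Finset.sum_nonneg fun a _ => sq_nonneg _

end KerA

open KerA

theorem kerS (hMean : MeanStmt) : KerStmt := by
  intro c hc
  obtain ⟨ma⟩ := hMean ℂ
  obtain ⟨mt⟩ := hMean ℝ
  let m : Mean (ℂ → Fin 5) := iter mt.toMean ma.toMean fun θ a z => c (a + e θ * z)
  let φ : ℂ → ℝ := fun z =>
    mt.M fun θ => ma.M fun a => if c (a + e θ * z) = c a then (1 : ℝ) else 0
  have hker : ∀ u w, m.M (fun ω => if ω u = ω w then 1 else 0) = φ (u - w) := by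
    intro u w
    change mt.M (fun θ => ma.M fun a =>
      if c (a + e θ * u) = c (a + e θ * w) then (1 : ℝ) else 0) = _
    congr 1
    funext θ
    rw [← ma.inv (fun a => if c (a + e θ * (u - w)) = c a then (1 : ℝ) else 0) (e θ * w)
      (bdd_ind _)]
    congr 1
    funext a
    rw [show a + e θ * w + e θ * (u - w) = a + e θ * u by ring]
  refine ⟨m, φ, ⟨fun x => ?_, fun ι _ x t => ?_⟩, fun z w h => ?_, ?_, fun u hu => ?_, hker⟩
  · rw [← zero_sub, ← hker, ← sub_zero x, ← hker, sub_zero]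
    simp only [eq_comm]
  · simp only [← hker]
    have h1 : ∑ i, ∑ j, t i * t j * m.M (fun ω => if ω (x i) = ω (x j) then 1 else 0) =
        m.M fun ω => ∑ i, ∑ j, t i * t j * (if ω (x i) = ω (x j) then 1 else 0) := by
      rw [mean_sum m _ _ fun i => bdd_sum _ _ fun j => bdd_smul (bdd_ind _) _]
      refine Finset.sum_congr rfl fun i _ => ?_
      rw [mean_sum m _ _ fun j => bdd_smul (bdd_ind _) _]
      exact Finset.sum_congr rfl fun j _ => (m.smul _ _ (bdd_ind _)).symm
    rw [h1]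
    exact (m.const 0).ge.trans (m.mono _ _ ⟨0, fun _ => by simp⟩
      (bdd_sum _ _ fun i => bdd_sum _ _ fun j => bdd_smul (bdd_ind _) _)
      fun ω => sum_nonneg_ind t fun i => ω (x i))
  · obtain ⟨β, rfl⟩ : ∃ β, z = e β * w := by
      by_cases hw : w = 0
      · subst hw
        exact ⟨0, by simpa using h⟩
      · obtain ⟨β, hβ⟩ := exists_e_of_norm (z := z / w)
          (by rw [norm_div, h, div_self (norm_ne_zero_iff.2 hw)])
        exact ⟨β, by rw [← hβ, div_mul_cancel₀ _ hw]⟩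
    have h1 := mt.inv (fun θ => ma.M fun a => if c (a + e θ * w) = c a then (1 : ℝ) else 0) β
      ⟨1, fun θ => abs_le_of ma.toMean fun a => by split_ifs <;> simp⟩
    simp only [e_add, mul_assoc] at h1
    exact h1
  · exact (abs_le.1 (abs_le_of mt.toMean fun θ => abs_le_of ma.toMean fun a => by
      split_ifs <;> simp)).2
  · have h1 : ∀ θ a, (if c (a + e θ * u) = c a then (1 : ℝ) else 0) = 0 := fun θ a =>
      if_neg (hc _ _ (by simp [dist_eq_norm, hu]))
    change mt.M (fun θ => ma.M fun a => if c (a + e θ * u) = c a then (1 : ℝ) else 0) = 0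
    simp only [h1, ma.const, mt.const]

end Vale.Agent.P032
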