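import Vale.Agent.P032.Stmts

/-! P032: a locally two-valued choice of a heavy colour away from the cyclic points. -/

namespace Vale.Agent.P032

open MeasureTheory Set Filter Topology Metric
open scoped Real ENNReal BigOperators

namespace LocalA

/-- contacts at points near `w` -/
def T (C : Col) (w : ℂ) (t : ℝ) (i j : Fin 5) : Prop := ∃ x', dist x' w < t ∧ C.Contact x' i j

theorem contact_symm {C : Col} {x : ℂ} {i j : Fin 5} (h : C.Contact x i j) : C.Contact x j i :=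
  ⟨h.1.symm, by simpa only [or_comm] using h.2⟩

theorem T_symm {C : Col} {w : ℂ} {t : ℝ} (i j : Fin 5) (h : T C w t i j) : T C w t j i :=
  let ⟨x', h1, h2⟩ := h
  ⟨x', h1, contact_symm h2⟩

theorem cyc_mono {g g' : Fin 5 → Fin 5 → Prop} (h : ∀ i j, g i j → g' i j) (hc : Cyc g) :
    Cyc g' := by
  obtain ⟨s, h1, h2, h3⟩ := hc
  exact ⟨s, h _ _ h1, h _ _ h2, h3.imp (h _ _) fun h4 =>
    ⟨h _ _ h4.1, h4.2.imp (h _ _) fun h5 => ⟨h _ _ h5.1, h _ _ h5.2⟩⟩⟩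

theorem contact_nhds (hP : PvStmt) (C : Col) (x : ℂ) :
    ∃ r > (0 : ℝ), ∀ i j, T C x r i j → C.Contact x i j := by
  have h1 : ∀ i j, ∀ᶠ x' in 𝓝 x, C.Contact x' i j → C.Contact x i j := by
    intro i j
    by_cases h : C.Contact x i j
    · exact Eventually.of_forall fun _ _ => h
    · have h2 : IsClosed {x' : ℂ | C.Lim x' fun k => if k = i ∨ k = j then 1 / 2 else 0} :=
        (hP.2.2.2.2 C).2.2.1.preimage (continuous_id.prodMk continuous_const)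
      by_cases hij : i = j
      · exact Eventually.of_forall fun _ h' => absurd hij h'.1
      · filter_upwards [h2.isOpen_compl.mem_nhds fun h' => h ⟨hij, h'⟩] with x' hx' h'
        exact absurd h'.2 hx'
  obtain ⟨r, hr, h2⟩ := Metric.eventually_nhds_iff.1 (eventually_all.2 fun i => eventually_all.2
    fun j => h1 i j)
  exact ⟨r, hr, fun i j ⟨x', h3, h4⟩ => h2 h3 i j h4⟩

theorem no_cyc (hP : PvStmt) (hC : CutStmt) (C : Col) {K : Set ℂ} (hK : IsCompact K)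
    (h : ∀ x ∈ K, ¬ Cyc (C.Star x)) : ∃ ρ' > (0 : ℝ), ∀ w ∈ K, ¬ Cyc (T C w (2 * ρ')) := by
  choose r hr h1 using contact_nhds hP C
  obtain ⟨δ, hδ, h2⟩ := lebesgue_number_lemma_of_metric (c := fun x : K => ball x.1 (r x)) hK
    (fun _ => isOpen_ball) fun x hx => mem_iUnion.2 ⟨⟨x, hx⟩, mem_ball_self (hr x)⟩
  refine ⟨δ / 2, by positivity, fun w hw hc => ?_⟩
  obtain ⟨x, hx⟩ := h2 w hw
  refine h x.1 x.2 (cyc_mono (fun i j ⟨x', h3, h4⟩ => ?_) hc)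
  exact (hC C x.1).1 i j (h1 x.1 i j ⟨x', hx (mem_ball.2 (by linarith)), h4⟩)

theorem cut_unif (hP : PvStmt) (hC : CutStmt) (C : Col) {K : Set ℂ} (hK : IsCompact K)
    (h : ∀ x ∈ K, ¬ Cyc (C.Star x)) {ρ' γ : ℝ} (hρ' : 0 < ρ') (hγ : 0 < γ) :
    ∃ η > (0 : ℝ), ∀ w ∈ K, ∀ ρ, 0 < ρ → ρ < η → Cut (T C w ρ') (C.pv w ρ) γ η := by
  by_contra hcon
  push Not at hcon
  have h1 : ∀ n : ℕ, ∃ w ∈ K, ∃ ρ, 0 < ρ ∧ ρ < 1 / ((n : ℝ) + 1) ∧
      ¬ Cut (T C w ρ') (C.pv w ρ) γ (1 / ((n : ℝ) + 1)) := fun n => hcon _ (by positivity)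
  choose w hw ρ hρ hρ2 hbad using h1
  obtain ⟨x, hx, φ, hφ, hlim⟩ := hK.tendsto_subseq hw
  have hη : Tendsto (fun n : ℕ => 1 / ((n : ℝ) + 1)) atTop (𝓝 0) :=
    tendsto_one_div_add_atTop_nhds_zero_nat
  have hρ0 : Tendsto ρ atTop (𝓝 0) :=
    squeeze_zero (fun n => (hρ n).le) (fun n => (hρ2 n).le) hη
  obtain ⟨q, u, hu, hq, hpq⟩ := (hP.2.2.2.2 C).2.2.2 x (w ∘ φ) (ρ ∘ φ) hlim
    (hρ0.comp hφ.tendsto_atTop) fun n => hρ _
  have hψ : Tendsto (fun n => φ (u n)) atTop atTop := hφ.tendsto_atTop.comp hu.tendsto_atTop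
  have hη' := hη.comp hψ
  have hw' : Tendsto (fun n => w (φ (u n))) atTop (𝓝 x) := hlim.comp hu.tendsto_atTop
  have hj : ∀ j, Tendsto (fun n => C.pv (w (φ (u n))) (ρ (φ (u n))) j) atTop (𝓝 (q j)) :=
    tendsto_pi_nhds.1 hpq
  have key : ∀ I : Finset (Fin 5), ∀ᶠ n in atTop,
      γ ≤ ∑ j ∈ I, C.pv (w (φ (u n))) (ρ (φ (u n))) j →
      ∑ j ∈ I, C.pv (w (φ (u n))) (ρ (φ (u n))) j ≤ 1 - γ →
      ∃ i ∈ I, ∃ j ∉ I, T C (w (φ (u n))) ρ' i j ∧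
        1 / ((φ (u n) : ℝ) + 1) ≤ C.pv (w (φ (u n))) (ρ (φ (u n))) i ∧
        1 / ((φ (u n) : ℝ) + 1) ≤ C.pv (w (φ (u n))) (ρ (φ (u n))) j := by
    intro I
    have hs := tendsto_finsetSum I fun j _ => hj j
    by_cases h2 : 0 < ∑ j ∈ I, q j
    · by_cases h3 : ∑ j ∈ I, q j < 1
      · obtain ⟨i, hi, j, hj', h4, h5, h6⟩ := (hC C x).2 (h x hx) q I hq h2 h3
        filter_upwards [hη'.eventually_lt (hj i) h5, hη'.eventually_lt (hj j) h6,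
          (Metric.tendsto_nhds.1 hw') ρ' hρ'] with n h7 h8 h9 _ _
        exact ⟨i, hi, j, hj', ⟨x, by rwa [dist_comm], h4⟩, h7.le, h8.le⟩
      · filter_upwards [hs.eventually_const_lt (show 1 - γ < ∑ j ∈ I, q j by linarith)]
          with n h4 _ h5
        exact absurd h4 (not_lt.2 h5)
    · filter_upwards [hs.eventually_lt_const (show ∑ j ∈ I, q j < γ by linarith)] with n h4 h5 _
      exact absurd h4 (not_lt.2 h5)
  obtain ⟨n, hn⟩ := (eventually_all.2 key).exists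
  exact hbad _ hn

end LocalA

open LocalA in
theorem localS (hP : PvStmt) (hC : CutStmt) (hT : TreeStmt) : LocalStmt := by
  intro C K hK h
  obtain ⟨ρ', hρ', h1⟩ := no_cyc hP hC C hK h
  obtain ⟨η, hη, h2⟩ := cut_unif hP hC C hK h hρ' (show (0 : ℝ) < 1 / 5 by norm_num)
  obtain ⟨γ, hγ, η₁, hη₁, ε, hε, cen, h3, h4⟩ := hT η hη
  obtain ⟨η', hη', h5⟩ := cut_unif hP hC C hK h hρ' hγ
  refine ⟨η₁, hη₁, min (ε / 2) 1, by positivity, min η (min η' ρ'), by positivity,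
    fun ρ hρ hρ2 => ⟨fun w => cen (T C w ρ') (C.pv w ρ), fun w hw => ?_,
      fun w₀ hw₀ w₁ hw₁ w₂ hw₂ hd₁ hd₂ => ?_⟩⟩
  · refine h3 _ _ T_symm (fun hc => h1 w hw (cyc_mono ?_ hc)) ((hP.2.2.2.2 C).1 w ρ hρ)
      (h2 w hw ρ hρ (lt_min_iff.1 hρ2).1)
    exact fun i j ⟨x', h6, h7⟩ => ⟨x', by linarith, h7⟩
  · obtain ⟨h6, h7⟩ := lt_min_iff.1 hρ2
    obtain ⟨h7, h8⟩ := lt_min_iff.1 h7
    have hw : ∀ k : Fin 3, ![w₀, w₁, w₂] k ∈ K ∧ dist (![w₀, w₁, w₂] k) w₀ < min (ε / 2) 1 * ρ := by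
      intro k
      fin_cases k
      · exact ⟨hw₀, by simp only [Fin.zero_eta, Matrix.cons_val_zero, dist_self]; positivity⟩
      · exact ⟨hw₁, hd₁⟩
      · exact ⟨hw₂, hd₂⟩
    refine h4 (T C w₀ (2 * ρ')) (fun k => T C (![w₀, w₁, w₂] k) ρ')
      (fun k => C.pv (![w₀, w₁, w₂] k) ρ) T_symm (h1 w₀ hw₀) (fun _ => T_symm) ?_
      (fun k => (hP.2.2.2.2 C).1 _ ρ hρ) (fun k => h2 _ (hw k).1 ρ hρ h6) ?_ ?_
    · rintro k i j ⟨x', h9, h10⟩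
      refine ⟨x', ?_, h10⟩
      have h11 : min (ε / 2) 1 * ρ ≤ 1 * ρ := mul_le_mul_of_nonneg_right (min_le_right _ _) hρ.le
      linarith [dist_triangle x' (![w₀, w₁, w₂] k) w₀, (hw k).2]
    · intro k I h9 h10
      obtain ⟨i, hi, j, hj, h11, h12, h13⟩ := h5 _ (hw k).1 ρ hρ h7 I h9 h10
      exact ⟨i, hi, j, hj, h11, hη'.le.trans h12, hη'.le.trans h13⟩
    · intro k j
      refine (hP.1 (C.D j) _ w₀ ρ hρ).trans ?_
      have h11 : min (ε / 2) 1 * ρ ≤ ε / 2 * ρ := mul_le_mul_of_nonneg_right (min_le_left _ _) hρ.le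
      rw [div_le_iff₀ hρ]
      linarith [(hw k).2]

end Vale.Agent.P032
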