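import Vale.Agent.P032.Stmts

namespace Vale.Agent.P032

open Filter Topology Finset

namespace MeanA

variable {G : Type} [AddCommGroup G]

/-- iterated averages along arithmetic progressions -/
noncomputable def A (n : ℕ) : List G → (G → ℝ) → G → ℝ
  | [], f => f
  | a :: l, f => fun x => (∑ k ∈ range (n + 1), A n l f (x + k • a)) / (n + 1)

theorem A_add (n : ℕ) (l : List G) (f g : G → ℝ) (x : G) :
    A n l (fun x => f x + g x) x = A n l f x + A n l g x := by
  induction l generalizing x with
  | nil => rfl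
  | cons a l ih => simp only [A, ih, sum_add_distrib, add_div]

theorem A_smul (n : ℕ) (l : List G) (c : ℝ) (f : G → ℝ) (x : G) :
    A n l (fun x => c * f x) x = c * A n l f x := by
  induction l generalizing x with
  | nil => rfl
  | cons a l ih => simp only [A, ih, ← mul_sum, mul_div_assoc]

theorem A_mono (n : ℕ) (l : List G) {f g : G → ℝ} (h : ∀ x, f x ≤ g x) (x : G) :
    A n l f x ≤ A n l g x := by
  induction l generalizing x with
  | nil => exact h x
  | cons a l ih => exact div_le_div_of_nonneg_right (sum_le_sum fun k _ => ih _) (by positivity)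

theorem A_const (n : ℕ) (l : List G) (c : ℝ) (x : G) : A n l (fun _ => c) x = c := by
  induction l generalizing x with
  | nil => rfl
  | cons a l ih =>
    simp only [A, ih, sum_const, card_range, nsmul_eq_mul, Nat.cast_add_one]
    field_simp

theorem A_shift (n : ℕ) (l : List G) (f : G → ℝ) (a x : G) :
    A n l (fun x => f (x + a)) x = A n l f (x + a) := by
  induction l generalizing x with
  | nil => rfl
  | cons b l ih => simp only [A, ih, add_right_comm _ a]

theorem A_bdd (n : ℕ) (l : List G) {f : G → ℝ} {B : ℝ} (h : ∀ x, |f x| ≤ B) (x : G) :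
    |A n l f x| ≤ B :=
  abs_le.2 ⟨(A_const n l (-B) x).ge.trans (A_mono n l (fun x => (abs_le.1 (h x)).1) x),
    (A_mono n l (fun x => (abs_le.1 (h x)).2) x).trans (A_const n l B x).le⟩

theorem A_inv (n : ℕ) (l : List G) {f : G → ℝ} {B : ℝ} (h : ∀ x, |f x| ≤ B) {a : G} (ha : a ∈ l)
    (x : G) : |A n l f (x + a) - A n l f x| ≤ 2 * B * (1 / (n + 1)) := by
  induction l generalizing x with
  | nil => simp at ha
  | cons b l ih =>
    simp only [A]
    rw [← sub_div, ← sum_sub_distrib, abs_div, abs_of_pos (by positivity : (0 : ℝ) < n + 1)]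
    rcases List.mem_cons.1 ha with rfl | ha
    · simp only [add_assoc, ← succ_nsmul']
      rw [sum_range_sub (fun k => A n l f (x + k • a)), mul_one_div]
      refine div_le_div_of_nonneg_right ((abs_sub _ _).trans ?_) (by positivity)
      linarith [A_bdd n l h (x + (n + 1) • a), A_bdd n l h (x + 0 • a)]
    · rw [div_le_iff₀' (by positivity)]
      refine (abs_sum_le_sum_abs _ _).trans ((sum_le_card_nsmul _ _ _ fun k _ => ?_).trans
        (le_of_eq (by rw [card_range, nsmul_eq_mul, Nat.cast_add_one])))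
      rw [add_right_comm]
      exact ih ha _

end MeanA

open MeanA in
theorem meanS : MeanStmt := by
  intro G _
  classical
  let U : Ultrafilter (Finset G × ℕ) := Ultrafilter.of atTop
  have hU : (U : Filter (Finset G × ℕ)) ≤ atTop := Ultrafilter.of_le _
  have h : ∀ f : G → ℝ, ∃ r, Bdd f → Tendsto (fun i : Finset G × ℕ => A i.2 i.1.toList f 0) U
      (𝓝 r) := fun f => by
    by_cases hf : Bdd f
    · obtain ⟨B, hB⟩ := hf
      obtain ⟨r, -, hr⟩ := isCompact_Icc.ultrafilter_le_nhds' (U.map fun i => A i.2 i.1.toList f 0)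
        (Ultrafilter.mem_map.2 (univ_mem' fun i => abs_le.1 (A_bdd _ _ hB 0)))
      exact ⟨r, fun _ => hr⟩
    · exact ⟨0, fun h => absurd h hf⟩
  choose M hM using h
  refine ⟨⟨⟨M, fun f g hf hg => ?_, fun c f hf => ?_, fun f g hf hg h => ?_, fun c => ?_⟩,
    fun f a hf => ?_⟩⟩
  · refine tendsto_nhds_unique (hM _ ?_) (by simpa only [A_add] using (hM f hf).add (hM g hg))
    obtain ⟨B, hB⟩ := hf
    obtain ⟨B', hB'⟩ := hg
    exact ⟨B + B', fun x => (abs_add_le _ _).trans (add_le_add (hB x) (hB' x))⟩
  · refine tendsto_nhds_unique (hM _ ?_) (by simpa only [A_smul] using (hM f hf).const_mul c)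
    obtain ⟨B, hB⟩ := hf
    exact ⟨|c| * B, fun x => by rw [abs_mul]; gcongr; exact hB x⟩
  · exact le_of_tendsto_of_tendsto' (hM f hf) (hM g hg) fun i => A_mono _ _ h 0
  · exact tendsto_nhds_unique (hM _ ⟨|c|, fun _ => le_rfl⟩)
      (by simpa only [A_const] using tendsto_const_nhds)
  · obtain ⟨B, hB⟩ := hf
    refine tendsto_nhds_unique (hM _ ⟨B, fun _ => hB _⟩) ((hM f ⟨B, hB⟩).congr_dist ?_)
    have h1 := ((tendsto_one_div_add_atTop_nhds_zero_nat (𝕜 := ℝ)).comp
      (tendsto_snd.mono_left (hU.trans prod_atTop_atTop_eq.ge))).const_mul (2 * B)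
    rw [mul_zero] at h1
    refine squeeze_zero' (Eventually.of_forall fun _ => dist_nonneg)
      (((eventually_ge_atTop ({a}, 0)).filter_mono hU).mono fun i hi => ?_) h1
    rw [A_shift, dist_comm]
    exact A_inv _ _ hB (mem_toList.2 (singleton_subset_iff.1 hi.1)) 0

end Vale.Agent.P032
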