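import Vale.Agent.P032.Stmts

/-! P032: a five cycle of star edges has a chord. -/

namespace Vale.Agent.P032.No5A

open MeasureTheory Set Filter Topology Metric
open scoped Real ENNReal BigOperators

theorem ae_shift {P : ℝ → Prop} (h : ∀ᵐ θ, P θ) (c : ℝ) : ∀ᵐ θ, P (θ + c) :=
  (measurePreserving_add_right volume c).quasiMeasurePreserving.ae h

theorem ess_or {S L : Set ℝ} {m a b : ℝ} (hS : Ess S m)
    (h : ∀ᵐ θ, θ ∈ S → θ + a ∈ L ∨ θ + b ∈ L) : Ess L (m + a) ∨ Ess L (m + b) := by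
  by_contra hn
  simp only [Ess, not_or, not_forall, not_not] at hn
  obtain ⟨⟨ε, hε, h1⟩, ε', hε', h2⟩ := hn
  refine hS (min ε ε') (lt_min hε hε') (measure_eq_zero_iff_ae_notMem.2 ?_)
  filter_upwards [h, ae_shift (measure_eq_zero_iff_ae_notMem.1 h1) a,
    ae_shift (measure_eq_zero_iff_ae_notMem.1 h2) b] with θ h3 h4 h5 h6
  have h7 := lt_min_iff.1 (mem_ball.1 h6.2)
  rcases h3 h6.1 with h8 | h8
  · exact h4 ⟨h8, by simpa using h7.1⟩
  · exact h5 ⟨h8, by simpa using h7.2⟩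

theorem exists_dens (hD : DensStmt) {L : Set ℝ} (hL : MeasurableSet L) (h0 : volume L ≠ 0)
    (c : ℝ) : ∃ a, Dens1 L a ∧ Real.sin (c - a) ≠ 0 := by
  have h1 : volume {a : ℝ | Real.sin (c - a) = 0} = 0 := by
    refine measure_mono_null (fun a ha => ?_)
      ((countable_range fun n : ℤ => c - n * π).measure_zero volume)
    obtain ⟨n, hn⟩ := Real.sin_eq_zero_iff.1 ha
    exact ⟨n, by simp [hn]⟩
  by_contra hn
  refine h0 (measure_eq_zero_iff_ae_notMem.2 ?_)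
  filter_upwards [hD.1 L hL, measure_eq_zero_iff_ae_notMem.1 h1] with a h2 h3 h4
  exact hn ⟨a, h2 h4, h3⟩

/-- The chord with label `k`. -/
def ch (k : Fin 5) : Finset (Fin 5) := {k + 4, k + 1}

theorem mem_ch (k j : Fin 5) : j ∈ ch k ↔ j = k + 4 ∨ j = k + 1 := by simp [ch]

theorem fin1 : ∀ k0 k1 : Fin 5, k1 ≠ k0 → k1 ≠ k0 + 1 → k1 ≠ k0 + 4 →
    ∃ k, ∀ j, (j = k0 ∨ j = k1) ↔ j ∈ ch k := by decide

theorem fin2 : ∀ k k' : Fin 5, (∀ j ∈ ch k, j ∉ ch k') → k' = k + 1 ∨ k = k' + 1 := by decide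

theorem fin3 : ∀ k a : Fin 5, (∀ j ∈ ch a, j ∈ ch k) → k = a := by decide

theorem fin4 : ∀ K : Finset (Fin 5), (∀ a ∈ K, a + 2 ∉ K) → ∃ c, ∀ a ∈ K, a = c ∨ a = c + 1 := by
  decide

theorem fin5 : ∀ a j : Fin 5, j ≠ a + 3 → j ∈ ch a ∨ j ∈ ch (a + 1) := by decide

theorem fin6 : ∀ k : Fin 5, k + 4 + 1 = k ∧ k + 2 + 3 = k := by decide

/-- Adjacent labels. -/
def Adj (a b : Fin 5) : Prop := b = a + 1 ∨ a = b + 1

/-- Restriction on antipodal labels. -/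
def Res (c a b : Fin 5) : Prop :=
  (b = a + 1 → a + 3 = c ∨ a + 3 = c + 1) ∧ (a = b + 1 → b + 3 = c ∨ b + 3 = c + 1)

instance (a b : Fin 5) : Decidable (Adj a b) := by unfold Adj; infer_instance

instance (c a b : Fin 5) : Decidable (Res c a b) := by unfold Res; infer_instance

/-- Conclusion on the hexagon states. -/
def Con (c s0 s1 s2 s3 s4 s5 : Fin 5) : Prop :=
  ((s0 = c + 2 ∨ s0 = c + 4) ↔ ¬ (s1 = c + 2 ∨ s1 = c + 4)) ∧
    ((s0 = c + 2 ∨ s0 = c + 4) → (s1 = c + 3 ∨ s3 = c + 3) ∧ (s1 = c + 3 ∨ s5 = c + 3) ∧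
      (s3 = c + 3 ∨ s5 = c + 3)) ∧
    (¬ (s0 = c + 2 ∨ s0 = c + 4) → s2 = c + 3 ∨ s4 = c + 3)

instance (c s0 s1 s2 s3 s4 s5 : Fin 5) : Decidable (Con c s0 s1 s2 s3 s4 s5) := by
  unfold Con; infer_instance

theorem fin7 : ∀ c s0 s1 : Fin 5, Adj s0 s1 → ∀ s2, Adj s1 s2 → ∀ s3, Adj s2 s3 → Res c s0 s3 →
    ∀ s4, Adj s3 s4 → Res c s1 s4 → ∀ s5, Adj s4 s5 → Res c s2 s5 → Adj s5 s0 →
    Con c s0 s1 s2 s3 s4 s5 := by decide +kernel

theorem fin8 : ∀ k a : Fin 5, Adj k a → a = k + 1 ∨ a = k + 4 := by decide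

theorem chord_of {G F : Fin 5 → Prop} (h1 : ∀ j, G j → F j)
    (h2 : ∀ i j k, F i → F j → F k → i = j ∨ i = k ∨ j = k)
    (h3 : ∀ i, ∃ k, k ≠ i ∧ k ≠ i + 1 ∧ G k) : ∃ k, ∀ j, (F j ↔ j ∈ ch k) ∧ (F j → G j) := by
  obtain ⟨k0, -, -, g0⟩ := h3 0
  obtain ⟨k1, a1, b1, g1⟩ := h3 k0
  obtain ⟨k2, a2, b2, g2⟩ := h3 (k0 + 4)
  rw [(fin6 k0).1] at b2
  obtain rfl : k1 = k2 := by
    rcases h2 k0 k1 k2 (h1 _ g0) (h1 _ g1) (h1 _ g2) with h | h | h
    exacts [absurd h.symm a1, absurd h.symm b2, h]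
  obtain ⟨k, hk⟩ := fin1 k0 k1 a1 b1 a2
  have h4 : ∀ j, F j → j = k0 ∨ j = k1 := fun j hj => by
    rcases h2 k0 k1 j (h1 _ g0) (h1 _ g1) hj with h | h | h
    exacts [absurd h.symm a1, Or.inl h.symm, Or.inr h.symm]
  refine ⟨k, fun j => ⟨⟨fun hj => (hk j).1 (h4 j hj), fun hj => ?_⟩, fun hj => ?_⟩⟩
  · rcases (hk j).2 hj with rfl | rfl
    exacts [h1 _ g0, h1 _ g1]
  · rcases h4 j hj with rfl | rfl
    exacts [g0, g1]

open Classical in
/-- The label of a point. -/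
noncomputable def lab (C : Col) (z : ℂ) : Fin 5 :=
  if h : ∃ k, ∀ j, C.Fr z j ↔ j ∈ ch k then h.choose else 0

theorem lab_spec {C : Col} {z : ℂ} (h : ∃ k, ∀ j, C.Fr z j ↔ j ∈ ch k) (j : Fin 5) :
    C.Fr z j ↔ j ∈ ch (lab C z) := by
  rw [lab, dif_pos h]
  exact h.choose_spec j

end Vale.Agent.P032.No5A

namespace Vale.Agent.P032

open MeasureTheory Set Filter Topology Metric No5A
open scoped Real ENNReal BigOperators

theorem no5S (hD : DensStmt) (hNb : NbStmt) (hU : UscStmt) (hG : AeGStmt) (hC : CardStmt)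
    (hX : CrossColStmt) (hK : ConeStmt) : No5Stmt := by
  intro C x s0 s1 s2 s3 s4
  by_contra hn
  simp only [not_or] at hn
  have hE : ∀ i : Fin 5, C.Star x i (i + 1) := fun i => by
    fin_cases i
    exacts [s0, s1, s2, s3, s4]
  have hN : ∀ i : Fin 5, ¬ C.Star x i (i + 2) := fun i => by
    fin_cases i
    exacts [hn.1, hn.2.1, hn.2.2.1, hn.2.2.2.1, hn.2.2.2.2]
  let L : Fin 5 → Set ℝ := fun k => C.FS x (ch k)
  let l : ℝ → Fin 5 := fun θ => lab C (x + e θ)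
  have hL : ∀ k, MeasurableSet (L k) := fun k => by
    have h1 : L k = ⋂ j ∈ ch k, (fun θ => x + e θ) ⁻¹' {z | C.Fr z j} := by
      ext θ
      simp [L, Col.FS]
    rw [h1]
    exact Finset.measurableSet_biInter _ fun j _ =>
      (continuous_const.add continuous_e).measurable ((hU C).1 j)
  have h1 : ∀ᵐ θ, (∀ j, C.Fr (x + e θ) j ↔ j ∈ ch (l θ)) ∧
      ∀ j, C.Fr (x + e θ) j → ¬ C.Fr (x + e (θ + π / 3)) j := by
    filter_upwards [hC C x, ae_all_iff.2 fun i => hG C x x i (i + 1) (hE i) (by simp)]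
      with θ h2 h3
    obtain ⟨k, hk⟩ := chord_of (G := C.Gs x x θ) (fun j hj => hj.1) h2 h3
    refine ⟨lab_spec ⟨k, fun j => (hk j).1⟩, fun j hj => ?_⟩
    have h4 := ((hk j).2 hj).2.2.1
    rwa [sub_self, hNb.2.2.1, one_mul] at h4
  have hA : ∀ᵐ θ, ∀ a, θ ∈ L a ↔ l θ = a := h1.mono fun θ h a =>
    ⟨fun ha => fin3 _ _ fun j hj => (h.1 j).1 (ha j hj), fun ha j hj => (h.1 j).2 (ha ▸ hj)⟩
  have hB : ∀ᵐ θ, Adj (l θ) (l (θ + π / 3)) := by
    filter_upwards [h1, ae_shift h1 (π / 3)] with θ h2 h3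
    exact fin2 _ _ fun j hj hj' => h2.2 j ((h2.1 j).2 hj) ((h3.1 j).2 hj')
  have hX' : ∀ (k k' κ : Fin 5) (m : ℝ), (∀ j, j ≠ κ → j ∈ ch k ∨ j ∈ ch k') →
      volume (L k') ≠ 0 → Ess (L k) m → ¬ Ess (L k) (m + π / 3) := fun k k' κ m hc h0 e1 e2 => by
    obtain ⟨a, ha, hs⟩ := exists_dens hD (hL k') h0 (m + 2 * π / 3)
    have h2 : e (m + π / 3) - e m + e a - e a = e (m + 2 * π / 3) := by
      have h3 : e (π / 3) - 1 = e (2 * π / 3) := by
        have h4 : 2 * π / 3 = π - π / 3 := by ring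
        apply Complex.ext
        · simp [h4, Real.cos_pi_sub]
          norm_num
        · simp [h4, Real.sin_pi_sub]
      rw [e_add, e_add, ← h3]
      ring
    have h5 : ((e (m + π / 3) - e m + e a - e a) * e (-a)).im ≠ 0 := by
      rwa [h2, ← e_add, e_im, ← sub_eq_add_neg]
    exact hX C x κ _ _ _ _ _ _ a a hc hc e2 e1 ha ha (by rw [h2, norm_e]) h5 h5
  have hUU : ∀ (k : Fin 5) (m : ℝ), Ess (L k) m → ¬ Ess (L k) (m + π / 3) := fun k m e1 => by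
    by_cases h2 : volume (L (k + 1)) = 0
    · by_cases h3 : volume (L (k + 4)) = 0
      · refine absurd (measure_mono_null inter_subset_left ?_) (e1 1 one_pos)
        rw [measure_eq_zero_iff_ae_notMem] at h2 h3 ⊢
        filter_upwards [hA, ae_shift hA (π / 3), hB, ae_shift h2 (π / 3), ae_shift h3 (π / 3)]
          with θ h4 h5 h6 h7 h8 h9
        rw [h4] at h9
        rw [h5] at h7 h8
        rw [h9] at h6
        exact (fin8 _ _ h6).elim h7 h8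
      · refine hX' k (k + 4) (k + 4 + 3) m (fun j hj => ?_) h3 e1
        have h4 := fin5 (k + 4) j hj
        rw [(fin6 k).1] at h4
        exact h4.symm
    · exact hX' k (k + 1) (k + 3) m (fin5 k) h2 e1
  obtain ⟨c, hc⟩ : ∃ c, ∀ᵐ θ, Res c (l θ) (l (θ + π)) := by
    classical
    let P : Fin 5 → Fin 5 → Prop := fun a b => volume {θ | θ ∈ L a ∧ θ + π ∈ L b} ≠ 0
    let K := Finset.univ.filter fun a : Fin 5 => P (a + 2) (a + 2 + 1) ∨ P (a + 2 + 1) (a + 2)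
    have h2 : ∀ a ∈ K, ∃ X Y : Finset (Fin 5), (∀ j, j ≠ a → j ∈ X ∨ j ∈ Y) ∧
        volume {θ | θ ∈ C.FS x X ∧ θ + π ∈ C.FS x Y} ≠ 0 := fun a ha => by
      have h3 := fin5 (a + 2)
      rw [(fin6 a).2] at h3
      rcases (Finset.mem_filter.1 ha).2 with h | h
      exacts [⟨_, _, h3, h⟩, ⟨_, _, fun j hj => (h3 j hj).symm, h⟩]
    obtain ⟨c, hc⟩ := fin4 K fun a ha ha' => by
      obtain ⟨X, Y, h3, h4⟩ := h2 a ha
      obtain ⟨X', Y', h5, h6⟩ := h2 _ ha'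
      exact hN a (hK C x _ _ X Y X' Y' h3 h5 h4 h6)
    have h3 : ∀ a b, ∀ᵐ θ, θ ∈ L a → θ + π ∈ L b → P a b := fun a b => by
      by_cases h : P a b
      · exact Eventually.of_forall fun _ _ _ => h
      · exact (measure_eq_zero_iff_ae_notMem.1 (not_not.1 h)).mono fun θ h4 h5 h6 =>
          absurd ⟨h5, h6⟩ h4
    have h4 : ∀ a : Fin 5, a + 3 + 2 = a := by decide
    refine ⟨c, ?_⟩
    filter_upwards [hA, ae_shift hA π, ae_all_iff.2 fun a => ae_all_iff.2 (h3 a)]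
      with θ h5 h6 h7
    have h8 := h7 _ _ ((h5 _).2 rfl) ((h6 _).2 rfl)
    refine ⟨fun h => hc _ (Finset.mem_filter.2 ⟨Finset.mem_univ _, Or.inl ?_⟩),
      fun h => hc _ (Finset.mem_filter.2 ⟨Finset.mem_univ _, Or.inr ?_⟩)⟩
    · rwa [h4, ← h]
    · rwa [h4, ← h]
  let p : ℕ → ℝ := fun k => k * (π / 3)
  have hp : ∀ (θ : ℝ) (k : ℕ), θ + p k + π / 3 = θ + p (k + 1) := fun θ k => by
    simp only [p]
    push_cast
    ring
  have hp3 : ∀ (θ : ℝ) (k : ℕ), θ + p k + π = θ + p (k + 3) := fun θ k => by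
    simp only [p]
    push_cast
    ring
  have hp0 : ∀ θ : ℝ, θ + p 0 = θ := fun θ => by simp [p]
  have hp6 : ∀ θ : ℝ, e (θ + p 6) = e (θ + p 0) := fun θ => by
    rw [← e_add_two_pi (θ + p 0)]
    congr 1
    simp only [p]
    push_cast
    ring
  let S : Set ℝ := {θ | l θ = c + 2 ∨ l θ = c + 4}
  have hH : ∀ᵐ θ, (θ ∈ S ↔ θ + π / 3 ∉ S) ∧
      (θ ∈ S → (θ + p 1 ∈ L (c + 3) ∨ θ + p 3 ∈ L (c + 3)) ∧
        (θ + p 1 ∈ L (c + 3) ∨ θ + p 5 ∈ L (c + 3)) ∧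
        (θ + p 3 ∈ L (c + 3) ∨ θ + p 5 ∈ L (c + 3))) ∧
      (θ ∈ Sᶜ → θ + p 2 ∈ L (c + 3) ∨ θ + p 4 ∈ L (c + 3)) := by
    filter_upwards [ae_all_iff.2 fun k => ae_shift hA (p k),
      ae_all_iff.2 fun k => ae_shift hB (p k), ae_all_iff.2 fun k => ae_shift hc (p k)]
      with θ h2 h3 h4
    simp only [hp, hp3] at h3 h4
    have h6 : l (θ + p 6) = l (θ + p 0) := congrArg (fun z => lab C (x + z)) (hp6 θ)
    have h5 := fin7 c _ _ (h3 0) _ (h3 1) _ (h3 2) (h4 0) _ (h3 3) (h4 1) _ (h3 4) (h4 2)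
      (h6 ▸ h3 5)
    simp only [h2]
    have h7 : θ + π / 3 = θ + p (0 + 1) := by rw [← hp, hp0]
    rw [hp0] at h5
    rw [h7]
    exact h5
  have hne : ¬ ∀ᵐ _θ : ℝ, False := fun h => by simpa using h.exists
  obtain ⟨m, e1, e2⟩ := hD.2.2.2.2.1 S (fun h => hne (by
      rw [measure_eq_zero_iff_ae_notMem] at h
      filter_upwards [hH, h, ae_shift h (π / 3)] with θ h2 h3 h4
      exact h3 (h2.1.2 h4))) (fun h => hne (by
      rw [measure_eq_zero_iff_ae_notMem] at h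
      filter_upwards [hH, h, ae_shift h (π / 3)] with θ h2 h3 h4
      exact h4 (h2.1.1 (not_not.1 h3))))
  have u : ∀ k, Ess (L (c + 3)) (m + p k) → ¬ Ess (L (c + 3)) (m + p (k + 1)) := fun k h => by
    rw [← hp]
    exact hUU _ _ h
  have a1 := ess_or e1 (hH.mono fun θ h hθ => (h.2.1 hθ).1)
  have a3 := ess_or e1 (hH.mono fun θ h hθ => (h.2.1 hθ).2.2)
  rcases ess_or e2 (hH.mono fun θ h => h.2.2) with b | b
  · exact a1.elim (fun h => u 1 h b) (u 2 b)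
  · exact a3.elim (fun h => u 3 h b) (u 4 b)

end Vale.Agent.P032
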