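import Vale.Agent.P032.Stmts

/-! P032: null sets and the map `(a, b) ↦ e a + e b`. -/

namespace Vale.Agent.P032

open MeasureTheory Set Filter Topology Metric
open scoped Real ENNReal BigOperators

namespace NullA

theorem to_prod {s : Set ℂ} (hs : volume s = 0) : volume (Complex.equivRealProdCLM '' s) = 0 := by
  have h := Complex.volume_preserving_equiv_real_prod.measure_preimage_equiv
    (Complex.equivRealProdCLM '' s)
  rw [← h, ← hs]
  exact congrArg _ (Complex.equivRealProdCLM.injective.preimage_image s)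

theorem of_prod {s : Set ℂ} (hs : volume (Complex.equivRealProdCLM '' s) = 0) : volume s = 0 := by
  have h := Complex.volume_preserving_equiv_real_prod.measure_preimage_equiv
    (Complex.equivRealProdCLM '' s)
  rw [← hs, ← h]
  exact congrArg _ (Complex.equivRealProdCLM.injective.preimage_image s).symm

theorem image_null {g : ℂ → ℝ × ℝ} {s : Set ℂ} (hg : DifferentiableOn ℝ g s) (hs : volume s = 0) :
    volume (g '' s) = 0 := by
  have h := addHaar_image_eq_zero_of_differentiableOn_of_addHaar_eq_zero volume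
    (f := g ∘ Complex.equivRealProdCLM.symm) (s := Complex.equivRealProdCLM '' s)
    (hg.comp Complex.equivRealProdCLM.symm.differentiable.differentiableOn (by
      rintro _ ⟨z, hz, rfl⟩
      rwa [ContinuousLinearEquiv.symm_apply_apply])) (to_prod hs)
  rwa [image_comp, Complex.equivRealProdCLM.symm_image_image] at h

theorem contDiff_F : ContDiff ℝ 1 fun p : ℝ × ℝ => e p.1 + e p.2 := by
  have h : ContDiff ℝ 1 e := (Complex.ofRealCLM.contDiff.mul contDiff_const).cexp
  exact (h.comp contDiff_fst).add (h.comp contDiff_snd)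

theorem exists_equiv {x : ℝ × ℝ} (hx : Real.sin (x.1 - x.2) ≠ 0) :
    ∃ L : (ℝ × ℝ) ≃L[ℝ] ℂ, HasFDerivAt (fun p : ℝ × ℝ => e p.1 + e p.2) (L : (ℝ × ℝ) →L[ℝ] ℂ) x := by
  have h := ((hasDerivAt_e x.1).hasFDerivAt.comp x hasFDerivAt_fst).add
    ((hasDerivAt_e x.2).hasFDerivAt.comp x hasFDerivAt_snd)
  set A := (ContinuousLinearMap.toSpanSingleton ℝ (Complex.I * e x.1)).comp
    (ContinuousLinearMap.fst ℝ ℝ ℝ) + (ContinuousLinearMap.toSpanSingleton ℝ
      (Complex.I * e x.2)).comp (ContinuousLinearMap.snd ℝ ℝ ℝ) with hA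
  have hi : Function.Injective (A : (ℝ × ℝ) →ₗ[ℝ] ℂ) := by
    refine (injective_iff_map_eq_zero _).2 fun u hu => ?_
    have h1 := congrArg Complex.re hu
    have h2 := congrArg Complex.im hu
    simp [hA] at h1 h2
    rw [Real.sin_sub] at hx
    refine Prod.ext (mul_left_cancel₀ hx ?_) (mul_left_cancel₀ hx ?_)
    · simp only [Prod.fst_zero]
      linear_combination (-Real.cos x.2) * h1 - Real.sin x.2 * h2
    · simp only [Prod.snd_zero]
      linear_combination Real.cos x.1 * h1 + Real.sin x.1 * h2
  exact ⟨(LinearMap.linearEquivOfInjective _ hi (by simp)).toContinuousLinearEquiv, h⟩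

theorem ae_sin : ∀ᵐ p : ℝ × ℝ, Real.sin (p.1 - p.2) ≠ 0 := by
  refine (Measure.ae_prod_iff_ae_ae (isOpen_ne_fun (by fun_prop) continuous_const).measurableSet).2
    (Eventually.of_forall fun a => ?_)
  refine measure_mono_null (fun b hb => ?_)
    ((countable_range fun n : ℤ => a - n * π).measure_zero volume)
  obtain ⟨n, hn⟩ := Real.sin_eq_zero_iff.1 (not_not.1 hb)
  exact ⟨n, by simp only [hn]; ring⟩

end NullA

open NullA in
theorem nullS : NullStmt := by
  refine ⟨fun N hN => ?_, fun N hN => of_prod ?_⟩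
  · have h : volume {p : ℝ × ℝ | Real.sin (p.1 - p.2) ≠ 0 ∧ e p.1 + e p.2 ∈ N} = 0 := by
      refine measure_null_of_locally_null _ fun x hx => ?_
      obtain ⟨L, hL⟩ := exists_equiv hx.1
      have hc := contDiff_F.contDiffAt (x := x)
      have h1 := hc.to_localInverse hL one_ne_zero
      obtain ⟨V, hV, h2⟩ := h1.contDiffOn le_rfl (by simp)
      have h3 := (hc.hasStrictFDerivAt' hL one_ne_zero).eventually_left_inverse
      have h4 := hc.continuousAt.eventually hV
      refine ⟨_, inter_mem_nhdsWithin _ (h3.and h4), measure_mono_null (fun p hp => ?_)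
        (image_null (s := N ∩ V) ((h2.differentiableOn one_ne_zero).mono inter_subset_right)
          (measure_mono_null inter_subset_left hN))⟩
      exact ⟨_, ⟨hp.1.2, hp.2.2⟩, hp.2.1⟩
    filter_upwards [ae_sin, measure_eq_zero_iff_ae_notMem.1 h] with p h1 h2 h3
    exact h2 ⟨h1, h3⟩
  · rw [← image_comp]
    exact addHaar_image_eq_zero_of_differentiableOn_of_addHaar_eq_zero volume
      (Complex.equivRealProdCLM.differentiable.comp
        (contDiff_F.differentiable one_ne_zero)).differentiableOn hN

end Vale.Agent.P032
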