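import Vale.Agent.P032.Stmts

/-! Almost orthogonality of the continuous parts along transverse subgroups. -/

namespace Vale.Agent.P032

open Finset
open scoped BigOperators

namespace OrthA

variable {H : Type} [SeminormedAddCommGroup H] [InnerProductSpace ℝ H]
variable {ι κ : Type} [Fintype ι] [Fintype κ]

noncomputable def avg (f : ι → H) : H := (Fintype.card ι : ℝ)⁻¹ • ∑ i, f i

theorem inner_avg (u : H) (f : ι → H) : inner ℝ u (avg f) = 𝔼 i, inner ℝ u (f i) := by
  rw [avg, inner_smul_right, inner_sum, Fintype.expect_eq_sum_div_card, div_eq_inv_mul]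

theorem map_avg (S : H →ₗᵢ[ℝ] H) (f : ι → H) : S (avg f) = avg fun i => S (f i) := by
  rw [avg, map_smul, map_sum, avg]

theorem avg_comm (f : ι → κ → H) :
    (avg fun i => avg fun j => f i j) = avg fun j => avg fun i => f i j := by
  simp only [avg, ← smul_sum]
  rw [sum_comm, smul_comm]

theorem norm_avg [Nonempty ι] {f : ι → H} {c : ℝ} (h : ∀ i, ‖f i‖ ≤ c) : ‖avg f‖ ≤ c := by
  have h0 : (0 : ℝ) < Fintype.card ι := by exact_mod_cast Fintype.card_pos
  rw [avg, norm_smul, norm_inv, Real.norm_of_nonneg h0.le, inv_mul_le_iff₀ h0]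
  exact (norm_sum_le _ _).trans ((sum_le_sum fun i _ => h i).trans_eq (by simp))

variable {W : Type} [NormedAddCommGroup W] {T : W → H →ₗᵢ[ℝ] H} {ξ : H}

def Av (T : W → H →ₗᵢ[ℝ] H) (ξ : H) (L : AddSubgroup W) (d : ℝ) (v : H) : Prop :=
  ∃ (ι : Type) (_ : Fintype ι) (_ : Nonempty ι) (x : ι → W),
    (∀ i, x i ∈ L ∧ ‖x i‖ < d) ∧ v = avg fun i => T (x i) ξ

theorem Av.norm_le {L : AddSubgroup W} {d : ℝ} {v : H} (h : Av T ξ L d v) : ‖v‖ ≤ ‖ξ‖ := by
  obtain ⟨ι, _, _, x, -, rfl⟩ := h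
  exact norm_avg fun i => (LinearIsometry.norm_map _ _).le

theorem sq_avg {φ : W → ℝ} (h : ∀ x y, inner ℝ (T x ξ) (T y ξ) = φ (x - y)) (x : ι → W) :
    ‖avg fun i => T (x i) ξ‖ ^ 2 = 𝔼 i, 𝔼 j, φ (x i - x j) := by
  rw [← real_inner_self_eq_norm_sq, inner_avg]
  refine expect_congr rfl fun i _ => ?_
  rw [real_inner_comm, inner_avg]
  simp only [h]

variable (h0 : ∀ v, T 0 v = v) (ha : ∀ x y v, T (x + y) v = T x (T y v))
include h0 ha

theorem adj (l : W) (u v : H) : inner ℝ (T l u) v = inner ℝ u (T (-l) v) := by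
  rw [← (T l).inner_map_map u, ← ha, add_neg_cancel, h0]

theorem exists_inv (ξ : H) (L : AddSubgroup W) {δ η : ℝ} (hδ : 0 < δ) (hη : 0 < η) :
    ∃ d > 0, d ≤ δ ∧ ∃ v, Av T ξ L d v ∧ ∀ l ∈ L, ‖l‖ < d → ‖T l v - v‖ ≤ η := by
  by_contra hc
  push Not at hc
  have key : ∀ k : ℕ, ∀ d > 0, d * 2 ^ k ≤ δ →
      ∃ v, Av T ξ L (d * 2 ^ k) v ∧ ‖v‖ ^ 2 ≤ ‖ξ‖ ^ 2 - k * (η ^ 2 / 4) := by
    intro k d hd
    induction k with
    | zero =>
      exact fun _ => ⟨ξ, ⟨Unit, inferInstance, inferInstance, fun _ => 0,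
        fun _ => ⟨L.zero_mem, by simpa using hd⟩, by simp [avg, h0]⟩, by simp⟩
    | succ k ih =>
      intro hk
      have h1 : 0 < d * 2 ^ k := by positivity
      rw [pow_succ, ← mul_assoc] at hk ⊢
      obtain ⟨v, hv, h2⟩ := ih (by linarith)
      obtain ⟨l, l1, l2, l3⟩ := hc _ h1 (by linarith) v hv
      refine ⟨(2 : ℝ)⁻¹ • (T l v + v), ?_, ?_⟩
      · obtain ⟨ι, _, _, x, hx, rfl⟩ := hv
        refine ⟨ι ⊕ ι, inferInstance, inferInstance, Sum.elim (fun i => l + x i) x, ?_, ?_⟩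
        · rintro (i | i)
          · exact ⟨L.add_mem l1 (hx i).1, (norm_add_le _ _).trans_lt (by linarith [(hx i).2])⟩
          · exact ⟨(hx i).1, by simp only [Sum.elim_inr]; linarith [(hx i).2]⟩
        · simp only [map_avg]
          simp only [avg, Fintype.sum_sum_type, Sum.elim_inl, Sum.elim_inr, ha, ← smul_add,
            smul_smul, Fintype.card_sum, ← two_mul, Nat.cast_mul, Nat.cast_ofNat, mul_inv]
      · have h3 := parallelogram_law_with_norm ℝ (T l v) v
        have h4 : η ^ 2 ≤ ‖T l v - v‖ ^ 2 := pow_le_pow_left₀ hη.le l3.le 2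
        rw [LinearIsometry.norm_map] at h3
        rw [norm_smul, norm_inv, Real.norm_ofNat]
        push_cast
        nlinarith
  obtain ⟨k, hk⟩ := exists_nat_gt (‖ξ‖ ^ 2 / (η ^ 2 / 4))
  obtain ⟨v, -, hv⟩ := key k (δ / 2 ^ k) (by positivity) (by rw [div_mul_cancel₀]; positivity)
  rw [div_lt_iff₀ (by positivity)] at hk
  linarith [sq_nonneg ‖v‖]

end OrthA

open OrthA

theorem orthS (hG : GnsStmt) : OrthStmt := by
  intro W _ φ hφ hN n L hL q hq
  obtain ⟨H, _, _, T, ξ, h0, ha, hi⟩ := hG W φ hφ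
  have hξ : ‖ξ‖ ^ 2 = φ 0 := by
    have := hi 0 0
    rwa [h0, sub_zero, real_inner_self_eq_norm_sq] at this
  choose δ δ0 hδ using hq
  have key : ∀ η > (0 : ℝ), n * q ≤ φ 0 + (2 * n + 3 * n * n) * ‖ξ‖ * η := fun η hη => by
    choose d d0 d1 v v1 v2 using fun a => exists_inv h0 ha ξ (L a) (δ0 a) hη
    have vn := fun a => (v1 a).norm_le
    have a1 : ∀ a, q ≤ ‖v a‖ ^ 2 ∧ ‖v a‖ ^ 2 ≤ inner ℝ ξ (v a) + ‖ξ‖ * η := fun a => by
      obtain ⟨ι, _, _, x, hx, e⟩ := v1 a
      refine ⟨?_, ?_⟩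
      · rw [e, sq_avg hi]
        exact hδ a ι x fun i => ⟨(hx i).1, (hx i).2.trans_le (d1 a)⟩
      · have e2 : ‖v a‖ ^ 2 = inner ℝ (v a) (avg fun i => T (x i) ξ) := by
          rw [← e, real_inner_self_eq_norm_sq]
        rw [e2, inner_avg]
        refine expect_le univ_nonempty fun i _ => ?_
        have b1 := v2 a _ ((L a).neg_mem (hx i).1) (by simpa using (hx i).2)
        have b2 := real_inner_le_norm ξ (T (-x i) (v a) - v a)
        rw [inner_sub_right] at b2
        rw [real_inner_comm, adj h0 ha]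
        linarith [mul_le_mul_of_nonneg_left b1 (norm_nonneg ξ)]
    have a2 : ∀ a b, a ≠ b → inner ℝ (v a) (v b) ≤ 3 * ‖ξ‖ * η := fun a b hab => by
      obtain ⟨K, hK⟩ := hL a b hab
      have m0 : 0 < min (d a) (d b) := lt_min (d0 a) (d0 b)
      obtain ⟨ι, _, _, w, hw, hu⟩ := hN (min (d a) (d b) / (|K| + 1)) (by positivity) (η ^ 2)
        (by positivity)
      rw [← sq_avg hi] at hu
      have b1 : ‖avg fun k => T (w k) (v b)‖ ≤ η := by
        obtain ⟨κ, _, _, y, -, e⟩ := v1 b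
        simp only [e, map_avg]
        rw [avg_comm]
        refine norm_avg fun j => ?_
        have e2 : ∀ k, T (w k) (T (y j) ξ) = T (y j) (T (w k) ξ) := fun k => by
          rw [← ha, add_comm, ha]
        simp only [e2]
        rw [← map_avg, LinearIsometry.norm_map]
        exact (pow_le_pow_iff_left₀ (norm_nonneg _) hη.le two_ne_zero).1 hu
      have b2 : inner ℝ (v a) (v b) - 2 * ‖ξ‖ * η ≤ inner ℝ (v a) (avg fun k => T (w k) (v b)) := by
        rw [inner_avg]
        refine le_expect univ_nonempty fun k _ => ?_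
        obtain ⟨l, l1, l', l2, e, l3, l4⟩ := hK (w k)
        have c1 : K * ‖w k‖ < min (d a) (d b) := by
          have := (lt_div_iff₀ (by positivity)).1 (hw k).2
          nlinarith [le_abs_self K, norm_nonneg (w k)]
        have c2 := v2 a _ ((L a).neg_mem l1) (by rw [norm_neg]; linarith [min_le_left (d a) (d b)])
        have c3 := v2 b _ l2 (by linarith [min_le_right (d a) (d b)])
        have c4 := (abs_le.1 (abs_real_inner_le_norm (T (-l) (v a) - v a) (T l' (v b)))).1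
        have c5 := (abs_le.1 (abs_real_inner_le_norm (v a) (T l' (v b) - v b))).1
        rw [inner_sub_left, adj h0 ha, neg_neg, ← ha, ← e, LinearIsometry.norm_map] at c4
        rw [inner_sub_right] at c5
        linarith [mul_le_mul c2 (vn b) (norm_nonneg _) hη.le,
          mul_le_mul (vn a) c3 (norm_nonneg _) (norm_nonneg ξ)]
      linarith [real_inner_le_norm (v a) (avg fun k => T (w k) (v b)),
        mul_le_mul (vn a) b1 (norm_nonneg _) (norm_nonneg ξ)]
    have a3 : ‖∑ a, v a‖ ^ 2 ≤ ∑ a, ‖v a‖ ^ 2 + n * (n * (3 * ‖ξ‖ * η)) := by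
      rw [← real_inner_self_eq_norm_sq, sum_inner]
      refine (sum_le_sum (g := fun a => ‖v a‖ ^ 2 + n * (3 * ‖ξ‖ * η)) fun a _ => ?_).trans_eq
        (by simp [sum_add_distrib])
      rw [inner_sum]
      refine (sum_le_sum (g := fun b => (if a = b then ‖v a‖ ^ 2 else 0) + 3 * ‖ξ‖ * η)
        fun b _ => ?_).trans_eq (by simp [sum_add_distrib])
      split_ifs with hab
      · rw [← hab, real_inner_self_eq_norm_sq]
        exact le_add_of_nonneg_right (by positivity)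
      · rw [zero_add]
        exact a2 a b hab
    have a4 : ∑ a, ‖v a‖ ^ 2 ≤ inner ℝ ξ (∑ a, v a) + n * (‖ξ‖ * η) := by
      rw [inner_sum]
      exact (sum_le_sum fun a _ => (a1 a).2).trans_eq (by simp [sum_add_distrib])
    have a5 : n * q ≤ ∑ a, ‖v a‖ ^ 2 := le_of_eq_of_le (by simp) (sum_le_sum fun a _ => (a1 a).1)
    have a6 := norm_sub_sq_real ξ (∑ a, v a)
    linarith [sq_nonneg ‖ξ - ∑ a, v a‖]
  refine le_of_forall_pos_le_add fun ε hε => ?_
  have h1 : (0 : ℝ) ≤ (2 * n + 3 * n * n) * ‖ξ‖ := by positivity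
  refine (key (ε / ((2 * n + 3 * n * n) * ‖ξ‖ + 1)) (by positivity)).trans ?_
  rw [add_le_add_iff_left, ← mul_div_assoc, div_le_iff₀ (by positivity)]
  nlinarith

end Vale.Agent.P032
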