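import Vale.Agent.P032.Stmts

/-! P032: choice of a good random fractional colouring. -/

namespace Vale.Agent.P032

open MeasureTheory Set Filter Topology Metric
open scoped Real ENNReal BigOperators

namespace PickA

section Abstract
variable {X : Type} [TopologicalSpace X] [CompactSpace X] (m : Mean X)

theorem bdd {f : X → ℝ} (hf : Continuous f) : Bdd f := by
  obtain ⟨B, hB⟩ := (isCompact_univ.image hf).isBounded.exists_norm_le
  exact ⟨B, fun x => hB _ ⟨x, trivial, rfl⟩⟩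

theorem M_sum {ι : Type} (s : Finset ι) (f : ι → X → ℝ) (hf : ∀ i ∈ s, Continuous (f i)) :
    m.M (fun x => ∑ i ∈ s, f i x) = ∑ i ∈ s, m.M (f i) := by
  classical
  induction s using Finset.induction_on with
  | empty => simpa using m.const 0
  | insert a s ha ih =>
    simp only [Finset.sum_insert ha]
    rw [m.add _ _ (bdd (hf a (Finset.mem_insert_self _ _)))
      (bdd (continuous_finsetSum s fun i hi => hf i (Finset.mem_insert_of_mem hi))),
      ih fun i hi => hf i (Finset.mem_insert_of_mem hi)]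

omit [CompactSpace X] in
theorem cont_expect {ι : Type} [Fintype ι] (f : ι → X → ℝ) (hf : ∀ i, Continuous (f i)) :
    Continuous fun x => 𝔼 i, f i x := by
  simp only [Fintype.expect_eq_sum_div_card]
  exact (continuous_finsetSum _ fun i _ => hf i).div_const _

theorem M_expect {ι : Type} [Fintype ι] (f : ι → X → ℝ) (hf : ∀ i, Continuous (f i)) :
    m.M (fun x => 𝔼 i, f i x) = 𝔼 i, m.M (f i) := by
  simp only [Fintype.expect_eq_sum_div_card, div_eq_inv_mul]
  rw [m.smul _ _ (bdd (continuous_finsetSum _ fun i _ => hf i)), M_sum m _ _ fun i _ => hf i]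

theorem cost {K : Type} (s : Set ℂ) (hfin : volume s ≠ ⊤) (g : ℂ → K)
    (hg : ∀ k, MeasurableSet (g ⁻¹' {k})) (hT : (g '' s).Finite) (Bad : K → Set X)
    (hB : ∀ k, IsClopen (Bad k)) (t : ℝ) (ht : 0 ≤ t)
    (hm : ∀ z ∈ s, m.M ((Bad (g z)).indicator fun _ => 1) ≤ t) :
    ∃ E : X → ℝ, Continuous E ∧ (∀ ω, 0 ≤ E ω) ∧ m.M E ≤ t * (volume s).toReal ∧
      ∀ ω, volume {z | z ∈ s ∧ ω ∈ Bad (g z)} ≤ ENNReal.ofReal (E ω) := by
  classical
  have hc : ∀ k, Continuous ((Bad k).indicator fun _ => (1 : ℝ)) := fun k =>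
    (hB k).continuous_indicator continuous_const
  have hne : ∀ k, volume (g ⁻¹' {k} ∩ s) ≠ ⊤ := fun k =>
    ne_top_of_le_ne_top hfin (measure_mono inter_subset_right)
  refine ⟨fun ω => ∑ k ∈ hT.toFinset, (volume (g ⁻¹' {k} ∩ s)).toReal *
    (Bad k).indicator (fun _ => (1 : ℝ)) ω,
    continuous_finsetSum _ fun k _ => continuous_const.mul (hc k),
    fun ω => Finset.sum_nonneg fun k _ => mul_nonneg ENNReal.toReal_nonneg
      (indicator_nonneg (fun _ _ => zero_le_one) _), ?_, fun ω => ?_⟩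
  · rw [M_sum m hT.toFinset (fun k ω => (volume (g ⁻¹' {k} ∩ s)).toReal *
      (Bad k).indicator (fun _ => (1 : ℝ)) ω) fun k _ => continuous_const.mul (hc k)]
    have h1 : ∑ k ∈ hT.toFinset, (volume (g ⁻¹' {k} ∩ s)).toReal ≤ (volume s).toReal := by
      rw [← ENNReal.toReal_sum fun k _ => hne k]
      refine ENNReal.toReal_mono hfin ?_
      have h2 := sum_measure_preimage_singleton (μ := volume.restrict s) hT.toFinset
        (f := g) fun k _ => hg k
      simp only [Measure.restrict_apply (hg _)] at h2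
      rw [h2]
      exact (measure_mono (subset_univ _)).trans (by simp)
    refine le_trans ?_ (mul_le_mul_of_nonneg_left h1 ht)
    rw [Finset.mul_sum]
    refine Finset.sum_le_sum fun k hk => ?_
    obtain ⟨z, hz, rfl⟩ := hT.mem_toFinset.1 hk
    rw [m.smul _ _ (bdd (hc _)), mul_comm]
    exact mul_le_mul_of_nonneg_right (hm z hz) ENNReal.toReal_nonneg
  · have h1 : {z | z ∈ s ∧ ω ∈ Bad (g z)} ⊆
        ⋃ k ∈ hT.toFinset.filter (fun k => ω ∈ Bad k), g ⁻¹' {k} ∩ s := by
      rintro z ⟨h2, h3⟩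
      exact mem_biUnion (Finset.mem_coe.2 (Finset.mem_filter.2
        ⟨hT.mem_toFinset.2 ⟨z, h2, rfl⟩, h3⟩)) ⟨rfl, h2⟩
    refine (measure_mono h1).trans ((measure_biUnion_finset_le _ _).trans ?_)
    rw [ENNReal.ofReal_sum_of_nonneg fun k _ => mul_nonneg ENNReal.toReal_nonneg
      (indicator_nonneg (fun _ _ => zero_le_one) _), Finset.sum_filter]
    refine Finset.sum_le_sum fun k _ => ?_
    split_ifs with h
    · rw [indicator_of_mem h, mul_one, ENNReal.ofReal_toReal (hne k)]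
    · exact zero_le

theorem common (E : ℕ → X → ℝ) (hc : ∀ n, Continuous (E n)) (h0 : ∀ n ω, 0 ≤ E n ω)
    (hm : ∀ n, m.M (E n) ≤ (1 / 4) ^ n / 4) : ∃ ω, ∀ n, E n ω ≤ (1 / 2) ^ n := by
  let F : ℕ → X → ℝ := fun N ω => ∑ n ∈ Finset.range N, 2 ^ n * E n ω
  have hF : ∀ N, Continuous (F N) := fun N =>
    continuous_finsetSum _ fun n _ => continuous_const.mul (hc n)
  have hFm : ∀ N, m.M (F N) ≤ 1 / 2 := by
    intro N
    rw [M_sum m (Finset.range N) (fun n ω => 2 ^ n * E n ω)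
      fun n _ => continuous_const.mul (hc n)]
    have h1 : ∀ n ∈ Finset.range N, m.M (fun ω => 2 ^ n * E n ω) ≤ (1 / 2) ^ n / 4 := by
      intro n _
      rw [m.smul _ _ (bdd (hc n))]
      refine (mul_le_mul_of_nonneg_left (hm n) (by positivity)).trans (le_of_eq ?_)
      rw [← mul_div_assoc, ← mul_pow]
      norm_num
    refine (Finset.sum_le_sum h1).trans ?_
    rw [← Finset.sum_div]
    have := sum_geometric_two_le N
    linarith
  obtain ⟨ω, hω⟩ := IsCompact.nonempty_iInter_of_sequence_nonempty_isCompact_isClosed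
    (fun N => {ω | F N ω ≤ 1})
    (fun N ω h => by
      have h1 : F (N + 1) ω = F N ω + 2 ^ N * E N ω := Finset.sum_range_succ _ _
      have h2 : 0 ≤ 2 ^ N * E N ω := mul_nonneg (by positivity) (h0 N ω)
      have h3 : F (N + 1) ω ≤ 1 := h
      change F N ω ≤ 1
      linarith)
    (fun N => by
      by_contra h
      have h1 : ∀ ω, 1 ≤ F N ω := fun ω => le_of_not_ge fun h2 => h ⟨ω, h2⟩
      have h2 := m.mono (fun _ => 1) (F N) (bdd continuous_const) (bdd (hF N)) h1
      rw [m.const] at h2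
      have := hFm N
      linarith)
    (isClosed_le (hF 0) continuous_const).isCompact
    (fun N => isClosed_le (hF N) continuous_const)
  refine ⟨ω, fun n => ?_⟩
  have h1 : F (n + 1) ω ≤ 1 := mem_iInter.1 hω (n + 1)
  have h2 : 2 ^ n * E n ω ≤ F (n + 1) ω :=
    Finset.single_le_sum (f := fun n => 2 ^ n * E n ω)
      (fun k _ => mul_nonneg (by positivity) (h0 k ω)) (Finset.self_mem_range_succ n)
  rw [one_div, inv_pow, ← one_div, le_div_iff₀ (by positivity), mul_comm]
  exact h2.trans h1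

end Abstract

theorem exists_round {h : ℝ} (hh : 0 < h) : ∃ (u : ℂ → ℤ × ℤ) (G : ℤ × ℤ → ℂ), Measurable u ∧
    (∀ z, ‖G (u z) - z‖ ≤ 2 * h) ∧ ∀ s : Set ℂ, Bornology.IsBounded s → (u '' s).Finite := by
  refine ⟨fun z => (⌊z.re / h⌋, ⌊z.im / h⌋), fun a => ⟨h * a.1, h * a.2⟩, ?_, fun z => ?_,
    fun s hs => ?_⟩
  · exact (Complex.measurable_re.div_const h).floor.prodMk (Complex.measurable_im.div_const h).floor
  · have h1 : ∀ t : ℝ, |h * ⌊t / h⌋ - t| ≤ h := by
      intro t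
      have h2 := Int.floor_le (t / h)
      have h3 := Int.lt_floor_add_one (t / h)
      rw [le_div_iff₀ hh] at h2
      rw [div_lt_iff₀ hh] at h3
      rw [abs_le]
      constructor <;> nlinarith
    refine (Complex.norm_le_abs_re_add_abs_im _).trans ?_
    have h2 := h1 z.re
    have h3 := h1 z.im
    simp only [Complex.sub_re, Complex.sub_im]
    linarith
  · obtain ⟨R, hR⟩ := hs.exists_norm_le
    have h1 : ∀ t : ℝ, |t| ≤ R → ⌊t / h⌋ ∈ Icc ⌊-R / h⌋ ⌊R / h⌋ := fun t ht =>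
      ⟨Int.floor_le_floor (div_le_div_of_nonneg_right (abs_le.1 ht).1 hh.le),
        Int.floor_le_floor (div_le_div_of_nonneg_right (abs_le.1 ht).2 hh.le)⟩
    refine ((finite_Icc ⌊-R / h⌋ ⌊R / h⌋).prod (finite_Icc ⌊-R / h⌋ ⌊R / h⌋)).subset ?_
    rintro _ ⟨z, hz, rfl⟩
    exact ⟨h1 _ ((Complex.abs_re_le_norm z).trans (hR z hz)),
      h1 _ ((Complex.abs_im_le_norm z).trans (hR z hz))⟩

section Frac
variable {ι κ : Type} [Fintype ι] [Fintype κ]

/-- frequency of colour `j` among the points `a + x i` -/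
noncomputable def p (x : ι → ℂ) (a : ℂ) (ω : ℂ → Fin 5) (j : Fin 5) : ℝ :=
  𝔼 i, if ω (a + x i) = j then 1 else 0

theorem p_nonneg (x : ι → ℂ) (a : ℂ) (ω : ℂ → Fin 5) (j : Fin 5) : 0 ≤ p x a ω j :=
  Finset.expect_nonneg fun i _ => by split_ifs <;> norm_num

theorem p_sum [Nonempty ι] (x : ι → ℂ) (a : ℂ) (ω : ℂ → Fin 5) : ∑ j, p x a ω j = 1 := by
  simp only [p]
  rw [← Finset.expect_sum_comm]
  simp

theorem cont_p (x : ι → ℂ) (a : ℂ) (j : Fin 5) : Continuous fun ω => p x a ω j :=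
  cont_expect _ fun i => (continuous_of_discreteTopology
    (f := fun c : Fin 5 => if c = j then (1 : ℝ) else 0)).comp (continuous_apply (a + x i))

theorem clopen (x : ι → ℂ) (y : κ → ℂ) (a b : ℂ) (Q : (Fin 5 → ℝ) → (Fin 5 → ℝ) → Prop) :
    IsClopen {ω | Q (p x a ω) (p y b ω)} := by
  have h : Continuous fun ω : ℂ → Fin 5 =>
      ((fun i => ω (a + x i), fun i => ω (b + y i)) : (ι → Fin 5) × (κ → Fin 5)) :=
    (continuous_pi fun i => continuous_apply _).prodMk (continuous_pi fun i => continuous_apply _)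
  exact (isClopen_discrete {c : (ι → Fin 5) × (κ → Fin 5) |
    Q (fun j => 𝔼 i, if c.1 i = j then 1 else 0)
      (fun j => 𝔼 i, if c.2 i = j then 1 else 0)}).preimage h

/-- the inner product of two frequency vectors -/
noncomputable def D (x : ι → ℂ) (a : ℂ) (y : κ → ℂ) (b : ℂ) (ω : ℂ → Fin 5) : ℝ :=
  ∑ j, p x a ω j * p y b ω j

theorem cont_D (x : ι → ℂ) (a : ℂ) (y : κ → ℂ) (b : ℂ) : Continuous (D x a y b) :=
  continuous_finsetSum _ fun j _ => (cont_p x a j).mul (cont_p y b j)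

theorem M_D {m : Mean (ℂ → Fin 5)} {φ : ℂ → ℝ}
    (hm : ∀ u w, m.M (fun ω => if ω u = ω w then 1 else 0) = φ (u - w))
    (x : ι → ℂ) (a : ℂ) (y : κ → ℂ) (b : ℂ) : m.M (D x a y b) = QQ φ a x b y := by
  have h1 : D x a y b = fun ω => 𝔼 i, 𝔼 k, if ω (a + x i) = ω (b + y k) then (1 : ℝ) else 0 := by
    funext ω
    simp only [D, p, Finset.expect_mul_expect]
    rw [← Finset.expect_sum_comm]
    refine Finset.expect_congr rfl fun i _ => ?_
    rw [← Finset.expect_sum_comm]
    refine Finset.expect_congr rfl fun k _ => ?_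
    simp [eq_comm]
  have h2 : ∀ u w : ℂ, Continuous fun ω : ℂ → Fin 5 => if ω u = ω w then (1 : ℝ) else 0 :=
    fun u w => (continuous_of_discreteTopology
      (f := fun c : Fin 5 × Fin 5 => if c.1 = c.2 then (1 : ℝ) else 0)).comp
        (f := fun ω : ℂ → Fin 5 => (ω u, ω w)) ((continuous_apply u).prodMk (continuous_apply w))
  rw [h1, M_expect m _ fun i => cont_expect _ fun k => h2 _ _, QQ]
  refine Finset.expect_congr rfl fun i _ => ?_
  rw [M_expect m _ fun k => h2 _ _]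
  exact Finset.expect_congr rfl fun k _ => hm _ _

theorem markov1 {m : Mean (ℂ → Fin 5)} {φ : ℂ → ℝ}
    (hm : ∀ u w, m.M (fun ω => if ω u = ω w then 1 else 0) = φ (u - w))
    (x : ι → ℂ) (a : ℂ) (y : κ → ℂ) (b : ℂ) {τ : ℝ} (hτ : 0 < τ) :
    m.M ({ω | ∃ j, τ < |p x a ω j - p y b ω j|}.indicator fun _ => 1) ≤
      τ⁻¹ ^ 2 * (QQ φ a x a x - 2 * QQ φ a x b y + QQ φ b y b y) := by
  have c1 := cont_D x a x a
  have c2 := cont_D x a y b
  have c3 := cont_D y b y b
  have c4 : Continuous fun ω => (-2) * D x a y b ω := continuous_const.mul c2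
  have c5 : Continuous fun ω => D x a x a ω + (-2) * D x a y b ω := c1.add c4
  have c6 : Continuous fun ω => D x a x a ω + (-2) * D x a y b ω + D y b y b ω := c5.add c3
  have h1 : m.M (fun ω => τ⁻¹ ^ 2 * (D x a x a ω + (-2) * D x a y b ω + D y b y b ω)) =
      τ⁻¹ ^ 2 * (QQ φ a x a x - 2 * QQ φ a x b y + QQ φ b y b y) := by
    rw [m.smul _ _ (bdd c6), m.add _ _ (bdd c5) (bdd c3), m.add _ _ (bdd c1) (bdd c4),
      m.smul _ _ (bdd c2), M_D hm, M_D hm, M_D hm]
    ring
  rw [← h1]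
  refine m.mono _ _ (bdd ((clopen x y a b fun u v => ∃ j, τ < |u j - v j|).continuous_indicator
    continuous_const)) (bdd (continuous_const.mul c6)) fun ω => ?_
  have h2 : D x a x a ω + (-2) * D x a y b ω + D y b y b ω =
      ∑ j, (p x a ω j - p y b ω j) ^ 2 := by
    simp only [D, Finset.mul_sum, ← Finset.sum_add_distrib]
    exact Finset.sum_congr rfl fun j _ => by ring
  rw [h2]
  by_cases hω : ω ∈ {ω | ∃ j, τ < |p x a ω j - p y b ω j|}
  · rw [indicator_of_mem hω]
    obtain ⟨j, hj⟩ := hω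
    have h3 : (p x a ω j - p y b ω j) ^ 2 ≤ ∑ j, (p x a ω j - p y b ω j) ^ 2 :=
      Finset.single_le_sum (f := fun j => (p x a ω j - p y b ω j) ^ 2)
        (fun _ _ => sq_nonneg _) (Finset.mem_univ j)
    have h4 : τ ^ 2 ≤ (p x a ω j - p y b ω j) ^ 2 := by
      rw [← sq_abs (p x a ω j - p y b ω j)]
      exact pow_le_pow_left₀ hτ.le hj.le 2
    rw [inv_pow, ← div_eq_inv_mul, le_div_iff₀ (by positivity), one_mul]
    exact h4.trans h3
  · rw [indicator_of_notMem hω]
    positivity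

theorem markov2 {m : Mean (ℂ → Fin 5)} {φ : ℂ → ℝ}
    (hm : ∀ u w, m.M (fun ω => if ω u = ω w then 1 else 0) = φ (u - w))
    (x : ι → ℂ) (a b : ℂ) :
    m.M ({ω | ∃ j, 1 / 10 ≤ p x a ω j ∧ 1 / 10 ≤ p x b ω j}.indicator fun _ => 1) ≤
      100 * QQ φ a x b x := by
  have c2 := cont_D x a x b
  rw [← M_D hm, ← m.smul _ _ (bdd c2)]
  refine m.mono _ _ (bdd ((clopen x x a b
    fun u v => ∃ j, 1 / 10 ≤ u j ∧ 1 / 10 ≤ v j).continuous_indicator
    continuous_const)) (bdd (continuous_const.mul c2)) fun ω => ?_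
  have h0 : ∀ j, 0 ≤ p x a ω j * p x b ω j := fun j => mul_nonneg (p_nonneg ..) (p_nonneg ..)
  by_cases hω : ω ∈ {ω | ∃ j, 1 / 10 ≤ p x a ω j ∧ 1 / 10 ≤ p x b ω j}
  · rw [indicator_of_mem hω]
    obtain ⟨j, h1, h2⟩ := hω
    have h3 : p x a ω j * p x b ω j ≤ D x a x b ω :=
      Finset.single_le_sum (f := fun j => p x a ω j * p x b ω j) (fun j _ => h0 j)
        (Finset.mem_univ j)
    nlinarith
  · rw [indicator_of_notMem hω]
    exact mul_nonneg (by norm_num) (Finset.sum_nonneg fun j _ => h0 j)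

end Frac

end PickA

open PickA in
theorem pickS (hK : KerStmt) (hC : ContStmt) : PickStmt := by
  intro c hc
  obtain ⟨m, φ, h1, h2, h3, h4, hm⟩ := hK c hc
  let V : ℕ → ℝ := fun n => (volume (ball (0 : ℂ) n)).toReal
  have hV : ∀ n, 0 ≤ V n := fun n => ENNReal.toReal_nonneg
  let τ : ℕ → ℝ := fun n => (1 / 2) ^ n / 20
  have hτ : ∀ n, 0 < τ n := fun n => by positivity
  let A : ℕ → ℝ := fun n => ((τ n)⁻¹ ^ 2 + n * 100) * V n
  have hA : ∀ n, 0 ≤ A n := fun n => mul_nonneg (by positivity) (hV n)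
  let ε : ℕ → ℝ := fun n => (1 / 4) ^ n / 4 / (A n + 1)
  have hε : ∀ n, 0 < ε n := fun n => div_pos (by positivity) (by linarith [hA n])
  obtain ⟨ι, i1, i2, x, δ, hδ, h5, h6⟩ := hC φ h1 h2 h3 h4 ε hε
  have hh : ∀ n, 0 < min (δ n) (δ (n - 1)) / 5 := fun n =>
    div_pos (lt_min (hδ _) (hδ _)) (by norm_num)
  choose u G hu hG hfin using fun n => exists_round (hh n)
  have hG1 : ∀ n z, ‖G n (u n z) - z‖ ≤ 2 / 5 * δ n := fun n z => by
    have := hG n z
    have := min_le_left (δ n) (δ (n - 1))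
    linarith
  have hG2 : ∀ n z, ‖G (n + 1) (u (n + 1) z) - z‖ ≤ 2 / 5 * δ n := fun n z => by
    have h7 := hG (n + 1) z
    have := min_le_right (δ (n + 1)) (δ n)
    rw [Nat.add_sub_cancel] at h7
    linarith
  have hball : ∀ n : ℕ, volume (ball (0 : ℂ) n) ≠ ⊤ := fun n => measure_ball_lt_top.ne
  have hE1 := fun n : ℕ => cost m (ball (0 : ℂ) n) (hball n) (fun z => (u n z, u (n + 1) z))
    (fun k => (hu n).prodMk (hu (n + 1)) (measurableSet_singleton k))
    (((hfin n _ isBounded_ball).prod (hfin (n + 1) _ isBounded_ball)).subset (by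
      rintro _ ⟨z, hz, rfl⟩
      exact ⟨⟨z, hz, rfl⟩, ⟨z, hz, rfl⟩⟩))
    (fun k => {ω | ∃ j, τ n < |p (x n) (G n k.1) ω j - p (x (n + 1)) (G (n + 1) k.2) ω j|})
    (fun k => clopen _ _ _ _ fun u v => ∃ j, τ n < |u j - v j|) ((τ n)⁻¹ ^ 2 * ε n)
    (mul_nonneg (sq_nonneg _) (hε n).le)
    (fun z _ => (markov1 hm _ _ _ _ (hτ n)).trans (mul_le_mul_of_nonneg_left (h5 n _ _ (by
      have h7 := norm_sub_le (G n (u n z) - z) (G (n + 1) (u (n + 1) z) - z)
      rw [sub_sub_sub_cancel_right] at h7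
      have := hG1 n z
      have := hG2 n z
      have := hδ n
      linarith)) (sq_nonneg _)))
  choose E1 c1 n1 m1 v1 using hE1
  have hE2 := fun (n : ℕ) (q : ℚ) => cost m (ball (0 : ℂ) n) (hball n)
    (fun z => (u n z, u n (z + e q)))
    (fun k => (hu n).prodMk ((hu n).comp (measurable_add_const (e q))) (measurableSet_singleton k))
    (((hfin n _ isBounded_ball).prod (hfin n _ (isBounded_ball (x := e q) (r := n)))).subset (by
      rintro _ ⟨z, hz, rfl⟩
      exact ⟨⟨z, hz, rfl⟩, ⟨z + e q, by simpa using hz, rfl⟩⟩))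
    (fun k => {ω | ∃ j, 1 / 10 ≤ p (x n) (G n k.1) ω j ∧ 1 / 10 ≤ p (x n) (G n k.2) ω j})
    (fun k => clopen _ _ _ _ fun u v => ∃ j, 1 / 10 ≤ u j ∧ 1 / 10 ≤ v j) (100 * ε n)
    (mul_nonneg (by norm_num) (hε n).le)
    (fun z _ => (markov2 hm _ _ _).trans (mul_le_mul_of_nonneg_left (h6 n _ _ (by
      have h7 := norm_sub_le (G n (u n z) - z) (G n (u n (z + e q)) - (z + e q))
      have h8 := abs_norm_sub_norm_le (G n (u n z) - G n (u n (z + e q))) (-e q)
      rw [norm_neg, norm_e] at h8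
      have h9 : G n (u n z) - G n (u n (z + e q)) - -e q =
        G n (u n z) - z - (G n (u n (z + e q)) - (z + e q)) := by ring
      rw [h9] at h8
      have := hG1 n z
      have := hG1 n (z + e q)
      have := hδ n
      linarith)) (by norm_num)))
  choose E2 c2 n2 m2 v2 using hE2
  obtain ⟨q, hq⟩ := exists_surjective_nat ℚ
  obtain ⟨ω, hω⟩ := common m (fun n ω => E1 n ω + ∑ k ∈ Finset.range n, E2 n (q k) ω)
    (fun n => (c1 n).add (continuous_finsetSum _ fun k _ => c2 n _))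
    (fun n ω => add_nonneg (n1 n ω) (Finset.sum_nonneg fun k _ => n2 n _ ω))
    (fun n => by
      rw [m.add _ _ (bdd (c1 n)) (bdd (continuous_finsetSum _ fun k _ => c2 n _)),
        M_sum m _ _ fun k _ => c2 n _]
      have h7 : ∑ k ∈ Finset.range n, m.M (E2 n (q k)) ≤ n * (100 * ε n * V n) := by
        have := Finset.sum_le_card_nsmul (Finset.range n) (fun k => m.M (E2 n (q k)))
          (100 * ε n * V n) fun k _ => m2 n _
        rwa [Finset.card_range, nsmul_eq_mul] at this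
      have h8 : (A n + 1) * ε n = (1 / 4) ^ n / 4 := mul_div_cancel₀ _ (by linarith [hA n])
      have h9 : (τ n)⁻¹ ^ 2 * ε n * V n + n * (100 * ε n * V n) = A n * ε n := by
        simp only [A]; ring
      have := m1 n
      have := hε n
      linarith)
  refine ⟨fun n z j => p (x n) (G n (u n z)) ω j, fun n j => ?_, fun n z => p_sum _ _ _,
    fun n => ?_, fun r => ?_⟩
  · exact (measurable_of_countable fun a => p (x n) (G n a) ω j).comp (hu n)
  · refine (v1 n ω).trans (ENNReal.ofReal_le_ofReal (le_trans ?_ (hω n)))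
    exact le_add_of_nonneg_right (Finset.sum_nonneg fun k _ => n2 n _ ω)
  · obtain ⟨k, rfl⟩ := hq r
    filter_upwards [eventually_gt_atTop k] with n hn
    refine (v2 n (q k) ω).trans (ENNReal.ofReal_le_ofReal (le_trans ?_ (hω n)))
    refine le_add_of_nonneg_of_le (n1 n ω) ?_
    exact Finset.single_le_sum (f := fun k => E2 n (q k) ω) (fun k _ => n2 n _ ω)
      (Finset.mem_range.2 hn)

end Vale.Agent.P032
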