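import Vale.Agent.P032.Stmts

namespace Vale.Agent.P032

open MeasureTheory Set Filter Topology Metric
open scoped Real ENNReal BigOperators

theorem pmS (hP : PolarStmt) : PmStmt := by
  intro C x Θ θ₀ i j hA hD η D S hη hD0
  set S1 : ℝ := |S| + 1 with hS1
  have hS0 : 0 < S1 := by positivity
  obtain ⟨R0, hR0, hR⟩ := (nhdsGT_basis (0 : ℝ)).eventually_iff.1
    (hD (η * D / (64 * (S1 + 1))) (by positivity))
  refine ⟨min (R0 * D / 8) (min (D / 4) (1 / 2)), by positivity, fun r hr hr0 => ?_⟩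
  have hr1 : r < R0 * D / 8 := hr0.trans_le (min_le_left _ _)
  have hr2 : r < D / 4 := hr0.trans_le ((min_le_right _ _).trans (min_le_left _ _))
  have hr3 : r < 1 / 2 := hr0.trans_le ((min_le_right _ _).trans (min_le_right _ _))
  set κ : ℝ := 2 * r / D with hκ
  have hκ0 : 0 < κ := by positivity
  have hκD : κ * D = 2 * r := by rw [hκ]; field_simp
  have hκ1 : κ ≤ 1 / 2 := by rw [hκ, div_le_iff₀ hD0]; linarith
  have hκ2 : 4 * κ < R0 := by
    rw [hκ, ← mul_div_assoc, div_lt_iff₀ hD0]; linarith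
  have hW := hR (show 4 * κ ∈ Ioo 0 R0 from ⟨by positivity, hκ2⟩)
  obtain ⟨δA, hδA, hae⟩ := hA (η * r / (8 * (S1 + 1))) (by positivity)
  refine ⟨min (δA / 2) (κ / S1), by positivity, fun ρ a s hρ hρδ ha hs1 hs2 ⟨h1, h2⟩ => ?_⟩
  have hρ1 : ρ < δA / 2 := hρδ.trans_le (min_le_left _ _)
  have hρ2 : ρ * S1 < κ := (lt_div_iff₀ hS0).1 (hρδ.trans_le (min_le_right _ _))
  have ha1 : dist a x < δA / 2 := ha.trans_le (min_le_left _ _)
  have hs3 : |s| ≤ S1 := by linarith [le_abs_self S]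
  have hρs : |ρ * s| = ρ * |s| := by rw [abs_mul, abs_of_pos hρ]
  have hρs1 : |ρ * s| ≤ κ := by rw [hρs]; nlinarith
  have hv0 : volume (C.D i ∩ ball a (ρ * r)) ≠ 0 := by
    intro h0
    rw [Col.pv, fr, h0] at h1
    simp at h1
    linarith
  obtain ⟨a', ⟨ha'1, ha'2⟩, ha'3⟩ :=
    Measure.exists_mem_of_measure_ne_zero_of_ae hv0 (ae_restrict_of_ae hae)
  rw [mem_ball] at ha'2
  have hE1 := ha'3 (by nlinarith [dist_triangle a' a x])
  set E : Set ℝ := (closedBall θ₀ (4 * κ) \ Θ) ∪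
    {θ | θ ∈ Θ ∧ a' + e θ ∉ C.D i ∧ a' + e θ ∉ C.D j} with hE
  have hE2 : volume E ≤ ENNReal.ofReal (η * r / (4 * (S1 + 1))) := by
    refine (measure_union_le _ _).trans ((add_le_add hW hE1).trans (le_of_eq ?_))
    rw [← ENNReal.ofReal_add (by positivity) (by positivity)]
    congr 1
    rw [hκ]
    field_simp
    ring
  set w : ℂ := ((ρ * s : ℝ) : ℂ) * Complex.I * e θ₀ with hw
  have hwn : ‖w‖ = |ρ * s| := by
    rw [hw, norm_mul, norm_mul, norm_e, Complex.norm_I, Complex.norm_real, Real.norm_eq_abs]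
    ring
  have hb : a + ρ * (s * (Complex.I * e θ₀)) = a + w := by rw [hw]; push_cast; ring
  rw [hb] at h2
  have hsub : C.D j ∩ ball (a + w) (ρ * r) ⊆ (fun b => b + -a') ⁻¹'
      {v : ℂ | ‖v - w‖ ≤ 2 * (ρ * r) ∧ ∃ φ ∈ E, ∃ ψ : ℝ, v = e φ - e ψ} := by
    rintro b ⟨hb1, hb2⟩
    rw [mem_ball, dist_eq_norm] at hb2
    rw [dist_eq_norm] at ha'2
    have h3 : ‖b + -a' - w‖ ≤ 2 * (ρ * r) := by
      have := norm_sub_le (b - (a + w)) (a' - a)
      rw [show b - (a + w) - (a' - a) = b + -a' - w by ring] at this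
      linarith
    have hs0 : ρ * s ≠ 0 := mul_ne_zero hρ.ne' (abs_pos.1 (hD0.trans_le hs1))
    obtain ⟨φ, ψ, h4, h5, -⟩ := hP.2 θ₀ (ρ * s) κ (b + -a') hs0 (by linarith) hκ0.le hκ1
      (h3.trans (by rw [hρs]; nlinarith [mul_le_mul_of_nonneg_left hs1 (mul_pos hκ0 hρ).le]))
    refine ⟨h3, φ, ?_, ψ, h4⟩
    by_cases hφ : φ ∈ Θ
    · refine Or.inr ⟨hφ, fun hz => C.free i _ hz _ ha'1 (by simp [dist_eq_norm]),
        fun hz => C.free j _ hz _ hb1 ?_⟩
      rw [dist_eq_norm, show a' + e φ - b = e ψ by linear_combination -h4, norm_e]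
    · exact Or.inl ⟨by rw [mem_closedBall, Real.dist_eq]; linarith, hφ⟩
  have h6 := measure_mono (μ := volume) hsub
  rw [measure_preimage_add_right] at h6
  have h7 := h6.trans ((hP.1 E w (2 * (ρ * r)) (by positivity)).trans (mul_le_mul_right hE2 _))
  rw [← ENNReal.ofReal_mul (by positivity)] at h7
  have h8 := ENNReal.toReal_le_of_le_ofReal (by positivity) h7
  rw [Col.pv, fr, le_div_iff₀ (by positivity)] at h2
  have h9 : ‖w‖ + 2 * (ρ * r) ≤ ρ * (S1 + 1) := by rw [hwn, hρs]; nlinarith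
  have h10 : 4 * (2 * (ρ * r)) * (‖w‖ + 2 * (ρ * r)) * (η * r / (4 * (S1 + 1)))
      ≤ 4 * (2 * (ρ * r)) * (ρ * (S1 + 1)) * (η * r / (4 * (S1 + 1))) := by gcongr
  have h11 : 4 * (2 * (ρ * r)) * (ρ * (S1 + 1)) * (η * r / (4 * (S1 + 1)))
      = 2 * (η * (ρ * r) ^ 2) := by field_simp
  have h12 : 0 < η * (ρ * r) ^ 2 := by positivity
  nlinarith [Real.pi_gt_three]

end Vale.Agent.P032
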