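import Vale.Agent.P032.Stmts

/-! P032: differences of two unit vectors in polar coordinates. -/

namespace Vale.Agent.P032

open MeasureTheory Set
open scoped Real ENNReal

namespace PolarA

theorem vol_polar_le {B : Set (ℝ × ℝ)} (hB : MeasurableSet B) (R : ℝ) (hR : ∀ p ∈ B, p.1 ≤ R) :
    volume {v : ℂ | (‖v‖, Complex.arg v) ∈ B} ≤
      ENNReal.ofReal R * volume (B ∩ univ ×ˢ Ioo (-π) π) := by
  have hm : MeasurableSet {v : ℂ | (‖v‖, Complex.arg v) ∈ B} :=
    (measurable_norm.prodMk Complex.measurable_arg) hB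
  have hm2 : MeasurableSet (B ∩ univ ×ˢ Ioo (-π) π) :=
    hB.inter (MeasurableSet.univ.prod measurableSet_Ioo)
  rw [← lintegral_indicator_one hm, ← Complex.lintegral_comp_polarCoord_symm,
    ← lintegral_indicator_one hm2, ← lintegral_const_mul' _ _ ENNReal.ofReal_ne_top]
  refine (setLIntegral_mono' polarCoord.open_target.measurableSet fun p hp => ?_).trans
    (setLIntegral_le_lintegral _ _)
  have h1 : Complex.polarCoord (Complex.polarCoord.symm p) = p := Complex.polarCoord.right_inv hp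
  rw [Complex.polarCoord_apply] at h1
  by_cases h : p ∈ B
  · rw [indicator_of_mem (show _ ∈ {v : ℂ | (‖v‖, Complex.arg v) ∈ B} by
      rw [mem_ofPred_eq, h1]; exact h), indicator_of_mem (show p ∈ B ∩ univ ×ˢ Ioo (-π) π from
      ⟨h, mem_univ _, hp.2⟩)]
    simpa using ENNReal.ofReal_le_ofReal (hR p h)
  · rw [indicator_of_notMem (show _ ∉ {v : ℂ | (‖v‖, Complex.arg v) ∈ B} by
      rw [mem_ofPred_eq, h1]; exact h)]
    simp

theorem vol_section {E : Set ℝ} (hE : MeasurableSet E) (c : ℝ) :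
    volume {β | (∃ k : ℤ, β + c + k * (2 * π) ∈ E) ∧ β ∈ Ioo (-π) π} ≤ volume E := by
  let J : ℤ → Set ℝ := fun k => E ∩ Ioo (-π + c + k • (2 * π)) (-π + c + (k + 1) • (2 * π))
  have h1 : {β | (∃ k : ℤ, β + c + k * (2 * π) ∈ E) ∧ β ∈ Ioo (-π) π} ⊆
      ⋃ k : ℤ, (fun β => β + (c + k * (2 * π))) ⁻¹' J k := by
    rintro β ⟨⟨k, hk⟩, h2, h3⟩
    refine mem_iUnion.2 ⟨k, by rwa [add_assoc] at hk, ?_, ?_⟩
    · simp only [zsmul_eq_mul]
      linarith
    · simp only [zsmul_eq_mul]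
      push_cast
      linarith
  refine (measure_mono h1).trans ((measure_iUnion_le _).trans ?_)
  simp only [measure_preimage_add_right]
  rw [← measure_iUnion]
  · exact measure_mono (iUnion_subset fun k => inter_subset_left)
  · exact fun k l hkl => (pairwise_disjoint_Ioo_add_zsmul (-π + c) (2 * π) hkl).mono
      inter_subset_right inter_subset_right
  · exact fun k => hE.inter measurableSet_Ioo

theorem vol_one {E : Set ℝ} (hE : MeasurableSet E) (σ a R : ℝ) :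
    volume {v : ℂ | (a ≤ ‖v‖ ∧ ‖v‖ ≤ R) ∧
      ∃ k : ℤ, Complex.arg v + σ * Real.arccos (‖v‖ / 2) + k * (2 * π) ∈ E} ≤
      ENNReal.ofReal R * (ENNReal.ofReal (R - a) * volume E) := by
  have hB : MeasurableSet {p : ℝ × ℝ | (a ≤ p.1 ∧ p.1 ≤ R) ∧
      ∃ k : ℤ, p.2 + σ * Real.arccos (p.1 / 2) + k * (2 * π) ∈ E} := by
    have h1 : MeasurableSet
        {p : ℝ × ℝ | ∃ k : ℤ, p.2 + σ * Real.arccos (p.1 / 2) + k * (2 * π) ∈ E} := by
      rw [ofPred_exists]
      exact MeasurableSet.iUnion fun k => (by fun_prop : Measurable fun p : ℝ × ℝ =>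
        p.2 + σ * Real.arccos (p.1 / 2) + k * (2 * π)) hE
    exact (measurable_fst measurableSet_Icc).inter h1
  refine (vol_polar_le hB R fun p hp => hp.1.2).trans (mul_le_mul' le_rfl ?_)
  rw [Measure.volume_eq_prod,
    Measure.prod_apply (hB.inter (MeasurableSet.univ.prod measurableSet_Ioo)), ← Real.volume_Icc,
    mul_comm _ (volume E), ← lintegral_indicator_const measurableSet_Icc]
  refine lintegral_mono fun r => ?_
  by_cases hr : r ∈ Icc a R
  · rw [indicator_of_mem hr]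
    refine le_trans (measure_mono ?_) (vol_section hE (σ * Real.arccos (r / 2)))
    exact fun β hβ => ⟨hβ.1.2, hβ.2.2⟩
  · rw [indicator_of_notMem hr]
    refine le_of_eq (measure_mono_null (t := ∅) (fun β hβ => hr hβ.1.1) measure_empty)

theorem angle {v : ℂ} (hv : v ≠ 0) {φ ψ : ℝ} (h : v = e φ - e ψ) : ∃ k : ℤ,
    Complex.arg v + 1 * Real.arccos (‖v‖ / 2) + k * (2 * π) = φ ∨
      Complex.arg v + -1 * Real.arccos (‖v‖ / 2) + k * (2 * π) = φ := by
  have hs : 0 < ‖v‖ := norm_pos_iff.2 hv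
  have h1 : v.re = ‖v‖ * Real.cos (Complex.arg v) := (Complex.norm_mul_cos_arg v).symm
  have h2 : v.im = ‖v‖ * Real.sin (Complex.arg v) := (Complex.norm_mul_sin_arg v).symm
  have h3 : v.re = Real.cos φ - Real.cos ψ := by rw [h]; simp
  have h4 : v.im = Real.sin φ - Real.sin ψ := by rw [h]; simp
  have h5 : Real.cos (φ - Complex.arg v) = ‖v‖ / 2 := by
    rw [Real.cos_sub]
    refine mul_left_cancel₀ hs.ne' ?_
    have a1 := Real.sin_sq_add_cos_sq φ
    have a2 := Real.sin_sq_add_cos_sq ψ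
    have a3 := Real.sin_sq_add_cos_sq (Complex.arg v)
    have b1 : Real.cos ψ = Real.cos φ - ‖v‖ * Real.cos (Complex.arg v) := by linarith
    have b2 : Real.sin ψ = Real.sin φ - ‖v‖ * Real.sin (Complex.arg v) := by linarith
    rw [b1, b2] at a2
    linear_combination (1 / 2) * a1 - (1 / 2) * a2 + ‖v‖ ^ 2 / 2 * a3
  have h6 : Real.cos (Real.arccos (‖v‖ / 2)) = Real.cos (φ - Complex.arg v) := by
    rw [← h5, Real.cos_arccos (Real.neg_one_le_cos _) (Real.cos_le_one _)]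
  obtain ⟨k, hk⟩ := Real.cos_eq_cos_iff.1 h6
  exact ⟨k, hk.imp (fun h => by linarith) fun h => by linarith⟩

theorem part1 (E : Set ℝ) (w : ℂ) (t : ℝ) (ht : 0 ≤ t) :
    volume {v : ℂ | ‖v - w‖ ≤ t ∧ ∃ φ ∈ E, ∃ ψ : ℝ, v = e φ - e ψ} ≤
      ENNReal.ofReal (4 * t * (‖w‖ + t)) * volume E := by
  have hE := measurableSet_toMeasurable volume E
  let A : ℝ → Set ℂ := fun σ => {v : ℂ | (‖w‖ - t ≤ ‖v‖ ∧ ‖v‖ ≤ ‖w‖ + t) ∧
    ∃ k : ℤ, Complex.arg v + σ * Real.arccos (‖v‖ / 2) + k * (2 * π) ∈ toMeasurable volume E}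
  have h1 : {v : ℂ | ‖v - w‖ ≤ t ∧ ∃ φ ∈ E, ∃ ψ : ℝ, v = e φ - e ψ} ⊆ {0} ∪ (A 1 ∪ A (-1)) := by
    rintro v ⟨h2, φ, hφ, ψ, h3⟩
    by_cases hv : v = 0
    · exact Or.inl hv
    · have h4 := abs_le.1 ((abs_norm_sub_norm_le v w).trans h2)
      obtain ⟨k, hk⟩ := angle hv h3
      refine Or.inr (hk.imp (fun h => ⟨⟨by linarith, by linarith⟩, k, ?_⟩)
        fun h => ⟨⟨by linarith, by linarith⟩, k, ?_⟩) <;> rw [h] <;>
        exact subset_toMeasurable _ _ hφ
  refine (measure_mono h1).trans ((measure_union_le _ _).trans ?_)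
  rw [measure_singleton, zero_add]
  refine (measure_union_le _ _).trans ((add_le_add (vol_one hE 1 _ _) (vol_one hE (-1) _ _)).trans
    (le_of_eq ?_))
  have hw : 0 ≤ ‖w‖ + t := by positivity
  rw [measure_toMeasurable, ← mul_assoc, ← add_mul, ← ENNReal.ofReal_mul hw,
    ← ENNReal.ofReal_add (mul_nonneg hw (by linarith)) (mul_nonneg hw (by linarith))]
  congr 2
  ring

theorem abs_arg_le {u : ℂ} {κ : ℝ} (h1 : κ ≤ 1 / 2) (h : ‖u - 1‖ ≤ κ) :
    |Complex.arg u| ≤ 2 * κ := by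
  have a1 := abs_le.1 ((Complex.abs_re_le_norm (u - 1)).trans h)
  have a2 := abs_le.1 ((Complex.abs_im_le_norm (u - 1)).trans h)
  simp only [Complex.sub_re, Complex.one_re, Complex.sub_im, Complex.one_im, sub_zero] at a1 a2
  have hre : 0 < u.re := by linarith
  have hκ : 0 ≤ κ := by linarith
  have a3 := abs_lt.1 (Complex.abs_arg_lt_pi_div_two_iff.2 (Or.inl hre))
  have a4 := Complex.tan_arg u
  rcases le_total 0 (Complex.arg u) with h0 | h0
  · rw [abs_of_nonneg h0]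
    refine (Real.le_tan h0 a3.2).trans ?_
    rw [a4, div_le_iff₀ hre]
    nlinarith
  · rw [abs_of_nonpos h0]
    refine (Real.le_tan (by linarith) (by linarith)).trans ?_
    rw [Real.tan_neg, a4, ← neg_div, div_le_iff₀ hre]
    nlinarith

theorem part2 (θ₀ s κ : ℝ) (v : ℂ) (hs : s ≠ 0) (hs1 : |s| ≤ 1) (hκ : κ ≤ 1 / 2)
    (h : ‖v - s * Complex.I * e θ₀‖ ≤ κ * |s|) :
    ∃ φ ψ : ℝ, v = e φ - e ψ ∧ |φ - θ₀| ≤ 2 * κ + 2 * |s| ∧ |ψ - θ₀| ≤ 2 * κ + 2 * |s| := by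
  have hs0 : 0 < |s| := abs_pos.2 hs
  have hn : ‖(s : ℂ) * Complex.I * e θ₀‖ = |s| := by simp
  have hne : (s : ℂ) * Complex.I * e θ₀ ≠ 0 := norm_pos_iff.1 (hn ▸ hs0)
  obtain ⟨u, rfl⟩ : ∃ u, v = s * Complex.I * e θ₀ * u :=
    ⟨v / (s * Complex.I * e θ₀), by rw [mul_div_cancel₀ _ hne]⟩
  have hu : ‖u - 1‖ ≤ κ := by
    rw [← mul_sub_one, norm_mul, hn, mul_comm] at h
    exact le_of_mul_le_mul_right h hs0
  have hu2 : ‖u‖ ≤ 3 / 2 := by
    have := norm_sub_norm_le u 1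
    rw [norm_one] at this
    linarith
  have ha := abs_arg_le hκ hu
  have hx : |s * ‖u‖ / 2| ≤ 3 / 4 * |s| := by
    rw [abs_div, abs_mul, abs_norm, abs_two]
    nlinarith
  have hx' := abs_le.1 (show |s * ‖u‖ / 2| ≤ 1 by linarith)
  have hsin : Real.sin (Real.arcsin (s * ‖u‖ / 2)) = s * ‖u‖ / 2 := Real.sin_arcsin hx'.1 hx'.2
  have hl : |Real.arcsin (s * ‖u‖ / 2)| ≤ 2 * |s| := by
    have a1 := Real.mul_abs_le_abs_sin (x := Real.arcsin (s * ‖u‖ / 2))
      (abs_le.2 ⟨Real.neg_pi_div_two_le_arcsin _, Real.arcsin_le_pi_div_two _⟩)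
    rw [hsin] at a1
    have a2 : (1 : ℝ) / 2 ≤ 2 / π := by
      rw [div_le_div_iff₀ two_pos Real.pi_pos]
      linarith [Real.pi_le_four]
    have a3 := mul_le_mul_of_nonneg_right a2 (abs_nonneg (Real.arcsin (s * ‖u‖ / 2)))
    linarith
  generalize Real.arcsin (s * ‖u‖ / 2) = l at hsin hl
  refine ⟨θ₀ + Complex.arg u + l, θ₀ + Complex.arg u + -l, ?_, ?_, ?_⟩
  · have a1 : (‖u‖ : ℂ) * e (Complex.arg u) = u := Complex.norm_mul_exp_arg_mul_I u
    have a2 : (Real.sin l : ℂ) = s * ‖u‖ / 2 := by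
      rw [hsin]
      push_cast
      ring
    rw [e_add, e_add, e_add _ (-l), e_add, e_eq l, e_eq (-l), Real.cos_neg, Real.sin_neg,
      Complex.ofReal_neg, a2]
    linear_combination (-(s : ℂ) * Complex.I * e θ₀) * a1
  · rw [add_assoc, add_sub_cancel_left]
    exact (abs_add_le _ _).trans (add_le_add ha hl)
  · rw [add_assoc, add_sub_cancel_left]
    exact (abs_add_le _ _).trans (add_le_add ha (by rwa [abs_neg]))

end PolarA

theorem polarS : PolarStmt :=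
  ⟨PolarA.part1, fun θ₀ s κ v hs hs1 _ hκ h => PolarA.part2 θ₀ s κ v hs hs1 hκ h⟩

end Vale.Agent.P032
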