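import Vale.Agent.P032.Stmts

namespace Vale.Agent.P032

open MeasureTheory Set Filter Topology Metric
open scoped Real ENNReal BigOperators

namespace PvA

theorem real_ball (w : ℂ) {ρ : ℝ} (h : 0 ≤ ρ) : volume.real (ball w ρ) = π * ρ ^ 2 := by
  rw [measureReal_def, Complex.volume_ball, ENNReal.toReal_mul, ENNReal.toReal_pow,
    ENNReal.toReal_ofReal h, ENNReal.coe_toReal, NNReal.coe_real_pi, mul_comm]

theorem ball_ne (w : ℂ) (ρ : ℝ) : volume (ball w ρ) ≠ ∞ := measure_ball_lt_top.ne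

theorem inter_ne (A : Set ℂ) (w : ℂ) (ρ : ℝ) : volume (A ∩ ball w ρ) ≠ ∞ :=
  ne_top_of_le_ne_top (ball_ne w ρ) (measure_mono inter_subset_right)

theorem one_side (A : Set ℂ) (w w' : ℂ) {ρ : ℝ} (h : 0 < ρ) :
    volume.real (A ∩ ball w ρ) ≤ volume.real (A ∩ ball w' ρ) + 2 * π * ρ * dist w w' := by
  set d := dist w w' with hd
  have hd0 : 0 ≤ d := dist_nonneg
  set s := max (ρ - d) 0 with hs
  have hs0 : 0 ≤ s := le_max_right _ _
  have hsρ : s ≤ ρ := max_le (by linarith) h.le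
  have hsub : A ∩ ball w ρ ⊆ (A ∩ ball w' ρ) ∪ (ball w ρ \ ball w s) := by
    rintro z ⟨h1, h2⟩
    by_cases h3 : z ∈ ball w s
    · refine Or.inl ⟨h1, ?_⟩
      rw [mem_ball] at h3 ⊢
      have h4 : dist z w < ρ - d := by
        rcases lt_max_iff.1 h3 with h5 | h5
        · exact h5
        · exact absurd h5 (not_lt.2 dist_nonneg)
      linarith [dist_triangle z w w']
    · exact Or.inr ⟨h2, h3⟩
  have hne : volume (ball w ρ \ ball w s) ≠ ∞ :=
    ne_top_of_le_ne_top (ball_ne w ρ) (measure_mono sdiff_subset)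
  have h1 : volume.real (A ∩ ball w ρ) ≤
      volume.real (A ∩ ball w' ρ) + volume.real (ball w ρ \ ball w s) :=
    (measureReal_mono hsub (measure_union_lt_top (inter_ne A w' ρ).lt_top hne.lt_top).ne).trans
      (measureReal_union_le _ _)
  rw [measureReal_sdiff (ball_subset_ball hsρ) measurableSet_ball (ball_ne w ρ),
    real_ball w h.le, real_ball w hs0] at h1
  have h2 : ρ ^ 2 - s ^ 2 ≤ 2 * ρ * d := by
    have h3 : ρ - d ≤ s := le_max_left _ _
    nlinarith
  nlinarith [Real.pi_pos]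

theorem fr_lip (A : Set ℂ) (w w' : ℂ) (ρ : ℝ) (h : 0 < ρ) :
    |fr A w ρ - fr A w' ρ| ≤ 2 * dist w w' / ρ := by
  have h1 := one_side A w w' h
  have h2 := one_side A w' w h
  rw [dist_comm w' w] at h2
  have hp : 0 < π * ρ ^ 2 := by positivity
  have h3 : 2 * dist w w' / ρ = (2 * π * ρ * dist w w') / (π * ρ ^ 2) := by
    field_simp
  unfold fr
  rw [← sub_div, abs_div, abs_of_pos hp, h3]
  refine div_le_div_of_nonneg_right ?_ hp.le
  rw [measureReal_def, measureReal_def] at h1 h2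
  rw [abs_le]
  constructor <;> linarith

theorem int_cont (f : ℂ → ℝ) (B : ℝ) (hf : Measurable f) (hB : ∀ z, |f z| ≤ B) :
    Continuous fun p : ℂ × ℝ => ∫ z in ball p.1 p.2, f z := by
  have h0 : (fun p : ℂ × ℝ => ∫ z in ball p.1 p.2, f z) =
      fun p : ℂ × ℝ => ∫ z, (ball p.1 p.2).indicator f z := by
    funext p
    rw [integral_indicator measurableSet_ball]
  rw [h0, continuous_iff_continuousAt]
  intro p₀
  have hB0 : 0 ≤ B := (abs_nonneg _).trans (hB 0)
  refine continuousAt_of_dominated (bound := (ball p₀.1 (p₀.2 + 2)).indicator fun _ => B)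
    (Eventually.of_forall fun p => (hf.indicator measurableSet_ball).aestronglyMeasurable)
    ?_ ?_ ?_
  · filter_upwards [ball_mem_nhds p₀ one_pos] with p hp
    refine Eventually.of_forall fun z => ?_
    by_cases hz : z ∈ ball p.1 p.2
    · have h1 : z ∈ ball p₀.1 (p₀.2 + 2) := by
        rw [mem_ball, Prod.dist_eq, max_lt_iff, Real.dist_eq, abs_lt] at hp
        rw [mem_ball] at hz ⊢
        linarith [dist_triangle z p.1 p₀.1, hp.1, hp.2.2]
      rw [indicator_of_mem hz, indicator_of_mem h1]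
      exact hB z
    · rw [indicator_of_notMem hz, norm_zero]
      exact indicator_nonneg (fun _ _ => hB0) z
  · exact (integrable_indicator_iff measurableSet_ball).2
      (integrableOn_const (ball_ne _ _))
  · have h1 : ∀ᵐ z : ℂ, z ∉ sphere p₀.1 p₀.2 :=
      measure_eq_zero_iff_ae_notMem.1 (Measure.addHaar_sphere _ _ _)
    filter_upwards [h1] with z hz
    rw [mem_sphere] at hz
    have hc1 : Continuous fun p : ℂ × ℝ => dist z p.1 := by fun_prop
    rcases lt_or_gt_of_ne hz with h2 | h2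
    · have h3 : ∀ᶠ p : ℂ × ℝ in 𝓝 p₀, dist z p.1 < p.2 :=
        (isOpen_lt hc1 continuous_snd).mem_nhds h2
      refine (continuousAt_const (y := f z)).congr ?_
      filter_upwards [h3] with p hp
      rw [indicator_of_mem (mem_ball.2 hp)]
    · have h3 : ∀ᶠ p : ℂ × ℝ in 𝓝 p₀, p.2 < dist z p.1 :=
        (isOpen_lt continuous_snd hc1).mem_nhds h2
      refine (continuousAt_const (y := (0 : ℝ))).congr ?_
      filter_upwards [h3] with p hp
      rw [indicator_of_notMem (by rw [mem_ball]; exact not_lt.2 hp.le)]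

theorem av_cont (f : ℂ → ℝ) (B : ℝ) (hf : Measurable f) (hB : ∀ z, |f z| ≤ B) :
    ContinuousOn (fun p : ℂ × ℝ => av f p.1 p.2) {p | 0 < p.2} := by
  unfold av
  refine (int_cont f B hf hB).continuousOn.div (by fun_prop) fun p hp => ?_
  have h : 0 < p.2 := hp
  positivity

theorem fr_eq (A : Set ℂ) (w : ℂ) (ρ : ℝ) :
    fr A w ρ = av ((toMeasurable volume A).indicator fun _ => (1 : ℝ)) w ρ := by
  unfold fr av
  rw [integral_indicator (measurableSet_toMeasurable _ _), setIntegral_const, smul_eq_mul,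
    mul_one, measureReal_def, Measure.restrict_apply (measurableSet_toMeasurable _ _),
    Measure.measure_toMeasurable_inter_of_sFinite measurableSet_ball]

theorem fr_cont (A : Set ℂ) : ContinuousOn (fun p : ℂ × ℝ => fr A p.1 p.2) {p | 0 < p.2} := by
  simp only [fr_eq]
  refine av_cont _ 1 (measurable_const.indicator (measurableSet_toMeasurable _ _)) fun z => ?_
  by_cases hz : z ∈ toMeasurable volume A
  · simp [indicator_of_mem hz]
  · simp [indicator_of_notMem hz]

theorem av_tendsto (f : ℂ → ℝ) (B : ℝ) (hf : Measurable f) (hB : ∀ z, |f z| ≤ B) :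
    ∀ᵐ a : ℂ, Tendsto (fun r => av f a r) (𝓝[>] 0) (𝓝 (f a)) := by
  have hl : LocallyIntegrable f volume := by
    refine (locallyIntegrable_const B).mono hf.aestronglyMeasurable
      (Eventually.of_forall fun z => ?_)
    exact (hB z).trans (le_abs_self B)
  filter_upwards [IsUnifLocDoublingMeasure.ae_tendsto_average (μ := volume) hl 1] with a ha
  have h1 := ha (l := 𝓝[>] (0 : ℝ)) (fun _ => a) id tendsto_id
    (by filter_upwards [self_mem_nhdsWithin] with r hr
        have h : 0 < r := hr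
        simpa using h.le)
  refine h1.congr' ?_
  filter_upwards [self_mem_nhdsWithin] with r hr
  have h : 0 < r := hr
  have h2 : (ball a r : Set ℂ) =ᵐ[volume] (closedBall a r : Set ℂ) :=
    ae_eq_of_subset_of_measure_ge ball_subset_closedBall
      (Measure.addHaar_closedBall_eq_addHaar_ball _ _ _).le measurableSet_ball.nullMeasurableSet
      measure_closedBall_lt_top.ne
  simp only [id]
  rw [setAverage_eq, ← setIntegral_congr_set h2, ← measureReal_congr h2, real_ball a h.le,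
    smul_eq_mul, av, div_eq_inv_mul]

theorem pv_simp (C : Col) (w : ℂ) (ρ : ℝ) (h : 0 < ρ) : Simp (C.pv w ρ) := by
  have hp : 0 < π * ρ ^ 2 := by positivity
  refine ⟨fun j => div_nonneg ENNReal.toReal_nonneg hp.le, ?_⟩
  have h1 : volume.real (⋃ j, C.D j ∩ ball w ρ) = ∑ j, volume.real (C.D j ∩ ball w ρ) :=
    measureReal_iUnion_fintype
      (fun i j hij => (C.disj i j hij).mono inter_subset_left inter_subset_left)
      (fun j => (C.meas j).inter measurableSet_ball) (fun j => inter_ne _ _ _)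
  have h2 : (⋃ j, C.D j ∩ ball w ρ : Set ℂ) =ᵐ[volume] (ball w ρ : Set ℂ) := by
    filter_upwards [C.cover] with z hz
    obtain ⟨j, hj⟩ := hz
    apply propext
    constructor
    · intro h3
      obtain ⟨i, hi⟩ := mem_iUnion.1 h3
      exact hi.2
    · intro h3
      exact mem_iUnion.2 ⟨j, hj, h3⟩
  rw [measureReal_congr h2, real_ball w h.le] at h1
  simp only [Col.pv, fr]
  rw [← Finset.sum_div, div_eq_one_iff_eq hp.ne']
  exact h1.symm

theorem lim_simp (C : Col) (x : ℂ) (q : Fin 5 → ℝ) (h : C.Lim x q) : Simp q := by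
  constructor
  · intro j
    refine le_of_forall_pos_le_add fun ε hε => ?_
    obtain ⟨w, ρ, -, h1, -, h2⟩ := h ε hε
    have h3 := (pv_simp C w ρ h1).1 j
    have h4 := (abs_lt.1 (h2 j)).2
    linarith
  · refine eq_of_forall_dist_le fun ε hε => ?_
    obtain ⟨w, ρ, -, h1, -, h2⟩ := h (ε / 5) (by positivity)
    have h3 := (pv_simp C w ρ h1).2
    rw [Fin.sum_univ_five] at h3 ⊢
    rw [Real.dist_eq, abs_le]
    have a0 := abs_lt.1 (h2 0)
    have a1 := abs_lt.1 (h2 1)
    have a2 := abs_lt.1 (h2 2)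
    have a3 := abs_lt.1 (h2 3)
    have a4 := abs_lt.1 (h2 4)
    constructor <;> linarith [a0.1, a0.2, a1.1, a1.2, a2.1, a2.2, a3.1, a3.2, a4.1, a4.2]

theorem lim_closed (C : Col) : IsClosed {p : ℂ × (Fin 5 → ℝ) | C.Lim p.1 p.2} := by
  refine isClosed_of_closure_subset fun p hp ε hε => ?_
  obtain ⟨p', h1, h2⟩ := Metric.mem_closure_iff.1 hp (ε / 2) (by positivity)
  obtain ⟨w, ρ, h3, h4, h5, h6⟩ := h1 (ε / 2) (by positivity)
  rw [Prod.dist_eq, max_lt_iff] at h2
  refine ⟨w, ρ, ?_, h4, by linarith, fun j => ?_⟩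
  · have h7 := dist_triangle w p'.1 p.1
    rw [dist_comm p'.1] at h7
    linarith [h2.1]
  · have h7 : dist (p.2 j) (p'.2 j) < ε / 2 := (dist_le_pi_dist _ _ j).trans_lt h2.2
    rw [Real.dist_eq, abs_lt] at h7
    have h8 := abs_lt.1 (h6 j)
    rw [abs_lt]
    constructor <;> linarith [h7.1, h7.2, h8.1, h8.2]

theorem lim_sub (C : Col) (x : ℂ) (w : ℕ → ℂ) (ρ : ℕ → ℝ) (hw : Tendsto w atTop (𝓝 x))
    (hρ : Tendsto ρ atTop (𝓝 0)) (h0 : ∀ n, 0 < ρ n) :
    ∃ (q : Fin 5 → ℝ) (u : ℕ → ℕ), StrictMono u ∧ C.Lim x q ∧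
      Tendsto (fun n => C.pv (w (u n)) (ρ (u n))) atTop (𝓝 q) := by
  have hm : ∀ n, C.pv (w n) (ρ n) ∈ Icc (0 : Fin 5 → ℝ) 1 := by
    intro n
    obtain ⟨h1, h2⟩ := pv_simp C (w n) (ρ n) (h0 n)
    refine ⟨fun j => h1 j, fun j => ?_⟩
    have h3 := Finset.single_le_sum (fun i _ => h1 i) (Finset.mem_univ j)
    rw [h2] at h3
    exact h3
  obtain ⟨q, -, u, hu, hq⟩ := isCompact_Icc.tendsto_subseq hm
  refine ⟨q, u, hu, fun ε hε => ?_, hq⟩
  have h1 := Metric.tendsto_nhds.1 (hw.comp hu.tendsto_atTop) ε hε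
  have h2 := (hρ.comp hu.tendsto_atTop).eventually_lt_const hε
  have h3 := Metric.tendsto_nhds.1 hq ε hε
  obtain ⟨n, ⟨h4, h5⟩, h6⟩ := ((h1.and h2).and h3).exists
  refine ⟨w (u n), ρ (u n), h4, h0 _, h5, fun j => ?_⟩
  rw [← Real.dist_eq]
  exact (dist_le_pi_dist _ _ j).trans_lt h6

end PvA

open PvA in
theorem pvS : PvStmt :=
  ⟨fr_lip, fr_cont, av_cont, av_tendsto,
    fun C => ⟨pv_simp C, lim_simp C, lim_closed C, lim_sub C⟩⟩

end Vale.Agent.P032
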