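import Vale.Agent.P032.Stmts

/-!
P032: a radial positive definite function without continuous part vanishes away from the origin.
-/

namespace Vale.Agent.P032

open scoped Real BigOperators

namespace RigidA

theorem pd_lin {W : Type} [AddCommGroup W] {φ : W → ℝ} (h : PD φ) (h0 : φ 0 ≤ 1) {ι : Type}
    [Fintype ι] (x : ι → W) (t : ℝ) :
    2 * t * ∑ i, φ (x i) - t ^ 2 ≤ ∑ i, ∑ j, φ (x i - x j) := by
  have h1 := h.2 (Option ι) (fun o => o.elim 0 x) (fun o => o.elim (-t) fun _ => 1)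
  simp only [Fintype.sum_option, Option.elim_none, Option.elim_some, sub_zero, zero_sub, h.1,
    mul_one, one_mul, Finset.sum_add_distrib, ← Finset.mul_sum] at h1
  nlinarith [mul_le_mul_of_nonneg_left h0 (sq_nonneg t)]

theorem pd_abs {W : Type} [AddCommGroup W] {φ : W → ℝ} (h : PD φ) (h0 : φ 0 ≤ 1) (w : W) :
    |φ w| ≤ 1 := by
  have h1 := pd_lin h h0 (fun _ : Unit => w) 1
  have h2 := pd_lin h h0 (fun _ : Unit => w) (-1)
  simp only [Finset.univ_unique, Finset.sum_singleton, sub_self] at h1 h2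
  rw [abs_le]
  constructor <;> nlinarith

theorem bdd_sum {X ι : Type} (s : Finset ι) (f : ι → X → ℝ) (hf : ∀ i, Bdd (f i)) :
    Bdd fun x => ∑ i ∈ s, f i x := by
  choose B hB using hf
  exact ⟨∑ i ∈ s, B i, fun x =>
    (Finset.abs_sum_le_sum_abs _ _).trans (Finset.sum_le_sum fun i _ => hB i x)⟩

theorem mean_sum {X ι : Type} (m : Mean X) (s : Finset ι) (f : ι → X → ℝ) (hf : ∀ i, Bdd (f i)) :
    m.M (fun x => ∑ i ∈ s, f i x) = ∑ i ∈ s, m.M (f i) := by
  classical
  induction s using Finset.induction_on with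
  | empty => simpa using m.const 0
  | insert a s ha ih =>
    simp only [Finset.sum_insert ha]
    rw [m.add _ _ (hf a) (bdd_sum s f hf), ih]

/-- The averaged form of `pd_lin`. -/
theorem mean_lin {X W : Type} [AddCommGroup W] {φ : W → ℝ} (h : PD φ) (h0 : φ 0 ≤ 1)
    (m : Mean X) {N : ℕ} (u : Fin N → X → W) {c : ℝ} (hc : ∀ n, m.M (fun x => φ (u n x)) = c) :
    (N * c) ^ 2 ≤ ∑ n, ∑ n', m.M (fun x => φ (u n x - u n' x)) := by
  have b : ∀ g : X → W, Bdd fun x => φ (g x) := fun g => ⟨1, fun x => pd_abs h h0 _⟩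
  have b1 : Bdd fun x => ∑ n, φ (u n x) := bdd_sum _ _ fun n => b _
  have b2 : Bdd fun x => 2 * (N * c) * ∑ n, φ (u n x) := by
    obtain ⟨B, hB⟩ := b1
    exact ⟨|2 * (N * c)| * B, fun x => by
      rw [abs_mul]; exact mul_le_mul_of_nonneg_left (hB x) (abs_nonneg _)⟩
  have b3 : Bdd fun _ : X => -(N * c) ^ 2 := ⟨_, fun _ => le_rfl⟩
  have b4 : Bdd fun x => 2 * (N * c) * ∑ n, φ (u n x) + -(N * c) ^ 2 := by
    obtain ⟨B, hB⟩ := b2
    exact ⟨B + |-(N * c) ^ 2|, fun x => (abs_add_le _ _).trans (by linarith [hB x])⟩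
  have b5 : ∀ n, Bdd fun x => ∑ n', φ (u n x - u n' x) := fun n => bdd_sum _ _ fun n' => b _
  have h1 := m.mono _ _ b4 (bdd_sum Finset.univ _ b5) fun x => by
    have := pd_lin h h0 (fun n => u n x) (N * c)
    linarith
  rw [m.add _ _ b2 b3, m.smul _ _ b1, m.const, mean_sum m _ _ fun n => b _,
    mean_sum m _ _ b5] at h1
  simp only [hc, Finset.sum_const, Finset.card_univ, Fintype.card_fin, nsmul_eq_mul] at h1
  calc (N * c) ^ 2 = 2 * (N * c) * (N * c) + -(N * c) ^ 2 := by ring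
    _ ≤ _ := h1
    _ = _ := Finset.sum_congr rfl fun n _ => mean_sum m _ _ fun n' => b _

/-- The mean in the doubled variable. -/
def dbl (m : IMean ℝ) : IMean ℝ where
  M f := m.M fun θ => f (2 * θ)
  add f g hf hg := m.add _ _ (hf.imp fun _ h _ => h _) (hg.imp fun _ h _ => h _)
  smul c f hf := m.smul c _ (hf.imp fun _ h _ => h _)
  mono f g hf hg h := m.mono _ _ (hf.imp fun _ h _ => h _) (hg.imp fun _ h _ => h _) fun _ => h _
  const c := m.const c
  inv f a hf := by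
    have h := m.inv (fun θ => f (2 * θ)) (a / 2) (hf.imp fun _ h _ => h _)
    refine Eq.trans (congrArg m.M (funext fun θ => congrArg f ?_)) h
    ring

theorem chord (α β : ℝ) :
    e α - e β = ((2 * Real.sin ((α - β) / 2) : ℝ) : ℂ) * (Complex.I * e ((α + β) / 2)) := by
  apply Complex.ext
  · simp only [Complex.sub_re, e_re, Complex.mul_re, Complex.ofReal_re, Complex.I_re, zero_mul,
      Complex.I_im, e_im, one_mul, zero_sub, Complex.ofReal_im, sub_zero, Real.cos_sub_cos]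
    ring
  · simp only [Complex.sub_im, e_re, Complex.mul_im, Complex.ofReal_re, Complex.I_re, zero_mul,
      Complex.I_im, e_im, one_mul, zero_add, Complex.ofReal_im, add_zero, Real.sin_sub_sin]

theorem flip {A B r : ℝ} (hr : r ^ 2 = A * B) (θ : ℝ) :
    ‖(A : ℂ) - e (2 * θ) * B‖ = ‖(r : ℂ) + ((B - A : ℝ) : ℂ) * e θ + (-(r : ℂ)) * e (2 * θ)‖ := by
  rw [← sq_eq_sq₀ (norm_nonneg _) (norm_nonneg _), Complex.sq_norm, Complex.sq_norm,
    Complex.normSq_apply, Complex.normSq_apply]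
  have h2 : Real.cos (2 * θ) = 1 - 2 * Real.sin θ ^ 2 := by
    rw [Real.cos_two_mul, Real.cos_sq']; ring
  simp only [Complex.sub_re, Complex.add_re, Complex.mul_re, Complex.ofReal_re, Complex.ofReal_im,
    Complex.neg_re, Complex.neg_im, e_re, e_im, Complex.sub_im, Complex.add_im, Complex.mul_im,
    h2, Real.sin_two_mul]
  have h3 := Real.sin_sq_add_cos_sq θ
  linear_combination (4 * B ^ 2 * Real.sin θ ^ 2 - 4 * r ^ 2 * Real.sin θ ^ 2 - (B - A) ^ 2) * h3
    - 4 * Real.sin θ ^ 2 * hr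

theorem pair_le (hV : VdcStmt) (m : IMean ℝ) {φ : ℂ → ℝ} (h : PD φ) (hR : Radial φ)
    (h0 : φ 0 ≤ 1) (s α β α' β' : ℝ)
    (hs : 0 ≤ Real.sin ((α - β) / 2) * Real.sin ((α' - β') / 2)) :
    (m.M fun θ => φ ((s * e α - e (2 * θ) * (s * e α')) - (s * e β - e (2 * θ) * (s * e β')))) ^ 4
      ≤ Sop m (Sop m φ) ((s * (2 * Real.sin ((α' - β') / 2)) - s * (2 * Real.sin ((α - β) / 2)) :
        ℝ) : ℂ) := by
  set A := s * (2 * Real.sin ((α - β) / 2)) with hA
  set B := s * (2 * Real.sin ((α' - β') / 2)) with hB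
  have hAB : 0 ≤ A * B := by
    have : A * B = 4 * s ^ 2 * (Real.sin ((α - β) / 2) * Real.sin ((α' - β') / 2)) := by
      rw [hA, hB]; ring
    rw [this]; positivity
  have hr : √(A * B) ^ 2 = A * B := Real.sq_sqrt hAB
  have h1 := (hV m φ h hR h0).2 (√(A * B) : ℝ) ((B - A : ℝ) : ℂ) (-((√(A * B) : ℝ) : ℂ))
  have h2 := m.inv (fun θ => φ (((√(A * B) : ℝ) : ℂ) + ((B - A : ℝ) : ℂ) * e θ +
    (-((√(A * B) : ℝ) : ℂ)) * e (2 * θ))) (((α' + β') / 2 - (α + β) / 2) / 2)
    ⟨1, fun _ => pd_abs h h0 _⟩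
  rw [← h2] at h1
  refine le_of_eq_of_le (congrArg (· ^ 4) (congrArg m.M (funext fun θ => hR _ _ ?_))) h1
  rw [← flip hr]
  have e1 : e (2 * (θ + ((α' + β') / 2 - (α + β) / 2) / 2)) * e ((α + β) / 2) =
      e (2 * θ) * e ((α' + β') / 2) := by
    rw [← e_add, ← e_add]
    exact congrArg e (by ring)
  have e2 : (s * e α - e (2 * θ) * (s * e α')) - (s * e β - e (2 * θ) * (s * e β')) =
      (Complex.I * e ((α + β) / 2)) *
        ((A : ℂ) - e (2 * (θ + ((α' + β') / 2 - (α + β) / 2) / 2)) * B) := by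
    have c1 := chord α β
    have c2 := chord α' β'
    rw [hA, hB, Complex.ofReal_mul s, Complex.ofReal_mul s]
    linear_combination (s : ℂ) * c1 - e (2 * θ) * s * c2
      + Complex.I * s * ((2 * Real.sin ((α' - β') / 2) : ℝ) : ℂ) * e1
  rw [e2, norm_mul, norm_mul, Complex.norm_I, norm_e, one_mul, one_mul]

theorem single (m : IMean ℝ) {φ : ℂ → ℝ} (h : PD φ) (hR : Radial φ) (h0 : φ 0 ≤ 1)
    (s α α' : ℝ) :
    (m.M fun θ => φ (s * e α - e (2 * θ) * (s * e α'))) = Sop (dbl m) φ s := by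
  have h2 := m.inv (fun θ => φ ((s : ℂ) - e (2 * θ) * s)) ((α' - α) / 2)
    ⟨1, fun _ => pd_abs h h0 _⟩
  refine Eq.trans (congrArg m.M (funext fun θ => hR _ _ ?_)) h2
  have e1 : e (2 * (θ + (α' - α) / 2)) * e α = e (2 * θ) * e α' := by
    rw [← e_add, ← e_add]
    exact congrArg e (by ring)
  have e2 : s * e α - e (2 * θ) * (s * e α') =
      e α * ((s : ℂ) - e (2 * (θ + (α' - α) / 2)) * s) := by
    linear_combination (s : ℂ) * e1
  rw [e2, norm_mul, norm_e, one_mul]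

theorem le_tau {X τ : ℝ} (hτ : 0 < τ) : X ≤ τ + X ^ 4 / τ ^ 3 := by
  have h1 : 0 ≤ X ^ 4 / τ ^ 3 := by positivity
  rcases le_or_gt X τ with h | h
  · linarith
  · have h2 : X ≤ X ^ 4 / τ ^ 3 := by
      rw [le_div_iff₀ (by positivity)]
      have h3 : τ ^ 3 ≤ X ^ 3 := pow_le_pow_left₀ hτ.le h.le 3
      have h4 : 0 < X := hτ.trans h
      nlinarith
    linarith

theorem sin_mul_nonneg {k u v : ℝ} (hu : 0 ≤ u) (hv : 0 ≤ v) (hu' : |k| * u ≤ π)
    (hv' : |k| * v ≤ π) : 0 ≤ Real.sin (k * u) * Real.sin (k * v) := by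
  have h1 := mul_nonneg
    (Real.sin_nonneg_of_nonneg_of_le_pi (mul_nonneg (abs_nonneg k) hu) hu')
    (Real.sin_nonneg_of_nonneg_of_le_pi (mul_nonneg (abs_nonneg k) hv) hv')
  rcases abs_choice k with h | h
  · rwa [h] at h1
  · rw [h, neg_mul, neg_mul, Real.sin_neg, Real.sin_neg, neg_mul_neg] at h1
    exact h1

/-- The polynomials that describe the difference of the two chord lengths. -/
noncomputable def pol (s d : ℝ) (k : ℤ) : Polynomial ℝ :=
  Polynomial.C (-4 * s * Real.sin (k * d)) * Polynomial.Chebyshev.T ℝ k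

theorem pol_eval (s d y : ℝ) (k : ℤ) : (pol s d k).eval (Real.cos y) =
    s * (2 * Real.sin (k * (y - d))) - s * (2 * Real.sin (k * (y + d))) := by
  rw [pol, Polynomial.eval_mul, Polynomial.eval_C, Polynomial.Chebyshev.T_real_cos, mul_sub,
    mul_add, Real.sin_sub, Real.sin_add]
  ring

theorem pol_deg {s d : ℝ} {k : ℤ} (hs : s ≠ 0) (hk : k ≠ 0) (hd : 0 < d) (h : |(k : ℝ)| * d < π) :
    0 < (pol s d k).natDegree := by
  have hk' : (k : ℝ) ≠ 0 := by exact_mod_cast hk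
  have h1 : Real.sin (k * d) ≠ 0 := by
    have h2 := Real.sin_pos_of_pos_of_lt_pi (mul_pos (abs_pos.2 hk') hd) h
    rcases abs_choice (k : ℝ) with h3 | h3
    · rw [h3] at h2; exact h2.ne'
    · rw [h3, neg_mul, Real.sin_neg] at h2
      intro h4
      rw [h4] at h2
      simp at h2
  rw [pol, Polynomial.natDegree_C_mul (mul_ne_zero (mul_ne_zero (by norm_num) hs) h1),
    Polynomial.Chebyshev.natDegree_T]
  exact Int.natAbs_pos.2 hk

theorem main (hW : WeylStmt) (hV : VdcStmt) (m : IMean ℝ) {φ : ℂ → ℝ} (h : PD φ) (hR : Radial φ)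
    (h0 : φ 0 ≤ 1) (hP : PD fun t : ℝ => Sop m (Sop m φ) t)
    (hN : Null (fun t : ℝ => Sop m (Sop m φ) t) ⊤) {s : ℝ} (hs : s ≠ 0) {N : ℕ} (hN0 : 0 < N)
    {τ : ℝ} (hτ : 0 < τ) : (N * Sop (dbl m) φ s) ^ 2 ≤ N + N ^ 2 * (2 * τ) := by
  classical
  have hN' : (0 : ℝ) < N := by exact_mod_cast hN0
  have hN1 : (1 : ℝ) ≤ N := by exact_mod_cast hN0
  have hpi := Real.pi_gt_three
  obtain ⟨d, hd, hNd⟩ : ∃ d : ℝ, 0 < d ∧ N * d = 1 :=
    ⟨1 / N, by positivity, by field_simp⟩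
  have hd1 : d ≤ 1 := by nlinarith
  have habs : ∀ n n' : Fin N, |((((n : ℕ) : ℤ) - ((n' : ℕ) : ℤ) : ℤ) : ℝ)| ≤ N := fun n n' => by
    have h1 : ((n : ℕ) : ℝ) ≤ N := by exact_mod_cast n.2.le
    have h2 : ((n' : ℕ) : ℝ) ≤ N := by exact_mod_cast n'.2.le
    have h3 : (0 : ℝ) ≤ (n : ℕ) := Nat.cast_nonneg _
    have h4 : (0 : ℝ) ≤ (n' : ℕ) := Nat.cast_nonneg _
    push_cast
    rw [abs_le]
    constructor <;> linarith
  have hcos : Real.cos (2 * d) < Real.cos d :=
    Real.cos_lt_cos_of_nonneg_of_le_pi hd.le (by linarith) (by linarith)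
  obtain ⟨ι, _, _, x, hx, hE⟩ := hW _ hP hN
    ((Finset.univ.filter fun p : Fin N × Fin N => p.1 ≠ p.2).image
      fun p => pol s d (((p.1 : ℕ) : ℤ) - ((p.2 : ℕ) : ℤ)))
    (fun P hP => by
      obtain ⟨p, hp, rfl⟩ := Finset.mem_image.1 hP
      have hp' := (Finset.mem_filter.1 hp).2
      refine pol_deg hs (fun h1 => hp' (Fin.ext (by omega))) hd ?_
      have := mul_le_mul_of_nonneg_right (habs p.1 p.2) hd.le
      linarith)
    ((Real.cos d + Real.cos (2 * d)) / 2) ((Real.cos d - Real.cos (2 * d)) / 2) (τ ^ 4)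
    (by linarith) (by positivity)
  have key : ∀ i, (N * Sop (dbl m) φ s) ^ 2 ≤ ∑ n : Fin N, ∑ n' : Fin N, (if n = n' then 1 else
      τ + Sop m (Sop m φ) (((pol s d (((n : ℕ) : ℤ) - ((n' : ℕ) : ℤ))).eval (x i) : ℝ) : ℂ)
        / τ ^ 3) := by
    intro i
    have hi := abs_lt.1 (hx i)
    have k1 : Real.cos (2 * d) ≤ x i := by linarith [hi.1]
    have k2 : x i ≤ Real.cos d := by linarith [hi.2]
    have k3 : Real.cos (Real.arccos (x i)) = x i :=
      Real.cos_arccos ((Real.neg_one_le_cos _).trans k1) (k2.trans (Real.cos_le_one _))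
    have k4 : d ≤ Real.arccos (x i) := by
      have := Real.arccos_le_arccos k2
      rwa [Real.arccos_cos hd.le (by linarith)] at this
    have k5 : Real.arccos (x i) ≤ 2 * d := by
      have := Real.arccos_le_arccos k1
      rwa [Real.arccos_cos (by linarith) (by linarith)] at this
    rw [← k3]
    generalize Real.arccos (x i) = y at k4 k5
    refine (mean_lin h h0 m.toMean (fun (n : Fin N) θ => s * e ((n : ℕ) * (2 * (y + d))) -
      e (2 * θ) * (s * e ((n : ℕ) * (2 * (y - d))))) fun n => single m h hR h0 _ _ _).trans ?_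
    refine Finset.sum_le_sum fun n _ => Finset.sum_le_sum fun n' _ => ?_
    split_ifs with hn
    · subst hn
      simp only [sub_self]
      rw [m.const]
      exact h0
    · have e1 : (((n : ℕ) : ℝ) * (2 * (y + d)) - (n' : ℕ) * (2 * (y + d))) / 2 =
          ((((n : ℕ) : ℤ) - ((n' : ℕ) : ℤ) : ℤ) : ℝ) * (y + d) := by push_cast; ring
      have e2 : (((n : ℕ) : ℝ) * (2 * (y - d)) - (n' : ℕ) * (2 * (y - d))) / 2 =
          ((((n : ℕ) : ℤ) - ((n' : ℕ) : ℤ) : ℤ) : ℝ) * (y - d) := by push_cast; ring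
      have h1 := pair_le hV m h hR h0 s ((n : ℕ) * (2 * (y + d))) ((n' : ℕ) * (2 * (y + d)))
        ((n : ℕ) * (2 * (y - d))) ((n' : ℕ) * (2 * (y - d))) (by
          rw [e1, e2]
          have a1 := mul_le_mul_of_nonneg_right (habs n n') (show 0 ≤ y + d by linarith)
          have a2 := mul_le_mul_of_nonneg_right (habs n n') (show 0 ≤ y - d by linarith)
          have a3 := mul_le_mul_of_nonneg_left (show y + d ≤ 3 * d by linarith) hN'.le
          have a4 := mul_le_mul_of_nonneg_left (show y - d ≤ 3 * d by linarith) hN'.le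
          exact sin_mul_nonneg (by linarith) (by linarith) (by linarith) (by linarith))
      rw [e1, e2, ← pol_eval] at h1
      refine (le_tau hτ).trans ?_
      have := div_le_div_of_nonneg_right h1 (show 0 ≤ τ ^ 3 by positivity)
      linarith
  refine (Finset.le_expect Finset.univ_nonempty fun i _ => key i).trans ?_
  rw [Finset.expect_sum_comm]
  calc _ ≤ ∑ n : Fin N, ∑ n' : Fin N, ((if n = n' then (1 : ℝ) else 0) + 2 * τ) := by
        refine Finset.sum_le_sum fun n _ => ?_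
        rw [Finset.expect_sum_comm]
        refine Finset.sum_le_sum fun n' _ => ?_
        split_ifs with hn
        · rw [Fintype.expect_const]; linarith
        · have h1 := hE _ (Finset.mem_image_of_mem _
            (Finset.mem_filter.2 ⟨Finset.mem_univ (n, n'), hn⟩))
          rw [Finset.expect_add_distrib, Fintype.expect_const, ← Finset.expect_div]
          have h2 := div_le_div_of_nonneg_right h1 (show 0 ≤ τ ^ 3 by positivity)
          have h3 : τ ^ 4 / τ ^ 3 = τ := by field_simp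
          linarith
    _ = _ := by
        simp only [Finset.sum_add_distrib, Finset.sum_ite_eq, Finset.mem_univ, if_true,
          Finset.sum_const, Finset.card_univ, Fintype.card_fin, nsmul_eq_mul]
        ring

end RigidA

open RigidA in
theorem rigidS (hG : GnsStmt) (hMean : MeanStmt) (hW : WeylStmt) (hS : SopStmt) (hV : VdcStmt) :
    RigidStmt := by
  intro φ h hR h0 hN z hz
  obtain ⟨m⟩ := hMean ℝ
  obtain ⟨p1, r1, -, n1⟩ := hS m φ h hR
  obtain ⟨p2, r2, -, n2⟩ := hS m _ p1 r1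
  obtain ⟨-, -, -, n3⟩ := hS m _ p2 r2
  have hN' := (n3 (n2 (n1 hN).1).1).2
  have hP : PD fun t : ℝ => Sop m (Sop m φ) t :=
    ⟨fun t => by simpa only [Complex.ofReal_neg] using p2.1 (t : ℂ), fun ι _ x t => by
      simpa only [Complex.ofReal_sub] using p2.2 ι (fun i => (x i : ℂ)) t⟩
  have hs : ‖z‖ ≠ 0 := norm_ne_zero_iff.2 hz
  have hc : Sop (dbl m) φ (‖z‖ : ℝ) ^ 2 ≤ 0 := by
    refine le_of_forall_pos_le_add fun ε hε => ?_
    obtain ⟨N, hN⟩ := exists_nat_gt (2 / ε)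
    have hN1 : (0 : ℝ) < N := lt_trans (by positivity) hN
    have h1 := main hW hV m h hR h0 hP hN' hs (by exact_mod_cast hN1 : 0 < N)
      (show 0 < ε / 4 by positivity)
    rw [div_lt_iff₀ hε] at hN
    have h2 : (N : ℝ) ^ 2 * Sop (dbl m) φ (‖z‖ : ℝ) ^ 2 ≤ N ^ 2 * (0 + ε) := by
      rw [← mul_pow]
      nlinarith
    exact le_of_mul_le_mul_left h2 (by positivity)
  have h3 := (hV (dbl m) φ h hR h0).1 (‖z‖ : ℝ)
  have h4 : Sop (dbl m) φ (‖z‖ : ℝ) = 0 := pow_eq_zero_iff two_ne_zero |>.1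
    (le_antisymm hc (sq_nonneg _))
  rw [h4] at h3
  rw [hR z (‖z‖ : ℝ) (by simp)]
  exact pow_eq_zero_iff two_ne_zero |>.1 (le_antisymm h3 (sq_nonneg _))

end Vale.Agent.P032
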