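import Vale.Agent.P032.Stmts

namespace Vale.Agent.P032

open scoped Real BigOperators

namespace SopA

theorem pd_abs {W : Type} [AddCommGroup W] {φ : W → ℝ} (h : PD φ) (x : W) : |φ x| ≤ φ 0 := by
  have h1 := h.2 (Fin 2) ![x, 0] ![1, 1]
  have h2 := h.2 (Fin 2) ![x, 0] ![1, -1]
  simp only [Fin.sum_univ_two, Matrix.cons_val_zero, Matrix.cons_val_one, sub_self, sub_zero,
    zero_sub, h.1] at h1 h2
  exact abs_le.2 ⟨by linarith, by linarith⟩

theorem pd_comp {W W' : Type} [AddCommGroup W] [AddCommGroup W'] {φ : W → ℝ} (h : PD φ)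
    (f : W' → W) (hf : ∀ x y, f (x - y) = f x - f y) : PD fun x => φ (f x) := by
  refine ⟨fun x => ?_, fun ι _ x t => ?_⟩
  · have h0 : f 0 = 0 := by simpa using hf 0 0
    have h1 := hf 0 x
    rw [zero_sub, h0, zero_sub] at h1
    simp only [h1, h.1]
  · simp only [hf]
    exact h.2 ι (fun i => f (x i)) t

theorem bdd_mul {X : Type} {f : X → ℝ} (h : Bdd f) (c : ℝ) : Bdd fun x => c * f x := by
  obtain ⟨B, hB⟩ := h
  exact ⟨|c| * B, fun x => by rw [abs_mul]; exact mul_le_mul_of_nonneg_left (hB x) (abs_nonneg c)⟩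

theorem mean_sum {X ι : Type} (m : Mean X) (s : Finset ι) (f : ι → X → ℝ) (hf : ∀ i, Bdd (f i)) :
    Bdd (fun x => ∑ i ∈ s, f i x) ∧ m.M (fun x => ∑ i ∈ s, f i x) = ∑ i ∈ s, m.M (f i) := by
  classical
  induction s using Finset.induction_on with
  | empty => exact ⟨⟨0, by simp⟩, by simpa using m.const 0⟩
  | insert a s ha ih =>
    simp only [Finset.sum_insert ha]
    refine ⟨?_, by rw [m.add _ _ (hf a) ih.1, ih.2]⟩
    obtain ⟨B, hB⟩ := hf a
    obtain ⟨B', hB'⟩ := ih.1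
    exact ⟨B + B', fun x => (abs_add_le _ _).trans (add_le_add (hB x) (hB' x))⟩

theorem pd_mean {X W : Type} [AddCommGroup W] (m : Mean X) (ψ : X → W → ℝ) (h : ∀ θ, PD (ψ θ))
    (hb : ∀ w, Bdd fun θ => ψ θ w) : PD fun w => m.M fun θ => ψ θ w := by
  refine ⟨fun x => by simp only [(h _).1], fun ι _ x t => ?_⟩
  have h1 := fun i => mean_sum m Finset.univ (fun j θ => t i * t j * ψ θ (x i - x j))
    fun j => bdd_mul (hb _) _
  have h2 := mean_sum m Finset.univ (fun i θ => ∑ j, t i * t j * ψ θ (x i - x j))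
    fun i => (h1 i).1
  have h3 := m.mono (fun _ => 0) _ ⟨0, by simp⟩ h2.1 fun θ => (h θ).2 ι x t
  rw [m.const, h2.2] at h3
  refine h3.trans (le_of_eq (Finset.sum_congr rfl fun i _ => ?_))
  rw [(h1 i).2]
  exact Finset.sum_congr rfl fun j _ => m.smul _ _ (hb _)

theorem contra (hO : OrthStmt) {W : Type} [NormedAddCommGroup W] (φ : W → ℝ) (h : PD φ)
    (hN : Null φ ⊤) (L : ℝ → AddSubgroup W)
    (hL : ∀ a b, Real.sin (a - b) ≠ 0 → ∃ K : ℝ, ∀ w : W, ∃ l ∈ L a, ∃ l' ∈ L b,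
      w = l + l' ∧ ‖l‖ ≤ K * ‖w‖ ∧ ‖l'‖ ≤ K * ‖w‖) (q : ℝ) (hq : 0 < q) (δ : ℝ) (hδ : 0 < δ)
    (hx : ∀ a (ι : Type) [Fintype ι] [Nonempty ι] (x : ι → W),
      (∀ i, x i ∈ L a ∧ ‖x i‖ < δ) → q ≤ 𝔼 i, 𝔼 j, φ (x i - x j)) : False := by
  obtain ⟨n, hn⟩ := exists_nat_gt (φ 0 / q)
  have h1 := hO W φ h hN n (fun k => L ((k : ℝ) / n)) (fun a b hab => hL _ _ fun h0 => ?_) q
    fun a => ⟨δ, hδ, hx _⟩
  · rw [div_lt_iff₀ hq] at hn
    linarith
  · have hn0 : (0 : ℝ) < n := by exact_mod_cast a.pos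
    have h2 : ∀ k : Fin n, 0 ≤ (k : ℝ) / n ∧ (k : ℝ) / n < 1 := fun k =>
      ⟨by positivity, (div_lt_one hn0).2 (by exact_mod_cast k.2)⟩
    have h3 := Real.pi_gt_three
    have h4 := h2 a
    have h5 := h2 b
    rw [Real.sin_eq_zero_iff_of_lt_of_lt (by linarith) (by linarith), sub_eq_zero,
      div_left_inj' hn0.ne'] at h0
    exact hab (Fin.ext (by exact_mod_cast h0))

theorem not_null {W : Type} [NormedAddCommGroup W] {φ : W → ℝ} (h : ¬ Null φ ⊤) :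
    ∃ δ > (0 : ℝ), ∃ q > (0 : ℝ), ∀ (ι : Type) [Fintype ι] [Nonempty ι] (x : ι → W),
      (∀ i, ‖x i‖ < δ) → q ≤ 𝔼 i, 𝔼 j, φ (x i - x j) := by
  by_contra hc
  refine h fun δ hδ ε hε => ?_
  by_contra h2
  refine hc ⟨δ, hδ, ε, hε, fun ι h3 h4 x hx => ?_⟩
  by_contra h5
  exact h2 ⟨ι, h3, h4, x, fun i => ⟨trivial, hx i⟩, (not_le.1 h5).le⟩

/-- the graph of a rotation -/
def gr (a : ℝ) : AddSubgroup (ℂ × ℂ) where
  carrier := {w | w.2 = -(e a * w.1)}
  zero_mem' := by simp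
  add_mem' := fun {x y} hx hy => by
    simp only [Set.mem_ofPred_eq, Prod.fst_add, Prod.snd_add] at hx hy ⊢
    rw [hx, hy]; ring
  neg_mem' := fun {x} hx => by
    simp only [Set.mem_ofPred_eq, Prod.fst_neg, Prod.snd_neg] at hx ⊢
    rw [hx]; ring

/-- a line through the origin -/
def ln (a : ℝ) : AddSubgroup ℂ where
  carrier := {w | ∃ t : ℝ, w = e a * t}
  zero_mem' := ⟨0, by simp⟩
  add_mem' := by
    rintro _ _ ⟨s, rfl⟩ ⟨t, rfl⟩
    exact ⟨s + t, by push_cast; ring⟩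
  neg_mem' := by
    rintro _ ⟨s, rfl⟩
    exact ⟨-s, by push_cast; ring⟩

theorem gr_dec (a b : ℝ) (h : Real.sin (a - b) ≠ 0) : ∃ K : ℝ, ∀ w : ℂ × ℂ, ∃ l ∈ gr a,
    ∃ l' ∈ gr b, w = l + l' ∧ ‖l‖ ≤ K * ‖w‖ ∧ ‖l'‖ ≤ K * ‖w‖ := by
  have h1 : e b - e a ≠ 0 := by
    intro h2
    apply h
    rw [← e_im, sub_eq_add_neg, e_add, ← sub_eq_zero.1 h2, e_mul_neg, Complex.one_im]
  have key : ∀ (c d : ℝ) (w : ℂ × ℂ) (D : ℂ),
      ‖(((w.2 + e c * w.1) / D, -(e d * ((w.2 + e c * w.1) / D))) : ℂ × ℂ)‖ ≤ 2 / ‖D‖ * ‖w‖ := by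
    intro c d w D
    rw [Prod.norm_mk, norm_neg, norm_mul, norm_e, one_mul, max_self, norm_div, div_mul_eq_mul_div]
    refine div_le_div_of_nonneg_right ((norm_add_le _ _).trans ?_) (norm_nonneg _)
    rw [norm_mul, norm_e, one_mul]
    linarith [norm_fst_le w, norm_snd_le w]
  refine ⟨2 / ‖e b - e a‖, fun w => ⟨((w.2 + e b * w.1) / (e b - e a),
    -(e a * ((w.2 + e b * w.1) / (e b - e a)))), rfl, ((w.2 + e a * w.1) / (-(e b - e a)),
    -(e b * ((w.2 + e a * w.1) / (-(e b - e a))))), rfl, ?_, key _ _ _ _, ?_⟩⟩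
  · refine Prod.ext ?_ ?_
    · simp only [Prod.fst_add]
      field_simp
      ring
    · simp only [Prod.snd_add]
      field_simp
      ring
  · rw [← norm_neg (e b - e a)]
    exact key _ _ _ _

theorem ln_dec (a b : ℝ) (h : Real.sin (a - b) ≠ 0) : ∃ K : ℝ, ∀ w : ℂ, ∃ l ∈ ln a,
    ∃ l' ∈ ln b, w = l + l' ∧ ‖l‖ ≤ K * ‖w‖ ∧ ‖l'‖ ≤ K * ‖w‖ := by
  have key : ∀ (c d D : ℝ) (w : ℂ),
      ‖e c * (((w * e d).im / D : ℝ) : ℂ)‖ ≤ 1 / |D| * ‖w‖ := by
    intro c d D w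
    rw [norm_mul, norm_e, one_mul, Complex.norm_real, Real.norm_eq_abs, abs_div,
      div_mul_eq_mul_div, one_mul]
    refine div_le_div_of_nonneg_right ((Complex.abs_im_le_norm _).trans ?_) (abs_nonneg _)
    rw [norm_mul, norm_e, mul_one]
  refine ⟨1 / |Real.sin (a - b)|, fun w => ⟨_, ⟨(w * e (-b)).im / Real.sin (a - b), rfl⟩, _,
    ⟨(w * e (-a)).im / (-Real.sin (a - b)), rfl⟩, ?_, key _ _ _ _, ?_⟩⟩
  · refine Complex.ext ?_ ?_
    · simp only [Complex.add_re, Complex.mul_re, Complex.mul_im, Complex.ofReal_re,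
        Complex.ofReal_im, e_re, e_im, Real.cos_neg, Real.sin_neg]
      field_simp
      rw [Real.sin_sub]
      ring
    · simp only [Complex.add_im, Complex.mul_im, Complex.ofReal_re,
        Complex.ofReal_im, e_re, e_im, Real.cos_neg, Real.sin_neg]
      field_simp
      rw [Real.sin_sub]
      ring
  · rw [← abs_neg (Real.sin (a - b))]
    exact key _ _ _ _

end SopA

open SopA in
theorem sopS (hO : OrthStmt) : SopStmt := by
  intro m φ hφ hR
  have hb : ∀ {X : Type} (g : X → ℂ), Bdd fun θ => φ (g θ) := fun g =>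
    ⟨φ 0, fun θ => pd_abs hφ _⟩
  refine ⟨?_, fun z w hzw => ?_, ?_, fun hN => ⟨?_, ?_⟩⟩
  · exact pd_mean m.toMean (fun θ z => φ (z - e θ * z))
      (fun θ => pd_comp hφ _ fun x y => by ring) fun _ => hb _
  · unfold Sop
    congr 1
    funext θ
    refine hR _ _ ?_
    rw [← one_sub_mul, ← one_sub_mul, norm_mul, norm_mul, hzw]
  · simp only [Sop, mul_zero, sub_zero]
    exact m.const _
  · by_contra hc
    obtain ⟨δ, hδ, q, hq, hx⟩ := not_null hc
    refine contra hO (fun w : ℂ × ℂ => m.M fun θ => φ (w.1 + e θ * w.2))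
      (pd_mean m.toMean (fun θ (w : ℂ × ℂ) => φ (w.1 + e θ * w.2))
        (fun θ => pd_comp hφ _ fun x y => by simp only [Prod.fst_sub, Prod.snd_sub]; ring)
        fun _ => hb _) (fun δ hδ ε hε => ?_) gr gr_dec q hq δ hδ fun a ι _ _ x h => ?_
    · obtain ⟨ι, h1, h2, x, h3, h4⟩ := hN δ hδ ε hε
      refine ⟨ι, h1, h2, fun i => (x i, 0), fun i => ⟨trivial, by simpa using (h3 i).2⟩, ?_⟩
      simpa only [Prod.mk_sub_mk, sub_zero, mul_zero, add_zero, m.const] using h4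
    · refine (hx ι (fun i => (x i).1) fun i => (norm_fst_le _).trans_lt (h i).2).trans
        (le_of_eq (Finset.expect_congr rfl fun i _ => Finset.expect_congr rfl fun j _ => ?_))
      have h1 : (x i - x j).2 = -(e a * (x i - x j).1) := (gr a).sub_mem (h i).1 (h j).1
      rw [h1, Prod.fst_sub, Sop, ← m.inv _ a (hb _)]
      congr 1
      funext θ
      rw [e_add]
      congr 1
      ring
  · by_contra hc
    obtain ⟨δ, hδ, q, hq, hx⟩ := not_null hc
    refine contra hO φ hφ hN ln ln_dec q hq δ hδ fun a ι _ _ x h => ?_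
    choose t ht using fun i => (h i).1
    refine (hx ι t fun i => ?_).trans
      (le_of_eq (Finset.expect_congr rfl fun i _ => Finset.expect_congr rfl fun j _ => ?_))
    · have := (h i).2
      rwa [ht i, norm_mul, norm_e, one_mul, Complex.norm_real] at this
    · refine hR _ _ ?_
      rw [ht i, ht j, ← mul_sub, norm_mul, norm_e, one_mul, Complex.ofReal_sub]

end Vale.Agent.P032
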