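import Vale.Agent.P032.Stmts

/-! A set that spreads under small pushes cannot have a density point followed by a density
point of its complement. -/

namespace Vale.Agent.P032

open MeasureTheory Set Filter Topology Metric

namespace SpreadA

variable {T α β : ℝ → ℝ} {κ : ℝ}

theorem bnd (h : NearId T κ) {s s' : ℝ} (hs : s ≤ s') :
    (1 - κ) * (s' - s) ≤ T s' - T s ∧ T s' - T s ≤ (1 + κ) * (s' - s) := by
  have := h s' s
  rw [abs_of_nonneg (sub_nonneg.2 hs), abs_le] at this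
  constructor <;> linarith [this.1, this.2]

theorem lip (h : NearId T κ) : LipschitzWith (1 + κ).toNNReal T :=
  LipschitzWith.of_dist_le' fun s s' => by
    have h1 := h s s'
    have h2 := abs_add_le ((T s - s) - (T s' - s')) (s - s')
    rw [show (T s - s) - (T s' - s') + (s - s') = T s - T s' by ring] at h2
    rw [Real.dist_eq, Real.dist_eq]
    linarith

theorem vol_image (h : NearId T κ) (S : Set ℝ) :
    volume (T '' S) ≤ ENNReal.ofReal (1 + κ) * volume S := by
  have := (lip h).hausdorffMeasure_image_le zero_le_one S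
  rwa [hausdorffMeasure_real, ENNReal.rpow_one] at this

theorem vol_preimage (h : NearId T κ) (h1 : κ < 1) (S : Set ℝ) :
    volume (T ⁻¹' S) ≤ ENNReal.ofReal (1 - κ)⁻¹ * volume S := by
  have h2 : AntilipschitzWith (1 - κ)⁻¹.toNNReal T := AntilipschitzWith.of_le_mul_dist fun s s' => by
    have h3 := h s s'
    have h4 := abs_sub (T s - T s') ((T s - s) - (T s' - s'))
    rw [show T s - T s' - ((T s - s) - (T s' - s')) = s - s' by ring] at h4
    rw [Real.coe_toNNReal _ (inv_nonneg.2 (by linarith)), Real.dist_eq, Real.dist_eq,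
      le_inv_mul_iff₀ (by linarith)]
    linarith
  have := h2.hausdorffMeasure_preimage_le zero_le_one S
  rwa [hausdorffMeasure_real, ENNReal.rpow_one] at this

theorem step {W : Set ℝ} {l r q x s s' : ℝ} (hα : NearId α κ) (hβ : NearId β κ) (h0 : 0 ≤ κ)
    (h1 : κ < 1) (hq : 1 + κ ≤ q * (1 - κ)) (hW : ∀ᵐ s, s ∈ Icc l r → α s ∈ W → β s ∈ W)
    (hs : s ∈ Icc l r) (hs' : s' ∈ Icc l r) (hss : s ≤ s') (hx : 0 ≤ x)
    (hv : volume (Icc (α s) (α s') \ W) ≤ ENNReal.ofReal x) :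
    volume (Icc (β s) (β s') \ W) ≤ ENNReal.ofReal (q * x) := by
  have h2 : 0 < 1 - κ := by linarith
  calc volume (Icc (β s) (β s') \ W) ≤ volume (β '' {u | u ∈ Icc s s' ∧ β u ∉ W}) := by
        refine measure_mono fun y hy => ?_
        obtain ⟨u, u1, rfl⟩ := intermediate_value_Icc hss (lip hβ).continuous.continuousOn hy.1
        exact ⟨u, ⟨u1, hy.2⟩, rfl⟩
    _ ≤ ENNReal.ofReal (1 + κ) * volume (α ⁻¹' (Icc (α s) (α s') \ W)) := by
        refine (vol_image hβ _).trans (mul_le_mul_right (measure_mono_ae ?_) _)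
        filter_upwards [hW] with u hu hu'
        have a1 := (bnd hα hu'.1.1).1
        have a2 := (bnd hα hu'.1.2).1
        exact ⟨⟨by nlinarith [hu'.1.1], by nlinarith [hu'.1.2]⟩,
          fun h => hu'.2 (hu ⟨hs.1.trans hu'.1.1, hu'.1.2.trans hs'.2⟩ h)⟩
    _ ≤ ENNReal.ofReal (1 + κ) * (ENNReal.ofReal (1 - κ)⁻¹ * ENNReal.ofReal x) :=
        mul_le_mul_right ((vol_preimage hα h1 _).trans (mul_le_mul_right hv _)) _
    _ ≤ _ := by
        rw [← ENNReal.ofReal_mul (by positivity), ← ENNReal.ofReal_mul (by positivity), ← mul_assoc]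
        exact ENNReal.ofReal_le_ofReal (mul_le_mul_of_nonneg_right
          ((mul_inv_le_iff₀ h2).2 hq) hx)

end SpreadA

open SpreadA

theorem spreadS : SpreadStmt := by
  intro W l a b r c K _ la ab br c0 K0 hA hB H
  obtain ⟨Q, hQ⟩ : ∃ Q, Q = Real.exp (4 * K * ((b - a) / c) + 2) := ⟨_, rfl⟩
  have Q1 : 1 ≤ Q := by
    rw [hQ]
    exact Real.one_le_exp (by have := sub_pos.2 ab; positivity)
  obtain ⟨ε, hε⟩ : ∃ ε, ε = 1 / (4 * Q ^ 2) := ⟨_, rfl⟩
  have ε0 : 0 < ε := by rw [hε]; positivity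
  have t1 : Tendsto (fun ρ : ℝ => 2 * Q * ρ) (𝓝[>] 0) (𝓝[>] 0) := by
    refine tendsto_nhdsWithin_iff.2 ⟨?_, ?_⟩
    · have : Continuous fun ρ : ℝ => 2 * Q * ρ := by fun_prop
      simpa using (this.tendsto 0).mono_left nhdsWithin_le_nhds
    · filter_upwards [self_mem_nhdsWithin] with ρ hρ
      exact mul_pos (show 0 < 2 * Q by positivity) hρ
  obtain ⟨ρ, ⟨r1, r2⟩, r3, ρ0⟩ := (((hA ε ε0).and (t1.eventually (hB ε ε0))).and
    ((t1.eventually (Ioo_mem_nhdsGT (sub_pos.2 br))).and self_mem_nhdsWithin)).exists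
  replace ρ0 : 0 < ρ := ρ0
  replace r3 := r3.2
  obtain ⟨h, h0, h1, α, β, hα, hβ, a1, a2, a3, a4⟩ := H (min (1 / 2) (min (a - l) (ρ / 2)) / K)
    (div_pos (lt_min (by norm_num) (lt_min (sub_pos.2 la) (by positivity))) K0)
  rw [lt_div_iff₀' K0, lt_min_iff, lt_min_iff] at h1
  obtain ⟨k1, k2, k3⟩ := h1
  obtain ⟨κ, hκ⟩ : ∃ κ, κ = K * h := ⟨_, rfl⟩
  rw [← hκ] at hα hβ a1 a2 k1 k2 k3
  have κ0 : 0 < κ := by rw [hκ]; positivity
  obtain ⟨q, hq⟩ : ∃ q, q = Real.exp (4 * κ) := ⟨_, rfl⟩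
  have q0 : 4 * κ + 1 ≤ q := hq ▸ Real.add_one_le_exp _
  have q1 : 1 ≤ q := by linarith
  have q2 : 1 + κ ≤ q * (1 - κ) := by nlinarith
  have Qρ : ρ ≤ Q * ρ := le_mul_of_one_le_left ρ0.le Q1
  have key : ∀ n : ℕ, q ^ n ≤ Q → ∃ t t', (a + n * (c * h) ≤ t ∨ b ≤ t) ∧ a ≤ t ∧ t ≤ b + 2 * κ ∧
      ρ ≤ q ^ n * (t' - t) ∧ t' - t ≤ q ^ n * ρ ∧
        volume (Icc t t' \ W) ≤ ENNReal.ofReal (q ^ n * (ε * ρ)) := by
    intro n
    induction n with
    | zero =>
      refine fun _ => ⟨a, a + ρ, .inl (by simp), le_rfl, by linarith, by simp, by simp, ?_⟩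
      rw [pow_zero, one_mul]
      refine (measure_mono (sdiff_subset_sdiff_left ?_)).trans r1
      rw [Real.closedBall_eq_Icc]
      exact Icc_subset_Icc (by linarith) le_rfl
    | succ n ih =>
      intro hn
      have p0 : 0 < q ^ n := by positivity
      have p1 : q ^ n ≤ q ^ (n + 1) := pow_le_pow_right₀ q1 n.le_succ
      obtain ⟨t, t', b1, b2, b3, b4, b5, b6⟩ := ih (p1.trans hn)
      have tt : 0 < t' - t := (pos_iff_pos_of_mul_pos (ρ0.trans_le b4)).1 p0
      by_cases hb : b ≤ t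
      · exact ⟨t, t', .inr hb, b2, b3, b4.trans (by gcongr), b5.trans (by gcongr),
          b6.trans (ENNReal.ofReal_le_ofReal (by gcongr))⟩
      have b7 := b1.resolve_right hb
      push Not at hb
      have b8 : q ^ n * ρ ≤ Q * ρ := by gcongr; exact p1.trans hn
      have c1 := abs_le.1 (a1 l)
      have c2 := abs_le.1 (a1 r)
      have iv := intermediate_value_Icc (show l ≤ r by linarith) (lip hα).continuous.continuousOn
      obtain ⟨s, s1, rfl⟩ := iv (show t ∈ Icc (α l) (α r) from ⟨by linarith, by linarith⟩)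
      obtain ⟨s', s2, rfl⟩ := iv (show t' ∈ Icc (α l) (α r) from ⟨by linarith, by linarith⟩)
      have ss : s ≤ s' := by
        by_contra hs
        push Not at hs
        linarith [(bnd hα hs.le).1, mul_nonneg (show 0 ≤ 1 - κ by linarith) (sub_nonneg.2 hs.le)]
      obtain ⟨d1, d2⟩ := bnd hα ss
      obtain ⟨d3, d4⟩ := bnd hβ ss
      have d5 := mul_le_mul_of_nonneg_right q2 (sub_nonneg.2 ss)
      have d6 := a3 s s1
      have d7 := abs_le.1 (a1 s)
      have d8 := abs_le.1 (a2 s)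
      have d9 : 0 < c * h := by positivity
      rw [mul_assoc] at d5
      have e1 := d2.trans (d5.trans (mul_le_mul_of_nonneg_left d3 (zero_le_one.trans q1)))
      have e2 := d4.trans (d5.trans (mul_le_mul_of_nonneg_left d1 (zero_le_one.trans q1)))
      refine ⟨β s, β s', .inl (by push_cast; linarith), by linarith, by linarith, ?_, ?_, ?_⟩
      · rw [pow_succ, mul_assoc]
        exact b4.trans (by gcongr)
      · rw [pow_succ', mul_assoc]
        exact e2.trans (by gcongr)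
      · rw [pow_succ', mul_assoc]
        exact step hα hβ κ0.le (by linarith) q2 a4 s1 s2 ss (by positivity) b6
  have ch : 0 < c * h := by positivity
  have N1 := Nat.le_ceil ((b - a) / (c * h))
  have N2 := Nat.ceil_lt_add_one (div_nonneg (sub_nonneg.2 ab.le) ch.le)
  generalize ⌈(b - a) / (c * h)⌉₊ = N at N1 N2
  have hN : q ^ N ≤ Q := by
    rw [hq, hQ, ← Real.exp_nat_mul]
    refine Real.exp_le_exp.2 ?_
    have e : (b - a) / (c * h) * (4 * κ) = 4 * K * ((b - a) / c) := by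
      rw [hκ]; field_simp
    linarith [mul_le_mul_of_nonneg_right N2.le (show 0 ≤ 4 * κ by positivity)]
  obtain ⟨t, t', b1, -, b3, b4, b5, b6⟩ := key N hN
  rw [div_le_iff₀ ch] at N1
  have b7 : b ≤ t := b1.elim (fun h => by linarith) id
  have p0 : 0 < q ^ N := by positivity
  have tt : 0 < t' - t := (pos_iff_pos_of_mul_pos (ρ0.trans_le b4)).1 p0
  have b8 : q ^ N * ρ ≤ Q * ρ := by gcongr
  have b9 : Icc t t' ⊆ (Icc t t' \ W) ∪ (closedBall b (2 * Q * ρ) \ Wᶜ) := fun y hy => by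
    by_cases hW : y ∈ W
    · refine .inr ⟨?_, fun h => h hW⟩
      rw [Real.closedBall_eq_Icc]
      exact ⟨by linarith [hy.1], by linarith [hy.2]⟩
    · exact .inl ⟨hy, hW⟩
  have f1 := (measure_mono b9).trans ((measure_union_le _ _).trans (add_le_add b6 r2))
  rw [Real.volume_Icc, ← ENNReal.ofReal_add (by positivity) (by positivity),
    ENNReal.ofReal_le_ofReal_iff (by positivity)] at f1
  have f2 : q ^ N * (ε * ρ) ≤ Q * (ε * ρ) := by gcongr
  have f3 : q ^ N * (t' - t) ≤ Q * (t' - t) := by gcongr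
  have f4 : Q * (t' - t) ≤ Q * (3 * Q * ε * ρ) := by gcongr; linarith
  have f5 : Q * (3 * Q * ε * ρ) = 3 / 4 * ρ := by rw [hε]; field_simp
  linarith

end Vale.Agent.P032
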