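import Vale.Agent.P032.Stmts

namespace Vale.Agent.P032

open MeasureTheory Set Filter Topology Metric
open scoped Real ENNReal BigOperators

namespace ToColA

theorem tsum_half_ne : ∑' n : ℕ, ENNReal.ofReal ((1 / 2 : ℝ) ^ n) ≠ ∞ := by
  rw [← ENNReal.ofReal_tsum_of_nonneg (fun n => by positivity) summable_geometric_two]
  exact ENNReal.ofReal_ne_top

theorem ae_ev (s : ℕ → Set ℂ)
    (h : ∀ᶠ n : ℕ in atTop, volume (s n) ≤ ENNReal.ofReal ((1 / 2) ^ n)) :
    ∀ᵐ z : ℂ, ∀ᶠ n : ℕ in atTop, z ∉ s n := by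
  classical
  let t : ℕ → Set ℂ := fun n => if volume (s n) ≤ ENNReal.ofReal ((1 / 2) ^ n) then s n else ∅
  have ht : ∀ n, volume (t n) ≤ ENNReal.ofReal ((1 / 2) ^ n) := by
    intro n
    by_cases hn : volume (s n) ≤ ENNReal.ofReal ((1 / 2) ^ n)
    · simp only [t, if_pos hn]; exact hn
    · simp only [t, if_neg hn, measure_empty]; exact bot_le
  have h1 : ∑' n, volume (t n) ≠ ∞ :=
    ne_top_of_le_ne_top tsum_half_ne (ENNReal.tsum_le_tsum ht)
  filter_upwards [ae_eventually_notMem h1] with z hz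
  filter_upwards [hz, h] with n h2 h3
  simpa only [t, if_pos h3] using h2

theorem ev_ball (z : ℂ) : ∀ᶠ n : ℕ in atTop, z ∈ ball (0 : ℂ) n := by
  filter_upwards [tendsto_natCast_atTop_atTop (R := ℝ).eventually_gt_atTop ‖z‖] with n hn
  simpa using hn

/-- the points where colour `j` keeps a definite weight -/
def A (P : ℕ → ℂ → Fin 5 → ℝ) (j : Fin 5) : Set ℂ := {z | ∀ᶠ n : ℕ in atTop, 1 / 10 ≤ P n z j}

theorem A_meas {P : ℕ → ℂ → Fin 5 → ℝ} (hP : Seq P) (j : Fin 5) : MeasurableSet (A P j) := by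
  have h : A P j = ⋃ N : ℕ, ⋂ n : ℕ, ⋂ (_ : N ≤ n), {z | 1 / 10 ≤ P n z j} := by
    ext z
    simp only [A, Set.mem_ofPred_eq, eventually_atTop, mem_iUnion, mem_iInter]
  rw [h]
  exact MeasurableSet.iUnion fun N => MeasurableSet.iInter fun n => MeasurableSet.iInter fun _ =>
    measurableSet_le measurable_const (hP.1 n j)

theorem A_cover {P : ℕ → ℂ → Fin 5 → ℝ} (hP : Seq P) : ∀ᵐ z : ℂ, ∃ j, z ∈ A P j := by
  filter_upwards [ae_ev _ (Eventually.of_forall hP.2.2.1)] with z hz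
  obtain ⟨N, hN⟩ := eventually_atTop.1 (hz.and (ev_ball z))
  have h1 : ∃ j, 1 / 5 ≤ P N z j := by
    by_contra hc
    push Not at hc
    have h2 := hP.2.1 N z
    rw [Fin.sum_univ_five] at h2
    linarith [hc 0, hc 1, hc 2, hc 3, hc 4]
  obtain ⟨j, hj⟩ := h1
  refine ⟨j, eventually_atTop.2 ⟨N, fun n hn => ?_⟩⟩
  have h3 : ∀ n, N ≤ n → 1 / 5 - ((1 / 2 : ℝ) ^ N - (1 / 2) ^ n) / 10 ≤ P n z j := by
    intro n hn
    induction n, hn using Nat.le_induction with
    | base => simpa using hj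
    | succ n hn ih =>
      obtain ⟨h4, h5⟩ := hN n hn
      have h6 : |P n z j - P (n + 1) z j| ≤ (1 / 2) ^ n / 20 := by
        by_contra hc
        exact h4 ⟨h5, j, not_le.1 hc⟩
      have h7 := (abs_le.1 h6).2
      rw [pow_succ]
      linarith
  have h8 := h3 n hn
  have h9 : (1 / 2 : ℝ) ^ N ≤ 1 := pow_le_one₀ (by norm_num) (by norm_num)
  have h10 : (0 : ℝ) ≤ (1 / 2) ^ n := by positivity
  linarith

theorem A_null {P : ℕ → ℂ → Fin 5 → ℝ} (hP : Seq P) (q : ℚ) (j : Fin 5) :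
    volume {z | z ∈ A P j ∧ z + e q ∈ A P j} = 0 := by
  have h := ae_ev _ (hP.2.2.2 q)
  rw [ae_iff] at h
  refine measure_mono_null ?_ h
  rintro z ⟨h1, h2⟩ h3
  obtain ⟨n, ⟨h4, h5⟩, h6, h7⟩ := ((h3.and (ev_ball z)).and (Eventually.and h1 h2)).exists
  exact h4 ⟨h5, j, h6, h7⟩

theorem free_of (D : Set ℂ) (hnull : ∀ q : ℚ, volume {z | z ∈ D ∧ z + e q ∈ D} = 0)
    {x y : ℂ} (hx : Dens2 D x) (hy : Dens2 D y) : dist x y ≠ 1 := by
  intro hd
  obtain ⟨θ, hθ⟩ := exists_e_of_norm (z := y - x) (by rw [← dist_eq_norm, dist_comm, hd])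
  obtain ⟨R, ⟨h1, h2⟩, hR⟩ :=
    (((hx (1 / 100) (by norm_num)).and (hy (1 / 100) (by norm_num))).and
      self_mem_nhdsWithin).exists
  have hR0 : 0 < R := hR
  obtain ⟨q, hq1, hq2⟩ := exists_rat_btwn (show θ < θ + R / 2 by linarith)
  have hq : ‖e q - e θ‖ ≤ R / 2 := by
    refine (norm_e_sub_le _ _).trans ?_
    rw [abs_le]; constructor <;> linarith
  have hsub : closedBall x (R / 2) ⊆ (closedBall x R \ D) ∪
      ((fun z => z + e q) ⁻¹' (closedBall y R \ D)) ∪ {z | z ∈ D ∧ z + e q ∈ D} := by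
    intro z hz
    rw [mem_closedBall] at hz
    by_cases h3 : z ∈ D
    · by_cases h4 : z + e q ∈ D
      · exact Or.inr ⟨h3, h4⟩
      · refine Or.inl (Or.inr ⟨?_, h4⟩)
        rw [mem_closedBall, dist_eq_norm]
        have h5 : z + e q - y = (z - x) + (e q - e θ) := by rw [← hθ]; ring
        rw [h5]
        refine (norm_add_le _ _).trans ?_
        rw [dist_eq_norm] at hz
        linarith
    · exact Or.inl (Or.inl ⟨mem_closedBall.2 (by linarith), h3⟩)
  have hvol : volume (closedBall x (R / 2)) ≤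
      ENNReal.ofReal (1 / 100 * R ^ 2) + ENNReal.ofReal (1 / 100 * R ^ 2) := by
    refine (measure_mono hsub).trans ((measure_union_le _ _).trans ?_)
    rw [hnull q, add_zero]
    refine (measure_union_le _ _).trans (add_le_add h1 ?_)
    rw [measure_preimage_add_right]
    exact h2
  rw [Complex.volume_closedBall, ← ENNReal.ofReal_add (by positivity) (by positivity),
    ← ENNReal.ofReal_pow (by positivity), ← ENNReal.ofReal_coe_nnreal,
    ← ENNReal.ofReal_mul (by positivity), ENNReal.ofReal_le_ofReal_iff (by positivity),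
    NNReal.coe_real_pi] at hvol
  have h6 := Real.pi_gt_three
  have h7 : 0 < R ^ 2 := by positivity
  nlinarith

end ToColA

open ToColA in
theorem toColS (hD : DensStmt) : ToColStmt := by
  intro P hP
  let B : Fin 5 → Set ℂ := fun j => A P j \ ⋃ i : Fin 5, ⋃ (_ : i < j), A P i
  have hB : ∀ j, MeasurableSet (B j) := fun j =>
    (A_meas hP j).diff (MeasurableSet.iUnion fun i => MeasurableSet.iUnion fun _ => A_meas hP i)
  let N : Fin 5 → Set ℂ := fun j => toMeasurable volume {z | ¬ (z ∈ B j → Dens2 (B j) z)}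
  have hN : ∀ j, volume (N j) = 0 := fun j => by
    simp only [N, measure_toMeasurable]
    exact ae_iff.1 (hD.2.1 (B j) (hB j))
  have hdens : ∀ j, ∀ x ∈ B j \ N j, Dens2 (B j \ N j) x := by
    intro j x hx
    have h1 : Dens2 (B j) x := by
      by_contra hc
      exact hx.2 (subset_toMeasurable _ _ fun h => hc (h hx.1))
    intro ε hε
    filter_upwards [h1 ε hε] with r hr
    have h2 : closedBall x r \ (B j \ N j) ⊆ (closedBall x r \ B j) ∪ N j := by
      intro z hz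
      by_cases h3 : z ∈ N j
      · exact Or.inr h3
      · exact Or.inl ⟨hz.1, fun h4 => hz.2 ⟨h4, h3⟩⟩
    refine (measure_mono h2).trans ((measure_union_le _ _).trans ?_)
    rw [hN j, add_zero]
    exact hr
  have hlt : ∀ i j, i < j → Disjoint (B i \ N i) (B j \ N j) := by
    intro i j hij
    rw [Set.disjoint_left]
    intro z h1 h2
    exact h2.1.2 (mem_iUnion.2 ⟨i, mem_iUnion.2 ⟨hij, h1.1.1⟩⟩)
  refine ⟨⟨fun j => B j \ N j, fun j => (hB j).diff (measurableSet_toMeasurable _ _), ?_, ?_, ?_,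
    hdens⟩⟩
  · intro i j hij
    rcases lt_or_gt_of_ne hij with h | h
    · exact hlt i j h
    · exact (hlt j i h).symm
  · have h1 : ∀ᵐ z : ℂ, ∀ j, z ∉ N j :=
      ae_all_iff.2 fun j => measure_eq_zero_iff_ae_notMem.1 (hN j)
    filter_upwards [A_cover hP, h1] with z hz h2
    classical
    obtain ⟨j, hj, hmin⟩ := (Finset.univ.filter fun j => z ∈ A P j).exists_min_image id
      (by obtain ⟨j, hj⟩ := hz; exact ⟨j, by simpa using hj⟩)
    refine ⟨j, ⟨by simpa using hj, ?_⟩, h2 j⟩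
    intro h3
    obtain ⟨i, h4⟩ := mem_iUnion.1 h3
    obtain ⟨h5, h6⟩ := mem_iUnion.1 h4
    exact absurd (hmin i (by simpa using h6)) (not_le.2 h5)
  · intro j x hx y hy
    refine free_of (B j \ N j) (fun q => measure_mono_null ?_ (A_null hP q j))
      (hdens j x hx) (hdens j y hy)
    rintro z ⟨h1, h2⟩
    exact ⟨h1.1.1, h2.1.1⟩

end Vale.Agent.P032
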