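import Vale.Agent.P032.Stmts

/-! P032: centres of weighted forests on five vertices. -/

namespace Vale.Agent.P032

open Finset

namespace TreeA

/-- at most one edge leaves `I` -/
def One (G : Fin 5 → Fin 5 → Prop) (I : Finset (Fin 5)) : Prop :=
  ∀ i ∈ I, ∀ j ∉ I, ∀ i' ∈ I, ∀ j' ∉ I, G i j → G i' j' → i = i' ∧ j = j'

/-- all edges leaving `I` end in `c` -/
def Cl (G : Fin 5 → Fin 5 → Prop) (c : Fin 5) (I : Finset (Fin 5)) : Prop :=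
  c ∉ I ∧ ∀ i ∈ I, ∀ j ∉ I, G i j → j = c

def Cent (G : Fin 5 → Fin 5 → Prop) (p : Fin 5 → ℝ) (c : Fin 5) (t : ℝ) : Prop :=
  ∀ I : Finset (Fin 5), c ∉ I → One G I → ∑ j ∈ I, p j ≤ 1 / 2 + t

lemma exists_best (G : Fin 5 → Fin 5 → Prop) (p : Fin 5 → ℝ) :
    ∃ c, ∀ c' t, Cent G p c' t → Cent G p c t := by
  classical
  have hne : ∀ c : Fin 5, (univ.filter fun I : Finset (Fin 5) => c ∉ I ∧ One G I).Nonempty :=
    fun c => ⟨∅, mem_filter.2 ⟨mem_univ _, notMem_empty c, fun i hi => absurd hi (notMem_empty i)⟩⟩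
  obtain ⟨c, _, hc⟩ := exists_min_image univ
    (fun c => (univ.filter fun I : Finset (Fin 5) => c ∉ I ∧ One G I).sup' (hne c)
      fun I => ∑ j ∈ I, p j) univ_nonempty
  refine ⟨c, fun c' t h I h1 h2 => ?_⟩
  refine le_trans (le_sup' (fun I : Finset (Fin 5) => ∑ j ∈ I, p j)
    (mem_filter.2 ⟨mem_univ I, h1, h2⟩)) ((hc c' (mem_univ _)).trans ?_)
  exact sup'_le _ _ fun J hJ => h J (mem_filter.1 hJ).2.1 (mem_filter.1 hJ).2.2

lemma sum_le_one {p : Fin 5 → ℝ} (hp : Simp p) (I : Finset (Fin 5)) : ∑ j ∈ I, p j ≤ 1 :=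
  hp.2 ▸ sum_le_sum_of_subset_of_nonneg (subset_univ I) fun j _ _ => hp.1 j

lemma exists_cent {G : Fin 5 → Fin 5 → Prop} {p : Fin 5 → ℝ} {γ η : ℝ}
    (hs : ∀ i j, G i j → G j i) (hp : Simp p) (hc : Cut G p γ η) :
    ∃ c, Cent G p c γ := by
  classical
  obtain ⟨I, hI, hmin⟩ := exists_min_image
    (univ.filter fun I : Finset (Fin 5) => One G I ∧ 1 / 2 < ∑ j ∈ I, p j) card
    ⟨univ, mem_filter.2 ⟨mem_univ _, by simp [One], by rw [hp.2]; norm_num⟩⟩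
  obtain ⟨hI1, hI2⟩ := (mem_filter.1 hI).2
  obtain ⟨c, hcI, hcl⟩ : ∃ c ∈ I, ∀ i ∈ I, ∀ j ∉ I, G i j → i = c := by
    by_cases h : ∃ i ∈ I, ∃ j ∉ I, G i j
    · obtain ⟨i, hi, j, hj, hij⟩ := h
      exact ⟨i, hi, fun i' hi' j' hj' h' => (hI1 i' hi' j' hj' i hi j hj h' hij).1⟩
    · obtain ⟨c, hc⟩ : I.Nonempty := by
        rw [nonempty_iff_ne_empty]; rintro rfl; simp at hI2; linarith
      exact ⟨c, hc, fun i hi j hj hij => absurd ⟨i, hi, j, hj, hij⟩ h⟩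
  refine ⟨c, fun J hcJ hJ => ?_⟩
  by_contra hlt
  rw [not_le] at hlt
  have hA : ∀ i ∈ J ∩ I, ∀ j ∉ J ∩ I, G i j → j ∉ J := by
    intro i hi j hj hij hjJ
    have h1 : j ∉ I := fun h => hj (mem_inter.2 ⟨hjJ, h⟩)
    exact hcJ (hcl i (mem_inter.1 hi).2 j h1 hij ▸ (mem_inter.1 hi).1)
  have hA1 : One G (J ∩ I) := fun i hi j hj i' hi' j' hj' h h' =>
    hJ i (mem_inter.1 hi).1 j (hA i hi j hj h) i' (mem_inter.1 hi').1 j' (hA i' hi' j' hj' h') h h'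
  have hA2 : ∑ j ∈ J ∩ I, p j ≤ 1 / 2 := by
    by_contra h
    have h1 := hmin (J ∩ I) (mem_filter.2 ⟨mem_univ _, hA1, not_le.1 h⟩)
    have h2 : (J ∩ I).card < I.card :=
      card_lt_card ⟨inter_subset_right, fun h3 => hcJ (mem_inter.1 (h3 hcI)).1⟩
    omega
  have e1 := sum_union_inter (s₁ := J) (s₂ := I) (f := p)
  have e2 := sum_le_one hp (J ∪ I)
  have e3 := sum_inter_add_sum_sdiff J I p
  obtain ⟨a, ha, b, hb, hab, -⟩ := hc (J ∩ I) (by linarith) (by linarith)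
  obtain ⟨i, hi, j, hj, hij, -⟩ := hc (J \ I) (by linarith) (by linarith)
  obtain ⟨hi1, hi2⟩ := mem_sdiff.1 hi
  by_cases hjJ : j ∈ J
  · have h1 : j ∈ I := by_contra fun h => hj (mem_sdiff.2 ⟨hjJ, h⟩)
    exact hcJ (hcl j h1 i hi2 (hs _ _ hij) ▸ hjJ)
  · have h1 := (hJ i hi1 j hjJ a (mem_inter.1 ha).1 b (hA a ha b hb hab) hij hab).1
    exact hi2 (h1 ▸ (mem_inter.1 ha).2)

lemma sep0 {G : Fin 5 → Fin 5 → Prop} (hs : ∀ i j, G i j → G j i) (hG : ¬ Cyc G)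
    (h1 : G 0 1) (h2 : G 2 0) :
    ∃ J : Fin 5 → Prop, J 1 ∧ ¬ J 2 ∧ ¬ J 0 ∧ ∀ i j, J i → ¬ J j → G i j → j = 0 := by
  have a1 : ¬ G 1 2 := fun h => hG ⟨1, h1, h, Or.inl h2⟩
  have a2 : ¬ (G 1 3 ∧ G 3 2) := fun h =>
    hG ⟨Equiv.swap 2 3, h1, h.1, Or.inr ⟨h.2, Or.inl h2⟩⟩
  have a3 : ¬ (G 1 4 ∧ G 4 2) := fun h =>
    hG ⟨Equiv.swap 2 4 * Equiv.swap 3 4, h1, h.1, Or.inr ⟨h.2, Or.inl h2⟩⟩
  have a4 : ¬ (G 1 3 ∧ G 3 4 ∧ G 4 2) := fun h =>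
    hG ⟨Equiv.swap 2 3 * Equiv.swap 3 4, h1, h.1, Or.inr ⟨h.2.1, Or.inr ⟨h.2.2, h2⟩⟩⟩
  have a5 : ¬ (G 1 4 ∧ G 4 3 ∧ G 3 2) := fun h =>
    hG ⟨Equiv.swap 2 4, h1, h.1, Or.inr ⟨h.2.1, Or.inr ⟨h.2.2, h2⟩⟩⟩
  have b1 := hs 3 4
  have b2 := hs 4 3
  refine ⟨![False, True, False, G 1 3 ∨ (G 1 4 ∧ G 4 3), G 1 4 ∨ (G 1 3 ∧ G 3 4)],
    trivial, id, id, fun i j => ?_⟩
  fin_cases i <;> fin_cases j <;> simp <;> tauto

lemma sep {G : Fin 5 → Fin 5 → Prop} (hs : ∀ i j, G i j → G j i) (hG : ¬ Cyc G)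
    {c i i' : Fin 5} (n1 : c ≠ i) (n2 : c ≠ i') (n3 : i ≠ i') (h1 : G c i) (h2 : G i' c) :
    ∃ J, Cl G c J ∧ i ∈ J ∧ i' ∉ J := by
  classical
  have hf : Function.Injective (![0, 1, 2] : Fin 3 → Fin 5) := by decide
  have hg : Function.Injective (![c, i, i'] : Fin 3 → Fin 5) := by
    intro a b
    fin_cases a <;> fin_cases b <;> simp [n1, n2, n3, n1.symm, n2.symm, n3.symm]
  obtain ⟨s, hs'⟩ := Equiv.Perm.exists_extending_pair _ _ hf hg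
  have s0 : s 0 = c := hs' 0
  have s1 : s 1 = i := hs' 1
  have s2 : s 2 = i' := hs' 2
  obtain ⟨J, j1, j2, j0, hJ⟩ := sep0 (G := fun a b => G (s a) (s b)) (fun a b => hs _ _)
    (fun ⟨u, hu⟩ => hG ⟨s * u, hu⟩) (by rw [s0, s1]; exact h1) (by rw [s0, s2]; exact h2)
  refine ⟨univ.filter fun a => J (s.symm a), ⟨?_, fun a ha b hb hab => ?_⟩, ?_, ?_⟩
  · rw [← s0]; simpa using j0
  · have := hJ (s.symm a) (s.symm b) (by simpa using ha) (by simpa using hb) (by simpa using hab)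
    rw [← s0, ← this]; simp
  · rw [← s1]; simpa using j1
  · rw [← s2]; simpa using j2

lemma Cl.inter {G : Fin 5 → Fin 5 → Prop} {c : Fin 5} {I J : Finset (Fin 5)} (hI : Cl G c I)
    (hJ : Cl G c J) : Cl G c (I ∩ J) := by
  refine ⟨fun h => hI.1 (mem_inter.1 h).1, fun i hi j hj hij => ?_⟩
  by_cases h : j ∈ I
  · exact hJ.2 i (mem_inter.1 hi).2 j (fun h' => hj (mem_inter.2 ⟨h, h'⟩)) hij
  · exact hI.2 i (mem_inter.1 hi).1 j h hij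

lemma Cl.sdiff_out {G : Fin 5 → Fin 5 → Prop} (hs : ∀ i j, G i j → G j i) {c : Fin 5}
    {I J : Finset (Fin 5)} (hI : Cl G c I) (hJ : Cl G c J) :
    ∀ i ∈ I \ J, ∀ j ∉ I \ J, G i j → j ∉ I := by
  intro i hi j hj hij hjI
  have h1 : j ∈ J := by_contra fun h => hj (mem_sdiff.2 ⟨hjI, h⟩)
  exact hI.1 (hJ.2 j h1 i (mem_sdiff.1 hi).2 (hs _ _ hij) ▸ (mem_sdiff.1 hi).1)

lemma Cl.sdiff {G : Fin 5 → Fin 5 → Prop} (hs : ∀ i j, G i j → G j i) {c : Fin 5}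
    {I J : Finset (Fin 5)} (hI : Cl G c I) (hJ : Cl G c J) : Cl G c (I \ J) :=
  ⟨fun h => hI.1 (mem_sdiff.1 h).1, fun i hi j hj hij =>
    hI.2 i (mem_sdiff.1 hi).1 j (hI.sdiff_out hs hJ i hi j hj hij) hij⟩

lemma branch {G : Fin 5 → Fin 5 → Prop} (hs : ∀ i j, G i j → G j i) (hG : ¬ Cyc G)
    {c v : Fin 5} (hv : v ≠ c) : ∃ I, Cl G c I ∧ v ∈ I ∧ One G I := by
  classical
  obtain ⟨I, hI, hmin⟩ := exists_min_image
    (univ.filter fun I : Finset (Fin 5) => Cl G c I ∧ v ∈ I) card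
    ⟨univ.erase c, mem_filter.2 ⟨mem_univ _, ⟨by simp, fun i _ j hj _ => by simpa using hj⟩,
      by simpa using hv⟩⟩
  obtain ⟨hI1, hI2⟩ := (mem_filter.1 hI).2
  refine ⟨I, hI1, hI2, fun i hi j hj i' hi' j' hj' h h' => ?_⟩
  have e1 := hI1.2 i hi j hj h
  have e2 := hI1.2 i' hi' j' hj' h'
  refine ⟨by_contra fun hne => ?_, e1.trans e2.symm⟩
  rw [e1] at h
  rw [e2] at h'
  obtain ⟨J, hJ, j1, j2⟩ := sep hs hG (ne_of_mem_of_not_mem hi hI1.1).symm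
    (ne_of_mem_of_not_mem hi' hI1.1).symm hne (hs _ _ h) h'
  by_cases hvJ : v ∈ J
  · have h1 := hmin (I ∩ J) (mem_filter.2 ⟨mem_univ _, hI1.inter hJ, mem_inter.2 ⟨hI2, hvJ⟩⟩)
    have h2 : (I ∩ J).card < I.card :=
      card_lt_card ⟨inter_subset_left, fun h3 => j2 (mem_inter.1 (h3 hi')).2⟩
    omega
  · have h1 := hmin (I \ J) (mem_filter.2 ⟨mem_univ _, hI1.sdiff hs hJ, mem_sdiff.2 ⟨hI2, hvJ⟩⟩)
    have h2 : (I \ J).card < I.card :=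
      card_lt_card ⟨sdiff_subset, fun h3 => (mem_sdiff.1 (h3 hi)).2 j1⟩
    omega

lemma One.compl {G : Fin 5 → Fin 5 → Prop} (hs : ∀ i j, G i j → G j i) {I : Finset (Fin 5)}
    (h : One G I) : One G Iᶜ := fun i hi j hj i' hi' j' hj' h1 h2 =>
  (h j (by simpa using hj) i (by simpa using hi) j' (by simpa using hj') i' (by simpa using hi')
    (hs _ _ h1) (hs _ _ h2)).symm

lemma presence {G : Fin 5 → Fin 5 → Prop} {p : Fin 5 → ℝ} {η : ℝ} {c : Fin 5}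
    (hs : ∀ i j, G i j → G j i) (hG : ¬ Cyc G) (hp : Simp p) (hc : Cut G p (1 / 5) η)
    (h : Cent G p c (1 / 5)) : min η (1 / 10) ≤ p c := by
  by_cases h1 : 1 / 10 ≤ p c
  · exact (min_le_right _ _).trans h1
  obtain ⟨v, hv, hv2⟩ : ∃ v ∈ univ.erase c, (1 / 5 : ℝ) < p v := by
    apply exists_lt_of_sum_lt
    have e1 := add_sum_erase univ p (mem_univ c)
    rw [hp.2] at e1
    rw [sum_const, card_erase_of_mem (mem_univ c)]
    simp only [card_univ, Fintype.card_fin, nsmul_eq_mul]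
    push_cast
    linarith
  obtain ⟨I, hI, hvI, hI1⟩ := branch hs hG (ne_of_mem_erase hv)
  have e1 := single_le_sum (f := p) (fun j _ => hp.1 j) hvI
  have e2 := h I hI.1 hI1
  obtain ⟨i, hi, j, hj, hij, -, hη⟩ := hc I (by linarith) (by linarith)
  exact (min_le_left _ _).trans (hI.2 i hi j hj hij ▸ hη)

section rainbow
variable {T G : Fin 5 → Fin 5 → Prop} {p : Fin 5 → ℝ} {η γ t : ℝ}

lemma lower (hs : ∀ i j, T i j → T j i) (hp : Simp p) {c : Fin 5} (h : Cent T p c t)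
    {I : Finset (Fin 5)} (hI : One T I) (hc : c ∈ I) : 1 / 2 - t ≤ ∑ j ∈ I, p j := by
  have e1 := h Iᶜ (by simpa using hc) (hI.compl hs)
  have e2 := sum_add_sum_compl I p
  rw [hp.2] at e2
  linarith

lemma heavy (hs : ∀ i j, T i j → T j i) (hT : ¬ Cyc T) (hGT : ∀ i j, G i j → T i j) (hp : Simp p)
    (hc : Cut G p (1 / 5) η) (ht : t ≤ 1 / 5) {c c' : Fin 5} (h : Cent T p c t)
    (h' : Cent T p c' t) (hne : c' ≠ c) : η ≤ p c := by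
  obtain ⟨I, hI, hvI, hI1⟩ := branch hs hT hne
  have e1 := lower hs hp h' hI1 hvI
  have e2 := h I hI.1 hI1
  obtain ⟨i, hi, j, hj, hij, -, hη⟩ := hc I (by linarith) (by linarith)
  exact hI.2 i hi j hj (hGT _ _ hij) ▸ hη

lemma outside (hs : ∀ i j, T i j → T j i) (hT : ¬ Cyc T) (hp : Simp p) {c₁ c₂ c₃ : Fin 5}
    (h₂ : Cent T p c₂ t) (h₃ : Cent T p c₃ t) (hne : c₃ ≠ c₁) {X : Finset (Fin 5)}
    (hX : Cl T c₁ X) (hX1 : One T X) (hX2 : c₂ ∈ X) (hX3 : c₃ ∉ X) : p c₁ ≤ 2 * t := by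
  obtain ⟨Y, hY, hY3, hY1⟩ := branch hs hT hne
  have hZ : One T (Y \ X) := fun i hi j hj i' hi' j' hj' h h' =>
    hY1 i (mem_sdiff.1 hi).1 j (hY.sdiff_out hs hX i hi j hj h) i' (mem_sdiff.1 hi').1 j'
      (hY.sdiff_out hs hX i' hi' j' hj' h') h h'
  have e1 := lower hs hp h₂ hX1 hX2
  have e2 := lower hs hp h₃ hZ (mem_sdiff.2 ⟨hY3, hX3⟩)
  have e3 := sum_le_one hp (insert c₁ (Y \ X ∪ X))
  rw [sum_insert (by simp [hX.1, hY.1]), sum_union sdiff_disjoint] at e3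
  linarith

lemma no_three (hs : ∀ i j, T i j → T j i) (hT : ¬ Cyc T) (hGT : ∀ i j, G i j → T i j)
    (hp : Simp p) (hc : Cut G p (1 / 5) η) (hγ : Cut G p γ 0) (ht : t ≤ 1 / 5) (hγ0 : 0 ≤ γ)
    (hγ1 : γ ≤ 1 / 5) (hη : γ + 2 * t < η) {c₁ c₂ c₃ : Fin 5} (h₁ : Cent T p c₁ t)
    (h₂ : Cent T p c₂ t) (h₃ : Cent T p c₃ t) : c₁ = c₂ ∨ c₁ = c₃ ∨ c₂ = c₃ := by
  by_contra hn
  rw [not_or, not_or] at hn
  obtain ⟨n12, n13, n23⟩ := hn
  have p1 := heavy hs hT hGT hp hc ht h₁ h₂ (Ne.symm n12)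
  have p2 := heavy hs hT hGT hp hc ht h₂ h₁ n12
  have p3 := heavy hs hT hGT hp hc ht h₃ h₁ n13
  obtain ⟨X, hX, hX2, hX1⟩ := branch hs hT (Ne.symm n12)
  obtain ⟨Y, hY, hY2, hY1⟩ := branch hs hT n12
  by_cases a1 : c₃ ∈ X
  swap
  · linarith [outside hs hT hp h₂ h₃ (Ne.symm n13) hX hX1 hX2 a1]
  by_cases a2 : c₃ ∈ Y
  swap
  · linarith [outside hs hT hp h₁ h₃ (Ne.symm n23) hY hY1 hY2 a2]
  have e1 := sum_union_inter (s₁ := X) (s₂ := Y) (f := p)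
  have e2 := single_le_sum (f := p) (fun j _ => hp.1 j) (mem_inter.2 ⟨a1, a2⟩)
  have e3 := h₁ X hX.1 hX1
  have e4 := h₂ Y hY.1 hY1
  have e5 := lower hs hp h₂ hX1 hX2
  have e6 : ∑ j ∈ X, p j ≤ ∑ j ∈ X ∪ Y, p j :=
    sum_le_sum_of_subset_of_nonneg subset_union_left fun j _ _ => hp.1 j
  obtain ⟨i, hi, j, hj, hij, -⟩ := hγ (X ∪ Y) (by linarith) (by linarith)
  rw [mem_union, not_or] at hj
  rcases mem_union.1 hi with hi | hi
  · exact hj.2 (hX.2 i hi j hj.1 (hGT _ _ hij) ▸ hY2)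
  · exact hj.1 (hY.2 i hi j hj.2 (hGT _ _ hij) ▸ hX2)

end rainbow

end TreeA

open TreeA in
theorem treeS : TreeStmt := by
  intro η hη
  have m0 : 0 < min η (1 / 10) := lt_min hη (by norm_num)
  have m1 : min η (1 / 10) ≤ η := min_le_left _ _
  have m2 : min η (1 / 10) ≤ 1 / 10 := min_le_right _ _
  choose cen hcen using exists_best
  refine ⟨min η (1 / 10) / 100, by positivity, min η (1 / 10), m0, min η (1 / 10) / 100,
    by positivity, cen, fun G p hs hG hp hc => ?_, fun T G p hs hT hGs hGT hp hc hγ hε => ?_⟩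
  · obtain ⟨c, h⟩ := exists_cent hs hp hc
    exact presence hs hG hp hc (hcen G p c _ h)
  · have key : ∀ k, Cent T (p 0) (cen (G k) (p k)) (6 * (min η (1 / 10) / 100)) := by
      intro k I h1 h2
      obtain ⟨c, h⟩ := exists_cent (hGs k) (hp k) (hγ k)
      have e1 := hcen _ _ c _ h I h1 fun i hi j hj i' hi' j' hj' a b =>
        h2 i hi j hj i' hi' j' hj' (hGT k _ _ a) (hGT k _ _ b)
      have e2 : ∑ j ∈ I, p 0 j ≤ ∑ j ∈ I, (p k j + min η (1 / 10) / 100) :=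
        sum_le_sum fun j _ => by linarith [(abs_le.1 (hε k j)).1]
      rw [sum_add_distrib, sum_const, nsmul_eq_mul] at e2
      have e3 : (I.card : ℝ) ≤ 5 := by exact_mod_cast (card_le_univ I).trans (by simp)
      have e4 := mul_le_mul_of_nonneg_right e3 (show 0 ≤ min η (1 / 10) / 100 by positivity)
      linarith
    exact no_three hs hT (hGT 0) (hp 0) (hc 0) (hγ 0) (by linarith) (by positivity)
      (by linarith) (by linarith) (key 0) (key 1) (key 2)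

end Vale.Agent.P032
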