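import Vale.Agent.P032.Stmts

/-! P032: triangles of star colours, hexagons, and finiteness of the cyclic points. -/

namespace Vale.Agent.P032

open MeasureTheory Set Filter Topology Metric
open scoped Real ENNReal BigOperators

namespace Ty3A

theorem ae_shift {P : ℝ → Prop} (h : ∀ᵐ θ : ℝ, P θ) (c : ℝ) : ∀ᵐ θ : ℝ, P (θ + c) :=
  (measurePreserving_add_right volume c).quasiMeasurePreserving.ae h

theorem gs_self (hNb : NbStmt) {C : Col} {x : ℂ} {θ : ℝ} {j : Fin 5} (h : C.Gs x x θ j) :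
    ¬ C.Fr (x + e (θ + π / 3)) j ∧ ¬ C.Fr (x + e (θ + -(π / 3))) j := by
  obtain ⟨-, -, h1, h2⟩ := h
  rw [sub_self, hNb.2.2.1] at h1 h2
  rw [one_mul] at h1
  rw [neg_one_mul] at h2
  exact ⟨h1, h2⟩

theorem anti (hNb : NbStmt) {C : Col} {x : ℂ} {p q q' : Fin 5} (h : C.Ty x p q q') :
    ∀ᵐ θ : ℝ, C.Fr (x + e (θ + π / 3)) p ↔ ¬ C.Fr (x + e θ) p := by
  have h0 := h x (by simp)
  filter_upwards [h0, ae_shift h0 (π / 3)] with θ h1 h2
  rcases h1 with h1 | ⟨h1, h3, -⟩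
  · exact ⟨fun h4 => absurd h4 (gs_self hNb h1).1, fun h4 => absurd h1.1 h4⟩
  · refine ⟨fun _ => h1, fun _ => ?_⟩
    rcases h2 with h2 | ⟨-, h2, -⟩
    · exact h2.1
    · exact absurd h2.1 (gs_self hNb h3).1

theorem ess_shift {A B : Set ℝ} {c t : ℝ} (h : ∀ᵐ θ : ℝ, θ ∈ A → θ + c ∈ B) (hA : Ess A t) :
    Ess B (t + c) := by
  intro ε hε h0
  refine hA ε hε (le_antisymm ?_ zero_le)
  rw [← h0, ← measure_preimage_add_right volume c (B ∩ ball (t + c) ε)]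
  refine measure_mono_ae (h.mono fun θ h1 h2 => ⟨h1 h2.1, ?_⟩)
  simpa [Real.dist_eq] using h2.2

theorem ess_closure {A : Set ℝ} {S : Set ℂ} {x : ℂ} {t : ℝ}
    (h : ∀ᵐ θ : ℝ, θ ∈ A → x + e θ ∈ closure S) (hA : Ess A t) : x + e t ∈ closure S := by
  rw [← closure_closure, Metric.mem_closure_iff]
  intro ε hε
  obtain ⟨θ, h1, h2⟩ := Measure.exists_mem_of_measure_ne_zero_of_ae (hA ε hε) (ae_restrict_of_ae h)
  refine ⟨_, h2 h1.1, ?_⟩
  rw [dist_add_left, dist_eq_norm]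
  refine (norm_e_sub_le _ _).trans_lt ?_
  rw [abs_sub_comm]
  exact h1.2

theorem ne_zero_of_anti {A : Set ℝ} {c : ℝ} (h : ∀ᵐ θ : ℝ, θ ∈ A ∨ θ + c ∈ A) : volume A ≠ 0 := by
  intro h0
  have h1 : ∀ᵐ θ : ℝ, θ ∉ A := measure_eq_zero_iff_ae_notMem.1 h0
  have h2 : ∀ᵐ _θ : ℝ, False := by
    filter_upwards [h, h1, ae_shift h1 c] with θ h3 h4 h5 using h3.elim h4 h5
  simpa using h2.exists

theorem ty_of_cyc (h3 : Ty3Stmt) (h4 : Ty4Stmt) (h5 : No5Stmt) {C : Col} {x : ℂ}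
    (h : Cyc (C.Star x)) : ∃ p q q', C.Ty x p q q' := by
  obtain ⟨s, h01, h12, h | ⟨h23, h | ⟨h34, h40⟩⟩⟩ := h
  · exact ⟨_, _, _, (C.perm_Ty s x _ _ _).1 (h3 (C.perm s) x h01 h12 h)⟩
  · rcases h4 (C.perm s) x h01 h12 h23 h with h | h <;> exact ⟨_, _, _, (C.perm_Ty s x _ _ _).1 h⟩
  · have tri : ∀ k : Fin 5, C.Star x (s (0 + k)) (s (1 + k)) → C.Star x (s (1 + k)) (s (2 + k)) →
        C.Star x (s (0 + k)) (s (2 + k)) → ∃ p q q', C.Ty x p q q' := fun k a b c =>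
      ⟨_, _, _, (C.perm_Ty ((Equiv.addRight k).trans s) x _ _ _).1
        (h3 (C.perm ((Equiv.addRight k).trans s)) x a b c.symm)⟩
    rcases h5 (C.perm s) x h01 h12 h23 h34 h40 with h | h | h | h | h
    · exact tri 0 h01 h12 h
    · exact tri 1 h12 h23 h
    · exact tri 2 h23 h34 h
    · exact tri 3 h34 h40 h
    · exact tri 4 h40 h01 h

theorem limit (hU : UscStmt) {C : Col} {y : ℂ} {p q q' : Fin 5}
    (h : ∀ δ > (0 : ℝ), ∃ x, dist x y < δ ∧ C.Ty x p q q') :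
    ∀ᵐ θ : ℝ, C.Fr (y + e θ) p ∨ C.Fr (y + e θ) q := by
  have key : ∀ R : ℕ, ∀ᵐ θ : ℝ, θ ∈ Icc (-(R : ℝ)) R → C.Fr (y + e θ) p ∨ C.Fr (y + e θ) q := by
    intro R
    rw [ae_iff]
    refine le_antisymm (ENNReal.le_of_forall_pos_le_add fun ε hε _ => ?_) zero_le
    have hε' : (0 : ℝ) < ε / 2 := by positivity
    obtain ⟨δ₁, hδ₁, h1⟩ := (hU C).2.2 y p R _ hε'
    obtain ⟨δ₂, hδ₂, h2⟩ := (hU C).2.2 y q R _ hε'
    obtain ⟨x, hx, hT⟩ := h _ (lt_min hδ₁ hδ₂)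
    have h3 := add_le_add (h1 x (hx.trans_le (min_le_left _ _))) (h2 x (hx.trans_le (min_le_right _ _)))
    rw [← ENNReal.ofReal_add hε'.le hε'.le, add_halves, ENNReal.ofReal_coe_nnreal] at h3
    rw [zero_add]
    refine le_trans (measure_mono_ae ?_) ((measure_union_le _ _).trans h3)
    filter_upwards [hT x (by simp)] with θ h4 h5
    obtain ⟨h6, h7⟩ := Classical.not_imp.1 h5
    rcases h4 with h4 | ⟨-, h4, -⟩
    · exact Or.inl ⟨h6, h4.1, fun h8 => h7 (Or.inl h8)⟩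
    · exact Or.inr ⟨h6, h4.1, fun h8 => h7 (Or.inr h8)⟩
  filter_upwards [ae_all_iff.2 key] with θ hθ
  obtain ⟨R, hR⟩ := exists_nat_ge |θ|
  exact hθ R (abs_le.1 hR)

end Ty3A

open Ty3A

theorem ty3S (_hD : DensStmt) (hNb : NbStmt) (hG : AeGStmt) (hC : CardStmt) : Ty3Stmt := by
  intro C x h01 h12 h20
  have hA : ∀ y : ℂ, ‖x - y‖ < 1 / 10 → ∀ᵐ θ : ℝ, C.Gs x y θ 3 ∨ C.Gs x y θ 4 := by
    intro y hy
    filter_upwards [hG C x y 0 1 h01 hy, hG C x y 1 2 h12 hy, hG C x y 2 0 h20 hy, hC C x]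
      with θ ⟨k₁, a₁, b₁, c₁⟩ ⟨k₂, a₂, b₂, c₂⟩ ⟨k₃, a₃, b₃, c₃⟩ h
    by_contra hc
    have h3 : ∀ k, C.Gs x y θ k → k ≠ 3 ∧ k ≠ 4 := fun k hk =>
      ⟨fun e => hc (Or.inl (e ▸ hk)), fun e => hc (Or.inr (e ▸ hk))⟩
    have := h k₁ k₂ k₃ c₁.1 c₂.1 c₃.1
    have := h3 k₁ c₁
    have := h3 k₂ c₂
    have := h3 k₃ c₃
    omega
  have h0 := hA x (by simp)
  intro y hy
  filter_upwards [hA y hy, h0, ae_shift h0 (π / 3)] with θ h1 h2 h3
  rcases h1 with h1 | h1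
  · exact Or.inl h1
  refine Or.inr ⟨fun h4 => ?_, h1, h1⟩
  rcases h3 with h3 | h3
  · have h5 := (gs_self hNb h3).2
    rw [add_neg_cancel_right] at h5
    exact h5 h4
  · have h5 := (gs_self hNb h3).2
    rw [add_neg_cancel_right] at h5
    exact h5 h1.1

theorem hexS (hD : DensStmt) (hNb : NbStmt) : HexStmt := by
  intro C x p q q' h
  have h0 := h x (by simp)
  have h1 := anti hNb h
  have h2 := ae_shift h1 (-(π / 3))
  simp only [neg_add_cancel_right] at h2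
  set L : Set ℝ := {θ | C.Fr (x + e θ) p} with hL
  obtain ⟨m, hm⟩ := hD.2.2.2.2.1 L
    (ne_zero_of_anti (c := π / 3) (h1.mono fun θ h3 => (em (θ ∈ L)).imp id h3.2))
    (ne_zero_of_anti (c := π / 3) (h1.mono fun θ h3 =>
      (em (θ ∈ L)).symm.imp id fun h4 h5 => h3.1 h5 h4))
  have key : ∀ k : ℤ, Ess L (m + k * (π / 3)) ∧ Ess Lᶜ (m + k * (π / 3)) := by
    intro k
    induction k using Int.induction_on with
    | zero => simpa using hm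
    | succ k ih =>
      have e1 : m + ((k : ℤ) + 1 : ℤ) * (π / 3) = m + (k : ℤ) * (π / 3) + π / 3 := by
        push_cast; ring
      rw [e1]
      exact ⟨ess_shift (h1.mono fun θ h3 h4 => h3.2 h4) ih.2,
        ess_shift (h1.mono fun θ h3 h4 h5 => h3.1 h5 h4) ih.1⟩
    | pred k ih =>
      have e1 : m + (-(k : ℤ) - 1 : ℤ) * (π / 3) = m + (-(k : ℤ) : ℤ) * (π / 3) + -(π / 3) := by
        push_cast; ring
      rw [e1]
      exact ⟨ess_shift (A := Lᶜ) (h2.mono fun θ h3 h4 => by_contra fun h5 => h4 (h3.2 h5)) ih.2,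
        ess_shift (h2.mono fun θ h3 h4 => h3.1 h4) ih.1⟩
  refine ⟨m, fun k => ⟨ess_closure (h0.mono fun θ h3 h4 => ?_) (key k).1,
    ess_closure (h0.mono fun θ h3 h4 => ?_) (key k).2,
    ess_closure (h0.mono fun θ h3 h4 => ?_) (key k).2⟩⟩
  · exact h3.elim (fun h5 => h5.2.1) fun h5 => absurd h4 h5.1
  · exact h3.elim (fun h5 => absurd h5.1 h4) fun h5 => h5.2.1.2.1
  · exact h3.elim (fun h5 => absurd h5.1 h4) fun h5 => h5.2.2.2.1

theorem zfinS (hD : DensStmt) (hNb : NbStmt) (hU : UscStmt) (hI : InvStmt) (h3 : Ty3Stmt)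
    (h4 : Ty4Stmt) (h5 : No5Stmt) : ZfinStmt := by
  intro C K hK
  have key : ∀ t : Fin 5 × Fin 5 × Fin 5, {x | x ∈ K ∧ C.Ty x t.1 t.2.1 t.2.2}.Finite := by
    rintro ⟨p, q, q'⟩
    by_contra hinf
    obtain ⟨y, -, hy⟩ := Set.Infinite.exists_accPt_of_subset_isCompact hinf hK fun x hx => hx.1
    have hy' : ∀ δ > (0 : ℝ), ∃ x, x ≠ y ∧ dist x y < δ ∧ C.Ty x p q q' := by
      intro δ hδ
      obtain ⟨x, hx, hne⟩ := accPt_iff_nhds.1 hy _ (ball_mem_nhds y hδ)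
      exact ⟨x, hne, hx.1, hx.2.2⟩
    have hlim := limit hU fun δ hδ => (hy' δ hδ).imp fun x hx => hx.2
    refine hI {θ | C.Fr (y + e θ) p} (((hU C).1 p).preimage
      (continuous_const.add continuous_e).measurable) fun δ hδ => ?_
    obtain ⟨x, hne, hx, hT⟩ := hy' (min δ (1 / 10)) (by positivity)
    rw [dist_eq_norm] at hx
    have hx' : ‖x - y‖ < 1 / 10 := hx.trans_le (min_le_right _ _)
    refine ⟨x - y, sub_ne_zero.2 hne, hx.trans_le (min_le_left _ _), {θ | C.Fr (x + e θ) p},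
      anti hNb hT, fun σ hσ => ?_⟩
    have h6 : ∀ᵐ φ : ℝ, C.Fr (y + e (Nb σ (x - y) φ)) p ∨ C.Fr (y + e (Nb σ (x - y) φ)) q := by
      have h7 := hD.2.2.2.2.2.1 _ _ (by linarith) (hNb.2.2.2.2.1 σ hσ _ hx'.le)
        {θ | ¬ (C.Fr (y + e θ) p ∨ C.Fr (y + e θ) q)}
      rw [ae_iff.1 hlim, mul_zero] at h7
      exact ae_iff.2 (le_antisymm h7 zero_le)
    have h7 : ∀ φ j, C.Gs x y φ j → ¬ C.Fr (y + e (Nb σ (x - y) φ)) j := fun φ j h => by
      rcases hσ with rfl | rfl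
      · exact h.2.2.1
      · exact h.2.2.2
    filter_upwards [h6, hT y hx'] with φ h8 h9
    rcases h9 with h9 | ⟨h9, h10, -⟩
    · exact ⟨fun _ => h7 _ _ h9, fun _ => h9.1⟩
    · exact ⟨fun h => absurd h h9, fun h => absurd (h8.resolve_right (h7 _ _ h10)) h⟩
  refine (Set.finite_iUnion key).subset fun x hx => ?_
  obtain ⟨p, q, q', h⟩ := ty_of_cyc h3 h4 h5 hx.2
  exact mem_iUnion.2 ⟨(p, q, q'), hx.1, h⟩

end Vale.Agent.P032
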