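import Vale.Agent.P032.Stmts

/-! P032: the structure of a point whose star graph contains a four-cycle. -/

namespace Vale.Agent.P032

open MeasureTheory Set Filter Topology Metric
open scoped Real ENNReal BigOperators

namespace Ty4A

theorem ae_shift {p : ℝ → Prop} (h : ∀ᵐ t : ℝ, p t) (c : ℝ) : ∀ᵐ t : ℝ, p (t + c) :=
  (measurePreserving_add_right volume c).quasiMeasurePreserving.ae h

theorem ess_mono {A B : Set ℝ} {m : ℝ} (h : ∀ᵐ t : ℝ, t ∈ A → t ∈ B) (hA : Ess A m) :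
    Ess B m := by
  intro ε hε h0
  refine hA ε hε (le_antisymm (le_trans (measure_mono_ae ?_) h0.le) bot_le)
  exact h.mono fun t ht h2 => ⟨ht h2.1, h2.2⟩

theorem ess_union {A B : Set ℝ} {m : ℝ} (h : Ess (A ∪ B) m) : Ess A m ∨ Ess B m := by
  by_contra hc
  simp only [Ess, not_or, not_forall, not_not] at hc
  obtain ⟨⟨a, ha, h1⟩, ⟨b, hb, h2⟩⟩ := hc
  refine h (min a b) (lt_min ha hb) (measure_mono_null ?_ (measure_union_null h1 h2))
  rintro t ⟨h3 | h3, h4⟩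
  · exact Or.inl ⟨h3, ball_subset_ball (min_le_left _ _) h4⟩
  · exact Or.inr ⟨h3, ball_subset_ball (min_le_right _ _) h4⟩

theorem ess_shift {A : Set ℝ} {m c : ℝ} (h : Ess {θ | θ + c ∈ A} m) : Ess A (m + c) := by
  intro ε hε h0
  refine h ε hε ?_
  have := (measurePreserving_add_right volume c).quasiMeasurePreserving.preimage_null h0
  refine measure_mono_null ?_ this
  rintro t ⟨h1, h2⟩
  exact ⟨h1, by simpa [mem_ball, dist_add_right] using h2⟩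

theorem exists_ae {A : Set ℝ} (hA : volume A ≠ 0) {p : ℝ → Prop} (hp : ∀ᵐ t : ℝ, p t) :
    ∃ t ∈ A, p t :=
  Measure.exists_mem_of_measure_ne_zero_of_ae hA (ae_restrict_of_ae hp)

theorem ae_sin_ne (c : ℝ) : ∀ᵐ a : ℝ, Real.sin (c - a) ≠ 0 := by
  have : ({a : ℝ | Real.sin (c - a) = 0}).Countable := by
    refine (Set.countable_range fun n : ℤ => c - n * π).mono fun a ha => ?_
    obtain ⟨n, hn⟩ := Real.sin_eq_zero_iff.1 ha
    exact ⟨n, by simp only; linarith⟩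
  rw [ae_iff]
  simpa using this.measure_zero volume

theorem e_sub_shift (m : ℝ) : e m - e (m + π / 3) = e (m - π / 3) := by
  have h2 : 1 - e (π / 3) = e (-(π / 3)) := by
    apply Complex.ext
    · simp; norm_num
    · simp
  rw [e_add, sub_eq_add_neg m, e_add, ← h2]
  ring

theorem mem_a (C : Col) (x : ℂ) (θ : ℝ) : θ ∈ C.FS x {4} ↔ C.Fr (x + e θ) 4 := by
  simp [Col.FS]

theorem mem_two (C : Col) (x : ℂ) (θ : ℝ) (i j : Fin 5) :
    θ ∈ C.FS x {i, j} ↔ C.Fr (x + e θ) i ∧ C.Fr (x + e θ) j := by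
  simp [Col.FS]

theorem meas_FS (hU : UscStmt) (C : Col) (x : ℂ) (X : Finset (Fin 5)) :
    MeasurableSet (C.FS x X) := by
  have : C.FS x X = ⋂ j ∈ X, (fun θ => x + e θ) ⁻¹' {z | C.Fr z j} := by
    ext θ
    simp [Col.FS]
  rw [this]
  exact Finset.measurableSet_biInter _ fun j _ =>
    (continuous_const.add continuous_e).measurable ((hU C).1 j)

theorem three (hG : AeGStmt) (hC : CardStmt) (C : Col) (x y : ℂ) (h01 : C.Star x 0 1)
    (h12 : C.Star x 1 2) (h23 : C.Star x 2 3) (h30 : C.Star x 3 0) (hy : ‖x - y‖ < 1 / 10) :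
    ∀ᵐ θ : ℝ, (C.Gs x y θ 4 ∨ (C.Gs x y θ 0 ∧ C.Gs x y θ 2) ∨ (C.Gs x y θ 1 ∧ C.Gs x y θ 3)) ∧
      ∀ i j k : Fin 5, C.Fr (x + e θ) i → C.Fr (x + e θ) j →
        C.Fr (x + e θ) k → i = j ∨ i = k ∨ j = k := by
  filter_upwards [hG C x y 0 1 h01 hy, hG C x y 1 2 h12 hy, hG C x y 2 3 h23 hy,
    hG C x y 3 0 h30 hy, hC C x] with θ h1 h2 h3 h4 h5
  refine ⟨?_, h5⟩
  by_cases g4 : C.Gs x y θ 4
  · exact Or.inl g4
  right
  have key : ∀ i j : Fin 5, (∃ k, k ≠ i ∧ k ≠ j ∧ C.Gs x y θ k) → ∀ a b : Fin 5,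
      (∀ k : Fin 5, k = i ∨ k = j ∨ k = a ∨ k = b ∨ k = 4) → C.Gs x y θ a ∨ C.Gs x y θ b := by
    rintro i j ⟨k, k1, k2, k3⟩ a b hab
    rcases hab k with h | h | h | h | h
    · exact absurd h k1
    · exact absurd h k2
    · exact Or.inl (h ▸ k3)
    · exact Or.inr (h ▸ k3)
    · exact absurd (h ▸ k3) g4
  have a1 := key 0 1 h1 2 3 (by decide)
  have a2 := key 1 2 h2 0 3 (by decide)
  have a3 := key 2 3 h3 0 1 (by decide)
  have a4 := key 3 0 h4 1 2 (by decide)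
  tauto

/-- two essential points of the same pair of colours are not `π / 3` apart -/
theorem not_ess_ess (hD : DensStmt) (hU : UscStmt) (hX : CrossColStmt) (C : Col) (x : ℂ)
    (X Y : Finset (Fin 5)) (hXY : ∀ j, j ≠ 4 → j ∈ X ∨ j ∈ Y) (hY : volume (C.FS x Y) ≠ 0)
    (m : ℝ) (h1 : Ess (C.FS x X) m) (h2 : Ess (C.FS x X) (m + π / 3)) : False := by
  obtain ⟨a, ha, hd, hs⟩ := exists_ae hY
    ((hD.1 _ (meas_FS hU C x Y)).and (ae_sin_ne (m - π / 3)))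
  have e1 : e m - e (m + π / 3) + e a - e a = e (m - π / 3) := by
    rw [← e_sub_shift]
    ring
  have e2 : ((e m - e (m + π / 3) + e a - e a) * e (-a)).im ≠ 0 := by
    rw [e1, ← e_add, e_im, ← sub_eq_add_neg]
    exact hs
  exact hX C x 4 X Y X Y m (m + π / 3) a a hXY hXY h1 h2 (hd ha) (hd ha)
    (by rw [e1, norm_e]) e2 e2

theorem not_adj (hD : DensStmt) (hU : UscStmt) (hX : CrossColStmt) (C : Col) (x : ℂ)
    (X Y : Finset (Fin 5)) (hXY : ∀ j, j ≠ 4 → j ∈ X ∨ j ∈ Y)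
    (m : ℝ) (h1 : Ess (C.FS x X) m) (h2 : Ess (C.FS x Y) m) :
    ∀ᵐ θ : ℝ, θ ∈ C.FS x X → θ + π / 3 ∉ C.FS x Y := by
  filter_upwards [hD.1 _ (meas_FS hU C x X), ae_shift (hD.1 _ (meas_FS hU C x Y)) (π / 3)]
    with θ d1 d2 g1 g2
  have hs : Real.sin (π / 3) ≠ 0 := by
    rw [Real.sin_pi_div_three]
    positivity
  have e1 : e m - e m + e (θ + π / 3) - e θ = e (θ + π / 3) - e θ := by ring
  refine hX C x 4 X Y Y X m m (θ + π / 3) θ hXY (fun j hj => (hXY j hj).symm) h1 h2 (d2 g2)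
    (d1 g1) (by rw [e1, norm_e_sub_e_pi_div_three]) ?_ ?_
  · rw [e1, sub_mul, ← e_add, ← e_add, Complex.sub_im, e_im, e_im]
    have : θ + -(θ + π / 3) = -(π / 3) := by ring
    rw [this, add_neg_cancel, Real.sin_zero, Real.sin_neg, zero_sub, neg_neg]
    exact hs
  · rw [e1, sub_mul, ← e_add, ← e_add, Complex.sub_im, e_im, e_im]
    have : θ + π / 3 + -θ = π / 3 := by ring
    rw [this, add_neg_cancel, Real.sin_zero, sub_zero]
    exact hs

theorem caseA (hD : DensStmt) {La Lb Lc : Set ℝ} (hb : volume Lb ≠ 0) (hc : volume Lc ≠ 0)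
    (hcov : ∀ᵐ θ : ℝ, θ ∈ La ∨ θ ∈ Lb ∨ θ ∈ Lc) (ha : ∀ᵐ θ : ℝ, θ ∈ La → θ + π / 3 ∉ La)
    (ub : ∀ m, Ess Lb m → Ess Lb (m + π / 3) → False)
    (uc : ∀ m, Ess Lc m → Ess Lc (m + π / 3) → False) : ∃ m, Ess Lb m ∧ Ess Lc m := by
  by_contra hA
  set S : Set ℝ := Lb ∪ {θ | θ + π / 3 ∈ Lc} with hS
  set T : Set ℝ := Lc ∪ {θ | θ + π / 3 ∈ Lb} with hT
  have key : ∀ m, Ess S m → Ess T m → False := by
    intro m h1 h2
    rcases ess_union h1 with h1 | h1 <;> rcases ess_union h2 with h2 | h2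
    · exact hA ⟨m, h1, h2⟩
    · exact ub m h1 (ess_shift h2)
    · exact uc m h2 (ess_shift h1)
    · exact hA ⟨_, ess_shift h2, ess_shift h1⟩
  by_cases h0 : volume Sᶜ = 0
  · obtain ⟨m, hm, hm'⟩ := exists_ae hc (hD.2.2.1 Lc)
    have h1 : Ess Lc m := hm' hm
    refine key m (ess_mono ?_ h1) (ess_mono (Eventually.of_forall fun t ht => Or.inl ht) h1)
    exact (show ∀ᵐ t : ℝ, t ∈ S from h0).mono fun t ht _ => ht
  · obtain ⟨m, h1, h2⟩ := hD.2.2.2.2.1 S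
      (fun h => hb (measure_mono_null subset_union_left h)) h0
    refine key m h1 (ess_mono ?_ h2)
    filter_upwards [hcov, ae_shift hcov (π / 3), ha] with θ c1 c2 c3 c4
    simp only [hS, hT, mem_compl_iff, mem_union, mem_ofPred_eq] at c4 ⊢
    tauto

theorem exists_eps {A : Set ℝ} {t : ℝ} (h : ¬ Ess A t) :
    ∀ᶠ ε in 𝓝[>] (0 : ℝ), ∀ᵐ φ : ℝ, |φ - t| < ε → φ ∉ A := by
  simp only [Ess, not_forall, not_not] at h
  obtain ⟨a, ha, h1⟩ := h
  have : ∀ᶠ ε in 𝓝[>] (0 : ℝ), ε < a := mem_nhdsWithin_of_mem_nhds (Iio_mem_nhds ha)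
  refine this.mono fun ε hε => ?_
  refine (measure_eq_zero_iff_ae_notMem.1 h1).mono fun φ h2 h3 h4 => h2 ⟨h4, ?_⟩
  rw [mem_ball, Real.dist_eq]
  exact h3.trans hε

theorem ae_nb (hD : DensStmt) (hNb : NbStmt) {σ : ℝ} (hσ : σ = 1 ∨ σ = -1) {v : ℂ}
    (hv : ‖v‖ ≤ 1 / 10) {p : ℝ → Prop} (h : ∀ᵐ t : ℝ, p t) : ∀ᵐ t : ℝ, p (Nb σ v t) := by
  have := hD.2.2.2.2.2.1 (Nb σ v) (2 * ‖v‖) (by linarith) (hNb.2.2.2.2.1 σ hσ v hv) {t | ¬ p t}
  rw [ae_iff] at h ⊢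
  rw [h, mul_zero] at this
  exact le_antisymm this bot_le

end Ty4A

open Ty4A in
theorem ty4S (hD : DensStmt) (hNb : NbStmt) (hU : UscStmt) (hG : AeGStmt) (hC : CardStmt)
    (hX : CrossColStmt) (h6 : Spread6Stmt) : Ty4Stmt := by
  intro C x h01 h12 h23 h30
  by_cases hc : volume (C.FS x {1, 3}) = 0
  · left
    intro y hy
    filter_upwards [three hG hC C x y h01 h12 h23 h30 hy, measure_eq_zero_iff_ae_notMem.1 hc]
      with θ ⟨h1, h2⟩ h3
    rcases h1 with h1 | h1 | h1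
    · exact Or.inl h1
    · exact Or.inr ⟨fun h => absurd (h2 0 2 4 h1.1.1 h1.2.1 h) (by decide), h1⟩
    · exact absurd ((mem_two C x θ 1 3).2 ⟨h1.1.1, h1.2.1⟩) h3
  by_cases hb : volume (C.FS x {0, 2}) = 0
  · right
    intro y hy
    filter_upwards [three hG hC C x y h01 h12 h23 h30 hy, measure_eq_zero_iff_ae_notMem.1 hb]
      with θ ⟨h1, h2⟩ h3
    rcases h1 with h1 | h1 | h1
    · exact Or.inl h1
    · exact absurd ((mem_two C x θ 0 2).2 ⟨h1.1.1, h1.2.1⟩) h3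
    · exact Or.inr ⟨fun h => absurd (h2 1 3 4 h1.1.1 h1.2.1 h) (by decide), h1⟩
  exfalso
  set La := C.FS x {4} with hLa
  set Lb := C.FS x {0, 2} with hLb
  set Lc := C.FS x {1, 3} with hLc
  have h0 := three hG hC C x x h01 h12 h23 h30 (by simp)
  have hnb : ∀ θ : ℝ, Nb 1 (x - x) θ = θ + π / 3 := fun θ => by
    rw [sub_self, hNb.2.2.1, one_mul]
  have hcov : ∀ᵐ θ : ℝ, θ ∈ La ∨ θ ∈ Lb ∨ θ ∈ Lc := by
    filter_upwards [h0] with θ ⟨h1, _⟩
    rcases h1 with h1 | h1 | h1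
    · exact Or.inl ((mem_a C x θ).2 h1.1)
    · exact Or.inr (Or.inl ((mem_two C x θ 0 2).2 ⟨h1.1.1, h1.2.1⟩))
    · exact Or.inr (Or.inr ((mem_two C x θ 1 3).2 ⟨h1.1.1, h1.2.1⟩))
  have haa : ∀ᵐ θ : ℝ, θ ∈ La → θ + π / 3 ∉ La := by
    filter_upwards [h0] with θ ⟨h1, h2⟩ h3 h4
    have h3' := (mem_a C x θ).1 h3
    rcases h1 with h1 | h1 | h1
    · exact h1.2.2.1 (by rw [hnb]; exact (mem_a C x _).1 h4)
    · exact absurd (h2 0 2 4 h1.1.1 h1.2.1 h3') (by decide)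
    · exact absurd (h2 1 3 4 h1.1.1 h1.2.1 h3') (by decide)
  have hbb : ∀ᵐ θ : ℝ, θ ∈ Lb → θ + π / 3 ∉ Lb := by
    filter_upwards [h0] with θ ⟨h1, h2⟩ h3 h4
    have h3' := (mem_two C x θ 0 2).1 h3
    rcases h1 with h1 | h1 | h1
    · exact absurd (h2 0 2 4 h3'.1 h3'.2 h1.1) (by decide)
    · exact h1.1.2.2.1 (by rw [hnb]; exact ((mem_two C x _ 0 2).1 h4).1)
    · exact absurd (h2 0 2 1 h3'.1 h3'.2 h1.1.1) (by decide)
  have hcc : ∀ᵐ θ : ℝ, θ ∈ Lc → θ + π / 3 ∉ Lc := by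
    filter_upwards [h0] with θ ⟨h1, h2⟩ h3 h4
    have h3' := (mem_two C x θ 1 3).1 h3
    rcases h1 with h1 | h1 | h1
    · exact absurd (h2 1 3 4 h3'.1 h3'.2 h1.1) (by decide)
    · exact absurd (h2 1 3 0 h3'.1 h3'.2 h1.1.1) (by decide)
    · exact h1.1.2.2.1 (by rw [hnb]; exact ((mem_two C x _ 1 3).1 h4).1)
  have hab : ∀ᵐ θ : ℝ, θ ∈ Lb → θ ∈ Laᶜ := by
    filter_upwards [h0] with θ ⟨_, h2⟩ h3 h4
    have h3' := (mem_two C x θ 0 2).1 h3
    exact absurd (h2 0 2 4 h3'.1 h3'.2 ((mem_a C x θ).1 h4)) (by decide)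
  have ub := not_ess_ess hD hU hX C x {0, 2} {1, 3} (by decide) hc
  have uc := not_ess_ess hD hU hX C x {1, 3} {0, 2} (by decide) hb
  obtain ⟨m₀, eb, ec⟩ := caseA hD hb hc hcov haa ub uc
  have hbc := not_adj hD hU hX C x {0, 2} {1, 3} (by decide) m₀ eb ec
  have hcb := not_adj hD hU hX C x {1, 3} {0, 2} (by decide) m₀ ec eb
  have hanti : ∀ᵐ φ : ℝ, φ + π / 3 ∈ Laᶜ ↔ φ ∉ Laᶜ := by
    filter_upwards [hcov, ae_shift hcov (π / 3), haa, hbb, hcc, hbc, hcb] with φ c1 c2 c3 c4 c5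
      c6 c7
    simp only [mem_compl_iff, not_not]
    tauto
  have hW : volume Laᶜ ≠ 0 := fun h => hb (le_antisymm
    (le_trans (measure_mono_ae (hab.mono fun t ht h' => ht h')) h.le) bot_le)
  have hW' : volume Laᶜᶜ ≠ 0 := by
    intro h
    have h1 : ∀ᵐ t : ℝ, t ∈ Laᶜ := h
    obtain ⟨t, t1, t2, t3⟩ := (h1.and ((ae_shift h1 (π / 3)).and hanti)).exists
    exact t3.1 t2 t1
  have hstep : ∀ t, Ess Laᶜ t ∧ Ess Laᶜᶜ t → Ess Laᶜ (t + π / 3) ∧ Ess Laᶜᶜ (t + π / 3) := by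
    rintro t ⟨h1, h2⟩
    exact ⟨ess_shift (ess_mono (hanti.mono fun s hs h => hs.2 h) h2),
      ess_shift (ess_mono (hanti.mono fun s hs h h' => hs.1 h' h) h1)⟩
  have hor : ∀ t, Ess Laᶜ t → Ess Lb t ∨ Ess Lc t := fun t h =>
    ess_union (ess_mono (hcov.mono fun s hs h' => hs.resolve_left h') h)
  obtain ⟨m, ⟨w1, w2⟩, w3⟩ : ∃ m, (Ess Laᶜ m ∧ Ess Laᶜᶜ m) ∧ Ess Lb m := by
    obtain ⟨m, hm⟩ := hD.2.2.2.2.1 Laᶜ hW hW'
    rcases hor m hm.1 with h | h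
    · exact ⟨m, hm, h⟩
    · exact ⟨m + π / 3, hstep m hm, (hor _ (hstep m hm).1).resolve_right (uc m h)⟩
  have hk : ∀ k : ℕ, (Ess Laᶜ (m + k * (2 * π / 3)) ∧ Ess Laᶜᶜ (m + k * (2 * π / 3))) ∧
      Ess Lb (m + k * (2 * π / 3)) := by
    intro k
    induction k with
    | zero => simpa using ⟨⟨w1, by simpa using w2⟩, w3⟩
    | succ k ih =>
      have e1 : m + ((k + 1 : ℕ) : ℝ) * (2 * π / 3) = m + k * (2 * π / 3) + π / 3 + π / 3 := by
        push_cast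
        ring
      rw [e1]
      have s1 := hstep _ ih.1
      have s2 := hstep _ s1
      have c1 := (hor _ s1.1).resolve_left (ub _ ih.2)
      exact ⟨s2, (hor _ s2.1).resolve_right (uc _ c1)⟩
  have hev : ∀ᶠ ε in 𝓝[>] (0 : ℝ), 0 < ε ∧ ∀ k ∈ Finset.range 3,
      (∀ᵐ φ : ℝ, |φ - (m + k * (2 * π / 3))| < ε → φ ∉ Lc) ∧
      (∀ᵐ φ : ℝ, |φ - (m + k * (2 * π / 3) + 1 * (π / 3))| < ε → φ ∉ Lb) ∧
      (∀ᵐ φ : ℝ, |φ - (m + k * (2 * π / 3) + (-1) * (π / 3))| < ε → φ ∉ Lb) := by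
    refine (show ∀ᶠ ε in 𝓝[>] (0 : ℝ), 0 < ε from self_mem_nhdsWithin).and ?_
    rw [eventually_all_finset]
    intro k _
    refine (exists_eps fun h => ?_).and ((exists_eps fun h => ?_).and (exists_eps fun h => ?_))
    · exact uc _ h ((hor _ (hstep _ (hk k).1).1).resolve_left (ub _ (hk k).2))
    · exact ub _ (hk k).2 (by rwa [one_mul] at h)
    · refine ub _ h ?_
      have e1 : m + k * (2 * π / 3) + (-1) * (π / 3) + π / 3 = m + k * (2 * π / 3) := by ring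
      rw [e1]
      exact (hk k).2
  obtain ⟨ε, hε, hεk⟩ := hev.exists
  refine h6 Laᶜ m (ε / 2) (meas_FS hU C x {4}).compl hanti w1 w2 (half_pos hε) fun δ hδ => ?_
  have hpair := Measure.ae_ae_of_ae_prod
    (show ∀ᵐ p : ℝ × ℝ ∂(volume.prod volume), _ from (hU C).2.1 x)
  set r := min (min δ (1 / 10)) (ε / 4) with hr
  have hr0 : 0 < r := lt_min (lt_min hδ (by norm_num)) (by linarith)
  have hr1 : r ≤ δ := (min_le_left _ _).trans (min_le_left _ _)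
  have hr2 : r ≤ 1 / 10 := (min_le_left _ _).trans (min_le_right _ _)
  have hr3 : r ≤ ε / 4 := min_le_right _ _
  obtain ⟨p, ⟨p1, p2⟩, p3, p4⟩ := exists_ae (eb (r / 2) (half_pos hr0)) (hpair.and (hC C x))
  obtain ⟨q, ⟨q1, q2⟩, q3⟩ := exists_ae (ec (r / 2) (half_pos hr0)) hpair
  have p1' := (mem_two C x p 0 2).1 p1
  have q1' := (mem_two C x q 1 3).1 q1
  have hv : ‖e q - e p‖ < r := by
    refine (norm_e_sub_le q p).trans_lt ?_
    rw [mem_ball, Real.dist_eq, abs_lt] at p2 q2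
    rw [abs_lt]
    constructor <;> linarith [p2.1, p2.2, q2.1, q2.2]
  refine ⟨e q - e p, fun h => ?_, hv.trans_le hr1, fun σ hσ k hk3 => ?_⟩
  · rw [sub_eq_zero] at h
    rw [h] at q1'
    exact absurd (p4 0 2 1 p1'.1 p1'.2 q1'.1) (by decide)
  have hv' : ‖e q - e p‖ ≤ 1 / 10 := hv.le.trans hr2
  obtain ⟨k1, k2, k3⟩ := hεk k (Finset.mem_range.2 hk3)
  have k4 : ∀ᵐ φ : ℝ, |φ - (m + k * (2 * π / 3) + σ * (π / 3))| < ε → φ ∉ Lb := by
    rcases hσ with rfl | rfl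
    · exact k2
    · exact k3
  filter_upwards [k1, hcov, q3, ae_nb hD hNb hσ hv' k4, ae_nb hD hNb hσ hv' hcov,
    ae_nb hD hNb hσ hv' p3] with φ a1 a2 a3 a4 a5 a6 a7 a8 a9
  have b1 : φ ∈ Lb := (a2.resolve_left a8).resolve_right (a1 (by linarith))
  have b2 : Nb σ (e q - e p) φ ∈ Lc := by
    refine (a5.resolve_left a9).resolve_left (a4 ?_)
    have := hNb.2.2.2.2.2.1 σ hσ (e q - e p) 0 hv' (by simp) φ
    rw [hNb.2.2.1, sub_zero] at this
    rw [abs_le] at this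
    rw [abs_lt] at a7 ⊢
    constructor <;> linarith [this.1, this.2, a7.1, a7.2]
  have b1' := (mem_two C x _ 0 2).1 b1
  have b2' := (mem_two C x _ 1 3).1 b2
  have four : ∀ j : Fin 5, j = 0 ∨ j = 2 ∨ j = 1 ∨ j = 3 ∨ j = 4 := by decide
  obtain ⟨i, i1, i2, i3⟩ := a3
  obtain ⟨j, j1, j2, j3⟩ := a6
  have hi : i = 4 := by
    rcases four i with h | h | h | h | h
    · exact absurd (h ▸ b1'.1) i3
    · exact absurd (h ▸ b1'.2) i3
    · exact absurd (h ▸ q1'.1) i2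
    · exact absurd (h ▸ q1'.2) i2
    · exact h
  have hj : j = 4 := by
    rcases four j with h | h | h | h | h
    · exact absurd (h ▸ p1'.1) j2
    · exact absurd (h ▸ p1'.2) j2
    · exact absurd (h ▸ b2'.1) j3
    · exact absurd (h ▸ b2'.2) j3
    · exact h
  rw [hi] at i1
  rw [hj] at j1
  refine C.free 4 _ i1 _ j1 ?_
  have hs := hNb.1 (e q - e p) φ hv'
  rw [dist_eq_norm]
  rcases hσ with rfl | rfl
  · have : x + e q + e φ - (x + e p + e (Nb 1 (e q - e p) φ)) = e (Nb (-1) (e q - e p) φ) := by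
      linear_combination -hs
    simpa only [this] using norm_e _
  · have : x + e q + e φ - (x + e p + e (Nb (-1) (e q - e p) φ)) = e (Nb 1 (e q - e p) φ) := by
      linear_combination -hs
    simpa only [this] using norm_e _

end Vale.Agent.P032
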