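import Vale.Agent.P032.Stmts

/-! P032: measurability and upper semicontinuity of the missing colours. -/

namespace Vale.Agent.P032

open MeasureTheory Set Filter Topology Metric
open scoped Real ENNReal BigOperators symmDiff

namespace UscA

theorem ac_tendsto {α ι : Type*} [MeasurableSpace α] {μ ν : Measure α} [IsFiniteMeasure μ]
    [SigmaFinite ν] (h : μ ≪ ν) {l : Filter ι} {s : ι → Set α}
    (hs : Tendsto (fun i => ν (s i)) l (𝓝 0)) : Tendsto (fun i => μ (s i)) l (𝓝 0) := by
  have := tendsto_setLIntegral_zero (μ := ν) (f := μ.rnDeriv ν)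
    (Measure.lintegral_rnDeriv_lt_top μ ν).ne hs
  simpa only [Measure.setLIntegral_rnDeriv h] using this

theorem meas_fr (C : Col) (j : Fin 5) : MeasurableSet {z | C.Fr z j} := by
  have h : MeasurableSet {p : ℂ × ℝ | p.1 + e p.2 ∈ C.D j} :=
    (continuous_fst.add (continuous_e.comp continuous_snd)).measurable (C.meas j)
  have h2 := measurable_measure_prodMk_left (ν := (volume : Measure ℝ)) h (measurableSet_singleton 0)
  have e1 : {z | C.Fr z j} = (fun z : ℂ => volume (Prod.mk z ⁻¹' {p : ℂ × ℝ | p.1 + e p.2 ∈ C.D j}))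
      ⁻¹' {0} := by
    ext z
    exact measure_eq_zero_iff_ae_notMem.symm
  rwa [e1]

theorem cont_F (x : ℂ) : Continuous fun p : ℝ × ℝ => x + e p.1 + e p.2 :=
  (continuous_const.add (continuous_e.comp continuous_fst)).add (continuous_e.comp continuous_snd)

theorem ae_left (C : Col) (x : ℂ) (j : Fin 5) :
    ∀ᵐ p : ℝ × ℝ, x + e p.1 + e p.2 ∈ C.D j → ¬ C.Fr (x + e p.1) j := by
  refine (Measure.ae_prod_iff_ae_ae (MeasurableSet.imp ((cont_F x).measurable (C.meas j))
    ((continuous_const.add (continuous_e.comp continuous_fst)).measurable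
      (meas_fr C j)).compl)).2 (Eventually.of_forall fun a => ?_)
  by_cases h : C.Fr (x + e a) j
  · exact h.mono fun b hb hb' => absurd hb' hb
  · exact Eventually.of_forall fun b _ => h

theorem vol_tendsto {D : Set ℂ} (hD : MeasurableSet D) (x : ℂ) :
    Tendsto (fun x' => volume {w : ℂ | ‖w‖ ≤ 2 ∧ x + w ∈ D ∧ x' + w ∉ D}) (𝓝 x) (𝓝 0) := by
  let f : ℂ → C(ℂ, ℂ) := fun y => ⟨fun w => y + w, by fun_prop⟩
  have hf : Continuous f := ContinuousMap.continuous_of_continuous_uncurry _ (by
    exact continuous_add)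
  have h := tendsto_measure_symmDiff_preimage_nhds_zero (μ := volume) (ν := volume) (hf.tendsto x)
    (Eventually.of_forall fun y => measurePreserving_add_left volume y)
    (measurePreserving_add_left volume x) (s := D ∩ closedBall x 2)
    (hD.inter measurableSet_closedBall).nullMeasurableSet
    ((measure_mono inter_subset_right).trans_lt measure_closedBall_lt_top).ne
  refine tendsto_of_tendsto_of_tendsto_of_le_of_le tendsto_const_nhds h (fun _ => zero_le)
    fun y => measure_mono fun w hw => Or.inr ⟨⟨hw.2.1, ?_⟩, fun h' => hw.2.2 h'.1⟩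
  simpa [f, dist_eq_norm] using hw.1

end UscA

open UscA in
theorem uscS (hN : NullStmt) : UscStmt := by
  refine fun C => ⟨meas_fr C, fun x => ?_, fun x j R ε hε => ?_⟩
  · have h0 : volume {w : ℂ | ¬ ∃ j, x + w ∈ C.D j} = 0 :=
      (measurePreserving_add_left volume x).quasiMeasurePreserving.ae C.cover
    have h2 : ∀ j, ∀ᵐ p : ℝ × ℝ, x + e p.2 + e p.1 ∈ C.D j → ¬ C.Fr (x + e p.2) j := fun j =>
      (Measure.measurePreserving_swap (μ := (volume : Measure ℝ))
        (ν := (volume : Measure ℝ))).quasiMeasurePreserving.ae (ae_left C x j)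
    filter_upwards [hN.1 _ h0, ae_all_iff.2 (ae_left C x), ae_all_iff.2 h2] with p p1 p2 p3
    obtain ⟨j, hj⟩ := not_not.1 p1
    rw [← add_assoc] at hj
    exact ⟨j, hj, p2 j hj, p3 j (by rwa [add_right_comm])⟩
  · set lam : Measure ℝ := volume.restrict (Icc (-R) R) with hlam
    set γ : Measure ℝ := (volume : Measure ℝ).toFinite with hγ
    have hF : Measurable fun p : ℝ × ℝ => e p.1 + e p.2 := by simpa using (cont_F 0).measurable
    have hac : (lam.prod γ).map (fun p : ℝ × ℝ => e p.1 + e p.2) ≪ volume := by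
      refine Measure.AbsolutelyContinuous.mk fun N hNm hN0 => ?_
      rw [Measure.map_apply hF hNm]
      exact (Measure.absolutelyContinuous_restrict.prod (toFinite_absolutelyContinuous _))
        (measure_eq_zero_iff_ae_notMem.2 (hN.1 N hN0))
    have h1 := ac_tendsto hac (vol_tendsto (C.meas j) x)
    have hS : MeasurableSet {p : ℝ × ℝ | x + e p.1 + e p.2 ∈ C.D j} :=
      (cont_F x).measurable (C.meas j)
    set H : ℝ → ℝ≥0∞ := fun a => γ (Prod.mk a ⁻¹' {p : ℝ × ℝ | x + e p.1 + e p.2 ∈ C.D j}) with hH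
    have hHm : Measurable H := measurable_measure_prodMk_left hS
    have hfin : IsFiniteMeasure (lam.withDensity H) := isFiniteMeasure_withDensity (by
      rw [← Measure.prod_apply hS]
      exact measure_ne_top _ _)
    have hB : ∀ y : ℂ, MeasurableSet {a : ℝ | C.Fr (y + e a) j} := fun y =>
      (continuous_const.add continuous_e).measurable (meas_fr C j)
    have h2 : Tendsto (fun x' => lam.withDensity H {a | C.Fr (x' + e a) j}) (𝓝 x) (𝓝 0) := by
      refine tendsto_of_tendsto_of_tendsto_of_le_of_le tendsto_const_nhds h1 (fun _ => zero_le)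
        fun y => ?_
      have hT : MeasurableSet {p : ℝ × ℝ | x + e p.1 + e p.2 ∈ C.D j ∧ y + e p.1 + e p.2 ∉ C.D j} :=
        hS.inter ((cont_F y).measurable (C.meas j)).compl
      refine le_trans ?_ ((measure_mono (s := {p : ℝ × ℝ | x + e p.1 + e p.2 ∈ C.D j ∧
        y + e p.1 + e p.2 ∉ C.D j}) fun p hp => ?_).trans (Measure.le_map_apply hF.aemeasurable _))
      · rw [withDensity_apply _ (hB y), Measure.prod_apply hT]
        refine (setLIntegral_mono' (hB y) fun a ha => ?_).trans (setLIntegral_le_lintegral _ _)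
        refine measure_mono_ae ?_
        filter_upwards [(toFinite_absolutelyContinuous _).ae_le ha] with b hb hb'
        exact ⟨hb', hb⟩
      · refine ⟨(norm_add_le _ _).trans (by simp [one_add_one_eq_two]), ?_⟩
        simpa only [add_assoc, mem_setOf_eq] using hp
    have hac2 : lam.restrict {a | H a ≠ 0} ≪ lam.withDensity H := by
      refine Measure.AbsolutelyContinuous.mk fun s hs h0 => ?_
      rw [Measure.restrict_apply hs, inter_comm]
      exact (withDensity_apply_eq_zero hHm).1 h0
    have h3 := (ac_tendsto hac2 h2).eventually (eventually_le_nhds (ENNReal.ofReal_pos.2 hε))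
    obtain ⟨δ, hδ, h4⟩ := Metric.eventually_nhds_iff.1 h3
    refine ⟨δ, hδ, fun x' hx' => le_trans ?_ (h4 hx')⟩
    rw [Measure.restrict_apply (hB x'), hlam, Measure.restrict_apply' measurableSet_Icc]
    refine measure_mono fun a ha => ⟨⟨ha.2.1, fun h0 => ha.2.2 ?_⟩, ha.1⟩
    exact measure_eq_zero_iff_ae_notMem.1 (toFinite_apply_eq_zero_iff.1 h0)

end Vale.Agent.P032
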