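import Vale.Agent.P032.Stmts

/-! P032: van der Corput type inequalities for radial positive definite functions. -/

namespace Vale.Agent.P032

open Finset
open scoped BigOperators

namespace VdcA

variable {X : Type}

theorem bdd_const (c : ℝ) : Bdd fun _ : X => c := ⟨|c|, fun _ => le_rfl⟩

theorem bdd_add {f g : X → ℝ} (hf : Bdd f) (hg : Bdd g) : Bdd fun x => f x + g x := by
  obtain ⟨A, hA⟩ := hf
  obtain ⟨B, hB⟩ := hg
  exact ⟨A + B, fun x => (abs_add_le _ _).trans (add_le_add (hA x) (hB x))⟩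

theorem bdd_mul {f g : X → ℝ} (hf : Bdd f) (hg : Bdd g) : Bdd fun x => f x * g x := by
  obtain ⟨A, hA⟩ := hf
  obtain ⟨B, hB⟩ := hg
  refine ⟨A * B, fun x => ?_⟩
  rw [abs_mul]
  exact mul_le_mul (hA x) (hB x) (abs_nonneg _) ((abs_nonneg _).trans (hA x))

theorem bdd_sum {ι : Type} (s : Finset ι) (f : ι → X → ℝ) (hf : ∀ i, Bdd (f i)) :
    Bdd fun x => ∑ i ∈ s, f i x := by
  classical
  induction s using Finset.induction_on with
  | empty => simpa using bdd_const 0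
  | insert a s ha ih =>
    simp only [Finset.sum_insert ha]
    exact bdd_add (hf a) ih

theorem M_sum (m : Mean X) {ι : Type} (s : Finset ι) (f : ι → X → ℝ) (hf : ∀ i, Bdd (f i)) :
    m.M (fun x => ∑ i ∈ s, f i x) = ∑ i ∈ s, m.M (f i) := by
  classical
  induction s using Finset.induction_on with
  | empty => simpa using m.const 0
  | insert a s ha ih =>
    simp only [Finset.sum_insert ha]
    rw [m.add _ _ (hf a) (bdd_sum s f hf), ih]

theorem bdd_expect {ι : Type} [Fintype ι] (f : ι → X → ℝ) (hf : ∀ i, Bdd (f i)) :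
    Bdd fun x => 𝔼 i, f i x := by
  simp only [Fintype.expect_eq_sum_div_card, div_eq_inv_mul]
  exact bdd_mul (bdd_const _) (bdd_sum _ f hf)

theorem M_expect (m : Mean X) {ι : Type} [Fintype ι] (f : ι → X → ℝ) (hf : ∀ i, Bdd (f i)) :
    m.M (fun x => 𝔼 i, f i x) = 𝔼 i, m.M (f i) := by
  simp only [Fintype.expect_eq_sum_div_card, div_eq_inv_mul]
  rw [m.smul _ _ (bdd_sum _ f hf), M_sum m _ f hf]

theorem M_sq (m : Mean X) (f g : X → ℝ) (hf : Bdd f) (hg : Bdd g) (h : ∀ x, f x ^ 2 ≤ g x) :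
    m.M f ^ 2 ≤ m.M g := by
  have h1 := m.mono (fun x => 2 * m.M f * f x) (fun x => g x + m.M f ^ 2)
    (bdd_mul (bdd_const _) hf) (bdd_add hg (bdd_const _))
    fun x => by nlinarith [h x, sq_nonneg (f x - m.M f)]
  rw [m.smul _ _ hf, m.add _ _ hg (bdd_const _), m.const] at h1
  nlinarith

theorem expect_sq {ι : Type} [Fintype ι] [Nonempty ι] (f : ι → ℝ) :
    (𝔼 i, f i) ^ 2 ≤ 𝔼 i, f i ^ 2 := by
  have h := Finset.expect_mul_sq_le_sq_mul_sq univ f fun _ => 1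
  simpa using h

theorem cs (hG : GnsStmt) {φ : ℂ → ℝ} (hφ : PD φ) (h0 : φ 0 ≤ 1) {ι : Type} [Fintype ι]
    [Nonempty ι] (x : ι → ℂ) (y : ℂ) : (𝔼 i, φ (x i - y)) ^ 2 ≤ 𝔼 i, 𝔼 j, φ (x i - x j) := by
  obtain ⟨H, _, _, T, ξ, -, -, hT⟩ := hG ℂ φ hφ
  have h1 : inner ℝ (∑ i, T (x i) ξ) (T y ξ) = ∑ i, φ (x i - y) := by
    rw [sum_inner]
    exact Finset.sum_congr rfl fun i _ => hT _ _
  have h2 : inner ℝ (∑ i, T (x i) ξ) (∑ i, T (x i) ξ) = ∑ i, ∑ j, φ (x i - x j) := by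
    rw [sum_inner]
    refine Finset.sum_congr rfl fun i _ => ?_
    rw [inner_sum]
    exact Finset.sum_congr rfl fun j _ => hT _ _
  have h3 := real_inner_mul_inner_self_le (∑ i, T (x i) ξ) (T y ξ)
  have h4 : 0 ≤ inner ℝ (∑ i, T (x i) ξ) (∑ i, T (x i) ξ) := real_inner_self_nonneg
  rw [h1, h2, hT, sub_self] at h3
  rw [h2] at h4
  have hc : (0 : ℝ) < Fintype.card ι := by exact_mod_cast Fintype.card_pos
  simp only [Fintype.expect_eq_sum_div_card]
  rw [← Finset.sum_div, div_div, div_pow, sq (Fintype.card ι : ℝ)]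
  refine div_le_div_of_nonneg_right ?_ (by positivity)
  nlinarith

theorem bdd_pd (hG : GnsStmt) {φ : ℂ → ℝ} (hφ : PD φ) (h0 : φ 0 ≤ 1) (f : X → ℂ) :
    Bdd fun x => φ (f x) := by
  refine ⟨1, fun x => ?_⟩
  have h := cs hG hφ h0 (fun _ : Unit => f x) 0
  simp only [sub_zero, sub_self, Fintype.expect_const] at h
  exact abs_le_one_iff_mul_self_le_one.2 (by nlinarith)

theorem rad {φ : ℂ → ℝ} (h : Radial φ) (θ : ℝ) {z w : ℂ} (e1 : z = e θ * w) : φ z = φ w :=
  h _ _ (by rw [e1, norm_mul, norm_e, one_mul])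

theorem rad' {φ : ℂ → ℝ} (h : Radial φ) (θ : ℝ) {z w : ℂ} (e1 : z = -(e θ * w)) : φ z = φ w :=
  h _ _ (by rw [e1, norm_neg, norm_mul, norm_e, one_mul])

theorem pd_circ {φ : ℂ → ℝ} (hφ : PD φ) (hR : Radial φ) (z : ℂ) :
    PD fun a : ℝ => φ (z - e a * z) := by
  refine ⟨fun a => rad' hR (-a) ?_, fun ι _ x t => ?_⟩
  · have := e_mul_neg a
    linear_combination (-z) * this
  · refine (hφ.2 ι (fun i => e (x i) * z) t).trans (le_of_eq ?_)
    refine Finset.sum_congr rfl fun i _ => Finset.sum_congr rfl fun j _ => ?_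
    congr 1
    refine rad' hR (x j) ?_
    have : e (x i) = e (x j) * e (x i - x j) := by rw [← e_add, add_sub_cancel]
    rw [this]
    ring

theorem M_avg (m : IMean ℝ) (f : ℝ → ℝ) (hf : Bdd f) {ι : Type} [Fintype ι] [Nonempty ι]
    (a : ι → ℝ) : m.M (fun θ => 𝔼 i, f (θ + a i)) = m.M f := by
  obtain ⟨B, hB⟩ := hf
  rw [M_expect m.toMean (fun i θ => f (θ + a i)) fun i => ⟨B, fun _ => hB _⟩]
  simp only [m.inv f _ ⟨B, hB⟩, Fintype.expect_const]

theorem partA (hG : GnsStmt) (hM : MEStmt) (m : IMean ℝ) {φ : ℂ → ℝ} (hφ : PD φ)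
    (hR : Radial φ) (h0 : φ 0 ≤ 1) (z y : ℂ) :
    (m.M fun θ => φ (z + e θ * y)) ^ 2 ≤ Sop m φ z := by
  refine hM ℝ m _ (pd_circ hφ hR z) _ fun ι _ _ a => ?_
  rw [← M_avg m _ (bdd_pd hG hφ h0 _) a, ← m.const (𝔼 i, 𝔼 j, φ (z - e (a i - a j) * z))]
  refine M_sq m.toMean _ _ (bdd_expect (fun i θ => φ (z + e (θ + a i) * y))
    fun i => bdd_pd hG hφ h0 _) (bdd_const _) fun θ => ?_
  have h1 := cs hG hφ h0 (fun i => e (-(θ + a i)) * z) (-y)
  refine le_trans (le_of_eq ?_) (h1.trans (le_of_eq ?_))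
  · congr 1
    refine Finset.expect_congr rfl fun i _ => rad hR (θ + a i) ?_
    have := e_mul_neg (θ + a i)
    linear_combination (-z) * this
  · refine Finset.expect_congr rfl fun i _ => Finset.expect_congr rfl fun j _ =>
      rad hR (-(θ + a i)) ?_
    have : e (-(θ + a j)) = e (-(θ + a i)) * e (a i - a j) := by
      rw [← e_add]
      congr 1
      ring
    rw [this]
    ring

end VdcA

open VdcA in
theorem vdcS (hG : GnsStmt) (hM : MEStmt) (hS : SopStmt) : VdcStmt := by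
  intro m φ hφ hR h0
  refine ⟨fun z => ?_, fun z₀ z₁ z₂ => ?_⟩
  · have h := partA hG hM m hφ hR h0 z 0
    simp only [mul_zero, add_zero] at h
    rwa [m.const] at h
  obtain ⟨h1, h2, -, -⟩ := hS m φ hφ hR
  refine hM ℝ m _ (pd_circ h1 h2 z₁) _ fun ι _ _ a => ?_
  have k1 : (m.M fun θ => φ (z₀ + z₁ * e θ + z₂ * e (2 * θ))) ^ 2 ≤ 𝔼 i, 𝔼 j,
      m.M fun θ => φ (z₁ * (e (a i) - e (a j)) + e θ * (z₂ * (e (2 * a i) - e (2 * a j)))) := by
    rw [← M_avg m _ (bdd_pd hG hφ h0 _) a]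
    have e1 : ∀ i, 𝔼 j, (m.M fun θ => φ (z₁ * (e (a i) - e (a j))
        + e θ * (z₂ * (e (2 * a i) - e (2 * a j))))) = m.M fun θ => 𝔼 j, φ (z₁ * (e (a i) - e (a j))
        + e θ * (z₂ * (e (2 * a i) - e (2 * a j)))) := fun i =>
      (M_expect m.toMean _ fun j => bdd_pd hG hφ h0 _).symm
    have hb : ∀ i, Bdd fun θ => 𝔼 j, φ (z₁ * (e (a i) - e (a j))
        + e θ * (z₂ * (e (2 * a i) - e (2 * a j)))) := fun i =>
      bdd_expect _ fun j => bdd_pd hG hφ h0 _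
    simp only [e1]
    rw [← M_expect m.toMean _ hb]
    refine M_sq m.toMean _ _ (bdd_expect
      (fun i θ => φ (z₀ + z₁ * e (θ + a i) + z₂ * e (2 * (θ + a i))))
      fun i => bdd_pd hG hφ h0 _) (bdd_expect _ hb) fun θ => ?_
    have h3 := cs hG hφ h0 (fun i => z₁ * e (θ + a i) + z₂ * e (2 * (θ + a i))) (-z₀)
    refine le_trans (le_of_eq ?_) (h3.trans (le_of_eq ?_))
    · congr 1
      refine Finset.expect_congr rfl fun i _ => ?_
      congr 1
      ring
    · refine Finset.expect_congr rfl fun i _ => Finset.expect_congr rfl fun j _ => rad hR θ ?_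
      have e2 : ∀ b : ℝ, e (2 * (θ + b)) = e θ * e θ * e (2 * b) := fun b => by
        rw [← e_add, ← e_add]
        congr 1
        ring
      rw [e2, e2, e_add, e_add]
      ring
  have k2 := pow_le_pow_left₀ (sq_nonneg _) k1 2
  rw [← pow_mul] at k2
  refine k2.trans ((expect_sq _).trans (expect_le_expect fun i _ => (expect_sq _).trans
    (expect_le_expect fun j _ => (partA hG hM m hφ hR h0 _ _).trans (le_of_eq ?_))))
  refine rad' h2 (a j) ?_
  have : e (a i) = e (a j) * e (a i - a j) := by rw [← e_add, add_sub_cancel]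
  rw [this]
  ring

end Vale.Agent.P032
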