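import Vale.Agent.P032.Stmts

/-! P032: Weyl type equidistribution along polynomials for null positive definite functions. -/

namespace Vale.Agent.P032

open Finset Polynomial
open scoped BigOperators

namespace WeylA

variable {k : ℝ → ℝ}

lemma am (hk : PD k) {ι κ : Type} [Fintype ι] [Fintype κ] (x : ι → ℝ) (y : κ → ℝ) (a b : ℝ) :
    2 * a * b * (𝔼 i, 𝔼 j, k (x i - y j)) ≤
      a ^ 2 * (𝔼 i, 𝔼 j, k (x i - x j)) + b ^ 2 * (𝔼 i, 𝔼 j, k (y i - y j)) := by
  have h := hk.2 (ι ⊕ κ) (Sum.elim x y)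
    (Sum.elim (fun _ => a / Fintype.card ι) fun _ => -b / Fintype.card κ)
  have e : ∑ j, ∑ i, k (y j - x i) = ∑ i, ∑ j, k (x i - y j) := by
    rw [sum_comm]
    exact sum_congr rfl fun i _ => sum_congr rfl fun j _ => by rw [← hk.1, neg_sub]
  simp only [Fintype.sum_sum_type, Sum.elim_inl, Sum.elim_inr, sum_add_distrib, ← mul_sum, e] at h
  simp only [Fintype.expect_eq_sum_div_card, ← sum_div]
  rw [← sub_nonneg]
  refine h.trans (le_of_eq ?_)
  ring

lemma zero_le (hk : PD k) : 0 ≤ k 0 := by simpa using hk.2 Unit (fun _ => 0) fun _ => 1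

lemma expect_prod {ι κ : Type} [Fintype ι] [Fintype κ] (f : ι × κ → ℝ) :
    𝔼 p, f p = 𝔼 i, 𝔼 j, f (i, j) := by
  rw [← univ_product_univ, expect_product]

lemma jensen (hk : PD k) {ι κ : Type} [Fintype ι] [Fintype κ] [Nonempty ι] (z : ι × κ → ℝ) :
    𝔼 p, 𝔼 q, k (z p - z q) ≤ 𝔼 i, 𝔼 j, 𝔼 j', k (z (i, j) - z (i, j')) := by
  have e : 𝔼 p, 𝔼 q, k (z p - z q) = 𝔼 i, 𝔼 i', 𝔼 j, 𝔼 j', k (z (i, j) - z (i', j')) := by
    simp only [expect_prod]
    exact expect_congr rfl fun i _ => expect_comm _ _ _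
  rw [e]
  obtain ⟨A, hA⟩ : ∃ A : ι → ℝ, ∀ i, A i = 𝔼 j, 𝔼 j', k (z (i, j) - z (i, j')) :=
    ⟨_, fun _ => rfl⟩
  simp only [← hA]
  have h : 𝔼 i, 𝔼 i', 𝔼 j, 𝔼 j', k (z (i, j) - z (i', j')) ≤
      𝔼 i, 𝔼 i', (1 / 2 * A i + 1 / 2 * A i') :=
    expect_le_expect fun i _ => expect_le_expect fun i' _ => by
      have := am hk (fun j => z (i, j)) (fun j => z (i', j)) 1 1
      rw [← hA, ← hA] at this
      linarith
  refine h.trans (le_of_eq ?_)
  simp only [expect_add_distrib, Fintype.expect_const, ← mul_expect]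
  ring

lemma first (hk : PD k) {ι : Type} [Fintype ι] (x : ι → ℝ) {ε : ℝ} (hε : 0 < ε)
    (h : 𝔼 i, 𝔼 j, k (x i - x j) ≤ ε ^ 2 / (k 0 + 1)) : 𝔼 i, k (x i) ≤ ε := by
  have h0 := zero_le hk
  have h1 := am hk x (fun _ : Unit => 0) (k 0 + 1) ε
  simp only [sub_zero, Fintype.expect_const] at h1
  have h2 := mul_le_mul_of_nonneg_left h (sq_nonneg (k 0 + 1))
  have e : (k 0 + 1) ^ 2 * (ε ^ 2 / (k 0 + 1)) = (k 0 + 1) * ε ^ 2 := by field_simp
  refine le_of_mul_le_mul_left ?_ (show 0 < 2 * (k 0 + 1) * ε by positivity)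
  nlinarith [sq_nonneg ε]

lemma common {α : Type} (s : Finset α) (k : α → ℝ → ℝ) (hk : ∀ a ∈ s, PD (k a) ∧ Null (k a) ⊤)
    {δ ε : ℝ} (hδ : 0 < δ) (hε : 0 < ε) :
    ∃ (ι : Type) (_ : Fintype ι) (_ : Nonempty ι) (x : ι → ℝ),
      (∀ i, |x i| < δ) ∧ ∀ a ∈ s, 𝔼 i, 𝔼 j, k a (x i - x j) ≤ ε := by
  classical
  induction s using Finset.induction_on generalizing δ with
  | empty => exact ⟨Unit, inferInstance, inferInstance, fun _ => 0, fun _ => by simpa, by simp⟩
  | insert a s _ ih =>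
    obtain ⟨ι, _, _, x, hx, h⟩ := ih (fun b hb => hk b (mem_insert_of_mem hb)) (half_pos hδ)
    obtain ⟨κ, _, _, y, hy, h'⟩ := (hk a (mem_insert_self _ _)).2 _ (half_pos hδ) _ hε
    refine ⟨κ × ι, inferInstance, inferInstance, fun p => y p.1 + x p.2, fun p => ?_, fun b hb => ?_⟩
    · have := hx p.2
      have := (hy p.1).2
      rw [Real.norm_eq_abs] at this
      linarith [abs_add_le (y p.1) (x p.2)]
    · rcases mem_insert.1 hb with rfl | hb'
      · have h1 := jensen (hk b hb).1 fun p : ι × κ => y p.2 + x p.1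
        simp only [add_sub_add_right_eq_sub, Fintype.expect_const] at h1
        refine le_of_eq_of_le ?_ (h1.trans h')
        exact Fintype.expect_equiv (Equiv.prodComm κ ι) _ _ fun p =>
          Fintype.expect_equiv (Equiv.prodComm κ ι) _ _ fun q => rfl
      · have h1 := jensen (hk b hb).1 fun p : κ × ι => y p.1 + x p.2
        simp only [add_sub_add_left_eq_sub, Fintype.expect_const] at h1
        exact h1.trans (h b hb')

noncomputable def dl (t : ℝ) : ℝ := if t = 0 then 1 else 0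

lemma pd_dl : PD dl := by
  refine ⟨fun x => by simp [dl], fun ι _ x t => ?_⟩
  classical
  have e : ∀ i j, t i * t j * dl (x i - x j) = ∑ v ∈ univ.image x,
      (if x i = v then t i else 0) * (if x j = v then t j else 0) := fun i j => by
    rw [sum_eq_single (x i)]
    · by_cases h : x j = x i
      · simp [dl, h]
      · simp [dl, h, sub_eq_zero, Ne.symm h]
    · intro v _ hv; simp [hv.symm]
    · simp
  simp only [e]
  simp only [sum_comm (t := univ.image x), ← sum_mul_sum]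
  exact sum_nonneg fun v _ => mul_self_nonneg _

lemma null_dl : Null dl ⊤ := by
  intro δ hδ ε hε
  obtain ⟨n, hn⟩ := exists_nat_one_div_lt hε
  have hp : (0 : ℝ) < δ / (n + 1) := by positivity
  refine ⟨Fin (n + 1), inferInstance, inferInstance, fun i => (i : ℕ) * (δ / (n + 1)),
    fun i => ⟨trivial, ?_⟩, ?_⟩
  · rw [Real.norm_eq_abs, abs_of_nonneg (by positivity)]
    have : ((i : ℕ) : ℝ) < n + 1 := by exact_mod_cast i.2
    refine (mul_lt_mul_of_pos_right this hp).trans_eq ?_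
    field_simp
  · have e : ∀ i j : Fin (n + 1), dl ((i : ℕ) * (δ / (n + 1)) - (j : ℕ) * (δ / (n + 1))) =
        if i = j then 1 else 0 := fun i j => by
      simp only [dl, sub_eq_zero, mul_left_inj' hp.ne', Nat.cast_inj, Fin.val_inj]
    simp only [e, Fintype.expect_eq_sum_div_card, sum_ite_eq, mem_univ, if_true, sum_const,
      card_univ, Fintype.card_fin, nsmul_eq_mul]
    refine le_of_eq_of_le ?_ hn.le
    push_cast
    field_simp

lemma pd_mul (hk : PD k) (c : ℝ) : PD fun t => k (c * t) :=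
  ⟨fun x => by simp only [mul_neg, hk.1], fun ι _ x t => by
    simpa only [mul_sub] using hk.2 ι (fun i => c * x i) t⟩

lemma null_mul (hk : Null k ⊤) {c : ℝ} (hc : c ≠ 0) : Null (fun t => k (c * t)) ⊤ := by
  intro δ hδ ε hε
  have hc' := abs_pos.2 hc
  obtain ⟨ι, _, _, x, hx, h⟩ := hk (δ * |c|) (by positivity) ε hε
  refine ⟨ι, inferInstance, inferInstance, fun i => x i / c, fun i => ⟨trivial, ?_⟩, ?_⟩
  · rw [Real.norm_eq_abs, abs_div, div_lt_iff₀ hc']
    exact (hx i).2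
  · simpa only [mul_sub, mul_div_cancel₀ _ hc] using h

lemma diff {P : ℝ[X]} {m : ℕ} (hP : P.natDegree = m + 1) (h h' : ℝ) :
    (taylor h P - taylor h' P).natDegree ≤ m ∧
      (taylor h P - taylor h' P).coeff m = (m + 1) * P.leadingCoeff * (h - h') := by
  constructor
  · rw [natDegree_le_iff_coeff_eq_zero]
    intro N hN
    rcases (Nat.succ_le_of_lt hN).eq_or_lt with rfl | hN'
    · rw [coeff_sub, Nat.succ_eq_add_one, ← hP, coeff_taylor_natDegree, coeff_taylor_natDegree,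
        sub_self]
    · rw [coeff_sub, coeff_eq_zero_of_natDegree_lt (by rw [natDegree_taylor]; omega),
        coeff_eq_zero_of_natDegree_lt (by rw [natDegree_taylor]; omega), sub_self]
  · have h1 : (hasseDeriv m P).natDegree ≤ 1 := (natDegree_hasseDeriv_le P m).trans (by omega)
    rw [coeff_sub, taylor_coeff, taylor_coeff, eq_X_add_C_of_natDegree_le_one h1, hasseDeriv_coeff,
      leadingCoeff, hP, add_comm 1 m, Nat.choose_succ_self_right]
    simp only [eval_add, eval_mul, eval_C, eval_X]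
    push_cast
    ring

def W (ψ : ℝ → ℝ) (d : ℕ) : Prop :=
  ∀ F : Finset ℝ[X], (∀ P ∈ F, 0 < P.natDegree ∧ P.natDegree ≤ d) →
    ∀ t₀ r ε : ℝ, 0 < r → 0 < ε →
      ∃ (ι : Type) (_ : Fintype ι) (_ : Nonempty ι) (x : ι → ℝ),
        (∀ i, |x i - t₀| < r) ∧ ∀ P ∈ F, 𝔼 i, ψ (P.eval (x i)) ≤ ε

lemma step {ψ : ℝ → ℝ} (hp : PD ψ) (hn : Null ψ ⊤) {d : ℕ} (ih : W ψ d) : W ψ (d + 1) := by
  classical
  intro F hF t₀ r ε₀ hr hε₀
  have h0 := zero_le hp
  obtain ⟨ε, hε, hεε⟩ : ∃ ε : ℝ, 0 < ε ∧ (ψ 0 + 1) * ε = ε₀ ^ 2 / (ψ 0 + 1) :=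
    ⟨ε₀ ^ 2 / (ψ 0 + 1) / (ψ 0 + 1), by positivity, by field_simp⟩
  obtain ⟨κ, _, _, h, hh, hk⟩ := common (insertNone F)
    (fun o => o.elim dl fun P t => ψ (P.leadingCoeff * t))
    (fun o ho => by
      cases o with
      | none => exact ⟨pd_dl, null_dl⟩
      | some P =>
        refine ⟨pd_mul hp _, null_mul hn (leadingCoeff_ne_zero.2 ?_)⟩
        rintro rfl
        simpa using (hF 0 (by simpa using ho)).1) (half_pos hr) hε
  obtain ⟨ι, _, _, y, hy, hQ⟩ := ih
    (((F ×ˢ (univ : Finset (κ × κ))).filter fun p => 2 ≤ p.1.natDegree ∧ h p.2.1 ≠ h p.2.2).image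
      fun p => taylor (h p.2.1) p.1 - taylor (h p.2.2) p.1)
    (fun Q hQ => by
      obtain ⟨⟨P, a, a'⟩, hm, rfl⟩ := mem_image.1 hQ
      obtain ⟨h1, h2, h3⟩ := mem_filter.1 hm
      have h4 := hF P (mem_product.1 h1).1
      obtain ⟨m, hm⟩ : ∃ m, P.natDegree = m + 1 := ⟨P.natDegree - 1, by omega⟩
      obtain ⟨d1, d2⟩ := diff hm (h a) (h a')
      have hl : P.leadingCoeff ≠ 0 := leadingCoeff_ne_zero.2 (by rintro rfl; simp at hm)
      have d3 := le_natDegree_of_ne_zero (n := m) (p := taylor (h a) P - taylor (h a') P)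
        (by rw [d2]; exact mul_ne_zero (mul_ne_zero (by positivity) hl) (sub_ne_zero.2 h3))
      simp only at h2 ⊢
      omega) t₀ (r / 2) ε (half_pos hr) hε
  refine ⟨ι × κ, inferInstance, inferInstance, fun p => y p.1 + h p.2, fun p => ?_, fun P hP => ?_⟩
  · have := hy p.1
    have := hh p.2
    rw [add_sub_right_comm]
    linarith [abs_add_le (y p.1 - t₀) (h p.2)]
  refine first hp _ hε₀ ((jensen hp fun p : ι × κ => P.eval (y p.1 + h p.2)).trans ?_)
  rw [← hεε]
  simp only [← taylor_eval, ← eval_sub]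
  rcases (Nat.succ_le_of_lt (hF P hP).1).eq_or_lt with h1 | h1
  · have e : ∀ a a' t, (taylor (h a) P - taylor (h a') P).eval t =
        P.leadingCoeff * (h a - h a') := fun a a' t => by
      obtain ⟨d1, d2⟩ := diff h1.symm (h a) (h a')
      rw [eq_C_of_natDegree_le_zero d1, d2, eval_C]
      simp
    simp only [e, Fintype.expect_const]
    refine (hk (some P) (by simpa using hP)).trans ?_
    nlinarith
  · rw [expect_comm]
    simp only [expect_comm (univ : Finset ι)]
    have h2 : 𝔼 a, 𝔼 a', 𝔼 i, ψ ((taylor (h a) P - taylor (h a') P).eval (y i)) ≤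
        𝔼 a, 𝔼 a', (ψ 0 * dl (h a - h a') + ε) :=
      expect_le_expect fun a _ => expect_le_expect fun a' _ => by
        by_cases e : h a = h a'
        · simp [e, dl, hε.le]
        · rw [dl, if_neg (sub_ne_zero.2 e), mul_zero, zero_add]
          exact hQ _ (mem_image.2 ⟨(P, a, a'), mem_filter.2 ⟨by simpa using hP, h1, e⟩, rfl⟩)
    refine h2.trans ?_
    simp only [expect_add_distrib, Fintype.expect_const, ← mul_expect]
    have := mul_le_mul_of_nonneg_left (hk none (by simp)) h0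
    simp only [Option.elim] at this
    linarith

end WeylA

theorem weylS (hG : GnsStmt) : WeylStmt := by
  intro ψ hp hn F hF
  have h : ∀ d, WeylA.W ψ d := fun d => by
    induction d with
    | zero =>
      intro F hF t₀ r ε hr _
      exact ⟨Unit, inferInstance, inferInstance, fun _ => t₀, fun _ => by simpa,
        fun P hP => by have := hF P hP; omega⟩
    | succ d ih => exact WeylA.step hp hn ih
  exact h (F.sup natDegree) F fun P hP => ⟨hF P hP, le_sup (f := natDegree) hP⟩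

end Vale.Agent.P032
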