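import Vale.Agent.P032.AeG
import Vale.Agent.P032.BCore
import Vale.Agent.P032.Blow
import Vale.Agent.P032.Card
import Vale.Agent.P032.Cone
import Vale.Agent.P032.Cont
import Vale.Agent.P032.Cross
import Vale.Agent.P032.CutF
import Vale.Agent.P032.Dens
import Vale.Agent.P032.Fil
import Vale.Agent.P032.Final
import Vale.Agent.P032.Gns
import Vale.Agent.P032.Grid
import Vale.Agent.P032.Half
import Vale.Agent.P032.Inv
import Vale.Agent.P032.Ker
import Vale.Agent.P032.Local
import Vale.Agent.P032.Mean
import Vale.Agent.P032.NbG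
import Vale.Agent.P032.No5
import Vale.Agent.P032.Null
import Vale.Agent.P032.Orth
import Vale.Agent.P032.Pick
import Vale.Agent.P032.Pm
import Vale.Agent.P032.Polar
import Vale.Agent.P032.Pv
import Vale.Agent.P032.Rigid
import Vale.Agent.P032.Sop
import Vale.Agent.P032.Spread
import Vale.Agent.P032.ToCol
import Vale.Agent.P032.Tree
import Vale.Agent.P032.Ty3
import Vale.Agent.P032.Ty4
import Vale.Agent.P032.Usc
import Vale.Agent.P032.Vdc
import Vale.Agent.P032.Weyl

namespace Vale.Agent.P032

theorem rigid_all : RigidStmt :=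
  rigidS gnsS meanS (weylS gnsS) (sopS (orthS gnsS))
    (vdcS gnsS (meS gnsS) (sopS (orthS gnsS)))

theorem final_all : FinalStmt := by
  have hU := uscS nullS
  have hI := invS densS nbS spreadS
  have h6 := spread6S densS nbS spreadS
  have hG := aeGS densS nullS nbS hU
  have hC := cardS densS nbS hU hI
  have hX := crossColS hU crossS
  have hPm := pmS polarS
  have hK := coneS densS nullS polarS hU hPm
  have h3 := ty3S densS nbS hG hC
  have h4 := ty4S densS nbS hU hG hC hX h6
  have h5 := no5S densS nbS hU hG hC hX hK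
  have hCut := cutS densS pvS hPm (halfS pvS) (blowS pvS) (bcoreS densS pvS)
  exact finalS (localS pvS hCut treeS) (zfinS densS nbS hU hI h3 h4 h5)
    (filS densS h3 h4 h5 (hexS densS nbS)) gridS

theorem no_five (c : ℂ → Fin 5) (hc : ∀ x y, dist x y = 1 → c x ≠ c y) : False := by
  obtain ⟨P, hP⟩ := pickS (kerS meanS) (contS gnsS rigid_all) c hc
  obtain ⟨C⟩ := toColS densS P hP
  exact final_all.false C

theorem six_le (k : ℕ) (c : EuclideanSpace ℝ (Fin 2) → Fin k)
    (hc : ∀ x y, dist x y = 1 → c x ≠ c y) : 6 ≤ k := by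
  by_contra hk
  have hk5 : k ≤ 5 := by omega
  refine no_five (fun z => Fin.castLE hk5 (c (Complex.orthonormalBasisOneI.repr z))) ?_
  intro x y hxy h
  refine hc _ _ ?_ (Fin.castLE_injective hk5 h)
  rwa [LinearIsometryEquiv.dist_map]

end Vale.Agent.P032
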