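import Mathlib

/-!
P032: definitions for the proof that the plane has no proper 5-colouring.
See skel/P032/BLUEPRINT.md for the informal proof.
-/

namespace Vale.Agent.P032

open MeasureTheory Set Filter Topology Metric
open scoped Real ENNReal BigOperators

noncomputable section

/-- the unit vector at angle `θ` -/
def e (θ : ℝ) : ℂ := Complex.exp (θ * Complex.I)

/-! Step 1: means and positive definite functions -/

def Bdd {X : Type} (f : X → ℝ) : Prop := ∃ B : ℝ, ∀ x, |f x| ≤ B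

/-- a mean on the bounded real functions on `X` -/
structure Mean (X : Type) where
  M : (X → ℝ) → ℝ
  add : ∀ f g : X → ℝ, Bdd f → Bdd g → M (fun x => f x + g x) = M f + M g
  smul : ∀ (c : ℝ) (f : X → ℝ), Bdd f → M (fun x => c * f x) = c * M f
  mono : ∀ f g : X → ℝ, Bdd f → Bdd g → (∀ x, f x ≤ g x) → M f ≤ M g
  const : ∀ c : ℝ, M (fun _ => c) = c

/-- a translation invariant mean -/
structure IMean (G : Type) [AddCommGroup G] extends Mean G where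
  inv : ∀ (f : G → ℝ) (a : G), Bdd f → M (fun x => f (x + a)) = M f

/-- even positive definite function -/
def PD {W : Type} [AddCommGroup W] (φ : W → ℝ) : Prop :=
  (∀ x, φ (-x) = φ x) ∧
    ∀ (ι : Type) [Fintype ι] (x : ι → W) (t : ι → ℝ), 0 ≤ ∑ i, ∑ j, t i * t j * φ (x i - x j)

/-- the continuous part of `φ` along `L` vanishes -/
def Null {W : Type} [NormedAddCommGroup W] (φ : W → ℝ) (L : AddSubgroup W) : Prop :=
  ∀ δ > (0 : ℝ), ∀ ε > (0 : ℝ), ∃ (ι : Type) (_ : Fintype ι) (_ : Nonempty ι) (x : ι → W),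
    (∀ i, x i ∈ L ∧ ‖x i‖ < δ) ∧ 𝔼 i, 𝔼 j, φ (x i - x j) ≤ ε

def Radial (φ : ℂ → ℝ) : Prop := ∀ z w : ℂ, ‖z‖ = ‖w‖ → φ z = φ w

def Sop (m : IMean ℝ) (φ : ℂ → ℝ) (z : ℂ) : ℝ := m.M (fun θ => φ (z - e θ * z))

/-- `QQ φ a x b y` is the inner product of the averages over `a + x i` and `b + y j` -/
def QQ (φ : ℂ → ℝ) {ι κ : Type} [Fintype ι] [Fintype κ] (a : ℂ) (x : ι → ℂ) (b : ℂ)
    (y : κ → ℂ) : ℝ :=
  𝔼 i, 𝔼 j, φ ((a + x i) - (b + y j))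

/-! Step 2: measurable colourings -/

def Dens1 (A : Set ℝ) (t : ℝ) : Prop :=
  ∀ ε > (0 : ℝ), ∀ᶠ r in 𝓝[>] (0 : ℝ), volume (closedBall t r \ A) ≤ ENNReal.ofReal (ε * r)

def Dens2 (A : Set ℂ) (z : ℂ) : Prop :=
  ∀ ε > (0 : ℝ), ∀ᶠ r in 𝓝[>] (0 : ℝ), volume (closedBall z r \ A) ≤ ENNReal.ofReal (ε * r ^ 2)

def Ess (A : Set ℝ) (t : ℝ) : Prop := ∀ ε > (0 : ℝ), volume (A ∩ ball t ε) ≠ 0

/-- `T - id` is `L`-Lipschitz -/
def NearId (T : ℝ → ℝ) (L : ℝ) : Prop := ∀ s s', |(T s - s) - (T s' - s')| ≤ L * |s - s'|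

def gg (σ : ℝ) (ζ : ℂ) : ℝ :=
  Complex.arg (1 + ζ) + σ * (Real.arccos (‖1 + ζ‖ / 2) - π / 3)

/-- `e (Nb 1 v φ) + e (Nb (-1) v φ) = v + e φ` for small `v` -/
def Nb (σ : ℝ) (v : ℂ) (φ : ℝ) : ℝ := φ + σ * (π / 3) + gg σ (v * e (-φ))

/-- fraction of the disc occupied by `A` -/
def fr (A : Set ℂ) (w : ℂ) (ρ : ℝ) : ℝ := (volume (A ∩ ball w ρ)).toReal / (π * ρ ^ 2)

/-- average of `f` over the disc -/
def av (f : ℂ → ℝ) (a : ℂ) (t : ℝ) : ℝ := (∫ z in ball a t, f z) / (π * t ^ 2)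

/-- the graph `g` on five vertices has a cycle -/
def Cyc (g : Fin 5 → Fin 5 → Prop) : Prop :=
  ∃ s : Equiv.Perm (Fin 5), g (s 0) (s 1) ∧ g (s 1) (s 2) ∧
    (g (s 2) (s 0) ∨ (g (s 2) (s 3) ∧ (g (s 3) (s 0) ∨ (g (s 3) (s 4) ∧ g (s 4) (s 0)))))

/-- every cut of intermediate weight is crossed by an edge with heavy end points -/
def Cut (G : Fin 5 → Fin 5 → Prop) (p : Fin 5 → ℝ) (γ η : ℝ) : Prop :=
  ∀ I : Finset (Fin 5), γ ≤ ∑ j ∈ I, p j → ∑ j ∈ I, p j ≤ 1 - γ →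
    ∃ i ∈ I, ∃ j ∉ I, G i j ∧ η ≤ p i ∧ η ≤ p j

def Simp (p : Fin 5 → ℝ) : Prop := (∀ j, 0 ≤ p j) ∧ ∑ j, p j = 1

def GAdj (v w : ℤ × ℤ) : Prop := |v.1 - w.1| ≤ 1 ∧ |v.2 - w.2| ≤ 1

def InT (N : ℕ) (v : ℤ × ℤ) : Prop := 0 ≤ v.1 ∧ 0 ≤ v.2 ∧ v.1 + v.2 ≤ N

/-- a measurable proper 5-colouring of almost all of the plane by density points -/
structure Col where
  D : Fin 5 → Set ℂ
  meas : ∀ j, MeasurableSet (D j)
  disj : ∀ i j, i ≠ j → Disjoint (D i) (D j)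
  cover : ∀ᵐ z, ∃ j, z ∈ D j
  free : ∀ j, ∀ x ∈ D j, ∀ y ∈ D j, dist x y ≠ 1
  dens : ∀ j, ∀ x ∈ D j, Dens2 (D j) x

namespace Col

variable (C : Col)

/-- colour `j` is essentially missing on the unit circle about `z` -/
def Fr (z : ℂ) (j : Fin 5) : Prop := ∀ᵐ θ : ℝ, z + e θ ∉ C.D j

/-- angles at which all colours of `X` are missing around `x + e θ` -/
def FS (x : ℂ) (X : Finset (Fin 5)) : Set ℝ := {θ | ∀ j ∈ X, C.Fr (x + e θ) j}

def Asy (x : ℂ) (Θ : Set ℝ) (i j : Fin 5) : Prop :=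
  ∀ ε > (0 : ℝ), ∃ δ > (0 : ℝ), ∀ᵐ x' : ℂ, dist x' x < δ →
    volume {θ | θ ∈ Θ ∧ x' + e θ ∉ C.D i ∧ x' + e θ ∉ C.D j} ≤ ENNReal.ofReal ε

def Star (x : ℂ) (i j : Fin 5) : Prop :=
  ∀ Θ : Set ℝ, MeasurableSet Θ → Bornology.IsBounded Θ → volume Θ ≠ 0 → ¬ C.Asy x Θ i j

def Gs (x y : ℂ) (θ : ℝ) (j : Fin 5) : Prop :=
  C.Fr (x + e θ) j ∧ x + e θ ∈ closure (C.D j) ∧
    ¬ C.Fr (y + e (Nb 1 (x - y) θ)) j ∧ ¬ C.Fr (y + e (Nb (-1) (x - y) θ)) j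

def Ty (x : ℂ) (p q q' : Fin 5) : Prop :=
  ∀ y : ℂ, ‖x - y‖ < 1 / 10 → ∀ᵐ θ : ℝ,
    C.Gs x y θ p ∨ (¬ C.Fr (x + e θ) p ∧ C.Gs x y θ q ∧ C.Gs x y θ q')

def pv (w : ℂ) (ρ : ℝ) (j : Fin 5) : ℝ := fr (C.D j) w ρ

/-- `q` is a limit of colour distributions of small discs near `x` -/
def Lim (x : ℂ) (q : Fin 5 → ℝ) : Prop :=
  ∀ ε > (0 : ℝ), ∃ (w : ℂ) (ρ : ℝ), dist w x < ε ∧ 0 < ρ ∧ ρ < ε ∧ ∀ j, |C.pv w ρ j - q j| < ε

def Contact (x : ℂ) (i j : Fin 5) : Prop :=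
  i ≠ j ∧ C.Lim x (fun k => if k = i ∨ k = j then 1 / 2 else 0)

/-- no unit circle about a point of colour `i` separates `a` from `b` -/
def Lk (i : Fin 5) (a b : ℂ) : Prop :=
  ∀ z ∈ C.D i, ¬ (dist z a < 1 ∧ 1 < dist z b) ∧ ¬ (dist z b < 1 ∧ 1 < dist z a)

/-- rename the colours -/
def perm (s : Equiv.Perm (Fin 5)) : Col where
  D j := C.D (s j)
  meas j := C.meas _
  disj i j h := C.disj _ _ (fun h' => h (s.injective h'))
  cover := C.cover.mono fun z ⟨j, hj⟩ => ⟨s.symm j, by simpa using hj⟩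
  free j := C.free _
  dens j := C.dens _

theorem perm_D (s : Equiv.Perm (Fin 5)) (j : Fin 5) : (C.perm s).D j = C.D (s j) := rfl
theorem perm_Fr (s : Equiv.Perm (Fin 5)) (z : ℂ) (j : Fin 5) :
    (C.perm s).Fr z j ↔ C.Fr z (s j) := Iff.rfl
theorem perm_Star (s : Equiv.Perm (Fin 5)) (x : ℂ) (i j : Fin 5) :
    (C.perm s).Star x i j ↔ C.Star x (s i) (s j) := Iff.rfl
theorem perm_Ty (s : Equiv.Perm (Fin 5)) (x : ℂ) (p q q' : Fin 5) :
    (C.perm s).Ty x p q q' ↔ C.Ty x (s p) (s q) (s q') := Iff.rfl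
theorem perm_Lk (s : Equiv.Perm (Fin 5)) (i : Fin 5) (a b : ℂ) :
    (C.perm s).Lk i a b ↔ C.Lk (s i) a b := Iff.rfl

theorem Star.symm {C : Col} {x : ℂ} {i j : Fin 5} (h : C.Star x i j) : C.Star x j i := by
  intro Θ h1 h2 h3 h4
  refine h Θ h1 h2 h3 fun ε hε => ?_
  obtain ⟨δ, hδ, h5⟩ := h4 ε hε
  refine ⟨δ, hδ, h5.mono fun x' hx hd => ?_⟩
  simpa only [and_comm (a := x' + e _ ∉ C.D i)] using hx hd

end Col

/-! elementary facts about `e` -/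

@[simp] theorem norm_e (θ : ℝ) : ‖e θ‖ = 1 := Complex.norm_exp_ofReal_mul_I θ

@[simp] theorem e_zero : e 0 = 1 := by simp [e]

theorem e_add (a b : ℝ) : e (a + b) = e a * e b := by
  simp [e, add_mul, Complex.exp_add]

theorem e_eq (θ : ℝ) : e θ = (Real.cos θ : ℂ) + (Real.sin θ : ℂ) * Complex.I := by
  simp [e, Complex.exp_mul_I]

@[simp] theorem e_re (θ : ℝ) : (e θ).re = Real.cos θ := Complex.exp_ofReal_mul_I_re θ

@[simp] theorem e_im (θ : ℝ) : (e θ).im = Real.sin θ := Complex.exp_ofReal_mul_I_im θ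

theorem e_ne_zero (θ : ℝ) : e θ ≠ 0 := Complex.exp_ne_zero _

theorem e_mul_neg (θ : ℝ) : e θ * e (-θ) = 1 := by rw [← e_add]; simp

theorem e_pi : e π = -1 := by simp [e]

theorem e_add_pi (θ : ℝ) : e (θ + π) = -e θ := by rw [e_add, e_pi]; ring

theorem e_add_two_pi (θ : ℝ) : e (θ + 2 * π) = e θ := by
  rw [two_mul, ← add_assoc, e_add_pi, e_add_pi, neg_neg]

theorem continuous_e : Continuous e := by unfold e; fun_prop

theorem hasDerivAt_e (θ : ℝ) : HasDerivAt e (Complex.I * e θ) θ := by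
  have h := ((Complex.ofRealCLM.hasDerivAt (x := θ)).mul_const Complex.I).cexp
  have h2 : Complex.I * e θ =
      Complex.exp (Complex.ofRealCLM θ * Complex.I) * (Complex.ofRealCLM 1 * Complex.I) := by
    simp [e, mul_comm]
  rw [h2]
  exact h

theorem norm_e_sub_le (a b : ℝ) : ‖e a - e b‖ ≤ |a - b| := by
  have h : e a - e b = e b * (e (a - b) - 1) := by
    rw [mul_sub, ← e_add]; simp
  rw [h, norm_mul, norm_e, one_mul]
  simpa [e, mul_comm] using Real.norm_exp_I_mul_ofReal_sub_one_le (x := a - b)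

theorem norm_e_sub_e_pi_div_three (θ : ℝ) : ‖e (θ + π / 3) - e θ‖ = 1 := by
  have h : e (θ + π / 3) - e θ = e θ * e (2 * π / 3) := by
    have h2 : e (π / 3) - 1 = e (2 * π / 3) := by
      have h3 : 2 * π / 3 = π - π / 3 := by ring
      apply Complex.ext
      · simp [h3, Real.cos_pi_sub]; norm_num
      · simp [h3, Real.sin_pi_sub]
    rw [e_add, ← h2]; ring
  rw [h, norm_mul, norm_e, norm_e, one_mul]

theorem exists_e_of_norm {z : ℂ} (h : ‖z‖ = 1) : ∃ θ, z = e θ :=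
  ⟨Complex.arg z, by
    have := Complex.norm_mul_exp_arg_mul_I z
    rw [h] at this
    simpa [e] using this.symm⟩

theorem Col.fr_of_mem (C : Col) {z : ℂ} {j : Fin 5} (h : z ∈ C.D j) : C.Fr z j :=
  Eventually.of_forall fun θ hθ => C.free j _ hθ _ h (by simp [dist_eq_norm])

end

end Vale.Agent.P032
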