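import Vale.Agent.P032.Stmts

namespace Vale.Agent.P032.FilA

open MeasureTheory Set Filter Topology Metric
open scoped Real ENNReal BigOperators

theorem normSq_e_sub (θ : ℝ) (v : ℂ) :
    ‖e θ - v‖ ^ 2 = 1 + ‖v‖ ^ 2 - 2 * (v.re * Real.cos θ + v.im * Real.sin θ) := by
  rw [Complex.sq_norm, Complex.sq_norm, Complex.normSq_apply, Complex.normSq_apply]
  simp only [Complex.sub_re, Complex.sub_im, e_re, e_im]
  nlinarith [Real.sin_sq_add_cos_sq θ]

theorem pos_slope {f : ℝ → ℝ} {a d : ℝ} (h : HasDerivAt f d a) (hd : 0 < d) :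
    ∀ᶠ s in 𝓝[>] (0 : ℝ), f a < f (a + s) ∧ f (a - s) < f a := by
  have h1 := h.tendsto_slope_zero_right.eventually (lt_mem_nhds hd)
  have hn : Tendsto (fun s : ℝ => -s) (𝓝[>] 0) (𝓝[<] 0) := by
    apply tendsto_nhdsWithin_of_tendsto_nhds_of_eventually_within
    · have : Tendsto (fun s : ℝ => -s) (𝓝 0) (𝓝 (-0)) := continuous_neg.tendsto 0
      rw [neg_zero] at this
      exact this.mono_left nhdsWithin_le_nhds
    · filter_upwards [self_mem_nhdsWithin] with s hs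
      simpa using hs
  have h2 := hn.eventually (h.tendsto_slope_zero_left.eventually (lt_mem_nhds hd))
  filter_upwards [h1, h2, self_mem_nhdsWithin] with s h1 h2 hs
  have hs : 0 < s := hs
  rw [smul_eq_mul] at h1 h2
  constructor
  · have := (mul_pos_iff_of_pos_left (inv_pos.mpr hs)).mp h1
    linarith
  · have h3 : 0 < s⁻¹ * (f a - f (a + -s)) := by
      rw [inv_neg] at h2; linarith
    have := (mul_pos_iff_of_pos_left (inv_pos.mpr hs)).mp h3
    rw [sub_eq_add_neg a s]; linarith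

theorem signchange {v : ℂ} (hv0 : v ≠ 0) (hv2 : ‖v‖ < 2) {θ : ℝ} (h : ‖e θ - v‖ = 1) :
    (∀ᶠ s in 𝓝[>] (0 : ℝ), 1 < ‖e (θ + s) - v‖ ∧ ‖e (θ - s) - v‖ < 1) ∨
      ∀ᶠ s in 𝓝[>] (0 : ℝ), ‖e (θ + s) - v‖ < 1 ∧ 1 < ‖e (θ - s) - v‖ := by
  set f : ℝ → ℝ := fun t => 1 + ‖v‖ ^ 2 - 2 * (v.re * Real.cos t + v.im * Real.sin t) with hf
  have hd : HasDerivAt f (2 * (v.re * Real.sin θ - v.im * Real.cos θ)) θ := by
    have := ((((Real.hasDerivAt_cos θ).const_mul v.re).add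
      ((Real.hasDerivAt_sin θ).const_mul v.im)).const_mul 2).const_sub (1 + ‖v‖ ^ 2)
    refine this.congr_deriv ?_
    ring
  have hfθ : f θ = 1 := by
    have := normSq_e_sub θ v
    rw [h] at this; simp only [hf]; linarith
  have hn : ‖v‖ ^ 2 = v.re ^ 2 + v.im ^ 2 := by
    rw [Complex.sq_norm, Complex.normSq_apply]; ring
  have hpos : 0 < ‖v‖ := norm_pos_iff.mpr hv0
  have hne : v.re * Real.sin θ - v.im * Real.cos θ ≠ 0 := by
    intro h0
    have h1 : ‖v‖ ^ 2 = 2 * (v.re * Real.cos θ + v.im * Real.sin θ) := by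
      simp only [hf] at hfθ; linarith
    have h2 : (v.re * Real.cos θ + v.im * Real.sin θ) ^ 2 = ‖v‖ ^ 2 := by
      have := Real.sin_sq_add_cos_sq θ
      have h3 : (v.re * Real.cos θ + v.im * Real.sin θ) ^ 2 +
          (v.re * Real.sin θ - v.im * Real.cos θ) ^ 2 =
          (v.re ^ 2 + v.im ^ 2) * (Real.sin θ ^ 2 + Real.cos θ ^ 2) := by ring
      rw [h0, this, ← hn] at h3; linarith
    have h4 : ‖v‖ ^ 2 * (‖v‖ ^ 2 - 4) = 0 := by nlinarith
    have h5 : ‖v‖ ^ 2 < 4 := by nlinarith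
    have h6 : 0 < ‖v‖ ^ 2 := by positivity
    nlinarith
  have lt1 : ∀ t, f t < 1 → ‖e t - v‖ < 1 := fun t ht => by
    have := normSq_e_sub t v
    simp only [hf] at ht
    nlinarith [norm_nonneg (e t - v)]
  have gt1 : ∀ t, 1 < f t → 1 < ‖e t - v‖ := fun t ht => by
    have := normSq_e_sub t v
    simp only [hf] at ht
    nlinarith [norm_nonneg (e t - v)]
  rcases lt_or_gt_of_ne hne with hlt | hgt
  · right
    have := pos_slope hd.neg (by linarith)
    filter_upwards [this] with s hs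
    simp only [Pi.neg_apply, hfθ] at hs
    exact ⟨lt1 _ (by linarith [hs.1]), gt1 _ (by linarith [hs.2])⟩
  · left
    have := pos_slope hd (by linarith)
    filter_upwards [this] with s hs
    rw [hfθ] at hs
    exact ⟨gt1 _ hs.1, lt1 _ hs.2⟩

theorem two_bad {v : ℂ} (hv0 : v ≠ 0) (hv1 : ‖v‖ < 1) {θ δ : ℝ} (h : ‖e θ - v‖ = 1)
    (h' : ‖e (θ + δ) - v‖ = 1) :
    Real.cos δ = 1 ∨ (-1 < Real.cos δ ∧ Real.cos δ < -1 / 2) := by
  have h1 := normSq_e_sub θ v
  have h2 := normSq_e_sub (θ + δ) v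
  rw [h] at h1; rw [h', Real.cos_add, Real.sin_add] at h2
  have hn : ‖v‖ ^ 2 = v.re ^ 2 + v.im ^ 2 := by
    rw [Complex.sq_norm, Complex.normSq_apply]; ring
  have hpos : 0 < ‖v‖ := norm_pos_iff.mpr hv0
  set α := v.re * Real.cos θ + v.im * Real.sin θ with hα
  set β := v.re * Real.sin θ - v.im * Real.cos θ with hβ
  have h3 : α ^ 2 + β ^ 2 = 2 * α := by
    have := Real.sin_sq_add_cos_sq θ
    have h3 : α ^ 2 + β ^ 2 = (v.re ^ 2 + v.im ^ 2) * (Real.sin θ ^ 2 + Real.cos θ ^ 2) := by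
      simp only [hα, hβ]; ring
    rw [this, ← hn] at h3; linarith
  have h4 : α * (1 - Real.cos δ) = -β * Real.sin δ := by
    have : v.re * (Real.cos θ * Real.cos δ - Real.sin θ * Real.sin δ) +
        v.im * (Real.sin θ * Real.cos δ + Real.cos θ * Real.sin δ) =
        α * Real.cos δ - β * Real.sin δ := by simp only [hα, hβ]; ring
    rw [this] at h2; linarith
  have hα0 : 0 < α := by nlinarith
  have hα1 : α < 1 / 2 := by nlinarith
  by_cases hc : Real.cos δ = 1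
  · exact Or.inl hc
  right
  have hc' : 1 - Real.cos δ ≠ 0 := fun h0 => hc (by linarith)
  have h5 : α ^ 2 * (1 - Real.cos δ) = β ^ 2 * (1 + Real.cos δ) := by
    apply mul_left_cancel₀ hc'
    have := Real.sin_sq_add_cos_sq δ
    have h6 : (α * (1 - Real.cos δ)) ^ 2 = β ^ 2 * Real.sin δ ^ 2 := by rw [h4]; ring
    have h7 : Real.sin δ ^ 2 = (1 - Real.cos δ) * (1 + Real.cos δ) := by linarith
    rw [h7] at h6; linarith
  have h8 : α * (α - (1 + Real.cos δ)) = 0 := by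
    have : β ^ 2 = 2 * α - α ^ 2 := by linarith
    rw [this] at h5; linarith
  have h9 : α = 1 + Real.cos δ := by
    rcases mul_eq_zero.mp h8 with h | h
    · exact absurd h hα0.ne'
    · linarith
  constructor <;> linarith

/-- a density point has positive measure of the set nearby, also after removing null sets -/
theorem dens_pos {A : Set ℂ} {z : ℂ} (h : Dens2 A z) {ε : ℝ} (hε : 0 < ε) :
    volume (A ∩ ball z ε) ≠ 0 := by
  intro h0
  obtain ⟨r, hr, hr0, hrε⟩ := ((h 1 one_pos).and (Ioo_mem_nhdsGT hε)).exists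
  have hsub : closedBall z r ⊆ (closedBall z r \ A) ∪ (A ∩ ball z ε) := fun w hw => by
    by_cases hA : w ∈ A
    · exact Or.inr ⟨hA, closedBall_subset_ball hrε hw⟩
    · exact Or.inl ⟨hw, hA⟩
  have h1 := (measure_mono hsub).trans (measure_union_le (μ := volume) _ _)
  rw [h0, add_zero, Complex.volume_closedBall] at h1
  have h2 := h1.trans hr
  rw [← ENNReal.ofReal_pow hr0.le, ← ENNReal.ofReal_coe_nnreal,
    ← ENNReal.ofReal_mul (by positivity), ENNReal.ofReal_le_ofReal_iff (by positivity)] at h2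
  simp only [NNReal.coe_real_pi] at h2
  nlinarith [Real.pi_gt_three, sq_pos_of_pos hr0]

theorem two_dens {A B N : Set ℂ} {z w : ℂ} (hA : Dens2 A z) (hB : Dens2 B w) (hN : volume N = 0)
    {ε : ℝ} (hε : 0 < ε) : ∃ s : ℂ, ‖s‖ < ε ∧ z + s ∈ A ∧ w + s ∈ B ∧ s ∉ N := by
  by_contra hcon
  push Not at hcon
  obtain ⟨r, ⟨hr, hr'⟩, hr0, hrε⟩ :=
    (((hA 1 one_pos).and (hB 1 one_pos)).and (Ioo_mem_nhdsGT hε)).exists
  have hsub : closedBall (0 : ℂ) r ⊆ ((fun s => z + s) ⁻¹' (closedBall z r \ A) ∪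
      (fun s => w + s) ⁻¹' (closedBall w r \ B)) ∪ N := fun s hs => by
    have hs' : ‖s‖ ≤ r := by simpa using hs
    by_cases h1 : z + s ∈ A
    · by_cases h2 : w + s ∈ B
      · exact Or.inr (hcon s (hs'.trans_lt hrε) h1 h2)
      · exact Or.inl (Or.inr ⟨by simpa [dist_eq_norm] using hs', h2⟩)
    · exact Or.inl (Or.inl ⟨by simpa [dist_eq_norm] using hs', h1⟩)
  have h1 := (measure_mono hsub).trans (measure_union_le (μ := volume) _ _)
  rw [hN, add_zero, Complex.volume_closedBall] at h1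
  have h2 := h1.trans (measure_union_le (μ := volume) _ _)
  rw [measure_preimage_add, measure_preimage_add] at h2
  have h3 := h2.trans (add_le_add hr hr')
  rw [← ENNReal.ofReal_add (by positivity) (by positivity),
    ← ENNReal.ofReal_pow hr0.le, ← ENNReal.ofReal_coe_nnreal,
    ← ENNReal.ofReal_mul (by positivity), ENNReal.ofReal_le_ofReal_iff (by positivity)] at h3
  simp only [NNReal.coe_real_pi] at h3
  nlinarith [Real.pi_gt_three, sq_pos_of_pos hr0]

/-- almost every point of `U` has a colour in `S` -/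
def Only (C : Col) (U : Set ℂ) (S : Fin 5 → Prop) : Prop :=
  ∀ᵐ z, z ∈ U → ∃ j, S j ∧ z ∈ C.D j

theorem Only.mono {C : Col} {U V : Set ℂ} {S : Fin 5 → Prop} (h : Only C U S) (hV : V ⊆ U) :
    Only C V S := Eventually.mono h fun _ hz hv => hz (hV hv)

theorem Only.exists {C : Col} {U : Set ℂ} {S : Fin 5 → Prop} (h : Only C U S) (hU : IsOpen U)
    (hne : U.Nonempty) : ∃ j, S j := by
  by_contra hcon
  have : ∀ᵐ z, z ∉ U := Eventually.mono h fun z hz hu => by
    obtain ⟨j, hj, -⟩ := hz hu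
    exact hcon ⟨j, hj⟩
  exact (hU.measure_pos volume hne).ne' (measure_eq_zero_iff_ae_notMem.mpr this)

theorem rbase {C : Col} {U : Set ℂ} {S : Fin 5 → Prop} (h : Only C U S) (hU : IsOpen U)
    {u : Fin 5} {ω t : ℂ} (hω : ω ∈ closure (C.D u)) (ht : t ∈ U) (hd : dist t ω = 1)
    {ε : ℝ} (hε : 0 < ε) : ∃ z j, dist t z < ε ∧ S j ∧ j ≠ u ∧ z ∈ C.D j := by
  obtain ⟨δ, hδ, hball⟩ := Metric.isOpen_iff.mp hU t ht
  obtain ⟨z, hz, hzω⟩ := Metric.mem_closure_iff.mp hω (min δ ε / 2) (by positivity)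
  have hN : volume ((fun s => z + (t - ω) + s) ⁻¹' {w | ¬ (w ∈ U → ∃ j, S j ∧ w ∈ C.D j)}) = 0 := by
    rw [measure_preimage_add]; exact h
  obtain ⟨s, hs, h1, -, h3⟩ := two_dens (C.dens u z hz) (C.dens u z hz) hN
    (ε := min δ ε / 2) (by positivity)
  have hdist : dist t (z + (t - ω) + s) < min δ ε := by
    rw [dist_eq_norm] at *
    have : t - (z + (t - ω) + s) = (ω - z) - s := by ring
    rw [this]
    linarith [norm_sub_le (ω - z) s]
  simp only [mem_preimage, mem_ofPred_eq, not_not] at h3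
  obtain ⟨j, hj, hj'⟩ := h3 (hball (by
    rw [mem_ball, dist_comm]; exact hdist.trans_le (min_le_left _ _)))
  refine ⟨_, j, hdist.trans_le (min_le_right _ _), hj, ?_, hj'⟩
  rintro rfl
  refine C.free j _ hj' _ h1 ?_
  rw [dist_eq_norm] at *
  rw [← hd]; congr 1; ring

theorem rprop {C : Col} {U : Set ℂ} {S : Fin 5 → Prop} (h : Only C U S) (hU : IsOpen U)
    {u v : Fin 5} (hS : ∀ j, S j → j = u ∨ j = v) {ω t : ℂ} (hω : ω ∈ closure (C.D u))
    (ht : t ∈ U) (hd : dist t ω = 1) : t ∈ closure (C.D v) := by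
  refine Metric.mem_closure_iff.mpr fun ε hε => ?_
  obtain ⟨z, j, h1, h2, h3, h4⟩ := rbase h hU hω ht hd hε
  rcases hS j h2 with rfl | rfl
  · exact absurd rfl h3
  · exact ⟨z, h4, h1⟩

theorem rmono {C : Col} {U : Set ℂ} {S : Fin 5 → Prop} (h : Only C U S) (hU : IsOpen U)
    {u : Fin 5} (hS : ∀ j, S j → j = u) {ω t : ℂ} (hω : ω ∈ closure (C.D u))
    (ht : t ∈ U) (hd : dist t ω = 1) : False := by
  obtain ⟨z, j, -, h2, h3, -⟩ := rbase h hU hω ht hd one_pos
  exact h3 (hS j h2)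

theorem rcross {C : Col} {U : Set ℂ} {S : Fin 5 → Prop} (h : Only C U S) (hU : IsOpen U)
    {u v : Fin 5} (hS : ∀ j, S j → j = u ∨ j = v) {ω ω' t : ℂ} (hω : ω ∈ closure (C.D u))
    (hω' : ω' ∈ closure (C.D v)) (ht : t ∈ U) (hd : dist t ω = 1) (hd' : dist t ω' = 1)
    (hne : ω ≠ ω') (h2 : dist ω ω' < 2) : False := by
  obtain ⟨δ, hδ, hball⟩ := Metric.isOpen_iff.mp hU t ht
  obtain ⟨θ, hθ⟩ := exists_e_of_norm (z := t - ω) (by rwa [dist_eq_norm] at hd)
  have hv0 : ω' - ω ≠ 0 := sub_ne_zero.mpr hne.symm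
  have hv2 : ‖ω' - ω‖ < 2 := by rwa [dist_comm, dist_eq_norm] at h2
  have hθ1 : ‖e θ - (ω' - ω)‖ = 1 := by
    rw [← hθ, ← hd', dist_eq_norm]; congr 1; ring
  -- two angles near θ with opposite strict signs
  have key : ∃ a b : ℝ, |a - θ| < δ / 3 ∧ |b - θ| < δ / 3 ∧ ‖e a - (ω' - ω)‖ < 1 ∧
      1 < ‖e b - (ω' - ω)‖ := by
    have hI := Ioo_mem_nhdsGT (show (0 : ℝ) < δ / 3 by positivity)
    rcases signchange hv0 hv2 hθ1 with h' | h'
    · obtain ⟨s, hs, hs0, hs1⟩ := (h'.and hI).exists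
      exact ⟨θ - s, θ + s, by simpa [abs_of_pos hs0] using hs1,
        by simpa [abs_of_pos hs0] using hs1, hs.2, hs.1⟩
    · obtain ⟨s, hs, hs0, hs1⟩ := (h'.and hI).exists
      exact ⟨θ + s, θ - s, by simpa [abs_of_pos hs0] using hs1,
        by simpa [abs_of_pos hs0] using hs1, hs.1, hs.2⟩
  obtain ⟨a, b, ha, hb, ha1, hb1⟩ := key
  set η := min (δ / 3) (min (1 - ‖e a - (ω' - ω)‖) (‖e b - (ω' - ω)‖ - 1) / 2) with hη
  have hη0 : 0 < η := by
    apply lt_min (by positivity)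
    apply half_pos
    exact lt_min (by linarith) (by linarith)
  have hη1 : η ≤ δ / 3 := min_le_left _ _
  have hη2 : 2 * η ≤ 1 - ‖e a - (ω' - ω)‖ := by
    have := min_le_right (δ / 3) (min (1 - ‖e a - (ω' - ω)‖) (‖e b - (ω' - ω)‖ - 1) / 2)
    have := min_le_left (1 - ‖e a - (ω' - ω)‖) (‖e b - (ω' - ω)‖ - 1)
    linarith
  have hη3 : 2 * η ≤ ‖e b - (ω' - ω)‖ - 1 := by
    have := min_le_right (δ / 3) (min (1 - ‖e a - (ω' - ω)‖) (‖e b - (ω' - ω)‖ - 1) / 2)
    have := min_le_right (1 - ‖e a - (ω' - ω)‖) (‖e b - (ω' - ω)‖ - 1)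
    linarith
  obtain ⟨z, hz, hzω⟩ := Metric.mem_closure_iff.mp hω η hη0
  obtain ⟨z', hz', hzω'⟩ := Metric.mem_closure_iff.mp hω' η hη0
  rw [dist_eq_norm] at hzω hzω'
  have hdiff : ‖(ω' - ω) - (z' - z)‖ < 2 * η := by
    have : (ω' - ω) - (z' - z) = (ω' - z') - (ω - z) := by ring
    rw [this]; linarith [norm_sub_le (ω' - z') (ω - z)]
  have ha2 : ‖e a - (z' - z)‖ < 1 := by
    have : e a - (z' - z) = (e a - (ω' - ω)) + ((ω' - ω) - (z' - z)) := by ring
    rw [this]; linarith [norm_add_le (e a - (ω' - ω)) ((ω' - ω) - (z' - z))]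
  have hb2 : 1 < ‖e b - (z' - z)‖ := by
    have : e b - (ω' - ω) = (e b - (z' - z)) - ((ω' - ω) - (z' - z)) := by ring
    have h3 := norm_sub_le (e b - (z' - z)) ((ω' - ω) - (z' - z))
    rw [← this] at h3; linarith
  have hcont : Continuous fun c : ℝ => ‖e c - (z' - z)‖ := (continuous_e.sub continuous_const).norm
  obtain ⟨c, hc, hc1⟩ := intermediate_value_uIcc (a := a) (b := b) hcont.continuousOn
    (show (1 : ℝ) ∈ uIcc _ _ from mem_uIcc.mpr (Or.inl ⟨ha2.le, hb2.le⟩))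
  have hcθ : |c - θ| < δ / 3 := by
    rw [abs_lt] at *
    rcases mem_uIcc.mp hc with h' | h' <;> constructor <;> linarith [h'.1, h'.2]
  have hN : volume ((fun s => z + e c + s) ⁻¹' {w | ¬ (w ∈ U → ∃ j, S j ∧ w ∈ C.D j)}) = 0 := by
    rw [measure_preimage_add]; exact h
  obtain ⟨s, hs, h1, h2', h3⟩ := two_dens (C.dens u z hz) (C.dens v z' hz') hN
    (ε := δ / 3) (by positivity)
  simp only [mem_preimage, mem_ofPred_eq, not_not] at h3
  obtain ⟨j, hj, hj'⟩ := h3 (hball (by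
    rw [mem_ball, dist_eq_norm]
    have : z + e c + s - t = (e c - e θ) - (ω - z) + s := by rw [← hθ]; ring
    rw [this]
    have := norm_add_le ((e c - e θ) - (ω - z)) s
    have := norm_sub_le (e c - e θ) (ω - z)
    have := norm_e_sub_le c θ
    linarith))
  rcases hS j hj with rfl | rfl
  · refine C.free j _ hj' _ h1 ?_
    rw [dist_eq_norm, ← norm_e c]; congr 1; ring
  · refine C.free j _ hj' _ h2' ?_
    rw [dist_eq_norm, ← hc1]; congr 1; ring

end Vale.Agent.P032.FilA
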