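import Vale.Agent.P032.FilAux1

namespace Vale.Agent.P032.FilA

open MeasureTheory Set Filter Topology Metric
open scoped Real ENNReal BigOperators

/-- `true` is the outside, `false` the inside of the unit circle about `x` -/
def side (x : ℂ) (σ : Bool) (z : ℂ) : Prop := if σ = true then 1 < dist z x else dist z x < 1

/-- near `c` the side `σ` is separated by the link to `y` -/
def es (y c : ℂ) (σ : Bool) : Prop := if σ = true then dist c y < 1 else 1 < dist c y

def HB (x c : ℂ) (σ : Bool) (ε : ℝ) : Set ℂ := {z | dist z c < ε ∧ side x σ z}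

theorem isOpen_side (x : ℂ) (σ : Bool) : IsOpen {z | side x σ z} := by
  cases σ
  · simpa [side] using isOpen_lt (continuous_id.dist continuous_const) continuous_const
  · simpa [side] using isOpen_lt continuous_const (continuous_id.dist continuous_const)

theorem isOpen_es (y : ℂ) (σ : Bool) : IsOpen {c | es y c σ} := by
  cases σ
  · simpa [es] using isOpen_lt continuous_const (continuous_id.dist continuous_const)
  · simpa [es] using isOpen_lt (continuous_id.dist continuous_const) continuous_const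

theorem isOpen_HB (x c : ℂ) (σ : Bool) (ε : ℝ) : IsOpen (HB x c σ ε) :=
  (isOpen_lt (continuous_id.dist continuous_const) continuous_const).inter (isOpen_side x σ)

theorem lk_free {C : Col} {i : Fin 5} {x y z : ℂ} {σ : Bool} (h : C.Lk i x y) (h1 : side x σ z)
    (h2 : es y z σ) : z ∉ C.D i := fun hz => by
  cases σ
  · exact (h z hz).1 ⟨by simpa [side] using h1, by simpa [es] using h2⟩
  · exact (h z hz).2 ⟨by simpa [es] using h2, by simpa [side] using h1⟩

theorem dist_eq' (x y : ℂ) (θ : ℝ) : dist (x + e θ) y = ‖e θ - (y - x)‖ := by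
  rw [dist_eq_norm]; congr 1; ring

theorem sides {x y : ℂ} (h0 : 0 < dist y x) (h1 : dist y x < 1) (θ : ℝ) :
    ∃ p m : Bool, (∀ᶠ s in 𝓝[>] (0 : ℝ), es y (x + e (θ + s)) p ∧ es y (x + e (θ - s)) m) ∧
      (p = m → es y (x + e θ) p) ∧ (p ≠ m ↔ dist (x + e θ) y = 1) := by
  have hc : ∀ σ, es y (x + e θ) σ →
      ∀ᶠ s in 𝓝[>] (0 : ℝ), es y (x + e (θ + s)) σ ∧ es y (x + e (θ - s)) σ := fun σ hσ => by
    apply nhdsWithin_le_nhds
    have c1 : Continuous fun s : ℝ => x + e (θ + s) :=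
      continuous_const.add (continuous_e.comp (by fun_prop))
    have c2 : Continuous fun s : ℝ => x + e (θ - s) :=
      continuous_const.add (continuous_e.comp (by fun_prop))
    exact (c1.continuousAt.eventually ((isOpen_es y σ).mem_nhds (by simpa using hσ))).and
      (c2.continuousAt.eventually ((isOpen_es y σ).mem_nhds (by simpa using hσ)))
  rcases lt_trichotomy (dist (x + e θ) y) 1 with h | h | h
  · have : es y (x + e θ) true := by simpa [es] using h
    exact ⟨true, true, hc _ this, fun _ => this, by simp [h.ne]⟩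
  · have hv0 : y - x ≠ 0 := by
      rw [dist_eq_norm] at h0; exact norm_pos_iff.mp h0
    have hv2 : ‖y - x‖ < 2 := by rw [dist_eq_norm] at h1; linarith
    rcases signchange hv0 hv2 (by rw [← dist_eq']; exact h) with h' | h'
    · refine ⟨false, true, ?_, by simp, by simp [h]⟩
      filter_upwards [h'] with s hs
      simpa [es, dist_eq'] using hs
    · refine ⟨true, false, ?_, by simp, by simp [h]⟩
      filter_upwards [h'] with s hs
      simpa [es, dist_eq'] using hs
  · have : es y (x + e θ) false := by simpa [es] using h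
    exact ⟨false, false, hc _ this, fun _ => this, by simp [h.ne']⟩

theorem only_of {C : Col} {n : ℕ} {a b : Fin n → Fin 5} {x : ℂ} {y : Fin n → ℂ}
    (ha : ∀ k, C.Lk (a k) x (y k)) (hb : ∀ k, C.Lk (b k) x (y k)) {c : ℂ} {σ : Bool}
    {P : Fin n → Prop} (hP : ∀ k, P k → es (y k) c σ) :
    ∃ ε > 0, Only C (HB x c σ ε) (fun j => ∀ k, P k → j ≠ a k ∧ j ≠ b k) := by
  have : ∀ᶠ z in 𝓝 c, ∀ k, P k → es (y k) z σ := by
    rw [eventually_all]
    intro k
    by_cases hk : P k
    · have h : ∀ᶠ z in 𝓝 c, es (y k) z σ := (isOpen_es (y k) σ).mem_nhds (hP k hk)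
      exact h.mono fun z hz _ => hz
    · exact Eventually.of_forall fun z h => absurd h hk
  obtain ⟨ε, hε, h⟩ := Metric.eventually_nhds_iff.mp this
  refine ⟨ε, hε, C.cover.mono fun z ⟨j, hj⟩ hz => ⟨j, fun k hk => ⟨?_, ?_⟩, hj⟩⟩
  · rintro rfl; exact lk_free (ha k) hz.2 (h hz.1 k hk) hj
  · rintro rfl; exact lk_free (hb k) hz.2 (h hz.1 k hk) hj

theorem cone_side (x : ℂ) (θ₀ : ℝ) (σ : Bool) {δ : ℝ} (hδ : 0 < δ) :
    ∃ (w : ℂ) (r : ℝ), 0 < r ∧ ∀ x' ∈ ball w r, dist x' x < δ ∧
      ∀ θ, |θ - θ₀| < 1 / 4 → side x σ (x' + e θ) := by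
  set t := min (δ / 2) (1 / 4) with ht
  have ht0 : 0 < t := lt_min (by positivity) (by norm_num)
  have ht1 : t ≤ δ / 2 := min_le_left _ _
  have ht2 : t ≤ 1 / 4 := min_le_right _ _
  have key : ∀ (w : ℂ) (θ : ℝ), ‖w - t * e θ₀‖ < t / 4 → |θ - θ₀| < 1 / 4 →
      ‖w‖ < 5 * t / 4 ∧ t / 2 ≤ w.re * Real.cos θ + w.im * Real.sin θ := fun w θ hw hθ => by
    have hn : ‖(t : ℂ) * e θ₀‖ = t := by simp [abs_of_pos ht0]
    constructor
    · have := norm_add_le (w - t * e θ₀) (t * e θ₀)
      rw [sub_add_cancel, hn] at this; linarith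
    · have h1 : w.re * Real.cos θ + w.im * Real.sin θ = (w * e (-θ)).re := by simp
      have h2 : w * e (-θ) = t + (t * (e θ₀ - e θ) + (w - t * e θ₀)) * e (-θ) := by
        have := e_mul_neg θ
        linear_combination (t : ℂ) * this
      have h3 : ‖(t * (e θ₀ - e θ) + (w - t * e θ₀)) * e (-θ)‖ ≤ t / 2 := by
        rw [norm_mul, norm_e, mul_one]
        have h4 := norm_add_le ((t : ℂ) * (e θ₀ - e θ)) (w - t * e θ₀)
        have h5 : ‖(t : ℂ) * (e θ₀ - e θ)‖ ≤ t / 4 := by
          rw [norm_mul, Complex.norm_real, Real.norm_eq_abs, abs_of_pos ht0]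
          have := norm_e_sub_le θ₀ θ
          rw [abs_sub_comm] at this
          nlinarith
        linarith
      have h6 := (Complex.abs_re_le_norm _).trans h3
      rw [h1, h2, Complex.add_re, Complex.ofReal_re]
      linarith [(abs_le.mp h6).1]
  cases σ
  · refine ⟨x - t * e θ₀, t / 4, by positivity, fun x' hx' => ?_⟩
    have hw : ‖(x - x') - t * e θ₀‖ < t / 4 := by
      rw [mem_ball, dist_comm, dist_eq_norm] at hx'
      rwa [show (x - x') - t * e θ₀ = x - t * e θ₀ - x' by ring]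
    refine ⟨?_, fun θ hθ => ?_⟩
    · rw [dist_comm, dist_eq_norm]; linarith [(key _ θ₀ hw (by simp)).1]
    · obtain ⟨h1, h2⟩ := key _ θ hw hθ
      have h3 := normSq_e_sub θ (x - x')
      simp only [side, Bool.false_eq_true, if_false]
      rw [dist_eq']
      nlinarith [norm_nonneg (x - x'), norm_nonneg (e θ - (x - x'))]
  · refine ⟨x + t * e θ₀, t / 4, by positivity, fun x' hx' => ?_⟩
    have hw : ‖(x' - x) - t * e θ₀‖ < t / 4 := by
      rw [mem_ball, dist_eq_norm] at hx'
      rwa [show (x' - x) - t * e θ₀ = x' - (x + t * e θ₀) by ring]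
    refine ⟨?_, fun θ hθ => ?_⟩
    · rw [dist_eq_norm]; linarith [(key _ θ₀ hw (by simp)).1]
    · obtain ⟨h1, h2⟩ := key _ θ hw hθ
      have h3 := normSq_e_sub θ (x - x')
      simp only [Complex.sub_re, Complex.sub_im] at h2 h3
      simp only [side, if_true]
      rw [dist_eq']
      nlinarith [norm_nonneg (x - x'), norm_nonneg (e θ - (x - x'))]

theorem star_of_lk (hD : DensStmt) {C : Col} {x y : ℂ} {i j : Fin 5} (h0 : 0 < dist y x)
    (h1 : dist y x < 1) (hi : C.Lk i x y) (hj : C.Lk j x y) : C.Star x i j := by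
  intro Θ _ _ hΘ hA
  have hess := hD.2.2.1
  -- an essential point of Θ with a definite side
  have key : ∃ θ₀ σ, Ess Θ θ₀ ∧ es y (x + e θ₀) σ := by
    obtain ⟨θ, hθ⟩ : ∃ θ, Ess Θ θ := by
      by_contra hcon
      push Not at hcon
      exact hΘ (measure_eq_zero_iff_ae_notMem.mpr ((hess Θ).mono fun t ht h => hcon t (ht h)))
    obtain ⟨p, m, hpm, -, -⟩ := sides h0 h1 θ
    obtain ⟨η, hη, hη'⟩ := (nhdsGT_basis (0 : ℝ)).eventually_iff.mp hpm
    have h2 := hθ η hη
    obtain ⟨θ₁, h3, h4, h5⟩ : ∃ θ₁, θ₁ ∈ Θ ∩ ball θ η ∧ θ₁ ≠ θ ∧ Ess Θ θ₁ := by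
      by_contra hcon
      push Not at hcon
      apply h2
      apply measure_eq_zero_iff_ae_notMem.mpr
      filter_upwards [hess Θ, (Set.countable_singleton θ).ae_notMem volume] with t ht ht' h
      exact hcon t h ht' (ht h.1)
    have h6 := abs_lt.mp (show |θ₁ - θ| < η by simpa [Real.dist_eq] using h3.2)
    rcases lt_or_gt_of_ne h4 with h | h
    · refine ⟨θ₁, m, h5, ?_⟩
      have := (hη' (show θ - θ₁ ∈ Ioo 0 η from ⟨by linarith, by linarith⟩)).2
      simpa using this
    · refine ⟨θ₁, p, h5, ?_⟩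
      have := (hη' (show θ₁ - θ ∈ Ioo 0 η from ⟨by linarith, by linarith⟩)).1
      simpa using this
  obtain ⟨θ₀, σ, hθ₀, hσ⟩ := key
  obtain ⟨η, hη, hη'⟩ := Metric.isOpen_iff.mp (isOpen_es y σ) _ hσ
  set η' := min (η / 2) (1 / 4) with hη'def
  have hη0 : 0 < η' := lt_min (by positivity) (by norm_num)
  have hpos := hθ₀ η' hη0
  have hfin : volume (Θ ∩ ball θ₀ η') ≠ ⊤ :=
    ((measure_mono inter_subset_right).trans_lt measure_ball_lt_top).ne
  have hc : 0 < (volume (Θ ∩ ball θ₀ η')).toReal := ENNReal.toReal_pos hpos hfin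
  obtain ⟨δ, hδ, hae⟩ := hA _ (half_pos hc)
  obtain ⟨w, r, hr, hw⟩ := cone_side x θ₀ σ (δ := min δ (η / 2)) (by positivity)
  obtain ⟨x', hx', hx''⟩ : ∃ x' ∈ ball w r, dist x' x < δ →
      volume {θ | θ ∈ Θ ∧ x' + e θ ∉ C.D i ∧ x' + e θ ∉ C.D j} ≤
        ENNReal.ofReal ((volume (Θ ∩ ball θ₀ η')).toReal / 2) := by
    by_contra hcon
    apply (measure_ball_pos volume w hr).ne'
    apply measure_eq_zero_iff_ae_notMem.mpr
    filter_upwards [hae] with z hz hb
    exact hcon ⟨z, hb, hz⟩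
  obtain ⟨h2, h3⟩ := hw x' hx'
  have h4 := hx'' (h2.trans_le (min_le_left _ _))
  have hsub : Θ ∩ ball θ₀ η' ⊆ {θ | θ ∈ Θ ∧ x' + e θ ∉ C.D i ∧ x' + e θ ∉ C.D j} := by
    rintro θ ⟨h5, h6⟩
    have h7 : |θ - θ₀| < η' := by simpa [Real.dist_eq] using h6
    have h8 := h3 θ (h7.trans_le (min_le_right _ _))
    have h9 : es y (x' + e θ) σ := by
      apply hη'
      rw [mem_ball, dist_eq_norm]
      have : x' + e θ - (x + e θ₀) = (x' - x) + (e θ - e θ₀) := by ring
      rw [this]
      have h10 := norm_add_le (x' - x) (e θ - e θ₀)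
      have h11 := norm_e_sub_le θ θ₀
      have h12 := h2.trans_le (min_le_right _ _)
      rw [dist_eq_norm] at h12
      have h13 : η' ≤ η / 2 := min_le_left _ _
      linarith
    exact ⟨h5, lk_free hi h8 h9, lk_free hj h8 h9⟩
  have h5 := ENNReal.toReal_mono ENNReal.ofReal_ne_top ((measure_mono hsub).trans h4)
  rw [ENNReal.toReal_ofReal (half_pos hc).le] at h5
  linarith

end Vale.Agent.P032.FilA
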