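import Vale.Agent.P032.Stmts

/-! P032, final step: elementary lemmas and the one-scale alternative. -/

namespace Vale.Agent.P032

open MeasureTheory Set Filter Topology Metric
open scoped Real ENNReal BigOperators

namespace FinalA

theorem cyc_mono {g g' : Fin 5 → Fin 5 → Prop} (h : ∀ i j, g i j → g' i j) (hc : Cyc g) :
    Cyc g' := by
  obtain ⟨s, h1, h2, h3⟩ := hc
  refine ⟨s, h _ _ h1, h _ _ h2, ?_⟩
  rcases h3 with h3 | ⟨h3, h4 | ⟨h4, h5⟩⟩
  · exact Or.inl (h _ _ h3)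
  · exact Or.inr ⟨h _ _ h3, Or.inl (h _ _ h4)⟩
  · exact Or.inr ⟨h _ _ h3, Or.inr ⟨h _ _ h4, h _ _ h5⟩⟩

theorem cyc_ultra {X : Type} (U : Ultrafilter X) (g : X → Fin 5 → Fin 5 → Prop)
    (h : ∀ᶠ p in (U : Filter X), Cyc (g p)) :
    Cyc (fun i j => ∀ᶠ p in (U : Filter X), g p i j) := by
  unfold Cyc at h
  rw [Ultrafilter.eventually_exists_iff] at h
  obtain ⟨s, hs⟩ := h
  refine ⟨s, ?_⟩
  simpa only [eventually_and, Ultrafilter.eventually_or] using hs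

/-- colour `i` is rare on all small discs near the unit circle about `z` -/
def Good (C : Col) (η ρ : ℝ) (z : ℂ) (i : Fin 5) : Prop :=
  ∀ w, |dist w z - 1| ≤ ρ → C.pv w ρ i < η

theorem good_ev (C : Col) {z : ℂ} {i : Fin 5} (hz : z ∈ C.D i) {η : ℝ} (hη : 0 < η) :
    ∀ᶠ ρ in 𝓝[>] (0 : ℝ), Good C η ρ z i := by
  have hd := C.dens i z hz (η * π / 8) (by positivity)
  have ht : Tendsto (fun ρ : ℝ => 2 * ρ) (𝓝[>] 0) (𝓝[>] 0) := by
    refine tendsto_nhdsWithin_iff.2 ⟨?_, ?_⟩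
    · have h1 : Tendsto (fun ρ : ℝ => 2 * ρ) (𝓝 0) (𝓝 (2 * 0)) :=
        (continuous_const.mul continuous_id).tendsto 0
      rw [mul_zero] at h1
      exact h1.mono_left nhdsWithin_le_nhds
    · filter_upwards [self_mem_nhdsWithin] with ρ hρ
      exact mul_pos two_pos (mem_Ioi.1 hρ)
  have h1 : ∀ᶠ ρ in 𝓝[>] (0 : ℝ), ρ < 1 :=
    (eventually_lt_nhds zero_lt_one).filter_mono nhdsWithin_le_nhds
  filter_upwards [ht.eventually hd, h1, self_mem_nhdsWithin] with ρ hρ hρ1 hρ0 w hw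
  have hρ0' : 0 < ρ := hρ0
  have hwz : 0 < ‖z - w‖ := by
    rw [← dist_eq_norm, dist_comm]
    linarith [(abs_le.1 hw).1]
  set u : ℂ := ((‖z - w‖⁻¹ : ℝ) : ℂ) * (z - w) with hu
  have hu1 : ‖u‖ = 1 := by
    rw [hu, norm_mul, Complex.norm_real, norm_inv, norm_norm, inv_mul_cancel₀ hwz.ne']
  have hu2 : ‖w + u - z‖ ≤ ρ := by
    have e1 : w + u - z = ((‖z - w‖⁻¹ - 1 : ℝ) : ℂ) * (z - w) := by
      rw [hu]; push_cast; ring
    rw [e1, norm_mul, Complex.norm_real, Real.norm_eq_abs, ← abs_of_pos hwz, ← abs_mul,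
      abs_of_pos hwz, sub_mul, inv_mul_cancel₀ hwz.ne', one_mul, abs_sub_comm, ← dist_eq_norm,
      dist_comm]
    exact hw
  have hsub : C.D i ∩ ball w ρ ⊆ (fun x => x + u) ⁻¹' (closedBall z (2 * ρ) \ C.D i) := by
    rintro x ⟨hx, hxw⟩
    refine ⟨?_, fun hxu => C.free i _ hxu _ hx ?_⟩
    · rw [mem_closedBall, dist_eq_norm]
      rw [mem_ball, dist_eq_norm] at hxw
      have e1 : x + u - z = (x - w) + (w + u - z) := by ring
      rw [e1]
      linarith [norm_add_le (x - w) (w + u - z)]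
    · rw [dist_eq_norm, add_sub_cancel_left, hu1]
  have hv : volume (C.D i ∩ ball w ρ) ≤ ENNReal.ofReal (η * π / 8 * (2 * ρ) ^ 2) := by
    refine (measure_mono hsub).trans ?_
    rw [measure_preimage_add_right]
    exact hρ
  have hv2 : (volume (C.D i ∩ ball w ρ)).toReal ≤ η * π / 8 * (2 * ρ) ^ 2 :=
    ENNReal.toReal_le_of_le_ofReal (by positivity) hv
  unfold Col.pv fr
  rw [div_lt_iff₀ (by positivity)]
  have h3 : 0 < η * (π * ρ ^ 2) := by positivity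
  nlinarith

theorem mem_of_pv (C : Col) {w : ℂ} {ρ η : ℝ} {i : Fin 5} (hη : 0 < η) (h : η ≤ C.pv w ρ i) :
    ∃ x ∈ C.D i, dist x w < ρ := by
  by_contra hne
  have he : C.D i ∩ ball w ρ = ∅ := by
    refine eq_empty_of_forall_notMem fun x hx => hne ⟨x, hx.1, hx.2⟩
  unfold Col.pv fr at h
  rw [he] at h
  simp at h
  linarith

theorem pos_meas (C : Col) {x : ℂ} {i : Fin 5} (hx : x ∈ C.D i) {δ : ℝ} (hδ : 0 < δ) :
    volume (C.D i ∩ ball x δ) ≠ 0 := by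
  intro h0
  have h1 : ∀ᶠ r in 𝓝[>] (0 : ℝ), r < δ :=
    (eventually_lt_nhds hδ).filter_mono nhdsWithin_le_nhds
  obtain ⟨r, ⟨hr, hrδ⟩, hr0⟩ :=
    (((C.dens i x hx 1 one_pos).and h1).and self_mem_nhdsWithin).exists
  have hr0' : 0 < r := hr0
  have hsub : closedBall x r ⊆ (closedBall x r \ C.D i) ∪ (C.D i ∩ ball x δ) := by
    intro y hy
    by_cases hyD : y ∈ C.D i
    · exact Or.inr ⟨hyD, lt_of_le_of_lt (mem_closedBall.1 hy) hrδ⟩
    · exact Or.inl ⟨hy, hyD⟩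
  have h2 := (measure_mono (μ := volume) hsub).trans (measure_union_le _ _)
  rw [h0, add_zero, Complex.volume_closedBall] at h2
  have h3 := ENNReal.toReal_le_of_le_ofReal (by positivity) (h2.trans hr)
  rw [ENNReal.toReal_mul, ENNReal.toReal_pow, ENNReal.toReal_ofReal hr0'.le,
    ENNReal.coe_toReal, NNReal.coe_real_pi] at h3
  have h4 := Real.pi_gt_three
  have h5 : 0 < r ^ 2 := by positivity
  nlinarith

theorem avoid (C : Col) {x : ℂ} {i : Fin 5} (hx : x ∈ C.D i) {δ : ℝ} (hδ : 0 < δ) {H : Set ℂ}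
    (hH : H.Finite) : ∃ z ∈ C.D i, dist z x < δ ∧ ∀ h ∈ H, dist h z ≠ 1 := by
  by_contra hne
  apply pos_meas C hx hδ
  have h0 : volume (⋃ h ∈ H, sphere h (1 : ℝ)) = 0 :=
    (measure_biUnion_null_iff hH.countable).2 fun h _ => Measure.addHaar_sphere _ _ _
  refine measure_mono_null (fun z hz => ?_) h0
  by_contra hz'
  refine hne ⟨z, hz.1, hz.2, fun h hh h1 => hz' ?_⟩
  exact mem_biUnion hh (by rw [mem_sphere, dist_comm]; exact h1)

theorem lk_of_lim (C : Col) {X : Type} (F : Filter X) [F.NeBot] {u w : X → ℂ} {a b : ℂ}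
    {i : Fin 5} (hu : Tendsto u F (𝓝 a)) (hw : Tendsto w F (𝓝 b))
    (h : ∀ z ∈ C.D i, ∀ᶠ p in F, (dist (u p) z < 1 ↔ dist (w p) z < 1)) : C.Lk i a b := by
  intro z hz
  have hu' : Tendsto (fun p => dist (u p) z) F (𝓝 (dist a z)) := hu.dist tendsto_const_nhds
  have hw' : Tendsto (fun p => dist (w p) z) F (𝓝 (dist b z)) := hw.dist tendsto_const_nhds
  rw [dist_comm z a, dist_comm z b]
  constructor
  · rintro ⟨h1, h2⟩
    obtain ⟨p, ⟨h3, h4⟩, h5⟩ := (((h z hz).and (hu'.eventually (eventually_lt_nhds h1))).and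
      (hw'.eventually (eventually_gt_nhds h2))).exists
    linarith [h3.1 h4]
  · rintro ⟨h1, h2⟩
    obtain ⟨p, ⟨h3, h4⟩, h5⟩ := (((h z hz).and (hw'.eventually (eventually_lt_nhds h1))).and
      (hu'.eventually (eventually_gt_nhds h2))).exists
    linarith [h3.2 h4]

theorem chain {V : Type} (col : V → Fin 5) (Q : V → Prop) (R : V → V → Prop) (i : Fin 5)
    (hR : ∀ v w, R v w → col v = col w ∧ (col v = i → (Q v ↔ Q w))) {v w : V}
    (h : Relation.ReflTransGen R v w) (hv : col v = i) : col w = i ∧ (Q v ↔ Q w) := by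
  induction h with
  | refl => exact ⟨hv, Iff.rfl⟩
  | tail _ hbc ih =>
    obtain ⟨h1, h2⟩ := hR _ _ hbc
    exact ⟨h1 ▸ ih.1, ih.2.trans (h2 ih.1)⟩

theorem side_of_close {a b z : ℂ} {ρ : ℝ} (ha : ρ < |dist a z - 1|) (hab : dist a b ≤ ρ) :
    (dist a z < 1 ↔ dist b z < 1) := by
  have h1 := abs_dist_sub_le a b z
  have h2 := abs_le.1 (h1.trans hab)
  rcases lt_abs.1 ha with h | h
  · constructor <;> intro h3 <;> linarith [h2.1, h2.2, dist_nonneg (x := a) (y := b)]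
  · constructor <;> intro h3 <;> linarith [h2.1, h2.2, dist_nonneg (x := a) (y := b)]

theorem side_of_near {a h z : ℂ} {d : ℝ} (hh : d ≤ |dist h z - 1|) (ha : dist a h < d) :
    (dist a z < 1 ↔ dist h z < 1) :=
  (side_of_close (lt_of_lt_of_le ha hh) (dist_comm a h).ge).symm

/-- the triangle -/
def Tri (α β : ℝ) : Set ℂ := {w | α ≤ w.re ∧ β ≤ w.im ∧ w.re + w.im ≤ α + β + 4}

/-- the grid points -/
noncomputable def pos (α β : ℝ) (N : ℕ) (v : ℤ × ℤ) : ℂ := ⟨α + 4 / N * v.1, β + 4 / N * v.2⟩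

theorem dist_le_re_im (a b : ℂ) : dist a b ≤ |a.re - b.re| + |a.im - b.im| := by
  rw [dist_eq_norm]
  simpa using Complex.norm_le_abs_re_add_abs_im (a - b)

theorem re_le_dist (a b : ℂ) : |a.re - b.re| ≤ dist a b := by
  rw [dist_eq_norm]
  simpa using Complex.abs_re_le_norm (a - b)

theorem im_le_dist (a b : ℂ) : |a.im - b.im| ≤ dist a b := by
  rw [dist_eq_norm]
  simpa using Complex.abs_im_le_norm (a - b)

theorem dist_pos_le (α β : ℝ) (N : ℕ) {v w : ℤ × ℤ} (h : GAdj v w) :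
    dist (pos α β N v) (pos α β N w) ≤ 8 / N := by
  refine (dist_le_re_im _ _).trans ?_
  have h1 : |(v.1 : ℝ) - w.1| ≤ 1 := by exact_mod_cast h.1
  have h2 : |(v.2 : ℝ) - w.2| ≤ 1 := by exact_mod_cast h.2
  have h4 : (0 : ℝ) ≤ 4 / N := by positivity
  have e1 : (pos α β N v).re - (pos α β N w).re = 4 / N * ((v.1 : ℝ) - w.1) := by
    simp only [pos]; ring
  have e2 : (pos α β N v).im - (pos α β N w).im = 4 / N * ((v.2 : ℝ) - w.2) := by
    simp only [pos]; ring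
  rw [e1, e2, abs_mul, abs_mul, abs_of_nonneg h4]
  have e3 : (8 : ℝ) / N = 4 / N * 1 + 4 / N * 1 := by ring
  rw [e3]
  exact add_le_add (mul_le_mul_of_nonneg_left h1 h4) (mul_le_mul_of_nonneg_left h2 h4)

theorem pos_mem {α β : ℝ} {N : ℕ} (hN : 0 < N) {v : ℤ × ℤ} (h : InT N v) :
    pos α β N v ∈ Tri α β := by
  have hN' : (0 : ℝ) < N := by exact_mod_cast hN
  have h1 : (0 : ℝ) ≤ v.1 := by exact_mod_cast h.1
  have h2 : (0 : ℝ) ≤ v.2 := by exact_mod_cast h.2.1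
  have h3 : (v.1 : ℝ) + v.2 ≤ N := by exact_mod_cast h.2.2
  have h4 : (0 : ℝ) ≤ 4 / N := by positivity
  have h5 : 4 / (N : ℝ) * N = 4 := by field_simp
  refine ⟨?_, ?_, ?_⟩
  · simp only [pos]
    nlinarith [mul_nonneg h4 h1]
  · simp only [pos]
    nlinarith [mul_nonneg h4 h2]
  · simp only [pos]
    nlinarith [mul_le_mul_of_nonneg_left h3 h4]

theorem tri_sub {α β : ℝ} (hα : α ∈ Icc (0 : ℝ) 1) (hβ : β ∈ Icc (0 : ℝ) 1) :
    Tri α β ⊆ closedBall 0 10 := by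
  rintro w ⟨h1, h2, h3⟩
  rw [mem_closedBall, dist_zero_right]
  refine (Complex.norm_le_abs_re_add_abs_im w).trans ?_
  rw [abs_of_nonneg (hα.1.trans h1), abs_of_nonneg (hβ.1.trans h2)]
  linarith [hα.2, hβ.2]

theorem tri_compact {α β : ℝ} (hα : α ∈ Icc (0 : ℝ) 1) (hβ : β ∈ Icc (0 : ℝ) 1) :
    IsCompact (Tri α β) := by
  refine (isCompact_closedBall (0 : ℂ) 10).of_isClosed_subset ?_ (tri_sub hα hβ)
  exact (isClosed_le continuous_const Complex.continuous_re).inter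
    ((isClosed_le continuous_const Complex.continuous_im).inter
      (isClosed_le (Complex.continuous_re.add Complex.continuous_im) continuous_const))

/-- a long monochromatic chain -/
def Big (C : Col) (H Δ : Set ℂ) (η ρ d : ℝ) (i : Fin 5) : Prop :=
  ∃ a ∈ Δ, ∃ b x : ℂ, 4 / 3 ≤ dist a b ∧ x ∈ C.D i ∧ dist x a < ρ ∧
    ∀ z, Good C η ρ z i → (∀ h ∈ H, d ≤ |dist h z - 1|) → (dist a z < 1 ↔ dist b z < 1)

/-- two monochromatic chains from a hole to the same place -/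
def Hole (C : Col) (h : ℂ) (r η ρ d : ℝ) (i j : Fin 5) : Prop :=
  ∃ q : (ℂ × ℂ) × ℂ × ℂ, dist q.1.1 h < d ∧ dist q.1.2 h < d ∧ |dist q.2.1 h - r| ≤ ρ ∧
    dist q.2.2 q.2.1 ≤ ρ ∧ (∀ z, Good C η ρ z i → (dist q.1.1 z < 1 ↔ dist q.2.1 z < 1)) ∧
    ∀ z, Good C η ρ z j → (dist q.1.2 z < 1 ↔ dist q.2.2 z < 1)

end FinalA

end Vale.Agent.P032
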