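import Vale.Agent.P032.FinalAux1

/-! P032, final step: the one-scale alternative. -/

namespace Vale.Agent.P032

open MeasureTheory Set Filter Topology Metric
open scoped Real ENNReal BigOperators

namespace FinalA

theorem step (hG : GridStmt) (C : Col) (α β : ℝ) (H : Set ℂ) (r d η κ ρ : ℝ) (col : ℂ → Fin 5)
    (hη : 0 < η) (hκ : 0 < κ) (hρ : 0 < ρ) (hd : 0 < d) (hdr : d + ρ ≤ r)
    (hin : ∀ h ∈ H, α + 2 * r ≤ h.re ∧ β + 2 * r ≤ h.im ∧ h.re + h.im + 4 * r ≤ α + β + 4)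
    (hsep : ∀ h ∈ H, ∀ h' ∈ H, h ≠ h' → 4 * r ≤ dist h h')
    (hc1 : ∀ w ∈ Tri α β \ ⋃ h ∈ H, ball h d, η ≤ C.pv w ρ (col w))
    (hc2 : ∀ w₀ ∈ Tri α β \ ⋃ h ∈ H, ball h d, ∀ w₁ ∈ Tri α β \ ⋃ h ∈ H, ball h d,
      ∀ w₂ ∈ Tri α β \ ⋃ h ∈ H, ball h d, dist w₁ w₀ < κ * ρ → dist w₂ w₀ < κ * ρ →
        col w₀ = col w₁ ∨ col w₀ = col w₂ ∨ col w₁ = col w₂) :
    (∃ i, Big C H (Tri α β) η ρ (d + ρ) i) ∨ ∃ h ∈ H, Cyc (Hole C h r η ρ (d + ρ)) := by
  obtain ⟨N, hN⟩ := exists_nat_gt (8 / min ρ (κ * ρ))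
  have hm : 0 < min ρ (κ * ρ) := lt_min hρ (mul_pos hκ hρ)
  have hN' : (0 : ℝ) < N := lt_trans (by positivity) hN
  have hN0 : 0 < N := by exact_mod_cast hN'
  have hs : 8 / (N : ℝ) < min ρ (κ * ρ) := by
    rw [div_lt_iff₀ hm] at hN
    rw [div_lt_iff₀ hN']
    linarith
  have hs1 : 8 / (N : ℝ) < ρ := hs.trans_le (min_le_left _ _)
  have hs2 : 8 / (N : ℝ) < κ * ρ := hs.trans_le (min_le_right _ _)
  set P := pos α β N with hP
  have hadj : ∀ v w, GAdj v w → dist (P v) (P w) < ρ := fun v w h =>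
    (dist_pos_le α β N h).trans_lt hs1
  have hadj2 : ∀ v w, GAdj v w → dist (P w) (P v) < κ * ρ := fun v w h => by
    rw [dist_comm]
    exact (dist_pos_le α β N h).trans_lt hs2
  set Gd : ℤ × ℤ → Prop := fun v => InT N v ∧ ∀ h : H, ¬ dist (P v) h < d with hGd
  have hK : ∀ v, Gd v → P v ∈ Tri α β \ ⋃ h ∈ H, ball h d := by
    intro v hv
    refine ⟨pos_mem hN0 hv.1, fun hU => ?_⟩
    obtain ⟨h, hh, hb⟩ := mem_iUnion₂.1 hU
    exact hv.2 ⟨h, hh⟩ hb
  have hfar : ∀ z i v, Good C η ρ z i → Gd v → col (P v) = i → ρ < |dist (P v) z - 1| := by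
    intro z i v hz hv hi
    by_contra hle
    have h1 := hz _ (not_lt.1 hle)
    have h2 := hc1 _ (hK v hv)
    rw [hi] at h2
    linarith
  have h4 : (0 : ℝ) < 4 / N := by positivity
  have h5 : 4 / (N : ℝ) * N = 4 := by field_simp
  have key := hG N H (fun v => col (P v)) (fun h v => dist (P v) h < d)
    (fun h v => dist (P v) h < d + ρ) (fun h v => dist (P v) h < r) Gd hN0 (fun v => Iff.rfl)
    (fun h v w h1 h2 => by
      have h3 := hadj v w h2
      have h6 := dist_triangle_left (P w) h (P v)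
      linarith)
    (fun h v h1 => by linarith)
    (fun h v w h1 h2 => by
      have h3 := hadj v w h2
      have h6 := dist_triangle_left (P w) h (P v)
      have h7 : dist (P w) h < 2 * r := by linarith
      have h8 := abs_lt.1 ((re_le_dist (P w) h).trans_lt h7)
      have h9 := abs_lt.1 ((im_le_dist (P w) h).trans_lt h7)
      obtain ⟨i1, i2, i3⟩ := hin h h.2
      have e1 : (P w).re = α + 4 / N * w.1 := rfl
      have e2 : (P w).im = β + 4 / N * w.2 := rfl
      rw [e1] at h8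
      rw [e2] at h9
      refine ⟨?_, ?_, ?_, fun h' hne h10 => ?_⟩
      · have g : (0 : ℝ) < 4 / N * w.1 := by linarith [h8.1]
        have : (0 : ℝ) < w.1 := (mul_pos_iff_of_pos_left h4).1 g
        exact_mod_cast this
      · have g : (0 : ℝ) < 4 / N * w.2 := by linarith [h9.1]
        have : (0 : ℝ) < w.2 := (mul_pos_iff_of_pos_left h4).1 g
        exact_mod_cast this
      · have g : 4 / (N : ℝ) * ((w.1 : ℝ) + w.2) < 4 / N * N := by
          rw [mul_add]
          linarith [h8.2, h9.2]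
        have : (w.1 : ℝ) + w.2 < N := lt_of_mul_lt_mul_left g h4.le
        exact_mod_cast this
      · have h11 := hsep h' h'.2 h h.2 (fun h12 => hne (Subtype.ext h12))
        have h12 := dist_triangle_left (h' : ℂ) h (P w)
        linarith)
    (fun u v w hu hv hw huv huw _ =>
      hc2 _ (hK u hu) _ (hK v hv) _ (hK w hw) (hadj2 u v huv) (hadj2 u w huw))
  rcases key with ⟨v₀, v₁, v₂, hv₀, e0, e1, e2, c1, c2⟩ | ⟨h, hc⟩
  · left
    obtain ⟨x, hx, hxa⟩ := mem_of_pv C hη (hc1 _ (hK v₀ hv₀))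
    have hch : ∀ v, Relation.ReflTransGen (fun v w => Gd v ∧ Gd w ∧ col (P v) = col (P w) ∧
        (GAdj v w ∨ ∃ h : H, dist (P v) h < d + ρ ∧ dist (P w) h < d + ρ)) v₀ v →
        ∀ z, Good C η ρ z (col (P v₀)) → (∀ h ∈ H, d + ρ ≤ |dist h z - 1|) →
          (dist (P v₀) z < 1 ↔ dist (P v) z < 1) := by
      intro v hv z hz hh
      refine (chain (fun v => col (P v)) (fun v => dist (P v) z < 1) _ (col (P v₀)) ?_ hv rfl).2
      rintro a b ⟨ha, -, hab, h | ⟨h, h1, h2⟩⟩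
      · exact ⟨hab, fun hi => side_of_close (hfar z _ a hz ha hi) (hadj a b h).le⟩
      · exact ⟨hab, fun _ => (side_of_near (hh h h.2) h1).trans (side_of_near (hh h h.2) h2).symm⟩
    have f0 : (P v₀).re = α := by
      show α + 4 / N * (v₀.1 : ℝ) = α
      rw [e0]; simp
    have f1 : (P v₁).im = β := by
      show β + 4 / N * (v₁.2 : ℝ) = β
      rw [e1]; simp
    have f2 : (P v₂).re + (P v₂).im = α + β + 4 := by
      show α + 4 / N * (v₂.1 : ℝ) + (β + 4 / N * (v₂.2 : ℝ)) = α + β + 4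
      have e3 : (v₂.1 : ℝ) + v₂.2 = N := by exact_mod_cast e2
      linear_combination 4 / (N : ℝ) * e3 + h5
    refine ⟨col (P v₀), P v₀, (hK v₀ hv₀).1, ?_⟩
    rcases le_or_gt (4 / 3) ((P v₀).im - β) with ht | ht
    · refine ⟨P v₁, x, ?_, hx, hxa, hch v₁ c1⟩
      have g1 := (abs_le.1 (im_le_dist (P v₀) (P v₁))).2
      linarith
    · refine ⟨P v₂, x, ?_, hx, hxa, hch v₂ c2⟩
      have g1 := (abs_le.1 (im_le_dist (P v₀) (P v₂))).1
      have g2 := (abs_le.1 (re_le_dist (P v₀) (P v₂))).1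
      linarith
  · right
    refine ⟨h, h.2, cyc_mono ?_ hc⟩
    rintro i j ⟨u, u', w, w', b, n1, n2, -, -, ci, cj, c1, c2, a1, m1, m2, a2⟩
    have hch : ∀ i u v, col (P u) = i → Relation.ReflTransGen (fun v w => Gd v ∧ Gd w ∧
        col (P v) = col (P w) ∧ GAdj v w) u v →
        ∀ z, Good C η ρ z i → (dist (P u) z < 1 ↔ dist (P v) z < 1) := by
      intro i u v hi hv z hz
      refine (chain (fun v => col (P v)) (fun v => dist (P v) z < 1) _ i ?_ hv hi).2
      rintro a b ⟨ha, -, hab, h⟩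
      exact ⟨hab, fun hi => side_of_close (hfar z _ a hz ha hi) (hadj a b h).le⟩
    refine ⟨((P u, P u'), P w, P w'), n1, n2, ?_, ?_, hch i u w ci c1, hch j u' w' cj c2⟩
    · have g1 := hadj w b a2
      have g2 := dist_triangle_left (P b) h (P w)
      have g3 : r ≤ dist (P b) h := not_lt.1 m2
      have g4 : dist (P w) h < r := m1
      show |dist (P w) h - r| ≤ ρ
      rw [abs_le]
      constructor <;> linarith
    · show dist (P w') (P w) ≤ ρ
      rw [dist_comm]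
      exact (hadj w w' a1).le

end FinalA

end Vale.Agent.P032
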