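import Vale.Agent.P032.Stmts

/-! P032: the two unit vectors with prescribed sum `v + e φ`. -/

namespace Vale.Agent.P032

open Set Filter Topology Metric
open scoped Real

namespace NbGA

lemma arccos_half : Real.arccos (1 / 2) = π / 3 := by
  rw [← Real.cos_pi_div_three]
  exact Real.arccos_cos (by positivity) (by linarith [Real.pi_pos])

lemma gg_zero (σ : ℝ) : gg σ 0 = 0 := by
  rw [gg, add_zero, norm_one, arccos_half, Complex.arg_one]; ring

lemma norm_bd {ζ : ℂ} (h : ‖ζ‖ ≤ 1 / 10) : 9 / 10 ≤ ‖1 + ζ‖ ∧ ‖1 + ζ‖ ≤ 11 / 10 := by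
  have h1 := norm_add_le (1 : ℂ) ζ
  have h2 := norm_sub_le (1 + ζ) ζ
  rw [add_sub_cancel_right, norm_one] at h2
  rw [norm_one] at h1
  constructor <;> linarith

lemma norm_rot (v : ℂ) (φ : ℝ) : ‖v * e φ‖ = ‖v‖ := by rw [norm_mul, norm_e, mul_one]

lemma sum_eq (v : ℂ) (φ : ℝ) (hv : ‖v‖ ≤ 1 / 10) :
    e (Nb 1 v φ) + e (Nb (-1) v φ) = v + e φ := by
  obtain ⟨h1, h2⟩ := norm_bd ((norm_rot v (-φ)).trans_le hv)
  have h3 := Complex.norm_mul_exp_arg_mul_I (1 + v * e (-φ))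
  have h4 : Real.cos (Real.arccos (‖1 + v * e (-φ)‖ / 2)) = ‖1 + v * e (-φ)‖ / 2 :=
    Real.cos_arccos (by linarith) (by linarith)
  have e1 : Nb 1 v φ = φ + Complex.arg (1 + v * e (-φ)) + Real.arccos (‖1 + v * e (-φ)‖ / 2) := by
    rw [Nb, gg]; ring
  have e2 : Nb (-1) v φ =
      φ + Complex.arg (1 + v * e (-φ)) + -Real.arccos (‖1 + v * e (-φ)‖ / 2) := by
    rw [Nb, gg]; ring
  have h5 : ∀ A : ℝ, e A + e (-A) = ((2 * Real.cos A : ℝ) : ℂ) := fun A => by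
    rw [e_eq, e_eq, Real.cos_neg, Real.sin_neg]; push_cast; ring
  rw [e1, e2, e_add, e_add _ (-_), ← mul_add, h5, h4, e_add, mul_assoc, mul_div_cancel₀ _ two_ne_zero,
    mul_comm (e _) (‖_‖ : ℂ)]
  change e φ * (_ * Complex.exp _) = _
  rw [h3, mul_add, mul_one, mul_left_comm, e_mul_neg, mul_one, add_comm]

lemma slit {ζ : ℂ} (h : ‖ζ‖ ≤ 1 / 10) : 1 + ζ ∈ Complex.slitPlane := by
  left
  have := (abs_le.1 ((Complex.abs_re_le_norm ζ).trans h)).1
  simp only [Complex.add_re, Complex.one_re]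
  linarith

lemma hasDeriv_log {ζ : ℂ} (h : ‖ζ‖ ≤ 1 / 10) :
    HasDerivAt (fun z : ℂ => Complex.log (1 + z)) (1 / (1 + ζ)) ζ :=
  ((hasDerivAt_id ζ).const_add 1).clog (slit h)

lemma arg_lip {ζ ζ' : ℂ} (h : ‖ζ‖ ≤ 1 / 10) (h' : ‖ζ'‖ ≤ 1 / 10) :
    |Complex.arg (1 + ζ) - Complex.arg (1 + ζ')| ≤ 10 / 9 * ‖ζ - ζ'‖ := by
  have h1 := (convex_closedBall (0 : ℂ) (1 / 10)).norm_image_sub_le_of_norm_hasDerivWithin_le
    (f := fun z : ℂ => Complex.log (1 + z)) (f' := fun z => 1 / (1 + z)) (C := 10 / 9)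
    (fun z hz => (hasDeriv_log (by simpa using hz)).hasDerivWithinAt)
    (fun z hz => by
      have := (norm_bd (ζ := z) (by simpa using hz)).1
      rw [norm_div, norm_one, div_le_iff₀ (by linarith)]
      linarith)
    (x := ζ') (y := ζ) (by simpa using h') (by simpa using h)
  rw [← Complex.log_im, ← Complex.log_im, ← Complex.sub_im]
  exact (Complex.abs_im_le_norm _).trans h1

lemma arccos_lip {s t : ℝ} (hs : s ∈ Icc (9 / 20 : ℝ) (11 / 20)) (ht : t ∈ Icc (9 / 20 : ℝ) (11 / 20)) :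
    |Real.arccos s - Real.arccos t| ≤ 6 / 5 * |s - t| :=
  (convex_Icc (9 / 20 : ℝ) (11 / 20)).norm_image_sub_le_of_norm_hasDerivWithin_le
    (f := Real.arccos) (f' := fun x => -(1 / √(1 - x ^ 2))) (C := 6 / 5)
    (fun x hx => (Real.hasDerivAt_arccos (by linarith [hx.1]) (by linarith [hx.2])).hasDerivWithinAt)
    (fun x hx => by
      have h1 : 5 / 6 ≤ √(1 - x ^ 2) := Real.le_sqrt_of_sq_le (by nlinarith [hx.1, hx.2])
      rw [norm_neg, Real.norm_eq_abs, abs_of_nonneg (by positivity), div_le_iff₀ (by linarith)]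
      linarith) ht hs

lemma abs_sg {σ : ℝ} (hσ : σ = 1 ∨ σ = -1) (x : ℝ) : |σ * x| = |x| := by
  rcases hσ with rfl | rfl <;> simp

lemma gg_lip {σ : ℝ} (hσ : σ = 1 ∨ σ = -1) {ζ ζ' : ℂ} (h : ‖ζ‖ ≤ 1 / 10) (h' : ‖ζ'‖ ≤ 1 / 10) :
    |gg σ ζ - gg σ ζ'| ≤ 2 * ‖ζ - ζ'‖ := by
  obtain ⟨h1, h2⟩ := norm_bd h
  obtain ⟨h3, h4⟩ := norm_bd h'
  have a1 := arg_lip h h'
  have a2 := arccos_lip (s := ‖1 + ζ‖ / 2) (t := ‖1 + ζ'‖ / 2) ⟨by linarith, by linarith⟩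
    ⟨by linarith, by linarith⟩
  have a3 := abs_norm_sub_norm_le (1 + ζ) (1 + ζ')
  rw [add_sub_add_left_eq_sub] at a3
  rw [← sub_div, abs_div, abs_two] at a2
  have e1 : gg σ ζ - gg σ ζ' = (Complex.arg (1 + ζ) - Complex.arg (1 + ζ')) +
      σ * (Real.arccos (‖1 + ζ‖ / 2) - Real.arccos (‖1 + ζ'‖ / 2)) := by
    rw [gg, gg]; ring
  rw [e1]
  refine (abs_add_le _ _).trans ?_
  rw [abs_sg hσ]
  linarith [norm_nonneg (ζ - ζ')]

lemma nearId {σ : ℝ} (hσ : σ = 1 ∨ σ = -1) {v : ℂ} (hv : ‖v‖ ≤ 1 / 10) :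
    NearId (Nb σ v) (2 * ‖v‖) := fun s s' => by
  have h := gg_lip hσ ((norm_rot v (-s)).trans_le hv) ((norm_rot v (-s')).trans_le hv)
  have h2 := norm_e_sub_le (-s) (-s')
  rw [← mul_sub, norm_mul] at h
  rw [neg_sub_neg, abs_sub_comm] at h2
  have e1 : Nb σ v s - s - (Nb σ v s' - s') = gg σ (v * e (-s)) - gg σ (v * e (-s')) := by
    rw [Nb, Nb]; ring
  rw [e1, mul_assoc]
  exact h.trans (by gcongr)

lemma cont {σ : ℝ} (hσ : σ = 1 ∨ σ = -1) {v : ℂ} (hv : ‖v‖ ≤ 1 / 10) : Continuous (Nb σ v) := by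
  have h : LipschitzWith 1 fun s => Nb σ v s - s :=
    LipschitzWith.of_dist_le_mul fun s s' => by
      rw [Real.dist_eq, Real.dist_eq]
      refine (nearId hσ hv s s').trans (mul_le_mul_of_nonneg_right ?_ (abs_nonneg _))
      rw [NNReal.coe_one]
      linarith
  exact (h.continuous.add continuous_id).congr fun s => sub_add_cancel _ _

lemma small {ε : ℝ} (hε : 0 < ε) : ∀ᶠ ζ : ℂ in 𝓝 0, ∀ σ : ℝ, σ = 1 ∨ σ = -1 →
    |gg σ ζ - (ζ.im - σ * ζ.re / √3)| ≤ ε * ‖ζ‖ := by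
  have h0 : HasDerivAt (fun z : ℂ => Complex.log (1 + z)) 1 0 := by
    simpa using hasDeriv_log (ζ := 0) (by norm_num)
  have h1 := (h0.isLittleO.def (half_pos hε))
  have h2 : HasFDerivAt (fun z : ℂ => (Complex.log (1 + z)).re) Complex.reCLM 0 := by
    have := Complex.reCLM.hasFDerivAt.comp (0 : ℂ) (h0.hasFDerivAt.restrictScalars ℝ)
    refine this.congr_fderiv ?_
    ext z <;> simp
  have h3 : HasDerivAt (fun t : ℝ => Real.arccos (Real.exp t / 2)) (-(1 / √3))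
      (Complex.log (1 + 0)).re := by
    rw [add_zero, Complex.log_one, Complex.zero_re]
    have a := (Real.hasDerivAt_arccos (x := Real.exp 0 / 2) (by norm_num) (by norm_num)).comp
      (0 : ℝ) ((Real.hasDerivAt_exp 0).div_const 2)
    refine a.congr_deriv ?_
    rw [Real.exp_zero, show (1 : ℝ) - (1 / 2) ^ 2 = 3 / 2 ^ 2 by norm_num,
      Real.sqrt_div' _ (by norm_num), Real.sqrt_sq (by norm_num)]
    field_simp
  have h4 := (h3.comp_hasFDerivAt (0 : ℂ) h2).isLittleO.def (half_pos hε)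
  filter_upwards [h1, h4, closedBall_mem_nhds (0 : ℂ) (show (0 : ℝ) < 1 / 10 by norm_num)]
    with ζ a1 a2 a3 σ hσ
  have a4 := (norm_bd (ζ := ζ) (by simpa using a3)).1
  simp only [add_zero, Complex.log_one, sub_zero, smul_eq_mul, mul_one] at a1
  simp only [Function.comp_apply, add_zero, norm_one, Real.log_one, Real.exp_zero,
    arccos_half, sub_zero, smul_apply, Complex.reCLM_apply, smul_eq_mul,
    Complex.log_re, Real.exp_log (show 0 < ‖1 + ζ‖ by linarith), Real.norm_eq_abs] at a2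
  have a5 := (Complex.abs_im_le_norm _).trans a1
  rw [Complex.sub_im, Complex.log_im] at a5
  have e1 : gg σ ζ - (ζ.im - σ * ζ.re / √3) = (Complex.arg (1 + ζ) - ζ.im) +
      σ * (Real.arccos (‖1 + ζ‖ / 2) - π / 3 - -(1 / √3) * ζ.re) := by
    rw [gg]; ring
  rw [e1]
  refine (abs_add_le _ _).trans ?_
  rw [abs_sg hσ]
  linarith

end NbGA

open NbGA in
theorem nbS : NbStmt := by
  refine ⟨sum_eq, gg_zero, fun σ φ => by rw [Nb, zero_mul, gg_zero, add_zero],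
    fun σ hσ ζ ζ' => gg_lip hσ, fun σ hσ v => nearId hσ, fun σ hσ v v' hv hv' φ => ?_,
    fun σ hσ v => cont hσ, fun ε hε => ?_⟩
  · have h := gg_lip hσ ((norm_rot v (-φ)).trans_le hv) ((norm_rot v' (-φ)).trans_le hv')
    rw [← sub_mul, norm_rot] at h
    rw [Nb, Nb, add_sub_add_left_eq_sub]
    exact h
  · obtain ⟨δ, hδ, h⟩ := Metric.eventually_nhds_iff.1 (small hε)
    exact ⟨δ, hδ, fun σ hσ ζ hζ => h (by simpa using hζ) σ hσ⟩

end Vale.Agent.P032
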