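import Vale.Agent.P032.Defs

/-!
P032: the statements of all intermediate results (as propositions).
Each one is proved in its own file from the earlier ones, taken as hypotheses.
-/

namespace Vale.Agent.P032

open MeasureTheory Set Filter Topology Metric
open scoped Real ENNReal BigOperators

/-! Step 1 -/

def MeanStmt : Prop := ∀ (G : Type) [AddCommGroup G], Nonempty (IMean G)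

def GnsStmt : Prop :=
  ∀ (W : Type) [AddCommGroup W] (φ : W → ℝ), PD φ →
    ∃ (H : Type) (_ : SeminormedAddCommGroup H) (_ : InnerProductSpace ℝ H)
      (T : W → H →ₗᵢ[ℝ] H) (ξ : H),
      (∀ v, T 0 v = v) ∧ (∀ x y v, T (x + y) v = T x (T y v)) ∧
        ∀ x y, inner ℝ (T x ξ) (T y ξ) = φ (x - y)

def MEStmt : Prop :=
  ∀ (G : Type) [AddCommGroup G] (m : IMean G) (k : G → ℝ), PD k → ∀ a : ℝ,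
    (∀ (ι : Type) [Fintype ι] [Nonempty ι] (x : ι → G), a ≤ 𝔼 i, 𝔼 j, k (x i - x j)) →
    a ≤ m.M k

def OrthStmt : Prop :=
  ∀ (W : Type) [NormedAddCommGroup W] (φ : W → ℝ), PD φ → Null φ ⊤ →
    ∀ (n : ℕ) (L : Fin n → AddSubgroup W),
      (∀ a b, a ≠ b → ∃ K : ℝ, ∀ w : W, ∃ l ∈ L a, ∃ l' ∈ L b,
        w = l + l' ∧ ‖l‖ ≤ K * ‖w‖ ∧ ‖l'‖ ≤ K * ‖w‖) →
      ∀ q : ℝ, (∀ a, ∃ δ > (0 : ℝ), ∀ (ι : Type) [Fintype ι] [Nonempty ι] (x : ι → W),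
        (∀ i, x i ∈ L a ∧ ‖x i‖ < δ) → q ≤ 𝔼 i, 𝔼 j, φ (x i - x j)) →
      n * q ≤ φ 0

def WeylStmt : Prop :=
  ∀ ψ : ℝ → ℝ, PD ψ → Null ψ ⊤ → ∀ F : Finset (Polynomial ℝ), (∀ P ∈ F, 0 < P.natDegree) →
    ∀ (t₀ r ε : ℝ), 0 < r → 0 < ε →
      ∃ (ι : Type) (_ : Fintype ι) (_ : Nonempty ι) (x : ι → ℝ),
        (∀ i, |x i - t₀| < r) ∧ ∀ P ∈ F, 𝔼 i, ψ (P.eval (x i)) ≤ ε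

def SopStmt : Prop :=
  ∀ (m : IMean ℝ) (φ : ℂ → ℝ), PD φ → Radial φ →
    PD (Sop m φ) ∧ Radial (Sop m φ) ∧ Sop m φ 0 = φ 0 ∧
      (Null φ ⊤ → Null (Sop m φ) ⊤ ∧ Null (fun t : ℝ => φ t) ⊤)

def VdcStmt : Prop :=
  ∀ (m : IMean ℝ) (φ : ℂ → ℝ), PD φ → Radial φ → φ 0 ≤ 1 →
    (∀ z, φ z ^ 2 ≤ Sop m φ z) ∧
      ∀ z₀ z₁ z₂ : ℂ,
        (m.M fun θ => φ (z₀ + z₁ * e θ + z₂ * e (2 * θ))) ^ 4 ≤ Sop m (Sop m φ) z₁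

def RigidStmt : Prop :=
  ∀ φ : ℂ → ℝ, PD φ → Radial φ → φ 0 ≤ 1 → Null φ ⊤ → ∀ z, z ≠ 0 → φ z = 0

def ContStmt : Prop :=
  ∀ φ : ℂ → ℝ, PD φ → Radial φ → φ 0 ≤ 1 → (∀ u, ‖u‖ = 1 → φ u = 0) →
    ∀ ε : ℕ → ℝ, (∀ n, 0 < ε n) →
      ∃ (ι : ℕ → Type) (_ : ∀ n, Fintype (ι n)) (_ : ∀ n, Nonempty (ι n))
        (x : ∀ n, ι n → ℂ) (δ : ℕ → ℝ), (∀ n, 0 < δ n) ∧
        (∀ n a b, ‖a - b‖ < δ n → QQ φ a (x n) a (x n) - 2 * QQ φ a (x n) b (x (n + 1)) +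
          QQ φ b (x (n + 1)) b (x (n + 1)) ≤ ε n) ∧
        (∀ n a b, |‖a - b‖ - 1| < δ n → QQ φ a (x n) b (x n) ≤ ε n)

def KerStmt : Prop :=
  ∀ c : ℂ → Fin 5, (∀ x y, dist x y = 1 → c x ≠ c y) →
    ∃ (m : Mean (ℂ → Fin 5)) (φ : ℂ → ℝ), PD φ ∧ Radial φ ∧ φ 0 ≤ 1 ∧
      (∀ u, ‖u‖ = 1 → φ u = 0) ∧
      ∀ u w, m.M (fun ω => if ω u = ω w then 1 else 0) = φ (u - w)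

/-- a sequence of measurable fractional colourings that converges fast -/
def Seq (P : ℕ → ℂ → Fin 5 → ℝ) : Prop :=
  (∀ n j, Measurable fun z => P n z j) ∧ (∀ n z, ∑ j, P n z j = 1) ∧
    (∀ n : ℕ, volume {z | z ∈ ball (0 : ℂ) n ∧ ∃ j, (1 / 2) ^ n / 20 < |P n z j - P (n + 1) z j|}
      ≤ ENNReal.ofReal ((1 / 2) ^ n)) ∧
    ∀ q : ℚ, ∀ᶠ n : ℕ in atTop,
      volume {z | z ∈ ball (0 : ℂ) n ∧ ∃ j, 1 / 10 ≤ P n z j ∧ 1 / 10 ≤ P n (z + e q) j}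
        ≤ ENNReal.ofReal ((1 / 2) ^ n)

def PickStmt : Prop :=
  ∀ c : ℂ → Fin 5, (∀ x y, dist x y = 1 → c x ≠ c y) → ∃ P, Seq P

def ToColStmt : Prop := ∀ P, Seq P → Nonempty Col

/-! Step 2, part A: measure and geometry -/

def DensStmt : Prop :=
  (∀ A : Set ℝ, MeasurableSet A → ∀ᵐ t, t ∈ A → Dens1 A t) ∧
  (∀ A : Set ℂ, MeasurableSet A → ∀ᵐ z, z ∈ A → Dens2 A z) ∧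
  (∀ A : Set ℝ, ∀ᵐ t, t ∈ A → Ess A t) ∧
  (∀ (A : Set ℝ) (t : ℝ), Dens1 A t → Ess A t) ∧
  (∀ A : Set ℝ, volume A ≠ 0 → volume Aᶜ ≠ 0 → ∃ t, Ess A t ∧ Ess Aᶜ t) ∧
  (∀ (T : ℝ → ℝ) (L : ℝ), L ≤ 1 / 2 → NearId T L → ∀ B : Set ℝ,
    volume (T ⁻¹' B) ≤ 2 * volume B) ∧
  (∀ (L Θ : Set ℝ) (T : ℝ → ℝ), MeasurableSet L → Bornology.IsBounded Θ → NearId T (1 / 2) →
    ∀ ε > (0 : ℝ), ∃ δ > (0 : ℝ), ∀ T' : ℝ → ℝ, NearId T' (1 / 2) → (∀ s, |T' s - T s| < δ) →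
      volume {θ | θ ∈ Θ ∧ T θ ∈ L ∧ T' θ ∉ L} ≤ ENNReal.ofReal ε)

def NullStmt : Prop :=
  (∀ N : Set ℂ, volume N = 0 → ∀ᵐ p : ℝ × ℝ, e p.1 + e p.2 ∉ N) ∧
  (∀ N : Set (ℝ × ℝ), volume N = 0 → volume ((fun p : ℝ × ℝ => e p.1 + e p.2) '' N) = 0)

def PolarStmt : Prop :=
  (∀ (E : Set ℝ) (w : ℂ) (t : ℝ), 0 ≤ t →
    volume {v : ℂ | ‖v - w‖ ≤ t ∧ ∃ φ ∈ E, ∃ ψ : ℝ, v = e φ - e ψ} ≤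
      ENNReal.ofReal (4 * t * (‖w‖ + t)) * volume E) ∧
  (∀ (θ₀ s κ : ℝ) (v : ℂ), s ≠ 0 → |s| ≤ 1 → 0 ≤ κ → κ ≤ 1 / 2 →
    ‖v - s * Complex.I * e θ₀‖ ≤ κ * |s| →
    ∃ φ ψ : ℝ, v = e φ - e ψ ∧ |φ - θ₀| ≤ 2 * κ + 2 * |s| ∧ |ψ - θ₀| ≤ 2 * κ + 2 * |s|)

def NbStmt : Prop :=
  (∀ (v : ℂ) (φ : ℝ), ‖v‖ ≤ 1 / 10 → e (Nb 1 v φ) + e (Nb (-1) v φ) = v + e φ) ∧
  (∀ σ : ℝ, gg σ 0 = 0) ∧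
  (∀ (σ φ : ℝ), Nb σ 0 φ = φ + σ * (π / 3)) ∧
  (∀ σ : ℝ, σ = 1 ∨ σ = -1 → ∀ ζ ζ' : ℂ, ‖ζ‖ ≤ 1 / 10 → ‖ζ'‖ ≤ 1 / 10 →
    |gg σ ζ - gg σ ζ'| ≤ 2 * ‖ζ - ζ'‖) ∧
  (∀ σ : ℝ, σ = 1 ∨ σ = -1 → ∀ v : ℂ, ‖v‖ ≤ 1 / 10 → NearId (Nb σ v) (2 * ‖v‖)) ∧
  (∀ σ : ℝ, σ = 1 ∨ σ = -1 → ∀ v v' : ℂ, ‖v‖ ≤ 1 / 10 → ‖v'‖ ≤ 1 / 10 → ∀ φ,
    |Nb σ v φ - Nb σ v' φ| ≤ 2 * ‖v - v'‖) ∧
  (∀ σ : ℝ, σ = 1 ∨ σ = -1 → ∀ v : ℂ, ‖v‖ ≤ 1 / 10 → Continuous (Nb σ v)) ∧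
  (∀ ε > (0 : ℝ), ∃ δ > (0 : ℝ), ∀ σ : ℝ, σ = 1 ∨ σ = -1 → ∀ ζ : ℂ, ‖ζ‖ < δ →
    |gg σ ζ - (ζ.im - σ * ζ.re / √3)| ≤ ε * ‖ζ‖)

/-! part B, C -/

def SpreadStmt : Prop :=
  ∀ (W : Set ℝ) (l a b r c K : ℝ), MeasurableSet W → l < a → a < b → b < r → 0 < c → 0 < K →
    Dens1 W a → Dens1 Wᶜ b →
    (∀ h₀ > (0 : ℝ), ∃ h, 0 < h ∧ h < h₀ ∧ ∃ α β : ℝ → ℝ, NearId α (K * h) ∧ NearId β (K * h) ∧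
      (∀ s, |α s - s| ≤ K * h) ∧ (∀ s, |β s - s| ≤ K * h) ∧
      (∀ s ∈ Icc l r, c * h ≤ β s - α s) ∧ ∀ᵐ s, s ∈ Icc l r → α s ∈ W → β s ∈ W) →
    False

def CrossStmt : Prop :=
  ∀ (w₀ : ℂ) (a₀ b₀ : ℝ) (P Q : Set ℝ), ‖w₀ + e a₀ - e b₀‖ = 1 →
    ((w₀ + e a₀ - e b₀) * e (-a₀)).im ≠ 0 → ((w₀ + e a₀ - e b₀) * e (-b₀)).im ≠ 0 →
    Dens1 P a₀ → Dens1 Q b₀ →
    ∃ δ > (0 : ℝ), ∀ w : ℂ, ‖w - w₀‖ < δ → ∀ P' Q' : Set ℝ, (∀ᵐ a, a ∈ P → a ∈ P') →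
      (∀ᵐ b, b ∈ Q → b ∈ Q') → ∃ a ∈ P', ∃ b ∈ Q', ‖w + e a - e b‖ = 1

def InvStmt : Prop :=
  ∀ L : Set ℝ, MeasurableSet L →
    (∀ δ > (0 : ℝ), ∃ v : ℂ, v ≠ 0 ∧ ‖v‖ < δ ∧ ∃ L' : Set ℝ,
      (∀ᵐ φ, φ + π / 3 ∈ L' ↔ φ ∉ L') ∧
      ∀ σ : ℝ, σ = 1 ∨ σ = -1 → ∀ᵐ φ, φ ∈ L' ↔ Nb σ v φ ∉ L) → False

def Spread6Stmt : Prop :=
  ∀ (W : Set ℝ) (m ε : ℝ), MeasurableSet W → (∀ᵐ φ, φ + π / 3 ∈ W ↔ φ ∉ W) →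
    Ess W m → Ess Wᶜ m → 0 < ε →
    (∀ δ > (0 : ℝ), ∃ v : ℂ, v ≠ 0 ∧ ‖v‖ < δ ∧ ∀ σ : ℝ, σ = 1 ∨ σ = -1 → ∀ k : ℕ, k < 3 →
      ∀ᵐ φ, |φ - (m + k * (2 * π / 3))| < ε → φ ∈ W → Nb σ v φ ∉ W) → False

/-! part D -/

def UscStmt : Prop :=
  ∀ C : Col, (∀ j, MeasurableSet {z | C.Fr z j}) ∧
    (∀ x : ℂ, ∀ᵐ p : ℝ × ℝ, ∃ j, x + e p.1 + e p.2 ∈ C.D j ∧
      ¬ C.Fr (x + e p.1) j ∧ ¬ C.Fr (x + e p.2) j) ∧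
    ∀ (x : ℂ) (j : Fin 5) (R : ℝ), ∀ ε > (0 : ℝ), ∃ δ > (0 : ℝ), ∀ x' : ℂ, dist x' x < δ →
      volume {θ | θ ∈ Icc (-R) R ∧ C.Fr (x' + e θ) j ∧ ¬ C.Fr (x + e θ) j} ≤ ENNReal.ofReal ε

def AeGStmt : Prop :=
  ∀ (C : Col) (x y : ℂ) (i j : Fin 5), C.Star x i j → ‖x - y‖ < 1 / 10 →
    ∀ᵐ θ : ℝ, ∃ k, k ≠ i ∧ k ≠ j ∧ C.Gs x y θ k

def CardStmt : Prop :=
  ∀ (C : Col) (x : ℂ), ∀ᵐ θ : ℝ, ∀ i j k : Fin 5, C.Fr (x + e θ) i → C.Fr (x + e θ) j →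
    C.Fr (x + e θ) k → i = j ∨ i = k ∨ j = k

def CrossColStmt : Prop :=
  ∀ (C : Col) (x : ℂ) (κ : Fin 5) (X₁ Y₁ X₂ Y₂ : Finset (Fin 5)) (t₁ t₂ a₀ b₀ : ℝ),
    (∀ j, j ≠ κ → j ∈ X₁ ∨ j ∈ Y₁) → (∀ j, j ≠ κ → j ∈ X₂ ∨ j ∈ Y₂) →
    Ess (C.FS x X₁) t₁ → Ess (C.FS x X₂) t₂ → Dens1 (C.FS x Y₁) a₀ → Dens1 (C.FS x Y₂) b₀ →
    ‖e t₁ - e t₂ + e a₀ - e b₀‖ = 1 →
    ((e t₁ - e t₂ + e a₀ - e b₀) * e (-a₀)).im ≠ 0 →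
    ((e t₁ - e t₂ + e a₀ - e b₀) * e (-b₀)).im ≠ 0 → False

/-! part E -/

def PmStmt : Prop :=
  ∀ (C : Col) (x : ℂ) (Θ : Set ℝ) (θ₀ : ℝ) (i j : Fin 5), C.Asy x Θ i j → Dens1 Θ θ₀ →
    ∀ η D S : ℝ, 0 < η → 0 < D → ∃ r₀ > (0 : ℝ), ∀ r, 0 < r → r < r₀ → ∃ δ > (0 : ℝ),
      ∀ (ρ : ℝ) (a : ℂ) (s : ℝ), 0 < ρ → ρ < δ → dist a x < δ → D ≤ |s| → |s| ≤ S →
        ¬ (η ≤ C.pv a (ρ * r) i ∧ η ≤ C.pv (a + ρ * (s * (Complex.I * e θ₀))) (ρ * r) j)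

def ConeStmt : Prop :=
  ∀ (C : Col) (x : ℂ) (κ κ' : Fin 5) (X₁ Y₁ X₂ Y₂ : Finset (Fin 5)),
    (∀ j, j ≠ κ → j ∈ X₁ ∨ j ∈ Y₁) → (∀ j, j ≠ κ' → j ∈ X₂ ∨ j ∈ Y₂) →
    volume {θ | θ ∈ C.FS x X₁ ∧ θ + π ∈ C.FS x Y₁} ≠ 0 →
    volume {θ | θ ∈ C.FS x X₂ ∧ θ + π ∈ C.FS x Y₂} ≠ 0 → C.Star x κ κ'

/-! part F -/

def PvStmt : Prop :=
  (∀ (A : Set ℂ) (w w' : ℂ) (ρ : ℝ), 0 < ρ → |fr A w ρ - fr A w' ρ| ≤ 2 * dist w w' / ρ) ∧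
  (∀ A : Set ℂ, ContinuousOn (fun p : ℂ × ℝ => fr A p.1 p.2) {p | 0 < p.2}) ∧
  (∀ (f : ℂ → ℝ) (B : ℝ), Measurable f → (∀ z, |f z| ≤ B) →
    ContinuousOn (fun p : ℂ × ℝ => av f p.1 p.2) {p | 0 < p.2}) ∧
  (∀ (f : ℂ → ℝ) (B : ℝ), Measurable f → (∀ z, |f z| ≤ B) →
    ∀ᵐ a : ℂ, Tendsto (fun r => av f a r) (𝓝[>] 0) (𝓝 (f a))) ∧
  ∀ C : Col, (∀ w ρ, 0 < ρ → Simp (C.pv w ρ)) ∧ (∀ x q, C.Lim x q → Simp q) ∧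
    IsClosed {p : ℂ × (Fin 5 → ℝ) | C.Lim p.1 p.2} ∧
    ∀ (x : ℂ) (w : ℕ → ℂ) (ρ : ℕ → ℝ), Tendsto w atTop (𝓝 x) → Tendsto ρ atTop (𝓝 0) →
      (∀ n, 0 < ρ n) → ∃ (q : Fin 5 → ℝ) (u : ℕ → ℕ), StrictMono u ∧ C.Lim x q ∧
        Tendsto (fun n => C.pv (w (u n)) (ρ (u n))) atTop (𝓝 q)

def HalfStmt : Prop :=
  ∀ (C : Col) (x : ℂ) (p : Fin 5 → ℝ) (I : Finset (Fin 5)), C.Lim x p → 0 < ∑ j ∈ I, p j →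
    ∑ j ∈ I, p j < 1 → ∃ q, C.Lim x q ∧ ∑ j ∈ I, q j = 1 / 2 ∧ ∀ j, p j = 0 → q j = 0

def BlowStmt : Prop :=
  ∀ (C : Col) (x : ℂ) (p : Fin 5 → ℝ), C.Lim x p →
    ∃ (U : Ultrafilter (ℂ × ℝ)) (f : Fin 5 → ℂ → ℝ), (U : Filter (ℂ × ℝ)) ≤ 𝓝 x ×ˢ 𝓝[>] 0 ∧
      (∀ j, Measurable (f j)) ∧ (∀ j z, 0 ≤ f j z ∧ f j z ≤ 1) ∧ (∀ j, av (f j) 0 1 = p j) ∧
      ∀ (j : Fin 5) (a : ℂ) (t : ℝ), 0 < t → ‖a‖ + t ≤ 1 →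
        Tendsto (fun w : ℂ × ℝ => C.pv (w.1 + w.2 * a) (w.2 * t) j) U (𝓝 (av (f j) a t))

def BCoreStmt : Prop :=
  ∀ (f₁ f₂ g : ℂ → ℝ) (θ₁ θ₂ η B : ℝ), Measurable f₁ → Measurable f₂ → Measurable g →
    (∀ z, 0 ≤ f₁ z ∧ f₁ z ≤ 1) → (∀ z, 0 ≤ f₂ z ∧ f₂ z ≤ 1) → (∀ z, |g z| ≤ B) →
    Real.sin (θ₁ - θ₂) ≠ 0 → 0 < η →
    (∀ a t, 0 < t → ‖a‖ + t ≤ 1 → av g a t = 1 / 2 → η ≤ av f₁ a t ∧ η ≤ av f₂ a t) →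
    (∀ᵐ a : ℂ, ‖a‖ < 1 → g a = 0 ∨ g a = 1 ∨ (0 < f₁ a ∧ 0 < f₂ a)) →
    (∀ θ, θ = θ₁ ∨ θ = θ₂ → ∀ (a : ℂ) (s : ℝ), s ≠ 0 → ‖a‖ < 1 → ‖a + s * e θ‖ < 1 →
      ∀ η' > (0 : ℝ), ∀ᶠ r in 𝓝[>] (0 : ℝ), ¬ (η' ≤ av f₁ a r ∧ η' ≤ av f₂ (a + s * e θ) r)) →
    av g 0 1 = 0 ∨ av g 0 1 = 1

def CutStmt : Prop :=
  ∀ (C : Col) (x : ℂ), (∀ i j, C.Contact x i j → C.Star x i j) ∧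
    (¬ Cyc (C.Star x) → ∀ (q : Fin 5 → ℝ) (I : Finset (Fin 5)), C.Lim x q → 0 < ∑ j ∈ I, q j →
      ∑ j ∈ I, q j < 1 → ∃ i ∈ I, ∃ j ∉ I, C.Contact x i j ∧ 0 < q i ∧ 0 < q j)

def TreeStmt : Prop :=
  ∀ η > (0 : ℝ), ∃ γ > (0 : ℝ), ∃ η₁ > (0 : ℝ), ∃ ε > (0 : ℝ),
    ∃ cen : (Fin 5 → Fin 5 → Prop) → (Fin 5 → ℝ) → Fin 5,
      (∀ G p, (∀ i j, G i j → G j i) → ¬ Cyc G → Simp p → Cut G p (1 / 5) η →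
        η₁ ≤ p (cen G p)) ∧
      ∀ (T : Fin 5 → Fin 5 → Prop) (G : Fin 3 → Fin 5 → Fin 5 → Prop) (p : Fin 3 → Fin 5 → ℝ),
        (∀ i j, T i j → T j i) → ¬ Cyc T → (∀ k i j, G k i j → G k j i) →
        (∀ k i j, G k i j → T i j) → (∀ k, Simp (p k)) → (∀ k, Cut (G k) (p k) (1 / 5) η) →
        (∀ k, Cut (G k) (p k) γ 0) → (∀ k j, |p k j - p 0 j| ≤ ε) →
        cen (G 0) (p 0) = cen (G 1) (p 1) ∨ cen (G 0) (p 0) = cen (G 2) (p 2) ∨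
          cen (G 1) (p 1) = cen (G 2) (p 2)

def LocalStmt : Prop :=
  ∀ (C : Col) (K : Set ℂ), IsCompact K → (∀ x ∈ K, ¬ Cyc (C.Star x)) →
    ∃ η > (0 : ℝ), ∃ κ > (0 : ℝ), ∃ ρ₀ > (0 : ℝ), ∀ ρ, 0 < ρ → ρ < ρ₀ → ∃ col : ℂ → Fin 5,
      (∀ w ∈ K, η ≤ C.pv w ρ (col w)) ∧
      ∀ w₀ ∈ K, ∀ w₁ ∈ K, ∀ w₂ ∈ K, dist w₁ w₀ < κ * ρ → dist w₂ w₀ < κ * ρ →
        col w₀ = col w₁ ∨ col w₀ = col w₂ ∨ col w₁ = col w₂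

/-! part G -/

def Ty3Stmt : Prop :=
  ∀ (C : Col) (x : ℂ), C.Star x 0 1 → C.Star x 1 2 → C.Star x 2 0 → C.Ty x 3 4 4

def Ty4Stmt : Prop :=
  ∀ (C : Col) (x : ℂ), C.Star x 0 1 → C.Star x 1 2 → C.Star x 2 3 → C.Star x 3 0 →
    C.Ty x 4 0 2 ∨ C.Ty x 4 1 3

def No5Stmt : Prop :=
  ∀ (C : Col) (x : ℂ), C.Star x 0 1 → C.Star x 1 2 → C.Star x 2 3 → C.Star x 3 4 →
    C.Star x 4 0 → C.Star x 0 2 ∨ C.Star x 1 3 ∨ C.Star x 2 4 ∨ C.Star x 3 0 ∨ C.Star x 4 1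

def HexStmt : Prop :=
  ∀ (C : Col) (x : ℂ) (p q q' : Fin 5), C.Ty x p q q' → ∃ m : ℝ, ∀ k : ℤ,
    x + e (m + k * (π / 3)) ∈ closure (C.D p) ∧ x + e (m + k * (π / 3)) ∈ closure (C.D q) ∧
      x + e (m + k * (π / 3)) ∈ closure (C.D q')

def ZfinStmt : Prop :=
  ∀ (C : Col) (K : Set ℂ), IsCompact K → {x | x ∈ K ∧ Cyc (C.Star x)}.Finite

/-! parts H, I, J -/

def FilStmt : Prop :=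
  ∀ (C : Col) (x : ℂ),
    ¬ Cyc (fun i j => ∃ y, 0 < dist y x ∧ dist y x < 1 ∧ C.Lk i x y ∧ C.Lk j x y)

def GridStmt : Prop :=
  ∀ (N : ℕ) (H : Type) (col : ℤ × ℤ → Fin 5) (hole near mid : H → ℤ × ℤ → Prop)
    (Gd : ℤ × ℤ → Prop), 0 < N → (∀ v, Gd v ↔ InT N v ∧ ∀ h, ¬ hole h v) →
    (∀ h v w, hole h v → GAdj v w → near h w) → (∀ h v, near h v → mid h v) →
    (∀ h v w, mid h v → GAdj v w →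
      0 < w.1 ∧ 0 < w.2 ∧ w.1 + w.2 < N ∧ ∀ h', h' ≠ h → ¬ hole h' w) →
    (∀ u v w, Gd u → Gd v → Gd w → GAdj u v → GAdj u w → GAdj v w →
      col u = col v ∨ col u = col w ∨ col v = col w) →
    (∃ v₀ v₁ v₂ : ℤ × ℤ, Gd v₀ ∧ v₀.1 = 0 ∧ v₁.2 = 0 ∧ v₂.1 + v₂.2 = N ∧
      Relation.ReflTransGen (fun v w => Gd v ∧ Gd w ∧ col v = col w ∧
        (GAdj v w ∨ ∃ h, near h v ∧ near h w)) v₀ v₁ ∧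
      Relation.ReflTransGen (fun v w => Gd v ∧ Gd w ∧ col v = col w ∧
        (GAdj v w ∨ ∃ h, near h v ∧ near h w)) v₀ v₂) ∨
    ∃ h, Cyc (fun i j => ∃ u u' w w' b : ℤ × ℤ, near h u ∧ near h u' ∧ Gd u ∧ Gd u' ∧
      col u = i ∧ col u' = j ∧
      Relation.ReflTransGen (fun v w => Gd v ∧ Gd w ∧ col v = col w ∧ GAdj v w) u w ∧
      Relation.ReflTransGen (fun v w => Gd v ∧ Gd w ∧ col v = col w ∧ GAdj v w) u' w' ∧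
      GAdj w w' ∧ mid h w ∧ ¬ mid h b ∧ GAdj w b)

def FinalStmt : Prop := IsEmpty Col

end Vale.Agent.P032
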